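/-
Framework for S0222 (Thorp shuffle).  Part A: convolution, regular representation matrices, the
chi-square bound on total variation; Part B: the shuffle as a convolution power.
-/
import Mathlib
import Crest.Prelude.Def_Shuffle

set_option autoImplicit false
set_option linter.unusedSectionVars false

namespace Crest.Agent.Lib.Thorp

open Crest.ProbabilityR.Shuffle Matrix

section Group

variable {G : Type*} [Group G] [Fintype G] [DecidableEq G]

/-- Convolution on a finite group. -/
def conv (μ ν : G → ℝ) : G → ℝ := fun g => ∑ h, μ h * ν (h⁻¹ * g)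

/-- The (left) regular representation matrix of `μ`: `(x, y) ↦ μ (x y⁻¹)`.  As an operator,
`(regMat μ *ᵥ f) x = ∑ h, μ h * f (h⁻¹ x)`. -/
def regMat (μ : G → ℝ) : Matrix G G ℝ := Matrix.of fun x y => μ (x * y⁻¹)

@[simp] lemma regMat_apply (μ : G → ℝ) (x y : G) : regMat μ x y = μ (x * y⁻¹) := rfl

theorem regMat_conv (μ ν : G → ℝ) : regMat (conv μ ν) = regMat μ * regMat ν := by
  ext x y
  simp only [regMat_apply, conv, Matrix.mul_apply]
  refine Fintype.sum_equiv ((Equiv.mulLeft x⁻¹).trans (Equiv.inv G)) _ _ ?_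
  intro h
  simp [mul_assoc]

/-- The point mass. -/
def delta (a : G) : G → ℝ := fun g => if g = a then 1 else 0

lemma regMat_delta_one : regMat (delta (1 : G)) = 1 := by
  ext x y
  simp only [regMat_apply, delta, Matrix.one_apply, mul_inv_eq_one]

lemma conv_delta_left (a : G) (ν : G → ℝ) : conv (delta a) ν = fun g => ν (a⁻¹ * g) := by
  funext g
  simp [conv, delta, Finset.sum_ite_eq']

/-- The pushforward to `G` of the uniform law of a finite type `Ω`. -/
noncomputable def push {Ω : Type*} [Fintype Ω] (f : Ω → G) : G → ℝ := fun g =>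
  ((Finset.univ.filter (fun ω => f ω = g)).card : ℝ) / (Fintype.card Ω : ℝ)

lemma push_eq_sum {Ω : Type*} [Fintype Ω] (f : Ω → G) (g : G) :
    push f g = (∑ ω, if f ω = g then (1 : ℝ) else 0) / (Fintype.card Ω : ℝ) := by
  simp only [push]
  congr 1
  rw [Finset.sum_boole]

lemma push_equiv {Ω Ω' : Type*} [Fintype Ω] [Fintype Ω'] (e : Ω' ≃ Ω) (f : Ω → G) :
    push (fun ω' => f (e ω')) = push f := by
  funext g
  rw [push_eq_sum, push_eq_sum, Fintype.card_congr e]
  congr 1
  exact Fintype.sum_equiv e _ _ (fun _ => rfl)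

lemma push_mul {Ω Ω' : Type*} [Fintype Ω] [Fintype Ω'] (f : Ω → G) (f' : Ω' → G) :
    push (fun p : Ω × Ω' => f p.1 * f' p.2) = conv (push f) (push f') := by
  funext g
  simp only [conv, push_eq_sum, Fintype.card_prod]
  have key : ∀ h : G, ((∑ ω, if f ω = h then (1 : ℝ) else 0) / (Fintype.card Ω : ℝ)) *
      ((∑ ω', if f' ω' = h⁻¹ * g then (1 : ℝ) else 0) / (Fintype.card Ω' : ℝ))
      = (∑ ω, ∑ ω', (if f ω = h then (1 : ℝ) else 0) * (if f' ω' = h⁻¹ * g then (1 : ℝ) else 0))
        / ((Fintype.card Ω : ℝ) * (Fintype.card Ω' : ℝ)) := by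
    intro h
    rw [div_mul_div_comm, Finset.sum_mul_sum]
  simp_rw [key]
  rw [← Finset.sum_div]
  push_cast
  congr 1
  rw [Fintype.sum_prod_type]
  symm
  rw [Finset.sum_comm]
  apply Finset.sum_congr rfl
  intro ω _
  rw [Finset.sum_comm]
  apply Finset.sum_congr rfl
  intro ω' _
  rw [Finset.sum_eq_single (f ω)]
  · simp only [if_true, one_mul]
    by_cases h : f ω * f' ω' = g
    · have : f' ω' = (f ω)⁻¹ * g := by rw [← h]; group
      simp [h, this]
    · have : ¬ f' ω' = (f ω)⁻¹ * g := by
        intro h'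
        apply h
        rw [h']; group
      simp [h, this]
  · intro h _ hne
    have : ¬ f ω = h := fun e => hne e.symm
    simp [this]
  · intro h; exact absurd (Finset.mem_univ _) h

lemma push_sum {Ω : Type*} [Fintype Ω] [Nonempty Ω] (f : Ω → G) : ∑ g, push f g = 1 := by
  simp only [push]
  rw [← Finset.sum_div, ← Nat.cast_sum,
    ← Finset.card_eq_sum_card_fiberwise (f := f) (s := Finset.univ) (t := Finset.univ)
      (fun _ _ => Finset.mem_coe.mpr (Finset.mem_univ _)), Finset.card_univ]
  have : (Fintype.card Ω : ℝ) ≠ 0 := by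
    exact_mod_cast Fintype.card_ne_zero
  exact div_self this

lemma push_nonneg {Ω : Type*} [Fintype Ω] (f : Ω → G) (g : G) : 0 ≤ push f g := by
  simp only [push]; positivity

/-- Square of the Hilbert-Schmidt norm of a matrix. -/
def hsSq {n : Type*} [Fintype n] (A : Matrix n n ℝ) : ℝ := ∑ i, ∑ j, (A i j) ^ 2

lemma hsSq_eq_trace {n : Type*} [Fintype n] [DecidableEq n] (A : Matrix n n ℝ) :
    hsSq A = trace (Aᵀ * A) := by
  simp only [hsSq, trace, Matrix.diag, Matrix.mul_apply, Matrix.transpose_apply]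
  rw [Finset.sum_comm]
  refine Finset.sum_congr rfl fun j _ => Finset.sum_congr rfl fun i _ => by ring

lemma hsSq_regMat (μ : G → ℝ) : hsSq (regMat μ) = (Fintype.card G : ℝ) * ∑ g, μ g ^ 2 := by
  simp only [hsSq, regMat_apply]
  rw [Finset.sum_comm]
  have : ∀ y : G, ∑ x, μ (x * y⁻¹) ^ 2 = ∑ g, μ g ^ 2 := fun y =>
    Fintype.sum_equiv (Equiv.mulRight y⁻¹) _ _ (fun _ => rfl)
  simp_rw [this]
  simp [Finset.card_univ]

/-- The chi-square bound on total variation. -/
theorem tv_sq_le (ν : G → ℝ) (hν : ∑ g, ν g = 1) :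
    ((1 / 2) * ∑ g, |ν g - 1 / (Fintype.card G : ℝ)|) ^ 2 ≤ (1 / 4) * (hsSq (regMat ν) - 1) := by
  set N : ℝ := (Fintype.card G : ℝ) with hN
  have hNpos : 0 < N := by
    rw [hN]; exact_mod_cast Fintype.card_pos
  have hcs : (∑ g, |ν g - 1 / N|) ^ 2 ≤ N * ∑ g, (ν g - 1 / N) ^ 2 := by
    have := @sq_sum_le_card_mul_sum_sq G ℝ _ _ _ _ Finset.univ (fun g => |ν g - 1 / N|)
    simp only [sq_abs, Finset.card_univ] at this
    exact this
  have hexp : N * ∑ g, (ν g - 1 / N) ^ 2 = hsSq (regMat ν) - 1 := by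
    rw [hsSq_regMat, ← hN]
    have : ∀ g, (ν g - 1 / N) ^ 2 = ν g ^ 2 - 2 / N * ν g + 1 / N ^ 2 := by
      intro g; field_simp; ring
    simp_rw [this]
    rw [Finset.sum_add_distrib, Finset.sum_sub_distrib, ← Finset.mul_sum, hν, Finset.sum_const,
      Finset.card_univ, nsmul_eq_mul, ← hN]
    field_simp
    ring
  calc ((1 / 2) * ∑ g, |ν g - 1 / N|) ^ 2 = (1 / 4) * (∑ g, |ν g - 1 / N|) ^ 2 := by ring
    _ ≤ (1 / 4) * (N * ∑ g, (ν g - 1 / N) ^ 2) := by gcongr
    _ = _ := by rw [hexp]

end Group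

/-! ### Part B: the shuffle -/

section Shuffle

lemma stepPos_injective (m : ℕ) (c : Fin m → Bool) : Function.Injective (stepPos m c) := by
  intro x y h
  have hv : (stepPos m c x).val = (stepPos m c y).val := congrArg Fin.val h
  simp only [stepPos] at hv
  have hmx : 0 < m := by have := x.isLt; omega
  have hx1 : x.val % m < m := Nat.mod_lt _ hmx
  have hy1 : y.val % m < m := Nat.mod_lt _ hmx
  have hres : x.val % m = y.val % m := by
    split_ifs at hv <;> omega
  have hb : (xor (decide (m ≤ x.val)) (c ⟨x.val % m, hx1⟩) = true) ↔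
      (xor (decide (m ≤ y.val)) (c ⟨y.val % m, hy1⟩) = true) := by
    by_cases h1 : xor (decide (m ≤ x.val)) (c ⟨x.val % m, hx1⟩) = true <;>
      by_cases h2 : xor (decide (m ≤ y.val)) (c ⟨y.val % m, hy1⟩) = true <;>
      simp only [h1, h2, if_true] at hv ⊢ <;> first | omega | simp_all
  have hc : c ⟨x.val % m, hx1⟩ = c ⟨y.val % m, hy1⟩ := by
    congr 1
    exact Fin.ext hres
  rw [hc] at hb
  have hle : m ≤ x.val ↔ m ≤ y.val := by
    by_cases h3 : m ≤ x.val <;> by_cases h4 : m ≤ y.val <;>
      first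
        | exact iff_of_true h3 h4
        | exact iff_of_false h3 h4
        | (exfalso; cases hcc : c ⟨y.val % m, hy1⟩ <;> simp_all)
  apply Fin.ext
  have hxl := x.isLt
  have hyl := y.isLt
  by_cases h3 : m ≤ x.val
  · have h4 := hle.mp h3
    have e1 : x.val - m < m := by omega
    have e2 : y.val - m < m := by omega
    have e3 : x.val % m = x.val - m := by
      conv_lhs => rw [show x.val = (x.val - m) + m by omega]
      simp [Nat.mod_eq_of_lt e1]
    have e4 : y.val % m = y.val - m := by
      conv_lhs => rw [show y.val = (y.val - m) + m by omega]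
      simp [Nat.mod_eq_of_lt e2]
    omega
  · have h4 : ¬ m ≤ y.val := fun h => h3 (hle.mpr h)
    have e3 : x.val % m = x.val := Nat.mod_eq_of_lt (by omega)
    have e4 : y.val % m = y.val := Nat.mod_eq_of_lt (by omega)
    omega

/-- One shuffle as a permutation of the positions. -/
noncomputable def stepPerm (m : ℕ) (c : Fin m → Bool) : Equiv.Perm (Fin (2 * m)) :=
  Equiv.ofBijective (stepPos m c) (Finite.injective_iff_bijective.mp (stepPos_injective m c))

@[simp] lemma stepPerm_apply (m : ℕ) (c : Fin m → Bool) (x : Fin (2 * m)) :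
    stepPerm m c x = stepPos m c x := rfl

/-- The whole run as a permutation of the positions. -/
noncomputable def iterPerm (m : ℕ) : (t : ℕ) → (Fin t → Fin m → Bool) → Equiv.Perm (Fin (2 * m))
  | 0, _ => 1
  | t + 1, cs => stepPerm m (cs (Fin.last t)) * iterPerm m t (fun i => cs i.castSucc)

lemma iterPerm_coe (m : ℕ) : ∀ (t : ℕ) (cs : Fin t → Fin m → Bool),
    ⇑(iterPerm m t cs) = iterPos m t cs
  | 0, _ => by funext x; rfl
  | t + 1, cs => by
    funext x
    simp only [iterPerm, iterPos, Equiv.Perm.coe_mul, Function.comp_apply, stepPerm_apply,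
      iterPerm_coe m t]

/-- The law of the one-step permutation. -/
noncomputable def stepLaw (m : ℕ) : Equiv.Perm (Fin (2 * m)) → ℝ := push (stepPerm m)

/-- The law at time `t`. -/
noncomputable def lawAt (m t : ℕ) : Equiv.Perm (Fin (2 * m)) → ℝ := push (iterPerm m t)

lemma uniformProb_eq_lawAt (m t : ℕ) (g : Equiv.Perm (Fin (2 * m))) :
    Crest.FinProb.uniformProb {cs : Fin t → Fin m → Bool | iterPos m t cs = ⇑g} = lawAt m t g := by
  classical
  simp only [Crest.FinProb.uniformProb, lawAt, push]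
  congr 2
  apply congrArg Finset.card
  ext cs
  simp only [Finset.mem_filter, Finset.mem_univ, true_and, Set.mem_ofPred_eq]
  rw [← iterPerm_coe]
  exact DFunLike.coe_fn_eq

lemma lawAt_succ (m t : ℕ) : lawAt m (t + 1) = conv (stepLaw m) (lawAt m t) := by
  classical
  have h1 := push_mul (stepPerm m) (iterPerm m t)
  change push (iterPerm m (t + 1)) = conv (push (stepPerm m)) (push (iterPerm m t))
  rw [← h1]
  rw [← push_equiv (Fin.snocEquiv (fun _ : Fin (t + 1) => Fin m → Bool))
    (fun cs => iterPerm m (t + 1) cs)]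
  congr 1
  funext p
  simp [iterPerm, Fin.snocEquiv]

lemma lawAt_zero (m : ℕ) : lawAt m 0 = delta 1 := by
  classical
  funext g
  simp only [lawAt, push, delta, iterPerm]
  by_cases h : g = 1
  · subst h; simp
  · have : ¬ (1 : Equiv.Perm (Fin (2 * m))) = g := fun e => h e.symm
    simp [h, this]

/-- The regular representation matrix of the law at time `t` is a matrix power. -/
theorem regMat_lawAt (m t : ℕ) : regMat (lawAt m t) = (regMat (stepLaw m)) ^ t := by
  induction t with
  | zero => rw [lawAt_zero, regMat_delta_one, pow_zero]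
  | succ t ih => rw [lawAt_succ, regMat_conv, ih, pow_succ']

lemma lawAt_sum (m t : ℕ) : ∑ g, lawAt m t g = 1 := by
  have : Nonempty (Fin t → Fin m → Bool) := ⟨fun _ _ => false⟩
  exact push_sum _

/-- The TV distance in the statement, bounded by the Hilbert-Schmidt norm of the `t`-th power. -/
theorem tvFromUniform_sq_le (m t : ℕ) :
    tvFromUniform m t ^ 2 ≤ (1 / 4) * (hsSq ((regMat (stepLaw m)) ^ t) - 1) := by
  have h := tv_sq_le (lawAt m t) (lawAt_sum m t)
  rw [regMat_lawAt] at h
  have hc : (Fintype.card (Equiv.Perm (Fin (2 * m))) : ℝ) = ((2 * m).factorial : ℝ) := by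
    rw [Fintype.card_perm, Fintype.card_fin]
  rw [hc] at h
  have heq : tvFromUniform m t = (1 / 2) * ∑ g, |lawAt m t g - 1 / ((2 * m).factorial : ℝ)| := by
    unfold tvFromUniform
    simp_rw [uniformProb_eq_lawAt]
  rw [heq]
  exact h

lemma tvFromUniform_nonneg (m t : ℕ) : 0 ≤ tvFromUniform m t := by
  unfold tvFromUniform
  have : 0 ≤ ∑ g : Equiv.Perm (Fin (2 * m)),
    |Crest.FinProb.uniformProb {cs : Fin t → Fin m → Bool | iterPos m t cs = ⇑g}
      - 1 / ((2 * m).factorial : ℝ)| := Finset.sum_nonneg (fun _ _ => abs_nonneg _)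
  positivity

end Shuffle

end Crest.Agent.Lib.Thorp
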