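/-
Framework for S0222 (Thorp shuffle), Part C: the bit model.  Positions are `Pos D = Fin D → Bool`;
one block of `D` shuffles is, up to relabelling of the positions, the product
`P 0 * P 1 * ... * P (D-1)` of the orthogonal projections `P b = regMat (swapLaw b)`.
-/
import Crest.Agent.Lib.Thorp.Basic

set_option autoImplicit false
set_option linter.unusedSectionVars false

namespace Crest.Agent.Lib.Thorp

open Crest.ProbabilityR.Shuffle Matrix

/-- Positions of a deck of `2 ^ D` cards. -/
abbrev Pos (D : ℕ) := Fin D → Bool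

/-- Flip the bit `b`. -/
def flipAt {D : ℕ} (b : Fin D) (x : Pos D) : Pos D := Function.update x b (!x b)

@[simp] lemma flipAt_flipAt {D : ℕ} (b : Fin D) (x : Pos D) : flipAt b (flipAt b x) = x := by
  funext i
  by_cases h : i = b
  · subst h; simp [flipAt]
  · simp [flipAt, Function.update_of_ne h]

/-- The coins for the swap across bit `b`: one coin per flip pair. -/
abbrev Coin {D : ℕ} (b : Fin D) := {c : Pos D → Bool // ∀ x, c (flipAt b x) = c x}

/-- The permutation of the positions given by coins `c`. -/
def coinFun {D : ℕ} {b : Fin D} (c : Coin b) (x : Pos D) : Pos D :=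
  if c.1 x then flipAt b x else x

lemma coinFun_invol {D : ℕ} {b : Fin D} (c : Coin b) : Function.Involutive (coinFun c) := by
  intro x
  unfold coinFun
  by_cases h : c.1 x = true
  · simp [h, c.2 x]
  · simp [h]

/-- The permutation of the positions given by coins `c`. -/
def coinPerm {D : ℕ} {b : Fin D} (c : Coin b) : Equiv.Perm (Pos D) :=
  (coinFun_invol c).toPerm

@[simp] lemma coinPerm_apply {D : ℕ} {b : Fin D} (c : Coin b) (x : Pos D) :
    coinPerm c x = if c.1 x then flipAt b x else x := rfl

/-- The uniform law on the swap group across bit `b`. -/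
noncomputable def swapLaw {D : ℕ} (b : Fin D) : Equiv.Perm (Pos D) → ℝ :=
  push (coinPerm (b := b))

/-- The projection onto the functions invariant under the swap group across bit `b`. -/
noncomputable def P {D : ℕ} (b : Fin D) : Matrix (Equiv.Perm (Pos D)) (Equiv.Perm (Pos D)) ℝ :=
  regMat (swapLaw b)

/-- One block: `P 0 * P 1 * ... * P (D-1)`. -/
noncomputable def blockT (D : ℕ) : Matrix (Equiv.Perm (Pos D)) (Equiv.Perm (Pos D)) ℝ :=
  ((List.finRange D).map (P (D := D))).prod

/-! ### Relabelling the bits -/

/-- Relabel the bits of a position. -/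
def relabel {D : ℕ} (σ : Equiv.Perm (Fin D)) : Equiv.Perm (Pos D) where
  toFun x i := x (σ.symm i)
  invFun x i := x (σ i)
  left_inv x := by funext i; simp
  right_inv x := by funext i; simp

@[simp] lemma relabel_apply {D : ℕ} (σ : Equiv.Perm (Fin D)) (x : Pos D) (i : Fin D) :
    relabel σ x i = x (σ.symm i) := rfl

lemma relabel_mul {D : ℕ} (σ τ : Equiv.Perm (Fin D)) : relabel (σ * τ) = relabel σ * relabel τ := by
  ext x i
  simp [Equiv.Perm.mul_def]

lemma relabel_one {D : ℕ} : relabel (1 : Equiv.Perm (Fin D)) = 1 := by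
  ext x i
  rfl

lemma relabel_pow {D : ℕ} (σ : Equiv.Perm (Fin D)) (j : ℕ) : relabel (σ ^ j) = relabel σ ^ j := by
  induction j with
  | zero => simp [relabel_one]
  | succ j ih => rw [pow_succ, pow_succ, relabel_mul, ih]

lemma relabel_flipAt {D : ℕ} (σ : Equiv.Perm (Fin D)) (b : Fin D) (x : Pos D) :
    relabel σ (flipAt b x) = flipAt (σ b) (relabel σ x) := by
  funext i
  by_cases h : i = σ b
  · subst h; simp [flipAt]
  · have h' : σ.symm i ≠ b := fun e => h (by rw [← e]; simp)
    simp [flipAt, Function.update_of_ne h, Function.update_of_ne h']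

/-- Transport of coins along a relabelling of bits. -/
def coinConj {D : ℕ} (σ : Equiv.Perm (Fin D)) (b : Fin D) : Coin b ≃ Coin (σ b) where
  toFun c := ⟨fun y => c.1 ((relabel σ).symm y), fun y => by
    have := c.2 ((relabel σ).symm y)
    change c.1 ((relabel σ).symm (flipAt (σ b) y)) = c.1 ((relabel σ).symm y)
    rw [← this]
    apply congrArg c.1
    apply (relabel σ).injective
    rw [relabel_flipAt]
    simp⟩
  invFun c := ⟨fun y => c.1 (relabel σ y), fun y => by
    have := c.2 (relabel σ y)
    rw [← relabel_flipAt] at this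
    exact this⟩
  left_inv c := by
    apply Subtype.ext
    funext y
    simp
  right_inv c := by
    apply Subtype.ext
    funext y
    simp

lemma coinPerm_conj {D : ℕ} (σ : Equiv.Perm (Fin D)) (b : Fin D) (c : Coin b) :
    coinPerm (coinConj σ b c) * relabel σ = relabel σ * coinPerm c := by
  ext1 x
  simp only [Equiv.Perm.coe_mul, Function.comp_apply, coinPerm_apply, coinConj,
    Equiv.coe_fn_mk, Equiv.symm_apply_apply]
  by_cases h : c.1 x = true
  · simp [h, relabel_flipAt]
  · simp [h]

/-- The matrix of a deterministic relabelling. -/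
noncomputable def Rel {D : ℕ} (σ : Equiv.Perm (Fin D)) :
    Matrix (Equiv.Perm (Pos D)) (Equiv.Perm (Pos D)) ℝ :=
  regMat (delta (relabel σ))

lemma delta_eq_push {G : Type*} [Group G] [Fintype G] [DecidableEq G] (a : G) :
    delta a = push (fun _ : Unit => a) := by
  funext g
  by_cases h : g = a
  · subst h; simp [delta, push]
  · have : ¬ a = g := fun e => h e.symm
    simp [delta, push, h, this]

lemma P_mul_Rel {D : ℕ} (σ : Equiv.Perm (Fin D)) (b : Fin D) :
    P (σ b) * Rel σ = Rel σ * P b := by
  unfold P Rel swapLaw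
  rw [← regMat_conv, ← regMat_conv, delta_eq_push, ← push_mul, ← push_mul]
  congr 1
  have e1 := push_equiv (G := Equiv.Perm (Pos D)) (Ω := Coin (σ b) × Unit)
    (Ω' := Unit × Coin b)
    ((Equiv.prodComm _ _).trans ((coinConj σ b).prodCongr (Equiv.refl Unit)))
    (fun p => coinPerm p.1 * relabel σ)
  rw [← e1]
  congr 1
  funext p
  simp only [Equiv.trans_apply, Equiv.prodComm_apply, Equiv.prodCongr_apply, Prod.map, Prod.swap,
    Equiv.coe_refl, id]
  exact coinPerm_conj σ b p.2

lemma Rel_pow {D : ℕ} (σ : Equiv.Perm (Fin D)) (j : ℕ) : Rel (σ ^ j) = Rel σ ^ j := by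
  induction j with
  | zero => simp [Rel, relabel_one, regMat_delta_one]
  | succ j ih =>
    rw [pow_succ σ, pow_succ (Rel σ), ← ih]
    unfold Rel
    rw [← regMat_conv, relabel_mul, relabel_pow]
    congr 1
    rw [delta_eq_push, delta_eq_push (relabel σ), delta_eq_push, ← push_mul]
    funext g
    by_cases h : relabel σ ^ j * relabel σ = g
    · simp [push, h]
    · simp [push, h]

/-! ### The power formula -/

section Power

variable (D : ℕ)

/-- The rotation of the bits. -/
def rotB : Equiv.Perm (Fin (D + 1)) := finRotate (D + 1)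

/-- `j` as an element of `Fin (D+1)`. -/
def jF (j : ℕ) : Fin (D + 1) := Fin.ofNat (D + 1) j

lemma jF_zero : jF D 0 = 0 := rfl

lemma jF_succ (j : ℕ) : jF D (j + 1) = jF D j + 1 := by
  apply Fin.ext
  simp [jF, Fin.ofNat, Fin.val_add]

lemma jF_val (j : ℕ) (hj : j ≤ D) : (jF D j).val = j := by
  simp [jF, Fin.ofNat, Nat.mod_eq_of_lt (Nat.lt_succ_of_le hj)]

lemma rotB_pow_apply (j : ℕ) (i : Fin (D + 1)) : (rotB D ^ j) i = i + jF D j := by
  induction j generalizing i with
  | zero => simp [jF_zero]
  | succ j ih =>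
    rw [pow_succ, Equiv.Perm.mul_apply, ih, jF_succ]
    simp only [rotB, finRotate_apply]
    abel

lemma rotB_pow_card : rotB D ^ (D + 1) = 1 := by
  ext i
  rw [rotB_pow_apply]
  have : jF D (D + 1) = 0 := by
    apply Fin.ext
    simp [jF, Fin.ofNat]
  simp [this]

/-- the partial products `P (D-j+1) * ... * P D` (with top index `D`), as `Fin (D+1)`-products. -/
noncomputable def partProd : (j : ℕ) → Matrix (Equiv.Perm (Pos (D + 1))) (Equiv.Perm (Pos (D + 1))) ℝ
  | 0 => 1
  | j + 1 => P (Fin.last D - jF D j) * partProd j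

lemma P_last_mul_Rel_pow (j : ℕ) :
    P (Fin.last D) * Rel (rotB D) ^ j = Rel (rotB D) ^ j * P (Fin.last D - jF D j) := by
  rw [← Rel_pow]
  have := P_mul_Rel (rotB D ^ j) (Fin.last D - jF D j)
  rw [rotB_pow_apply] at this
  simpa using this

lemma stepMat_pow (j : ℕ) :
    (Rel (rotB D) * P (Fin.last D)) ^ j = Rel (rotB D) ^ j * partProd D j := by
  induction j with
  | zero => simp [partProd]
  | succ j ih =>
    rw [pow_succ', ih, Matrix.mul_assoc, ← Matrix.mul_assoc (P (Fin.last D)), P_last_mul_Rel_pow,
      Matrix.mul_assoc, ← Matrix.mul_assoc, ← pow_succ', partProd]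

lemma partProd_eq_drop (j : ℕ) (hj : j ≤ D + 1) :
    partProd D j = (((List.finRange (D + 1)).drop (D + 1 - j)).map (P (D := D + 1))).prod := by
  induction j with
  | zero =>
    have : (List.finRange (D + 1)).length = D + 1 := List.length_finRange
    have h2 : List.drop (D + 1) (List.finRange (D + 1)) = [] :=
      List.drop_of_length_le (by rw [this])
    simp only [partProd, Nat.sub_zero, h2, List.map_nil, List.prod_nil]
  | succ j ih =>
    have hlt : D + 1 - (j + 1) < (List.finRange (D + 1)).length := by
      rw [List.length_finRange]; omega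
    have hd : (List.finRange (D + 1)).drop (D + 1 - (j + 1))
        = (List.finRange (D + 1))[D + 1 - (j + 1)] ::
          (List.finRange (D + 1)).drop (D + 1 - (j + 1) + 1) :=
      (List.drop_eq_getElem_cons hlt)
    have hidx : D + 1 - (j + 1) + 1 = D + 1 - j := by omega
    rw [hd, hidx, List.map_cons, List.prod_cons, partProd, ih (by omega)]
    congr 2
    simp only [List.getElem_finRange]
    apply Fin.ext
    have hjD : j ≤ D := by omega
    have h1 : (jF D j).val = j := jF_val D j hjD
    have h2 : (Fin.last D - jF D j).val = D - j := by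
      rw [Fin.sub_val_of_le]
      · rw [h1]; simp
      · rw [Fin.le_def, h1]; simpa using hjD
    rw [h2]
    change D - j = D + 1 - (j + 1)
    omega

theorem stepMat_pow_card :
    (Rel (rotB D) * P (Fin.last D)) ^ (D + 1) = blockT (D + 1) := by
  rw [stepMat_pow, ← Rel_pow, rotB_pow_card, partProd_eq_drop D (D + 1) le_rfl]
  simp [Rel, relabel_one, regMat_delta_one, blockT]

end Power

/-! ### Transport from `Fin (2 * 2 ^ d)` to bits -/

section Transport

variable (d : ℕ)

/-- Binary digits. -/
def bitsFun (x : Fin (2 * 2 ^ d)) : Pos (d + 1) := fun i => Nat.testBit x.val i.val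

lemma val_lt_pow (x : Fin (2 * 2 ^ d)) : x.val < 2 ^ (d + 1) := by
  have := x.isLt
  rw [pow_succ]
  omega

lemma bitsFun_injective : Function.Injective (bitsFun d) := by
  intro x y h
  apply Fin.ext
  apply Nat.eq_of_testBit_eq
  intro i
  by_cases hi : i < d + 1
  · exact congrFun h ⟨i, hi⟩
  · have hi' : d + 1 ≤ i := by omega
    have h1 : x.val < 2 ^ i := lt_of_lt_of_le (val_lt_pow d x) (Nat.pow_le_pow_right (by norm_num) hi')
    have h2 : y.val < 2 ^ i := lt_of_lt_of_le (val_lt_pow d y) (Nat.pow_le_pow_right (by norm_num) hi')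
    rw [Nat.testBit_lt_two_pow h1, Nat.testBit_lt_two_pow h2]

lemma bitsFun_bijective : Function.Bijective (bitsFun d) := by
  rw [Fintype.bijective_iff_injective_and_card]
  refine ⟨bitsFun_injective d, ?_⟩
  simp [pow_succ, mul_comm]

/-- Binary digits as an equivalence. -/
noncomputable def bitsEquiv : Fin (2 * 2 ^ d) ≃ Pos (d + 1) :=
  Equiv.ofBijective (bitsFun d) (bitsFun_bijective d)

@[simp] lemma bitsEquiv_apply (x : Fin (2 * 2 ^ d)) (i : Fin (d + 1)) :
    bitsEquiv d x i = Nat.testBit x.val i.val := rfl

lemma top_bit (x : Fin (2 * 2 ^ d)) : Nat.testBit x.val d = decide (2 ^ d ≤ x.val) := by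
  have hx := x.isLt
  have h2 : 0 < 2 ^ d := by positivity
  rw [Nat.testBit_eq_decide_div_mod_eq]
  apply decide_eq_decide.mpr
  by_cases h : 2 ^ d ≤ x.val
  · have h1 : x.val / 2 ^ d = 1 := by
      apply le_antisymm
      · have : x.val / 2 ^ d < 2 := Nat.div_lt_of_lt_mul (by omega)
        omega
      · exact (Nat.le_div_iff_mul_le h2).mpr (by omega)
    simp [h1, h]
  · have h1 : x.val / 2 ^ d = 0 := Nat.div_eq_of_lt (by omega)
    simp [h1, h]

lemma mod_eq_of_low_bits (x y : Fin (2 * 2 ^ d))
    (h : ∀ i : Fin (d + 1), i ≠ Fin.last d → bitsEquiv d x i = bitsEquiv d y i) :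
    x.val % 2 ^ d = y.val % 2 ^ d := by
  apply Nat.eq_of_testBit_eq
  intro i
  rw [Nat.testBit_mod_two_pow, Nat.testBit_mod_two_pow]
  by_cases hi : i < d
  · simp only [hi, decide_true, Bool.true_and]
    have := h ⟨i, by omega⟩ (by
      intro e
      have := congrArg Fin.val e
      simp at this
      omega)
    simpa using this
  · simp [hi]

/-- The residue of a position modulo `2 ^ d`. -/
def residue (x : Fin (2 * 2 ^ d)) : Fin (2 ^ d) := ⟨x.val % 2 ^ d, Nat.mod_lt _ (by positivity)⟩

/-- The coins in the bit model attached to the coins of one shuffle. -/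
noncomputable def coinOf (c : Fin (2 ^ d) → Bool) : Coin (Fin.last d) :=
  ⟨fun y => c (residue d ((bitsEquiv d).symm y)), fun y => by
    apply congrArg c
    apply Fin.ext
    apply mod_eq_of_low_bits
    intro i hi
    simp only [Equiv.apply_symm_apply]
    simp [flipAt, Function.update_of_ne hi]⟩

/-- A position below `2 ^ d` as a position of the full deck. -/
def lowPos (u : Fin (2 ^ d)) : Fin (2 * 2 ^ d) := ⟨u.val, by have := u.isLt; omega⟩

lemma residue_lowPos (u : Fin (2 ^ d)) : residue d (lowPos d u) = u := by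
  apply Fin.ext
  exact Nat.mod_eq_of_lt u.isLt

lemma coin_eq_of_residue (c : Coin (Fin.last d)) (x y : Fin (2 * 2 ^ d))
    (h : residue d x = residue d y) : c.1 (bitsEquiv d x) = c.1 (bitsEquiv d y) := by
  have hlow : ∀ i : Fin (d + 1), i ≠ Fin.last d → bitsEquiv d x i = bitsEquiv d y i := by
    intro i hi
    have hi' : i.val < d := by
      have := i.isLt
      have h3 : i.val ≠ d := fun e => hi (Fin.ext e)
      omega
    have hh : x.val % 2 ^ d = y.val % 2 ^ d := congrArg Fin.val h
    have h1 := Nat.testBit_mod_two_pow x.val d i.val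
    have h2 := Nat.testBit_mod_two_pow y.val d i.val
    rw [hh, h2] at h1
    simp only [hi', decide_true, Bool.true_and] at h1
    simpa using h1.symm
  by_cases hh : bitsEquiv d x (Fin.last d) = bitsEquiv d y (Fin.last d)
  · have : bitsEquiv d x = bitsEquiv d y := by
      funext i
      by_cases hi : i = Fin.last d
      · subst hi; exact hh
      · exact hlow i hi
    rw [this]
  · have : bitsEquiv d y = flipAt (Fin.last d) (bitsEquiv d x) := by
      funext i
      by_cases hi : i = Fin.last d
      · subst hi
        simp only [flipAt, Function.update_self]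
        cases h1 : bitsEquiv d x (Fin.last d) <;> cases h2 : bitsEquiv d y (Fin.last d) <;>
          simp_all
      · simp only [flipAt, Function.update_of_ne hi]
        exact (hlow i hi).symm
    rw [this, c.2]

/-- The coins of one shuffle are the coins of the bit model. -/
noncomputable def coinEquiv : (Fin (2 ^ d) → Bool) ≃ Coin (Fin.last d) where
  toFun := coinOf d
  invFun c' := fun u => c'.1 (bitsEquiv d (lowPos d u))
  left_inv c := by
    funext u
    simp [coinOf, residue_lowPos]
  right_inv c' := by
    apply Subtype.ext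
    funext y
    simp only [coinOf]
    have := coin_eq_of_residue d c' (lowPos d (residue d ((bitsEquiv d).symm y)))
      ((bitsEquiv d).symm y) (residue_lowPos d _)
    rw [this]
    simp

lemma residue_eq_mod (x : Fin (2 * 2 ^ d)) : (residue d x).val = x.val % 2 ^ d := rfl

/-- One shuffle in the bit model. -/
theorem bits_step (c : Fin (2 ^ d) → Bool) (x : Fin (2 * 2 ^ d)) :
    bitsEquiv d (stepPos (2 ^ d) c x)
      = relabel (rotB d) (coinPerm (coinOf d c) (bitsEquiv d x)) := by
  funext i
  rw [relabel_apply, coinPerm_apply]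
  have hcoin : (coinOf d c).1 (bitsEquiv d x) = c (residue d x) := by
    simp [coinOf]
  rw [hcoin]
  have hval : (stepPos (2 ^ d) c x).val
      = 2 * (x.val % 2 ^ d) +
        (if xor (decide (2 ^ d ≤ x.val)) (c (residue d x)) then 1 else 0) := rfl
  rw [bitsEquiv_apply, hval]
  rcases Fin.eq_zero_or_eq_succ i with h0 | ⟨k, hk⟩
  · -- bit 0
    subst h0
    have hsymm : (rotB d).symm 0 = Fin.last d := by
      rw [Equiv.symm_apply_eq]
      simp [rotB, finRotate_apply]
    rw [hsymm]
    simp only [Fin.val_zero, Nat.testBit_zero]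
    cases hc : c (residue d x)
    · simp only [Bool.false_eq_true, if_false, Bool.xor_false]
      simp only [bitsEquiv_apply, Fin.val_last, top_bit]
      by_cases hle : 2 ^ d ≤ x.val <;> simp [hle] <;> omega
    · simp only [if_true, Bool.xor_true]
      simp only [flipAt, Function.update_self, bitsEquiv_apply, Fin.val_last, top_bit]
      by_cases hle : 2 ^ d ≤ x.val <;> simp [hle] <;> omega
  · -- higher bits
    subst hk
    have hsymm : (rotB d).symm k.succ = k.castSucc := by
      rw [Equiv.symm_apply_eq]
      simp [rotB, finRotate_apply]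
    rw [hsymm]
    have hne : k.castSucc ≠ Fin.last d := (Fin.castSucc_lt_last k).ne
    have hlow : (if c (residue d x) = true then flipAt (Fin.last d) (bitsEquiv d x)
        else bitsEquiv d x) k.castSucc = Nat.testBit x.val k.val := by
      split_ifs
      · simp [flipAt]
      · simp
    rw [hlow]
    simp only [Fin.val_succ, Nat.testBit_succ]
    have hdiv : (2 * (x.val % 2 ^ d) +
        (if xor (decide (2 ^ d ≤ x.val)) (c (residue d x)) = true then 1 else 0)) / 2
        = x.val % 2 ^ d := by
      split_ifs <;> omega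
    rw [hdiv, Nat.testBit_mod_two_pow]
    simp

/-- The group isomorphism induced by binary digits. -/
noncomputable def conjE : Equiv.Perm (Fin (2 * 2 ^ d)) ≃* Equiv.Perm (Pos (d + 1)) :=
  Equiv.permCongrHom (bitsEquiv d)

lemma conjE_stepPerm (c : Fin (2 ^ d) → Bool) :
    conjE d (stepPerm (2 ^ d) c) = relabel (rotB d) * coinPerm (coinOf d c) := by
  ext1 y
  obtain ⟨x, rfl⟩ := (bitsEquiv d).surjective y
  have : conjE d (stepPerm (2 ^ d) c) (bitsEquiv d x) = bitsEquiv d (stepPos (2 ^ d) c x) := by
    simp [conjE, Equiv.permCongrHom, Equiv.permCongr_apply]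
  rw [this, bits_step]
  rfl

/-- The law of one shuffle transported to bits. -/
theorem stepLaw_transport (g : Equiv.Perm (Pos (d + 1))) :
    stepLaw (2 ^ d) ((conjE d).symm g) = conv (delta (relabel (rotB d))) (swapLaw (Fin.last d)) g := by
  classical
  rw [delta_eq_push, swapLaw, ← push_mul]
  have h1 := push_equiv (G := Equiv.Perm (Pos (d + 1))) (Ω := Unit × Coin (Fin.last d))
    (Ω' := Fin (2 ^ d) → Bool)
    ((coinEquiv d).trans (Equiv.punitProd _).symm)
    (fun p => relabel (rotB d) * coinPerm p.2)
  rw [← h1]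
  simp only [stepLaw, push]
  congr 2
  apply congrArg Finset.card
  ext c
  simp only [Finset.mem_filter, Finset.mem_univ, true_and]
  rw [MulEquiv.eq_symm_apply]
  have : (((coinEquiv d).trans (Equiv.punitProd _).symm) c).2 = coinOf d c := rfl
  rw [this, conjE_stepPerm]

lemma submatrix_pow_equiv {α β : Type*} [Fintype α] [Fintype β] [DecidableEq α] [DecidableEq β]
    (A : Matrix α α ℝ) (e : β ≃ α) (t : ℕ) : (A.submatrix e e) ^ t = (A ^ t).submatrix e e := by
  induction t with
  | zero => simp [Matrix.submatrix_one_equiv]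
  | succ t ih => rw [pow_succ, pow_succ, ih, Matrix.submatrix_mul_equiv]

lemma hsSq_submatrix_equiv {α β : Type*} [Fintype α] [Fintype β]
    (A : Matrix α α ℝ) (e : β ≃ α) : hsSq (A.submatrix e e) = hsSq A := by
  simp only [hsSq, Matrix.submatrix_apply]
  refine Fintype.sum_equiv e _ _ fun i => ?_
  exact Fintype.sum_equiv e _ _ fun j => rfl

/-- The one-step matrix in the bit model is the transported one-step matrix. -/
theorem stepMat_transport :
    Rel (rotB d) * P (Fin.last d)
      = (regMat (stepLaw (2 ^ d))).submatrix (conjE d).symm.toEquiv (conjE d).symm.toEquiv := by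
  unfold Rel P
  rw [← regMat_conv]
  ext x y
  simp only [regMat_apply, Matrix.submatrix_apply, ← stepLaw_transport]
  congr 1
  simp

/-- **The reduction of S0222 to the block operator.** -/
theorem tv_sq_le_block (K : ℕ) :
    tvFromUniform (2 ^ d) (K * (d + 1)) ^ 2 ≤ (1 / 4) * (hsSq (blockT (d + 1) ^ K) - 1) := by
  have h := tvFromUniform_sq_le (2 ^ d) (K * (d + 1))
  have h2 : hsSq ((regMat (stepLaw (2 ^ d))) ^ (K * (d + 1))) = hsSq (blockT (d + 1) ^ K) := by
    rw [← stepMat_pow_card, stepMat_transport, ← pow_mul, mul_comm (d + 1) K, submatrix_pow_equiv,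
      hsSq_submatrix_equiv]
  rw [h2] at h
  exact h

end Transport

/-- **S0222 reduces to the Hilbert-Schmidt norm of a power of the block operator.** -/
theorem tendsto_of_block (K : ℕ)
    (h : Filter.Tendsto (fun D : ℕ => hsSq (blockT (D + 1) ^ K)) Filter.atTop (nhds 1)) :
    Filter.Tendsto (fun d : ℕ => tvFromUniform (2 ^ d) (K * (d + 1))) Filter.atTop (nhds 0) := by
  have h1 : Filter.Tendsto (fun D : ℕ => Real.sqrt ((1 / 4) * (hsSq (blockT (D + 1) ^ K) - 1)))
      Filter.atTop (nhds 0) := by
    have h2 : Filter.Tendsto (fun D : ℕ => (1 / 4 : ℝ) * (hsSq (blockT (D + 1) ^ K) - 1))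
        Filter.atTop (nhds 0) := by
      have := (h.sub_const 1).const_mul (1 / 4 : ℝ)
      simpa using this
    have := h2.sqrt
    simpa using this
  refine squeeze_zero (fun d => tvFromUniform_nonneg _ _) (fun d => ?_) h1
  apply Real.le_sqrt_of_sq_le
  exact tv_sq_le_block d K

end Crest.Agent.Lib.Thorp
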