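/-
Framework for S0222 (Thorp shuffle), Part D: abstract facts on real matrices: Hilbert-Schmidt norm,
the `T^4` Cauchy-Schwarz tower, peeling an operator norm, orthogonal projections onto submodules,
and orthogonal decompositions commuting with an operator.
-/
import Crest.Agent.Lib.Thorp.Basic

set_option autoImplicit false
set_option linter.unusedSectionVars false

namespace Crest.Agent.Lib.Thorp

open Matrix

section HS

variable {ι : Type*} [Fintype ι] [DecidableEq ι]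

lemma hsSq_nonneg (A : Matrix ι ι ℝ) : 0 ≤ hsSq A :=
  Finset.sum_nonneg fun _ _ => Finset.sum_nonneg fun _ _ => sq_nonneg _

lemma hsSq_transpose (A : Matrix ι ι ℝ) : hsSq Aᵀ = hsSq A := by
  simp only [hsSq, Matrix.transpose_apply]
  exact Finset.sum_comm

/-- Cauchy-Schwarz for the trace form. -/
lemma trace_mul_sq_le (A B : Matrix ι ι ℝ) : (trace (A * B)) ^ 2 ≤ hsSq A * hsSq B := by
  have h : trace (A * B) = ∑ p : ι × ι, A p.1 p.2 * Bᵀ p.1 p.2 := by
    simp only [trace, Matrix.diag, Matrix.mul_apply, Matrix.transpose_apply]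
    rw [Fintype.sum_prod_type]
  have hA : hsSq A = ∑ p : ι × ι, (A p.1 p.2) ^ 2 := by
    simp only [hsSq]; rw [Fintype.sum_prod_type]
  have hB : hsSq B = ∑ p : ι × ι, (Bᵀ p.1 p.2) ^ 2 := by
    rw [← hsSq_transpose]
    simp only [hsSq]; rw [Fintype.sum_prod_type]
  rw [h, hA, hB]
  exact Finset.sum_mul_sq_le_sq_mul_sq _ _ _

lemma trace_mul_le (A B : Matrix ι ι ℝ) :
    trace (A * B) ≤ Real.sqrt (hsSq A) * Real.sqrt (hsSq B) := by
  rw [← Real.sqrt_mul (hsSq_nonneg A)]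
  apply Real.le_sqrt_of_sq_le
  exact trace_mul_sq_le A B

lemma trace_mul_le_of_hsSq_eq (A B : Matrix ι ι ℝ) (h : hsSq A = hsSq B) :
    trace (A * B) ≤ hsSq A := by
  have := trace_mul_le A B
  rw [← h, Real.mul_self_sqrt (hsSq_nonneg A)] at this
  exact this

/-- `hsSq (A*B)`, column by column. -/
lemma hsSq_mul_eq_sum (A B : Matrix ι ι ℝ) :
    hsSq (A * B) = ∑ j, (A *ᵥ (fun i => B i j)) ⬝ᵥ (A *ᵥ (fun i => B i j)) := by
  simp only [hsSq, dotProduct, Matrix.mulVec, Matrix.mul_apply, sq]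
  rw [Finset.sum_comm]

/-- Peeling off an operator norm on the left. -/
lemma hsSq_mul_le (A B : Matrix ι ι ℝ) (a : ℝ)
    (hA : ∀ v : ι → ℝ, (A *ᵥ v) ⬝ᵥ (A *ᵥ v) ≤ a * (v ⬝ᵥ v)) :
    hsSq (A * B) ≤ a * hsSq B := by
  rw [hsSq_mul_eq_sum]
  have hB : hsSq B = ∑ j, (fun i => B i j) ⬝ᵥ (fun i => B i j) := by
    simp only [hsSq, dotProduct, sq]
    rw [Finset.sum_comm]
  rw [hB, Finset.mul_sum]
  exact Finset.sum_le_sum fun j _ => hA _

lemma pow_peel (A B : Matrix ι ι ℝ) (a : ℝ) (ha : 0 ≤ a)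
    (hA : ∀ v : ι → ℝ, (A *ᵥ v) ⬝ᵥ (A *ᵥ v) ≤ a * (v ⬝ᵥ v)) (K : ℕ) :
    hsSq (A ^ K * B) ≤ a ^ K * hsSq B := by
  induction K with
  | zero => simp
  | succ K ih =>
    rw [pow_succ', Matrix.mul_assoc, pow_succ']
    calc hsSq (A * (A ^ K * B)) ≤ a * hsSq (A ^ K * B) := hsSq_mul_le _ _ a hA
      _ ≤ a * (a ^ K * hsSq B) := by gcongr
      _ = a * a ^ K * hsSq B := by ring

lemma tower1 (B : Matrix ι ι ℝ) : hsSq (B * B) = trace ((Bᵀ * B) * (B * Bᵀ)) := by
  rw [hsSq_eq_trace, Matrix.transpose_mul, Matrix.mul_assoc, Matrix.trace_mul_comm]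
  simp only [Matrix.mul_assoc]

lemma tower2 (B : Matrix ι ι ℝ) : hsSq (Bᵀ * B) = hsSq (B * Bᵀ) := by
  rw [hsSq_eq_trace, hsSq_eq_trace]
  simp only [Matrix.transpose_mul, Matrix.transpose_transpose]
  rw [Matrix.mul_assoc, Matrix.trace_mul_comm]
  simp only [Matrix.mul_assoc]

lemma tower3 (A : Matrix ι ι ℝ) :
    hsSq ((A * A)ᵀ * (A * A)) = trace ((Aᵀ * A * (A * Aᵀ)) * (Aᵀ * A * (A * Aᵀ))) := by
  rw [hsSq_eq_trace]
  simp only [Matrix.transpose_mul, Matrix.transpose_transpose]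
  simp only [Matrix.mul_assoc]
  rw [Matrix.trace_mul_comm]
  simp only [Matrix.mul_assoc]

lemma tower6 (X Y : Matrix ι ι ℝ) (hX : Xᵀ = X) (hY : Yᵀ = Y) :
    hsSq (X * Y) = trace ((X * X) * (Y * Y)) := by
  rw [hsSq_eq_trace, Matrix.transpose_mul, hX, hY]
  simp only [Matrix.mul_assoc]
  rw [Matrix.trace_mul_comm]
  simp only [Matrix.mul_assoc]

lemma tower7 (A : Matrix ι ι ℝ) :
    hsSq ((Aᵀ * A) * (Aᵀ * A)) = hsSq ((A * Aᵀ) * (A * Aᵀ)) := by
  rw [hsSq_eq_trace, hsSq_eq_trace]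
  simp only [Matrix.transpose_mul, Matrix.transpose_transpose]
  simp only [Matrix.mul_assoc]
  rw [Matrix.trace_mul_comm]
  simp only [Matrix.mul_assoc]

lemma tower9 (X : Matrix ι ι ℝ) (hX : Xᵀ = X) : hsSq (X * X) = trace (X ^ 4) := by
  rw [hsSq_eq_trace, Matrix.transpose_mul, hX]
  congr 1
  noncomm_ring

/-- **The `T^4` tower**: `‖A⁴‖²_{S₂} ≤ tr (AᵀA)⁴`. -/
theorem hsSq_pow_four_le (A : Matrix ι ι ℝ) : hsSq (A ^ 4) ≤ trace ((Aᵀ * A) ^ 4) := by
  have hA4 : A ^ 4 = (A * A) * (A * A) := by noncomm_ring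
  have h3 : hsSq ((A * A) * (A * A)) ≤ hsSq ((A * A)ᵀ * (A * A)) := by
    rw [tower1]; exact trace_mul_le_of_hsSq_eq _ _ (tower2 _)
  have hXt : (Aᵀ * A)ᵀ = Aᵀ * A := by simp [Matrix.transpose_mul]
  have hYt : (A * Aᵀ)ᵀ = A * Aᵀ := by simp [Matrix.transpose_mul]
  have h5 : hsSq ((A * A)ᵀ * (A * A)) ≤ hsSq (Aᵀ * A * (A * Aᵀ)) := by
    rw [tower3]; exact trace_mul_le_of_hsSq_eq _ _ rfl
  have h8 : hsSq (Aᵀ * A * (A * Aᵀ)) ≤ hsSq ((Aᵀ * A) * (Aᵀ * A)) := by
    rw [tower6 _ _ hXt hYt]; exact trace_mul_le_of_hsSq_eq _ _ (tower7 A)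
  rw [hA4, ← tower9 _ hXt]
  linarith

end HS

section Decomp

variable {ι κ : Type*} [Fintype ι] [DecidableEq ι] [Fintype κ] [DecidableEq κ]

/-- A family of matrices forming an orthogonal decomposition of the identity. -/
structure OrthoDecomp (E : κ → Matrix ι ι ℝ) : Prop where
  symm : ∀ k, (E k)ᵀ = E k
  idem : ∀ k, E k * E k = E k
  orth : ∀ k l, k ≠ l → E k * E l = 0
  sum_one : ∑ k, E k = 1

/-- The Hilbert-Schmidt norm of `A` splits over an orthogonal decomposition. -/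
theorem hsSq_eq_sum {E : κ → Matrix ι ι ℝ} (hE : OrthoDecomp E) (A : Matrix ι ι ℝ) :
    hsSq A = ∑ k, hsSq (A * E k) := by
  simp_rw [hsSq_eq_trace]
  have h1 : ∀ k, trace ((A * E k)ᵀ * (A * E k)) = trace (E k * (Aᵀ * A)) := by
    intro k
    rw [Matrix.transpose_mul, hE.symm k]
    have : E k * Aᵀ * (A * E k) = E k * (Aᵀ * A * E k) := by noncomm_ring
    rw [this, Matrix.trace_mul_comm, Matrix.mul_assoc, hE.idem k, Matrix.trace_mul_comm]
  simp_rw [h1]
  rw [← Matrix.trace_sum, ← Finset.sum_mul, hE.sum_one, Matrix.one_mul]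

/-- Powers restricted to an invariant piece. -/
lemma pow_mul_of_comm {T E : Matrix ι ι ℝ} (hc : T * E = E * T) (hE : E * E = E) (K : ℕ) (hK : 0 < K) :
    (T * E) ^ K = T ^ K * E := by
  induction K, hK using Nat.le_induction with
  | base => simp
  | succ K hK ih =>
    rw [pow_succ, ih, pow_succ]
    calc T ^ K * E * (T * E) = T ^ K * (E * T) * E := by noncomm_ring
      _ = T ^ K * (T * E) * E := by rw [hc]
      _ = T ^ K * T * (E * E) := by noncomm_ring
      _ = T ^ K * T * E := by rw [hE]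

/-- A piece of an orthogonal decomposition commuting with `T`: the bound of the level-`k` Hilbert-Schmidt
norm of a power by an operator norm and the trace of `(TᵀT)⁴`.  Here the hypothesis `ha` is the operator
norm of `T` on the range of `E`. -/
theorem hsSq_pow_piece_le {T E : Matrix ι ι ℝ} (hsym : Eᵀ = E) (hidem : E * E = E)
    (hc : T * E = E * T) (a : ℝ) (ha0 : 0 ≤ a)
    (ha : ∀ v : ι → ℝ, ((T * E) *ᵥ v) ⬝ᵥ ((T * E) *ᵥ v) ≤ a * (v ⬝ᵥ v)) (K : ℕ) :
    hsSq (T ^ (K + 4) * E) ≤ a ^ K * trace ((Tᵀ * T) ^ 4 * E) := by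
  have hcT : Tᵀ * E = E * Tᵀ := by
    have := congrArg Matrix.transpose hc
    simpa [Matrix.transpose_mul, hsym] using this.symm
  have hcW : (Tᵀ * T) * E = E * (Tᵀ * T) := by
    calc (Tᵀ * T) * E = Tᵀ * (T * E) := by noncomm_ring
      _ = Tᵀ * (E * T) := by rw [hc]
      _ = (Tᵀ * E) * T := by noncomm_ring
      _ = (E * Tᵀ) * T := by rw [hcT]
      _ = E * (Tᵀ * T) := by noncomm_ring
  set A := T * E with hA
  have h1 : T ^ (K + 4) * E = A ^ K * A ^ 4 := by
    rw [← pow_add, hA, pow_mul_of_comm hc hidem _ (by omega)]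
  have h2 : Aᵀ * A = (Tᵀ * T) * E := by
    rw [hA, Matrix.transpose_mul, hsym]
    calc E * Tᵀ * (T * E) = (E * Tᵀ) * T * E := by noncomm_ring
      _ = (Tᵀ * E) * T * E := by rw [hcT]
      _ = Tᵀ * (E * T) * E := by noncomm_ring
      _ = Tᵀ * (T * E) * E := by rw [← hc, hA]
      _ = (Tᵀ * T) * (E * E) := by noncomm_ring
      _ = (Tᵀ * T) * E := by rw [hidem]
  have h3 : (Aᵀ * A) ^ 4 = (Tᵀ * T) ^ 4 * E := by
    rw [h2, pow_mul_of_comm hcW hidem _ (by norm_num)]
  rw [h1]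
  calc hsSq (A ^ K * A ^ 4) ≤ a ^ K * hsSq (A ^ 4) := pow_peel _ _ a ha0 ha K
    _ ≤ a ^ K * trace ((Aᵀ * A) ^ 4) := by
        gcongr
        exact hsSq_pow_four_le A
    _ = _ := by rw [h3]

end Decomp

section Proj

variable {ι : Type*} [Fintype ι] [DecidableEq ι]

/-- Orthogonal projection matrices onto submodules. -/
theorem exists_projMat (V : Submodule ℝ (ι → ℝ)) :
    ∃ Q : Matrix ι ι ℝ, Qᵀ = Q ∧ Q * Q = Q ∧ (∀ v, Q *ᵥ v ∈ V) ∧ (∀ v ∈ V, Q *ᵥ v = v) := by
  classical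
  let L : EuclideanSpace ℝ ι ≃ₗ[ℝ] (ι → ℝ) := WithLp.linearEquiv 2 ℝ (ι → ℝ)
  let V' : Submodule ℝ (EuclideanSpace ℝ ι) := V.comap L.toLinearMap
  let p : EuclideanSpace ℝ ι →L[ℝ] EuclideanSpace ℝ ι := V'.starProjection
  let F : (ι → ℝ) →ₗ[ℝ] (ι → ℝ) := L.toLinearMap ∘ₗ p.toLinearMap ∘ₗ L.symm.toLinearMap
  have hmem : ∀ v, F v ∈ V := by
    intro v
    have : p (L.symm v) ∈ V' := V'.starProjection_apply_mem _
    exact this
  have hfix : ∀ v ∈ V, F v = v := by
    intro v hv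
    have h1 : L.symm v ∈ V' := by
      change L (L.symm v) ∈ V
      simpa using hv
    have h2 : p (L.symm v) = L.symm v := Submodule.starProjection_eq_self_iff.mpr h1
    change L (p (L.symm v)) = v
    rw [h2]; simp
  have hdot : ∀ u v : ι → ℝ, F u ⬝ᵥ v = u ⬝ᵥ F v := by
    intro u v
    have h1 := Submodule.inner_starProjection_left_eq_right V' (L.symm u) (L.symm v)
    have h2 : ∀ x y : EuclideanSpace ℝ ι, inner ℝ x y = (L x) ⬝ᵥ (L y) := by
      intro x y
      rw [EuclideanSpace.inner_eq_star_dotProduct]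
      simp only [star_trivial, L]
      exact dotProduct_comm _ _
    rw [h2, h2] at h1
    have e1 : L (V'.starProjection (L.symm u)) = F u := rfl
    have e2 : L (V'.starProjection (L.symm v)) = F v := rfl
    rw [e1, e2] at h1
    simpa using h1
  refine ⟨LinearMap.toMatrix' F, ?_, ?_, ?_, ?_⟩
  · ext i j
    simp only [Matrix.transpose_apply, LinearMap.toMatrix'_apply]
    have := hdot (Pi.single i 1) (Pi.single j 1)
    simp only [dotProduct_single, mul_one, single_dotProduct, one_mul] at this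
    exact this
  · rw [← LinearMap.toMatrix'_mul]
    congr 1
    apply LinearMap.ext
    intro v
    change F (F v) = F v
    exact hfix _ (hmem _)
  · intro v
    rw [LinearMap.toMatrix'_mulVec]
    exact hmem v
  · intro v hv
    rw [LinearMap.toMatrix'_mulVec]
    exact hfix v hv

/-- The orthogonal projection matrix onto a submodule. -/
noncomputable def projMat (V : Submodule ℝ (ι → ℝ)) : Matrix ι ι ℝ :=
  Classical.choose (exists_projMat V)

lemma projMat_symm (V : Submodule ℝ (ι → ℝ)) : (projMat V)ᵀ = projMat V :=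
  (Classical.choose_spec (exists_projMat V)).1

lemma projMat_idem (V : Submodule ℝ (ι → ℝ)) : projMat V * projMat V = projMat V :=
  (Classical.choose_spec (exists_projMat V)).2.1

lemma projMat_mem (V : Submodule ℝ (ι → ℝ)) (v : ι → ℝ) : projMat V *ᵥ v ∈ V :=
  (Classical.choose_spec (exists_projMat V)).2.2.1 v

lemma projMat_fix (V : Submodule ℝ (ι → ℝ)) (v : ι → ℝ) (hv : v ∈ V) : projMat V *ᵥ v = v :=
  (Classical.choose_spec (exists_projMat V)).2.2.2 v hv

lemma projMat_dot (V : Submodule ℝ (ι → ℝ)) (u v : ι → ℝ) :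
    (projMat V *ᵥ u) ⬝ᵥ v = u ⬝ᵥ (projMat V *ᵥ v) := by
  rw [Matrix.dotProduct_mulVec, ← Matrix.mulVec_transpose, projMat_symm]

lemma mat_ext_of_mulVec {A B : Matrix ι ι ℝ} (h : ∀ v, A *ᵥ v = B *ᵥ v) : A = B := by
  ext i j
  have := congrFun (h (Pi.single j 1)) i
  simpa using this

lemma projMat_mul_of_le {U V : Submodule ℝ (ι → ℝ)} (h : U ≤ V) :
    projMat V * projMat U = projMat U := by
  apply mat_ext_of_mulVec
  intro v
  rw [← Matrix.mulVec_mulVec]
  exact projMat_fix V _ (h (projMat_mem U v))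

lemma projMat_mul_of_le' {U V : Submodule ℝ (ι → ℝ)} (h : U ≤ V) :
    projMat U * projMat V = projMat U := by
  have := congrArg Matrix.transpose (projMat_mul_of_le h)
  simpa [Matrix.transpose_mul, projMat_symm] using this

lemma projMat_top : projMat (⊤ : Submodule ℝ (ι → ℝ)) = 1 := by
  apply mat_ext_of_mulVec
  intro v
  rw [projMat_fix _ v Submodule.mem_top, Matrix.one_mulVec]

/-- The orthogonal projection commutes with any `T` such that `T` and `Tᵀ` preserve the subspace. -/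
lemma projMat_comm (V : Submodule ℝ (ι → ℝ)) (T : Matrix ι ι ℝ)
    (hT : ∀ v ∈ V, T *ᵥ v ∈ V) (hTt : ∀ v ∈ V, Tᵀ *ᵥ v ∈ V) :
    T * projMat V = projMat V * T := by
  have h1 : projMat V * T * projMat V = T * projMat V := by
    apply mat_ext_of_mulVec
    intro v
    simp only [← Matrix.mulVec_mulVec]
    exact projMat_fix V _ (hT _ (projMat_mem V v))
  have h2 : projMat V * Tᵀ * projMat V = Tᵀ * projMat V := by
    apply mat_ext_of_mulVec
    intro v
    simp only [← Matrix.mulVec_mulVec]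
    exact projMat_fix V _ (hTt _ (projMat_mem V v))
  have h3 : projMat V * T * projMat V = projMat V * T := by
    have := congrArg Matrix.transpose h2
    simpa [Matrix.transpose_mul, projMat_symm, Matrix.mul_assoc] using this
  rw [← h1, h3]

/-- The pieces of a flag `V 0 ≤ V 1 ≤ ...`. -/
noncomputable def flagE (V : ℕ → Submodule ℝ (ι → ℝ)) : ℕ → Matrix ι ι ℝ
  | 0 => projMat (V 0)
  | k + 1 => projMat (V (k + 1)) - projMat (V k)

lemma flagE_symm (V : ℕ → Submodule ℝ (ι → ℝ)) (k : ℕ) : (flagE V k)ᵀ = flagE V k := by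
  cases k with
  | zero => exact projMat_symm _
  | succ k => simp [flagE, Matrix.transpose_sub, projMat_symm]

lemma flagE_idem (V : ℕ → Submodule ℝ (ι → ℝ)) (hV : Monotone V) (k : ℕ) :
    flagE V k * flagE V k = flagE V k := by
  cases k with
  | zero => exact projMat_idem _
  | succ k =>
    have h := hV (Nat.le_succ k)
    simp only [flagE, Matrix.sub_mul, Matrix.mul_sub, projMat_idem, projMat_mul_of_le h,
      projMat_mul_of_le' h]
    abel

lemma flagE_orth_lt (V : ℕ → Submodule ℝ (ι → ℝ)) (hV : Monotone V) (j k : ℕ) (hjk : j < k) :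
    flagE V j * flagE V k = 0 := by
  obtain ⟨k, rfl⟩ : ∃ k', k = k' + 1 := ⟨k - 1, by omega⟩
  have h1 := hV (Nat.le_succ k)
  cases j with
  | zero =>
    have h2 := hV (Nat.zero_le k)
    have h3 := hV (Nat.zero_le (k + 1))
    simp only [flagE, Matrix.mul_sub, projMat_mul_of_le' h2, projMat_mul_of_le' h3, sub_self]
  | succ j =>
    have h2 : V (j + 1) ≤ V k := hV (by omega)
    have h3 : V j ≤ V k := hV (by omega)
    have h4 : V (j + 1) ≤ V (k + 1) := hV (by omega)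
    have h5 : V j ≤ V (k + 1) := hV (by omega)
    simp only [flagE, Matrix.mul_sub, Matrix.sub_mul, projMat_mul_of_le' h2, projMat_mul_of_le' h3,
      projMat_mul_of_le' h4, projMat_mul_of_le' h5]
    abel

lemma flagE_orth (V : ℕ → Submodule ℝ (ι → ℝ)) (hV : Monotone V) (j k : ℕ) (hjk : j ≠ k) :
    flagE V j * flagE V k = 0 := by
  rcases lt_or_gt_of_ne hjk with h | h
  · exact flagE_orth_lt V hV j k h
  · have := congrArg Matrix.transpose (flagE_orth_lt V hV k j h)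
    simpa [Matrix.transpose_mul, flagE_symm] using this

lemma flagE_sum (V : ℕ → Submodule ℝ (ι → ℝ)) (L : ℕ) :
    ∑ k ∈ Finset.range (L + 1), flagE V k = projMat (V L) := by
  induction L with
  | zero => simp [flagE]
  | succ L ih => rw [Finset.sum_range_succ, ih, flagE]; abel

/-- A flag ending at the whole space gives an orthogonal decomposition of the identity. -/
theorem flagE_decomp (V : ℕ → Submodule ℝ (ι → ℝ)) (hV : Monotone V) (L : ℕ) (hL : V L = ⊤) :
    OrthoDecomp (fun k : Fin (L + 1) => flagE V k.val) where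
  symm k := flagE_symm V k.val
  idem k := flagE_idem V hV k.val
  orth k l hkl := flagE_orth V hV k.val l.val (fun e => hkl (Fin.ext e))
  sum_one := by
    rw [Fin.sum_univ_eq_sum_range (fun k => flagE V k), flagE_sum, hL, projMat_top]

/-- `T` commutes with the pieces of a flag preserved by `T` and `Tᵀ`. -/
lemma flagE_comm (V : ℕ → Submodule ℝ (ι → ℝ)) (T : Matrix ι ι ℝ)
    (hT : ∀ k, ∀ v ∈ V k, T *ᵥ v ∈ V k) (hTt : ∀ k, ∀ v ∈ V k, Tᵀ *ᵥ v ∈ V k) (k : ℕ) :
    T * flagE V k = flagE V k * T := by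
  cases k with
  | zero => exact projMat_comm _ _ (hT 0) (hTt 0)
  | succ k =>
    simp only [flagE, Matrix.mul_sub, Matrix.sub_mul]
    rw [projMat_comm _ _ (hT _) (hTt _), projMat_comm _ _ (hT k) (hTt k)]

lemma flagE_succ_mem (V : ℕ → Submodule ℝ (ι → ℝ)) (hV : Monotone V) (k : ℕ) (v : ι → ℝ) :
    flagE V (k + 1) *ᵥ v ∈ V (k + 1) := by
  simp only [flagE, Matrix.sub_mulVec]
  exact Submodule.sub_mem _ (projMat_mem _ _) (hV (Nat.le_succ k) (projMat_mem _ _))

lemma flagE_succ_orth (V : ℕ → Submodule ℝ (ι → ℝ)) (hV : Monotone V) (k : ℕ) (v u : ι → ℝ)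
    (hu : u ∈ V k) : (flagE V (k + 1) *ᵥ v) ⬝ᵥ u = 0 := by
  have h := hV (Nat.le_succ k)
  simp only [flagE, Matrix.sub_mulVec, sub_dotProduct]
  rw [projMat_dot, projMat_dot, projMat_fix _ u (h hu), projMat_fix _ u hu, sub_self]

end Proj

end Crest.Agent.Lib.Thorp
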