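/-
Framework for S0222 (Thorp shuffle), Part E: the level flag on functions on a symmetric group.
`VS S` = functions of `x : Perm Ω` depending only on `x|_S`; `levelV k` = sum over `|S| ≤ k`.
-/
import Crest.Agent.Lib.Thorp.Hilbert

set_option autoImplicit false
set_option linter.unusedSectionVars false

namespace Crest.Agent.Lib.Thorp

open Matrix

section Right

variable {G : Type*} [Group G] [Fintype G] [DecidableEq G]

/-- Right translation, as a matrix: `(rightMat τ *ᵥ f) x = f (x * τ)`. -/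
def rightMat (τ : G) : Matrix G G ℝ := Matrix.of fun x y => if y = x * τ then 1 else 0

lemma rightMat_mulVec (τ : G) (f : G → ℝ) (x : G) : (rightMat τ *ᵥ f) x = f (x * τ) := by
  simp [rightMat, Matrix.mulVec, dotProduct, Finset.sum_ite_eq']

lemma rightMat_transpose (τ : G) : (rightMat τ)ᵀ = rightMat τ⁻¹ := by
  ext x y
  simp only [rightMat, Matrix.transpose_apply, Matrix.of_apply]
  have : (x = y * τ) ↔ (y = x * τ⁻¹) := by
    constructor
    · intro h; rw [h]; group
    · intro h; rw [h]; group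
  simp [this]

lemma regMat_mulVec (μ : G → ℝ) (f : G → ℝ) (x : G) :
    (regMat μ *ᵥ f) x = ∑ h, μ h * f (h⁻¹ * x) := by
  simp only [Matrix.mulVec, dotProduct, regMat_apply]
  refine Fintype.sum_equiv ((Equiv.inv G).trans (Equiv.mulLeft x)) _ _ ?_
  intro y
  simp [mul_assoc]

lemma regMat_transpose (μ : G → ℝ) : (regMat μ)ᵀ = regMat (fun g => μ g⁻¹) := by
  ext x y
  simp [regMat_apply]

lemma regMat_comm_rightMat (μ : G → ℝ) (τ : G) :
    regMat μ * rightMat τ = rightMat τ * regMat μ := by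
  apply mat_ext_of_mulVec
  intro f
  funext x
  simp only [← Matrix.mulVec_mulVec]
  rw [regMat_mulVec, rightMat_mulVec, regMat_mulVec]
  refine Finset.sum_congr rfl fun h _ => ?_
  rw [rightMat_mulVec, mul_assoc]

/-- Quadratic form bounds from eigenvalue bounds. -/
lemma quad_le_of_eigen {ι : Type*} [Fintype ι] [DecidableEq ι] (W : Matrix ι ι ℝ) (hW : Wᵀ = W)
    (a : ℝ) (h : ∀ (μ : ℝ) (u : ι → ℝ), u ≠ 0 → W *ᵥ u = μ • u → μ ≤ a) (v : ι → ℝ) :
    (W *ᵥ v) ⬝ᵥ v ≤ a * (v ⬝ᵥ v) := by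
  have hH : W.IsHermitian := by
    rw [Matrix.IsHermitian, Matrix.conjTranspose_eq_transpose_of_trivial]
    exact hW
  set b := hH.eigenvectorBasis with hb
  have hev : ∀ j, hH.eigenvalues j ≤ a := by
    intro j
    apply h (hH.eigenvalues j) (WithLp.ofLp (b j))
    · intro h0
      have h1 : b j = 0 := by
        have : (b j) = WithLp.toLp 2 (WithLp.ofLp (b j)) := rfl
        rw [this, h0]; rfl
      exact b.orthonormal.ne_zero j h1
    · exact hH.mulVec_eigenvectorBasis j
  -- expansion in the eigenbasis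
  set v' : EuclideanSpace ℝ ι := WithLp.toLp 2 v with hv'
  have hv_sum : v = ∑ j, (inner ℝ (b j) v') • WithLp.ofLp (b j) := by
    have := b.sum_repr' v'
    have h2 := congrArg WithLp.ofLp this
    rw [hv'] at h2
    simp only [WithLp.ofLp_sum, WithLp.ofLp_smul] at h2
    exact h2.symm
  have hdot : v ⬝ᵥ v = ∑ j, (inner ℝ (b j) v') ^ 2 := by
    have h3 := b.sum_sq_norm_inner_right v'
    have h4 : ‖v'‖ ^ 2 = v ⬝ᵥ v := by
      rw [EuclideanSpace.norm_sq_eq]
      simp [hv', dotProduct, sq]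
    rw [← h4, ← h3]
    refine Finset.sum_congr rfl fun j _ => ?_
    simp
  have hquad : (W *ᵥ v) ⬝ᵥ v = ∑ j, hH.eigenvalues j * (inner ℝ (b j) v') ^ 2 := by
    have h5 : W *ᵥ v = ∑ j, (inner ℝ (b j) v') • (hH.eigenvalues j • WithLp.ofLp (b j)) := by
      conv_lhs => rw [hv_sum]
      rw [Matrix.mulVec_sum]
      refine Finset.sum_congr rfl fun j _ => ?_
      rw [Matrix.mulVec_smul, hH.mulVec_eigenvectorBasis j]
    rw [h5, sum_dotProduct]
    refine Finset.sum_congr rfl fun j _ => ?_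
    rw [smul_dotProduct, smul_dotProduct]
    have h6 : WithLp.ofLp (b j) ⬝ᵥ v = inner ℝ (b j) v' := by
      rw [EuclideanSpace.inner_eq_star_dotProduct]
      simp [hv', dotProduct_comm]
    rw [h6]
    simp only [smul_eq_mul]
    ring
  rw [hquad, hdot, Finset.mul_sum]
  exact Finset.sum_le_sum fun j _ => mul_le_mul_of_nonneg_right (hev j) (sq_nonneg _)

end Right

section Levels

variable {Ω : Type*} [Fintype Ω] [DecidableEq Ω]

/-- Functions of `x : Perm Ω` that only depend on `x` on the set `S` of cards. -/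
def VS (S : Finset Ω) : Submodule ℝ (Equiv.Perm Ω → ℝ) where
  carrier := {f | ∀ x y : Equiv.Perm Ω, (∀ a ∈ S, x a = y a) → f x = f y}
  add_mem' := by
    intro f g hf hg x y h
    simp only [Pi.add_apply, hf x y h, hg x y h]
  zero_mem' := by
    intro x y _
    rfl
  smul_mem' := by
    intro c f hf x y h
    simp only [Pi.smul_apply, hf x y h]

lemma mem_VS {S : Finset Ω} {f : Equiv.Perm Ω → ℝ} :
    f ∈ VS S ↔ ∀ x y : Equiv.Perm Ω, (∀ a ∈ S, x a = y a) → f x = f y := Iff.rfl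

lemma VS_mono {S S' : Finset Ω} (h : S ⊆ S') : VS S ≤ VS S' := by
  intro f hf x y hxy
  exact hf x y (fun a ha => hxy a (h ha))

/-- The level flag. -/
def levelV (k : ℕ) : Submodule ℝ (Equiv.Perm Ω → ℝ) :=
  ⨆ (S : Finset Ω) (_ : S.card ≤ k), VS S

lemma VS_le_levelV {S : Finset Ω} {k : ℕ} (h : S.card ≤ k) : VS S ≤ levelV k :=
  le_iSup₂_of_le S h le_rfl

lemma levelV_mono : Monotone (levelV (Ω := Ω)) := by
  intro j k hjk
  apply iSup₂_le
  intro S hS
  exact VS_le_levelV (hS.trans hjk)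

lemma levelV_top : levelV (Ω := Ω) (Fintype.card Ω) = ⊤ := by
  rw [eq_top_iff]
  refine le_trans ?_ (VS_le_levelV (S := Finset.univ) (by simp))
  intro f _ x y h
  congr 1
  ext a
  exact h a (Finset.mem_univ a)

/-- A linear map preserving all `VS S` preserves the flag. -/
lemma levelV_invariant (T : Matrix (Equiv.Perm Ω) (Equiv.Perm Ω) ℝ)
    (hT : ∀ S : Finset Ω, ∀ f ∈ VS S, T *ᵥ f ∈ levelV S.card) (k : ℕ) :
    ∀ f ∈ levelV (Ω := Ω) k, T *ᵥ f ∈ levelV k := by
  have : levelV (Ω := Ω) k ≤ (levelV k).comap (Matrix.mulVecLin T) := by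
    apply iSup₂_le
    intro S hS f hf
    exact levelV_mono hS (hT S f hf)
  exact fun f hf => this hf

lemma regMat_mem_VS (μ : Equiv.Perm Ω → ℝ) (S : Finset Ω) (f : Equiv.Perm Ω → ℝ) (hf : f ∈ VS S) :
    regMat μ *ᵥ f ∈ VS S := by
  intro x y hxy
  rw [regMat_mulVec, regMat_mulVec]
  refine Finset.sum_congr rfl fun h _ => ?_
  rw [hf (h⁻¹ * x) (h⁻¹ * y)]
  intro a ha
  simp [hxy a ha]

lemma regMat_mem_levelV (μ : Equiv.Perm Ω → ℝ) (k : ℕ) (f : Equiv.Perm Ω → ℝ)
    (hf : f ∈ levelV (Ω := Ω) k) : regMat μ *ᵥ f ∈ levelV k :=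
  levelV_invariant (regMat μ) (fun S f hf => VS_le_levelV le_rfl (regMat_mem_VS μ S f hf)) k f hf

lemma rightMat_mem_VS (τ : Equiv.Perm Ω) (S : Finset Ω) (f : Equiv.Perm Ω → ℝ) (hf : f ∈ VS S) :
    rightMat τ *ᵥ f ∈ VS (S.image τ) := by
  intro x y hxy
  rw [rightMat_mulVec, rightMat_mulVec]
  apply hf
  intro a ha
  exact hxy (τ a) (Finset.mem_image_of_mem _ ha)

lemma rightMat_mem_levelV (τ : Equiv.Perm Ω) (k : ℕ) (f : Equiv.Perm Ω → ℝ)
    (hf : f ∈ levelV (Ω := Ω) k) : rightMat τ *ᵥ f ∈ levelV k :=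
  levelV_invariant (rightMat τ) (fun S f hf => VS_le_levelV
    (by rw [Finset.card_image_of_injective _ τ.injective]) (rightMat_mem_VS τ S f hf)) k f hf

/-- The level pieces. -/
noncomputable def levelE (k : ℕ) : Matrix (Equiv.Perm Ω) (Equiv.Perm Ω) ℝ :=
  flagE (levelV (Ω := Ω)) k

lemma levelE_symm (k : ℕ) : (levelE (Ω := Ω) k)ᵀ = levelE k := flagE_symm _ k

lemma levelE_idem (k : ℕ) : levelE (Ω := Ω) k * levelE k = levelE k :=
  flagE_idem _ levelV_mono k

theorem levelE_decomp : OrthoDecomp (fun k : Fin (Fintype.card Ω + 1) => levelE (Ω := Ω) k.val) :=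
  flagE_decomp _ levelV_mono _ levelV_top

lemma levelE_comm_regMat (μ : Equiv.Perm Ω → ℝ) (k : ℕ) :
    regMat μ * levelE (Ω := Ω) k = levelE k * regMat μ := by
  apply flagE_comm
  · exact fun k f hf => regMat_mem_levelV μ k f hf
  · intro k f hf
    rw [regMat_transpose]
    exact regMat_mem_levelV _ k f hf

lemma levelE_comm_rightMat (τ : Equiv.Perm Ω) (k : ℕ) :
    rightMat τ * levelE (Ω := Ω) k = levelE k * rightMat τ := by
  apply flagE_comm
  · exact fun k f hf => rightMat_mem_levelV τ k f hf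
  · intro k f hf
    rw [rightMat_transpose]
    exact rightMat_mem_levelV _ k f hf

end Levels

end Crest.Agent.Lib.Thorp
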