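/-
Framework for S0222 (Thorp shuffle), Part F: restriction to tuples of cards, pure functions, and the
bridge from a tuple bound to the operator norm on the level pieces.
-/
import Crest.Agent.Lib.Thorp.Levels
import Crest.Agent.Lib.Thorp.Bits

set_option autoImplicit false
set_option linter.unusedSectionVars false

namespace Crest.Agent.Lib.Thorp

open Matrix

section Avg

variable {Ω : Type*} [Fintype Ω] [DecidableEq Ω]

/-- The permutations fixing `S` pointwise. -/
def fixS (S : Finset Ω) : Finset (Equiv.Perm Ω) :=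
  Finset.univ.filter (fun τ => ∀ a ∈ S, τ a = a)

lemma mem_fixS {S : Finset Ω} {τ : Equiv.Perm Ω} : τ ∈ fixS S ↔ ∀ a ∈ S, τ a = a := by
  simp [fixS]

lemma one_mem_fixS (S : Finset Ω) : (1 : Equiv.Perm Ω) ∈ fixS S := by
  simp [mem_fixS]

lemma fixS_card_pos (S : Finset Ω) : 0 < (fixS S).card :=
  Finset.card_pos.mpr ⟨1, one_mem_fixS S⟩

lemma inv_mem_fixS {S : Finset Ω} {τ : Equiv.Perm Ω} (h : τ ∈ fixS S) : τ⁻¹ ∈ fixS S := by
  rw [mem_fixS] at h ⊢
  intro a ha
  rw [Equiv.Perm.inv_eq_iff_eq]
  exact (h a ha).symm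

lemma mul_mem_fixS {S : Finset Ω} {τ σ : Equiv.Perm Ω} (h : τ ∈ fixS S) (h' : σ ∈ fixS S) :
    τ * σ ∈ fixS S := by
  rw [mem_fixS] at h h' ⊢
  intro a ha
  simp [h' a ha, h a ha]

/-- Average over the right cosets of `fixS S`: the orthogonal projection onto `VS S`. -/
noncomputable def avgS (S : Finset Ω) : Matrix (Equiv.Perm Ω) (Equiv.Perm Ω) ℝ :=
  ((fixS S).card : ℝ)⁻¹ • ∑ τ ∈ fixS S, rightMat τ

lemma avgS_mulVec (S : Finset Ω) (f : Equiv.Perm Ω → ℝ) (x : Equiv.Perm Ω) :
    (avgS S *ᵥ f) x = ((fixS S).card : ℝ)⁻¹ * ∑ τ ∈ fixS S, f (x * τ) := by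
  unfold avgS
  rw [Matrix.smul_mulVec, Pi.smul_apply, smul_eq_mul, Matrix.sum_mulVec, Finset.sum_apply]
  simp_rw [rightMat_mulVec]

lemma avgS_transpose (S : Finset Ω) : (avgS S)ᵀ = avgS S := by
  unfold avgS
  rw [Matrix.transpose_smul, Matrix.transpose_sum]
  simp_rw [rightMat_transpose]
  congr 1
  refine Finset.sum_bij' (fun τ _ => τ⁻¹) (fun τ _ => τ⁻¹) (fun τ h => inv_mem_fixS h)
    (fun τ h => inv_mem_fixS h) (by simp) (by simp) (by simp)

lemma avgS_mem_VS (S : Finset Ω) (f : Equiv.Perm Ω → ℝ) : avgS S *ᵥ f ∈ VS S := by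
  intro x y hxy
  rw [avgS_mulVec, avgS_mulVec]
  congr 1
  have hσ : x⁻¹ * y ∈ fixS S := by
    rw [mem_fixS]
    intro a ha
    simp [← hxy a ha]
  refine Finset.sum_bij' (fun τ _ => (x⁻¹ * y)⁻¹ * τ) (fun τ _ => (x⁻¹ * y) * τ)
    (fun τ h => mul_mem_fixS (inv_mem_fixS hσ) h) (fun τ h => mul_mem_fixS hσ h)
    (by intro τ _; group) (by intro τ _; group) ?_
  intro τ _
  congr 1
  group

lemma avgS_fix (S : Finset Ω) (f : Equiv.Perm Ω → ℝ) (hf : f ∈ VS S) : avgS S *ᵥ f = f := by
  funext x
  rw [avgS_mulVec]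
  have : ∀ τ ∈ fixS S, f (x * τ) = f x := by
    intro τ hτ
    apply hf
    intro a ha
    simp [mem_fixS.mp hτ a ha]
  rw [Finset.sum_congr rfl this, Finset.sum_const, nsmul_eq_mul]
  have h := fixS_card_pos S
  field_simp

lemma avgS_comm_regMat (S : Finset Ω) (μ : Equiv.Perm Ω → ℝ) :
    regMat μ * avgS S = avgS S * regMat μ := by
  unfold avgS
  rw [Matrix.mul_smul, Matrix.smul_mul, Finset.mul_sum, Finset.sum_mul]
  congr 1
  exact Finset.sum_congr rfl fun τ _ => regMat_comm_rightMat μ τ

lemma avgS_comm_levelE (S : Finset Ω) (k : ℕ) : levelE k * avgS S = avgS S * levelE (Ω := Ω) k := by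
  unfold avgS
  rw [Matrix.mul_smul, Matrix.smul_mul, Finset.mul_sum, Finset.sum_mul]
  congr 1
  exact Finset.sum_congr rfl fun τ _ => (levelE_comm_rightMat τ k).symm

lemma avgS_dot (S : Finset Ω) (u w : Equiv.Perm Ω → ℝ) :
    (avgS S *ᵥ u) ⬝ᵥ w = u ⬝ᵥ (avgS S *ᵥ w) := by
  rw [Matrix.dotProduct_mulVec, ← Matrix.mulVec_transpose, avgS_transpose]

/-- The orthogonal complement of a vector. -/
def dotOrth {ι : Type*} [Fintype ι] (u : ι → ℝ) : Submodule ℝ (ι → ℝ) where
  carrier := {w | u ⬝ᵥ w = 0}
  add_mem' := by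
    intro a b ha hb
    simp only [Set.mem_ofPred_eq] at ha hb ⊢
    rw [dotProduct_add, ha, hb, add_zero]
  zero_mem' := by simp
  smul_mem' := by
    intro c a ha
    simp only [Set.mem_ofPred_eq] at ha ⊢
    rw [dotProduct_smul, ha, smul_zero]

lemma dot_self_eq_zero' {ι : Type*} [Fintype ι] {u : ι → ℝ} (h : u ⬝ᵥ u = 0) : u = 0 := by
  exact dotProduct_self_eq_zero.mp h

/-- A nonzero vector of the level space has a nonzero average on some small set of cards. -/
lemma exists_avgS_ne_zero {k : ℕ} {u : Equiv.Perm Ω → ℝ} (hu : u ∈ levelV k) (hne : u ≠ 0) :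
    ∃ S : Finset Ω, S.card ≤ k ∧ avgS S *ᵥ u ≠ 0 := by
  by_contra hcon
  push Not at hcon
  have h1 : levelV (Ω := Ω) k ≤ dotOrth u := by
    apply iSup₂_le
    intro S hS w hw
    change u ⬝ᵥ w = 0
    rw [← avgS_fix S w hw, ← avgS_dot, hcon S hS, zero_dotProduct]
  exact hne (dot_self_eq_zero' (h1 hu))

end Avg

section Tuples

variable {Ω : Type*} [Fintype Ω] [DecidableEq Ω]

/-- Restriction of an arrangement to a set of cards. -/
def restr (S : Finset Ω) (x : Equiv.Perm Ω) : S → Ω := fun a => x a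

lemma restr_injective (S : Finset Ω) (x : Equiv.Perm Ω) : Function.Injective (restr S x) := by
  intro a b h
  exact Subtype.ext (x.injective h)

/-- Every injective tuple extends to a permutation. -/
lemma exists_extend (S : Finset Ω) (y : S → Ω) (hy : Function.Injective y) :
    ∃ x : Equiv.Perm Ω, restr S x = y := by
  classical
  let e : {a // a ∈ S} ≃ {b // b ∈ Set.range y} := Equiv.ofInjective y hy
  refine ⟨e.extendSubtype, ?_⟩
  funext a
  simp only [restr]
  rw [Equiv.extendSubtype_apply_of_mem e a.1 a.2]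
  rfl

lemma restr_eq_iff (S : Finset Ω) (x z : Equiv.Perm Ω) :
    restr S x = restr S z ↔ ∀ a ∈ S, x a = z a := by
  constructor
  · intro h a ha
    exact congrFun h ⟨a, ha⟩
  · intro h
    funext a
    exact h a.1 a.2

/-- The number of arrangements with a given injective restriction is the size of `fixS S`. -/
lemma card_fiber (S : Finset Ω) (y : S → Ω) (hy : Function.Injective y) :
    (Finset.univ.filter (fun x : Equiv.Perm Ω => restr S x = y)).card = (fixS S).card := by
  obtain ⟨x0, hx0⟩ := exists_extend S y hy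
  symm
  refine Finset.card_bij' (fun τ _ => x0 * τ) (fun x _ => x0⁻¹ * x) ?_ ?_ ?_ ?_
  · intro τ hτ
    simp only [Finset.mem_filter, Finset.mem_univ, true_and]
    rw [← hx0, restr_eq_iff]
    intro a ha
    simp [mem_fixS.mp hτ a ha]
  · intro x hx
    simp only [Finset.mem_filter, Finset.mem_univ, true_and] at hx
    rw [mem_fixS]
    intro a ha
    have := (restr_eq_iff S x x0).mp (hx.trans hx0.symm) a ha
    simp [this]
  · intro τ _; group
  · intro x _; group

lemma card_fiber_le (S : Finset Ω) (y : S → Ω) :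
    (Finset.univ.filter (fun x : Equiv.Perm Ω => restr S x = y)).card ≤ (fixS S).card := by
  by_cases hy : Function.Injective y
  · exact (card_fiber S y hy).le
  · have : Finset.univ.filter (fun x : Equiv.Perm Ω => restr S x = y) = ∅ := by
      apply Finset.filter_eq_empty_iff.mpr
      intro x _ h
      exact hy (h ▸ restr_injective S x)
    rw [this]; simp

/-- Sum over arrangements of a function of the restriction. -/
lemma sum_restr (S : Finset Ω) (F : (S → Ω) → ℝ) :
    ∑ x : Equiv.Perm Ω, F (restr S x)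
      = ∑ y : S → Ω, ((Finset.univ.filter (fun x : Equiv.Perm Ω => restr S x = y)).card : ℝ) * F y := by
  rw [← Finset.sum_fiberwise (s := Finset.univ) (g := restr S) (f := fun x => F (restr S x))]
  refine Finset.sum_congr rfl fun y _ => ?_
  rw [Finset.sum_congr rfl (g := fun _ => F y)]
  · simp
  · intro x hx
    rw [(Finset.mem_filter.mp hx).2]

lemma sum_restr_of_inj (S : Finset Ω) (F : (S → Ω) → ℝ)
    (hF : ∀ y, ¬ Function.Injective y → F y = 0) :
    ∑ x : Equiv.Perm Ω, F (restr S x) = ((fixS S).card : ℝ) * ∑ y : S → Ω, F y := by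
  rw [sum_restr, Finset.mul_sum]
  refine Finset.sum_congr rfl fun y _ => ?_
  by_cases hy : Function.Injective y
  · rw [card_fiber S y hy]
  · rw [hF y hy]; simp

lemma sum_restr_le (S : Finset Ω) (F : (S → Ω) → ℝ) (hF : ∀ y, 0 ≤ F y) :
    ∑ x : Equiv.Perm Ω, F (restr S x) ≤ ((fixS S).card : ℝ) * ∑ y : S → Ω, F y := by
  rw [sum_restr, Finset.mul_sum]
  refine Finset.sum_le_sum fun y _ => ?_
  apply mul_le_mul_of_nonneg_right _ (hF y)
  exact_mod_cast card_fiber_le S y

/-- The function on injective tuples attached to a function in `VS S`. -/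
noncomputable def tupleOf (S : Finset Ω) (h : Equiv.Perm Ω → ℝ) (y : S → Ω) : ℝ :=
  if hy : Function.Injective y then h (Classical.choose (exists_extend S y hy)) else 0

lemma tupleOf_restr (S : Finset Ω) (h : Equiv.Perm Ω → ℝ) (hh : h ∈ VS S) (x : Equiv.Perm Ω) :
    tupleOf S h (restr S x) = h x := by
  have hy := restr_injective S x
  simp only [tupleOf, hy, dif_pos]
  apply hh
  exact (restr_eq_iff S _ _).mp (Classical.choose_spec (exists_extend S (restr S x) hy))

lemma tupleOf_not_inj (S : Finset Ω) (h : Equiv.Perm Ω → ℝ) (y : S → Ω)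
    (hy : ¬ Function.Injective y) : tupleOf S h y = 0 := by
  simp [tupleOf, hy]

/-- A function `h ∈ VS S` orthogonal to the level below has zero line sums. -/
lemma tupleOf_line_sum (S : Finset Ω) (h : Equiv.Perm Ω → ℝ) (hh : h ∈ VS S)
    (horth : ∀ w ∈ levelV (Ω := Ω) (S.card - 1), h ⬝ᵥ w = 0) (a : S) (y : S → Ω) :
    ∑ v : Ω, tupleOf S h (Function.update y a v) = 0 := by
  classical
  -- the indicator of the line through `y` in direction `a`
  let line : (S → Ω) → Prop := fun z => ∀ b, b ≠ a → z b = y b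
  let g : Equiv.Perm Ω → ℝ := fun x => if line (restr S x) then 1 else 0
  have hg : g ∈ VS (S.erase a.1) := by
    intro x z hxz
    have : line (restr S x) ↔ line (restr S z) := by
      apply forall_congr'
      intro b
      apply imp_congr_right
      intro hb
      have hb' : b.1 ∈ S.erase a.1 := Finset.mem_erase.mpr ⟨fun e => hb (Subtype.ext e), b.2⟩
      have : restr S x b = restr S z b := hxz b.1 hb'
      rw [this]
    simp only [g, this]
  have hcard : (S.erase a.1).card ≤ S.card - 1 := by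
    rw [Finset.card_erase_of_mem a.2]
  have h0 : h ⬝ᵥ g = 0 := horth g (VS_le_levelV hcard hg)
  let F : (S → Ω) → ℝ := fun z => tupleOf S h z * (if line z then 1 else 0)
  have hF : ∀ z, ¬ Function.Injective z → F z = 0 := by
    intro z hz
    simp [F, tupleOf_not_inj S h z hz]
  have h1 : h ⬝ᵥ g = ∑ x : Equiv.Perm Ω, F (restr S x) := by
    simp only [dotProduct, F, g]
    refine Finset.sum_congr rfl fun x _ => ?_
    rw [tupleOf_restr S h hh]
  have h2 := sum_restr_of_inj S F hF
  rw [← h1, h0] at h2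
  have hpos : ((fixS S).card : ℝ) ≠ 0 := by
    exact_mod_cast (fixS_card_pos S).ne'
  have h3 : ∑ z : S → Ω, F z = 0 := by
    rcases mul_eq_zero.mp h2.symm with h4 | h4
    · exact absurd h4 hpos
    · exact h4
  rw [← h3]
  -- the sum over the line
  have h5 : ∑ z : S → Ω, F z = ∑ z ∈ Finset.univ.filter line, tupleOf S h z := by
    rw [Finset.sum_filter]
    refine Finset.sum_congr rfl fun z _ => ?_
    by_cases hz : line z
    · simp only [F, if_pos hz, mul_one]
      exact (if_pos hz).symm
    · simp only [F, if_neg hz, mul_zero]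
      exact (if_neg hz).symm
  rw [h5]
  have hinj : Function.Injective (fun v : Ω => Function.update y a v) := Function.update_injective y a
  have himg : Finset.univ.filter line = Finset.univ.image (fun v : Ω => Function.update y a v) := by
    ext z
    simp only [Finset.mem_filter, Finset.mem_univ, true_and, Finset.mem_image]
    constructor
    · intro hz
      refine ⟨z a, ?_⟩
      funext b
      by_cases hb : b = a
      · subst hb; simp
      · simp [Function.update_of_ne hb, hz b hb]
    · rintro ⟨v, rfl⟩ b hb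
      simp [Function.update_of_ne hb]
  rw [himg, Finset.sum_image (fun _ _ _ _ e => hinj e)]

end Tuples

end Crest.Agent.Lib.Thorp
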