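/-
Framework for S0222 (Thorp shuffle), Part G: the tuple operator, and the bridge from a bound on pure
tuple functions (`OpBound`) to the operator norm on the level pieces; the final assembly.
-/
import Crest.Agent.Lib.Thorp.Tuples

set_option autoImplicit false
set_option linter.unusedSectionVars false

namespace Crest.Agent.Lib.Thorp

open Matrix

section TupleOp

variable {D : ℕ} {A : Type*}

/-- The operator `P b` on functions of a tuple of positions: average over the coins. -/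
noncomputable def tupP (b : Fin D) (φ : (A → Pos D) → ℝ) (y : A → Pos D) : ℝ :=
  (Fintype.card (Coin b) : ℝ)⁻¹ * ∑ c : Coin b, φ (fun a => coinPerm c (y a))

/-- The block on functions of a tuple of positions: `tupP 0 (tupP 1 (... (tupP (D-1) φ)))`. -/
noncomputable def tupT (D : ℕ) (φ : (A → Pos D) → ℝ) : (A → Pos D) → ℝ :=
  (List.finRange D).foldr tupP φ

/-- A function of a tuple of positions is pure if it vanishes on non-injective tuples and all its
line sums vanish. -/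
structure IsPure [DecidableEq A] (φ : (A → Pos D) → ℝ) : Prop where
  inj : ∀ y, ¬ Function.Injective y → φ y = 0
  zero : ∀ (a : A) (y : A → Pos D), ∑ v : Pos D, φ (Function.update y a v) = 0

/-- **(Op)**: the contraction bound on pure functions of `k` cards. -/
def OpBound (D k : ℕ) (a : ℝ) : Prop :=
  ∀ (A : Type) [Fintype A] [DecidableEq A], Fintype.card A = k → ∀ φ : (A → Pos D) → ℝ, IsPure φ →
    ∑ y, (tupT D φ y) ^ 2 ≤ a * ∑ y, (φ y) ^ 2

end TupleOp

section Act

variable {D : ℕ}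

lemma regMat_push_mulVec {G Ω' : Type*} [Group G] [Fintype G] [DecidableEq G] [Fintype Ω']
    (g : Ω' → G) (f : G → ℝ) (x : G) :
    (regMat (push g) *ᵥ f) x = (Fintype.card Ω' : ℝ)⁻¹ * ∑ ω, f ((g ω)⁻¹ * x) := by
  rw [regMat_mulVec]
  simp only [push_eq_sum]
  have : ∀ h : G, (∑ ω, if g ω = h then (1 : ℝ) else 0) / (Fintype.card Ω' : ℝ) * f (h⁻¹ * x)
      = (Fintype.card Ω' : ℝ)⁻¹ * ∑ ω, if g ω = h then f (h⁻¹ * x) else 0 := by
    intro h
    rw [div_eq_inv_mul, mul_assoc, Finset.sum_mul]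
    congr 2
    funext ω
    split_ifs <;> simp
  simp_rw [this]
  rw [← Finset.mul_sum, Finset.sum_comm]
  congr 1
  refine Finset.sum_congr rfl fun ω _ => ?_
  simp

lemma quad_transpose {ι : Type*} [Fintype ι] [DecidableEq ι] (B : Matrix ι ι ℝ) (u : ι → ℝ) :
    (B *ᵥ u) ⬝ᵥ (B *ᵥ u) = ((Bᵀ * B) *ᵥ u) ⬝ᵥ u := by
  rw [← Matrix.mulVec_mulVec, Matrix.mulVec_transpose, Matrix.dotProduct_mulVec]

lemma coinPerm_inv {b : Fin D} (c : Coin b) : (coinPerm c)⁻¹ = coinPerm c := by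
  rw [inv_eq_iff_mul_eq_one]
  ext1 x
  exact coinFun_invol c x

variable (S : Finset (Pos D))

lemma P_mulVec_restr (b : Fin D) (φ : (S → Pos D) → ℝ) :
    P b *ᵥ (fun x => φ (restr S x)) = fun x => tupP b φ (restr S x) := by
  funext x
  unfold P swapLaw
  rw [regMat_push_mulVec]
  unfold tupP
  congr 1

lemma list_mulVec_restr (L : List (Fin D)) (φ : (S → Pos D) → ℝ) :
    (L.map P).prod *ᵥ (fun x => φ (restr S x)) = fun x => (L.foldr tupP φ) (restr S x) := by
  induction L with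
  | nil => simp
  | cons b L ih =>
    rw [List.map_cons, List.prod_cons, ← Matrix.mulVec_mulVec, ih, List.foldr_cons, P_mulVec_restr]

/-- The block acts on functions of a set of cards by the tuple operator. -/
lemma blockT_mulVec_restr (φ : (S → Pos D) → ℝ) :
    blockT D *ᵥ (fun x => φ (restr S x)) = fun x => tupT D φ (restr S x) :=
  list_mulVec_restr S _ φ

/-- The block is a regular representation matrix of a probability law. -/
lemma exists_blockT_eq_regMat (D : ℕ) :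
    ∃ ν : Equiv.Perm (Pos D) → ℝ, blockT D = regMat ν ∧ ∑ g, ν g = 1 := by
  have hP : ∀ b : Fin D, ∑ g, swapLaw b g = 1 := by
    intro b
    have : Nonempty (Coin b) := ⟨⟨fun _ => false, fun _ => rfl⟩⟩
    exact push_sum _
  have key : ∀ L : List (Fin D),
      ∃ ν : Equiv.Perm (Pos D) → ℝ, (L.map P).prod = regMat ν ∧ ∑ g, ν g = 1 := by
    intro L
    induction L with
    | nil =>
      refine ⟨delta 1, by simp [regMat_delta_one], ?_⟩
      simp [delta]
    | cons b L ih =>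
      obtain ⟨ν, h1, h2⟩ := ih
      refine ⟨conv (swapLaw b) ν, ?_, ?_⟩
      · rw [List.map_cons, List.prod_cons, h1, regMat_conv]; rfl
      · simp only [conv]
        rw [Finset.sum_comm]
        have : ∀ h : Equiv.Perm (Pos D), ∑ g, swapLaw b h * ν (h⁻¹ * g) = swapLaw b h := by
          intro h
          rw [← Finset.mul_sum]
          have h3 : ∑ g, ν (h⁻¹ * g) = ∑ g, ν g :=
            Fintype.sum_equiv (Equiv.mulLeft h⁻¹) _ _ (fun _ => rfl)
          rw [h3, h2, mul_one]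
        simp_rw [this]
        exact hP b
  exact key _

end Act

section BridgeThm

variable {D : ℕ}

/-- **The bridge**: a bound on pure functions of `k` cards bounds the block on the level piece `k`. -/
theorem levelOp_of_OpBound (k : ℕ) (a : ℝ) (ha : 0 ≤ a) (h_1 : OpBound D (k + 1) a)
    (v : Equiv.Perm (Pos D) → ℝ) :
    ((blockT D * levelE (k + 1)) *ᵥ v) ⬝ᵥ ((blockT D * levelE (k + 1)) *ᵥ v) ≤ a * (v ⬝ᵥ v) := by
  obtain ⟨ν, hν, -⟩ := exists_blockT_eq_regMat D
  set T := blockT D with hT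
  set E := levelE (Ω := Pos D) (k + 1) with hE
  have hEsym : Eᵀ = E := levelE_symm _
  have hEidem : E * E = E := levelE_idem _
  set W := (T * E)ᵀ * (T * E) with hW
  have hWsym : Wᵀ = W := by simp [hW, Matrix.transpose_mul]
  have hquad : ∀ u : Equiv.Perm (Pos D) → ℝ,
      ((T * E) *ᵥ u) ⬝ᵥ ((T * E) *ᵥ u) = (W *ᵥ u) ⬝ᵥ u := fun u => quad_transpose _ u
  rw [hquad]
  apply quad_le_of_eigen W hWsym a
  intro μ u hu hWu
  by_contra hμ
  push Not at hμ
  have hμpos : 0 < μ := lt_of_le_of_lt ha hμ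
  have hTE : T * E = E * T := by rw [hν]; exact levelE_comm_regMat ν (k + 1)
  have hWform : W = E * (Tᵀ * (T * E)) := by
    rw [hW, Matrix.transpose_mul, hEsym, Matrix.mul_assoc]
  -- `u` lies in the range of `E`
  have hu_eq : u = E *ᵥ (μ⁻¹ • ((Tᵀ * (T * E)) *ᵥ u)) := by
    rw [Matrix.mulVec_smul, Matrix.mulVec_mulVec, ← hWform, hWu, smul_smul,
      inv_mul_cancel₀ hμpos.ne', one_smul]
  have hEu : E *ᵥ u = u := by
    conv_lhs => rw [hu_eq]
    rw [Matrix.mulVec_mulVec, hEidem, ← hu_eq]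
  have hu_mem : u ∈ levelV (Ω := Pos D) (k + 1) := by
    rw [← hEu]
    exact flagE_succ_mem _ levelV_mono k u
  obtain ⟨S, hS, hne⟩ := exists_avgS_ne_zero hu_mem hu
  set h := avgS S *ᵥ u with hh
  have hEavg : E * avgS S = avgS S * E := avgS_comm_levelE S (k + 1)
  have hTavg : T * avgS S = avgS S * T := by rw [hν]; exact avgS_comm_regMat S ν
  have hTtavg : Tᵀ * avgS S = avgS S * Tᵀ := by
    rw [hν, regMat_transpose]; exact avgS_comm_regMat S _
  have hEh : E *ᵥ h = h := by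
    rw [hh, Matrix.mulVec_mulVec, hEavg, ← Matrix.mulVec_mulVec, hEu]
  have hWavg : W * avgS S = avgS S * W := by
    rw [hWform]
    simp only [Matrix.mul_assoc]
    rw [hEavg, ← Matrix.mul_assoc T, hTavg, Matrix.mul_assoc, ← Matrix.mul_assoc Tᵀ, hTtavg,
      Matrix.mul_assoc, ← Matrix.mul_assoc E, hEavg, Matrix.mul_assoc]
  have hWh : W *ᵥ h = μ • h := by
    rw [hh, Matrix.mulVec_mulVec, hWavg, ← Matrix.mulVec_mulVec, hWu, Matrix.mulVec_smul]
  have horth : ∀ w ∈ levelV (Ω := Pos D) k, h ⬝ᵥ w = 0 := by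
    intro w hw
    rw [← hEh]
    exact flagE_succ_orth _ levelV_mono k h w hw
  have hh_mem : h ∈ VS S := avgS_mem_VS S u
  have hcard : S.card = k + 1 := by
    by_contra hc
    have hle : S.card ≤ k := by omega
    exact hne (dot_self_eq_zero' (horth h (VS_le_levelV hle hh_mem)))
  -- the tuple function
  set φ : (S → Pos D) → ℝ := tupleOf S h with hφ
  have hpure : IsPure φ := by
    refine ⟨fun y hy => tupleOf_not_inj S h y hy, fun a' y => ?_⟩
    apply tupleOf_line_sum S h hh_mem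
    intro w hw
    apply horth w
    rwa [hcard] at hw
  have hOp := h_1 S (by simp [hcard]) φ hpure
  have hh_fun : h = fun x => φ (restr S x) := by
    funext x
    exact (tupleOf_restr S h hh_mem x).symm
  have hTh : T *ᵥ h = fun x => tupT D φ (restr S x) := by
    rw [hh_fun]
    exact blockT_mulVec_restr S φ
  set N : ℝ := ((fixS S).card : ℝ) with hN
  have hNpos : 0 < N := by
    rw [hN]; exact_mod_cast fixS_card_pos S
  have h1 : (T *ᵥ h) ⬝ᵥ (T *ᵥ h) ≤ N * ∑ y, (tupT D φ y) ^ 2 := by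
    rw [hTh]
    simp only [dotProduct]
    have := sum_restr_le S (fun y => (tupT D φ y) ^ 2) (fun y => sq_nonneg _)
    simpa [sq] using this
  have h2 : h ⬝ᵥ h = N * ∑ y, (φ y) ^ 2 := by
    conv_lhs => rw [hh_fun]
    simp only [dotProduct]
    have := sum_restr_of_inj S (fun y => (φ y) ^ 2) (fun y hy => by simp [hpure.inj y hy])
    simpa [sq] using this
  have h3 : (W *ᵥ h) ⬝ᵥ h = (T *ᵥ h) ⬝ᵥ (T *ᵥ h) := by
    rw [← hquad, ← Matrix.mulVec_mulVec, hEh]
  rw [hWh, smul_dotProduct, smul_eq_mul] at h3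
  have h4 : 0 < h ⬝ᵥ h := by
    have h5 : 0 ≤ h ⬝ᵥ h := Finset.sum_nonneg (fun i _ => mul_self_nonneg _)
    exact lt_of_le_of_ne h5 (fun e => hne (dot_self_eq_zero' e.symm))
  have h5 : μ * (h ⬝ᵥ h) ≤ a * (h ⬝ᵥ h) := by
    rw [h3]
    calc (T *ᵥ h) ⬝ᵥ (T *ᵥ h) ≤ N * ∑ y, (tupT D φ y) ^ 2 := h1
      _ ≤ N * (a * ∑ y, (φ y) ^ 2) := mul_le_mul_of_nonneg_left hOp hNpos.le
      _ = a * (N * ∑ y, (φ y) ^ 2) := by ring
      _ = a * (h ⬝ᵥ h) := by rw [h2]
  have h6 := le_of_mul_le_mul_right h5 h4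
  exact absurd h6 (not_le.mpr hμ)

end BridgeThm

section Zero

variable {Ω : Type*} [Fintype Ω] [DecidableEq Ω]

lemma levelV_zero_const {f : Equiv.Perm Ω → ℝ} (hf : f ∈ levelV (Ω := Ω) 0) (x y : Equiv.Perm Ω) :
    f x = f y := by
  have h : levelV (Ω := Ω) 0 ≤ VS ∅ := by
    apply iSup₂_le
    intro S hS
    have : S = ∅ := Finset.card_eq_zero.mp (Nat.le_zero.mp hS)
    rw [this]
  exact h hf x y (by simp)

lemma const_mem_levelV_zero : (fun _ : Equiv.Perm Ω => (1 : ℝ)) ∈ levelV (Ω := Ω) 0 := by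
  apply VS_le_levelV (S := ∅) (by simp)
  intro x y _
  rfl

lemma levelE_zero_mulVec (v : Equiv.Perm Ω → ℝ) (x : Equiv.Perm Ω) :
    (levelE (Ω := Ω) 0 *ᵥ v) x = (Fintype.card (Equiv.Perm Ω) : ℝ)⁻¹ * ∑ y, v y := by
  have hE : levelE (Ω := Ω) 0 = projMat (levelV 0) := rfl
  rw [hE]
  have hconst : ∀ y, (projMat (levelV (Ω := Ω) 0) *ᵥ v) y = (projMat (levelV (Ω := Ω) 0) *ᵥ v) x :=
    fun y => levelV_zero_const (projMat_mem _ v) y x
  have h1 : (projMat (levelV (Ω := Ω) 0) *ᵥ v) ⬝ᵥ (fun _ => (1 : ℝ)) = ∑ y, v y := by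
    rw [projMat_dot, projMat_fix _ _ const_mem_levelV_zero]
    simp [dotProduct]
  have h2 : (projMat (levelV (Ω := Ω) 0) *ᵥ v) ⬝ᵥ (fun _ => (1 : ℝ))
      = (Fintype.card (Equiv.Perm Ω) : ℝ) * (projMat (levelV (Ω := Ω) 0) *ᵥ v) x := by
    simp only [dotProduct, mul_one]
    rw [Finset.sum_congr rfl (fun y _ => hconst y)]
    simp [Finset.card_univ]
  have hpos : (Fintype.card (Equiv.Perm Ω) : ℝ) ≠ 0 := by
    exact_mod_cast Fintype.card_ne_zero
  rw [← h1, h2]
  field_simp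

lemma levelE_zero_apply (x y : Equiv.Perm Ω) :
    levelE (Ω := Ω) 0 x y = (Fintype.card (Equiv.Perm Ω) : ℝ)⁻¹ := by
  have := levelE_zero_mulVec (Ω := Ω) (Pi.single y 1) x
  simpa using this

lemma hsSq_levelE_zero : hsSq (levelE (Ω := Ω) 0) = 1 := by
  simp only [hsSq, levelE_zero_apply]
  simp only [Finset.sum_const, Finset.card_univ, nsmul_eq_mul]
  have hpos : (Fintype.card (Equiv.Perm Ω) : ℝ) ≠ 0 := by
    exact_mod_cast Fintype.card_ne_zero
  field_simp

lemma regMat_pow_mul_levelE_zero (ν : Equiv.Perm Ω → ℝ) (hν : ∑ g, ν g = 1) (m : ℕ) :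
    (regMat ν) ^ m * levelE (Ω := Ω) 0 = levelE 0 := by
  induction m with
  | zero => simp
  | succ m ih =>
    rw [pow_succ', Matrix.mul_assoc, ih]
    apply mat_ext_of_mulVec
    intro v
    rw [← Matrix.mulVec_mulVec]
    funext x
    rw [regMat_mulVec]
    simp_rw [levelE_zero_mulVec]
    rw [← Finset.sum_mul, hν, one_mul]

end Zero

section Assembly

variable {D : ℕ}

/-- **Assembly** (operator form): the Hilbert-Schmidt norm of a power of the block is bounded by the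
operator norms and traces on the level pieces. -/
theorem hsSq_block_le_of_level (K : ℕ) (a : ℕ → ℝ) (ha0 : ∀ k, 0 ≤ a k)
    (hOp : ∀ k (v : Equiv.Perm (Pos D) → ℝ),
      ((blockT D * levelE (k + 1)) *ᵥ v) ⬝ᵥ ((blockT D * levelE (k + 1)) *ᵥ v) ≤ a k * (v ⬝ᵥ v)) :
    hsSq (blockT D ^ (K + 4)) ≤ 1 + ∑ k ∈ Finset.range (Fintype.card (Pos D)),
      (a k) ^ K * trace (((blockT D)ᵀ * blockT D) ^ 4 * levelE (k + 1)) := by
  obtain ⟨ν, hν, hν1⟩ := exists_blockT_eq_regMat D
  rw [hsSq_eq_sum levelE_decomp, Fin.sum_univ_eq_sum_range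
    (fun k => hsSq (blockT D ^ (K + 4) * levelE (Ω := Pos D) k)), Finset.sum_range_succ']
  have h0 : hsSq (blockT D ^ (K + 4) * levelE (Ω := Pos D) 0) = 1 := by
    rw [hν, regMat_pow_mul_levelE_zero ν hν1, hsSq_levelE_zero]
  rw [h0, add_comm]
  gcongr with k _
  apply hsSq_pow_piece_le (levelE_symm _) (levelE_idem _)
  · rw [hν]; exact levelE_comm_regMat ν (k + 1)
  · exact ha0 k
  · exact hOp k

/-- **Assembly**: the Hilbert-Schmidt norm of a power of the block is bounded by the level data. -/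
theorem hsSq_block_le (K : ℕ) (a : ℕ → ℝ) (ha0 : ∀ k, 0 ≤ a k) (hOp : ∀ k, OpBound D (k + 1) (a k)) :
    hsSq (blockT D ^ (K + 4)) ≤ 1 + ∑ k ∈ Finset.range (Fintype.card (Pos D)),
      (a k) ^ K * trace (((blockT D)ᵀ * blockT D) ^ 4 * levelE (k + 1)) := by
  obtain ⟨ν, hν, hν1⟩ := exists_blockT_eq_regMat D
  rw [hsSq_eq_sum levelE_decomp, Fin.sum_univ_eq_sum_range
    (fun k => hsSq (blockT D ^ (K + 4) * levelE (Ω := Pos D) k)), Finset.sum_range_succ']
  have h0 : hsSq (blockT D ^ (K + 4) * levelE (Ω := Pos D) 0) = 1 := by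
    rw [hν, regMat_pow_mul_levelE_zero ν hν1, hsSq_levelE_zero]
  rw [h0, add_comm]
  gcongr with k _
  apply hsSq_pow_piece_le (levelE_symm _) (levelE_idem _)
  · rw [hν]; exact levelE_comm_regMat ν (k + 1)
  · exact ha0 k
  · exact levelOp_of_OpBound k (a k) (ha0 k) (hOp k)
  

end Assembly

/-- **The final reduction of S0222, operator form.** It suffices to give `a D k`, a bound of the squared
operator norm of the block on the level piece `k+1` and `b D k`, a bound of the trace of `W⁴` on the level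
piece `k+1`, with `∑_k a(D,k)^1596 b(D,k) → 0`. -/
theorem S0222_of_level_op (a b : ℕ → ℕ → ℝ) (ha0 : ∀ D k, 0 ≤ a D k)
    (hOp : ∀ D k (v : Equiv.Perm (Pos D) → ℝ),
      ((blockT D * levelE (k + 1)) *ᵥ v) ⬝ᵥ ((blockT D * levelE (k + 1)) *ᵥ v) ≤ a D k * (v ⬝ᵥ v))
    (hb : ∀ D k, trace (((blockT D)ᵀ * blockT D) ^ 4 * levelE (k + 1)) ≤ b D k)
    (hlim : Filter.Tendsto (fun D : ℕ => ∑ k ∈ Finset.range (Fintype.card (Pos (D + 1))),
      (a (D + 1) k) ^ 1596 * b (D + 1) k) Filter.atTop (nhds 0)) :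
    Filter.Tendsto (fun d : ℕ => Crest.ProbabilityR.Shuffle.tvFromUniform (2 ^ d) (1600 * (d + 1)))
      Filter.atTop (nhds 0) := by
  have h1 : Filter.Tendsto (fun D : ℕ => Real.sqrt ((1 / 4) *
      ∑ k ∈ Finset.range (Fintype.card (Pos (D + 1))), (a (D + 1) k) ^ 1596 * b (D + 1) k))
      Filter.atTop (nhds 0) := by
    have h2 := (hlim.const_mul (1 / 4 : ℝ)).sqrt
    simpa using h2
  refine squeeze_zero (fun d => tvFromUniform_nonneg _ _) (fun d => ?_) h1
  apply Real.le_sqrt_of_sq_le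
  refine (tv_sq_le_block d 1600).trans ?_
  have h3 := hsSq_block_le_of_level (D := d + 1) 1596 (a (d + 1)) (ha0 _) (hOp _)
  have h4 : ∑ k ∈ Finset.range (Fintype.card (Pos (d + 1))),
      (a (d + 1) k) ^ 1596 * trace (((blockT (d + 1))ᵀ * blockT (d + 1)) ^ 4 * levelE (k + 1))
      ≤ ∑ k ∈ Finset.range (Fintype.card (Pos (d + 1))), (a (d + 1) k) ^ 1596 * b (d + 1) k := by
    apply Finset.sum_le_sum
    intro k _
    exact mul_le_mul_of_nonneg_left (hb _ k) (pow_nonneg (ha0 _ k) _)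
  have h5 : hsSq (blockT (d + 1) ^ 1600) ≤ 1 + ∑ k ∈ Finset.range (Fintype.card (Pos (d + 1))),
      (a (d + 1) k) ^ 1596 * b (d + 1) k := by
    linarith
  linarith

/-- **The final reduction of S0222.** It suffices to give level data `a D k` (a bound on pure functions of
`k+1` cards) and `b D k` (a bound of the trace of `W⁴` on the level piece `k+1`) with
`∑_k a(D,k)^1596 b(D,k) → 0`. -/
theorem S0222_of_level_data (a b : ℕ → ℕ → ℝ) (ha0 : ∀ D k, 0 ≤ a D k)
    (hOp : ∀ D k, OpBound D (k + 1) (a D k))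
    (hb : ∀ D k, trace (((blockT D)ᵀ * blockT D) ^ 4 * levelE (k + 1)) ≤ b D k)
    (hlim : Filter.Tendsto (fun D : ℕ => ∑ k ∈ Finset.range (Fintype.card (Pos (D + 1))),
      (a (D + 1) k) ^ 1596 * b (D + 1) k) Filter.atTop (nhds 0)) :
    Filter.Tendsto (fun d : ℕ => Crest.ProbabilityR.Shuffle.tvFromUniform (2 ^ d) (1600 * (d + 1)))
      Filter.atTop (nhds 0) := by
  have h1 : Filter.Tendsto (fun D : ℕ => Real.sqrt ((1 / 4) *
      ∑ k ∈ Finset.range (Fintype.card (Pos (D + 1))), (a (D + 1) k) ^ 1596 * b (D + 1) k))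
      Filter.atTop (nhds 0) := by
    have h2 := (hlim.const_mul (1 / 4 : ℝ)).sqrt
    simpa using h2
  refine squeeze_zero (fun d => tvFromUniform_nonneg _ _) (fun d => ?_) h1
  apply Real.le_sqrt_of_sq_le
  refine (tv_sq_le_block d 1600).trans ?_
  have h3 := hsSq_block_le (D := d + 1) 1596 (a (d + 1)) (ha0 _) (hOp _)
  have h4 : ∑ k ∈ Finset.range (Fintype.card (Pos (d + 1))),
      (a (d + 1) k) ^ 1596 * trace (((blockT (d + 1))ᵀ * blockT (d + 1)) ^ 4 * levelE (k + 1))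
      ≤ ∑ k ∈ Finset.range (Fintype.card (Pos (d + 1))), (a (d + 1) k) ^ 1596 * b (d + 1) k := by
    apply Finset.sum_le_sum
    intro k _
    exact mul_le_mul_of_nonneg_left (hb _ k) (pow_nonneg (ha0 _ k) _)
  have h5 : hsSq (blockT (d + 1) ^ 1600) ≤ 1 + ∑ k ∈ Finset.range (Fintype.card (Pos (d + 1))),
      (a (d + 1) k) ^ 1596 * b (d + 1) k := by
    linarith
  linarith

end Crest.Agent.Lib.Thorp
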