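/-
S0222 (Thorp shuffle), the law of `W = Tᵀ T` by recursion on the top bit (helper83).
`X (D+1)` is the law of `hc c' * sumPerm a0 a1 * hc c` for independent uniform coins `c, c'` and
independent `a0, a1 ∼ X D`.
-/
import Crest.Agent.Lib.Thorp.Bridge

set_option autoImplicit false
set_option linter.unusedSectionVars false

namespace Crest.Agent.Lib.Thorp.BandLaw

open Matrix
open Crest.Agent.Lib.Thorp

variable {D : ℕ}

/-- The low bits of a position. -/
def lowP (x : Pos (D + 1)) : Pos D := fun i => x i.castSucc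

/-- The top bit of a position. -/
def topP (x : Pos (D + 1)) : Bool := x (Fin.last D)

/-- A position from low bits and top bit. -/
def snocP (y : Pos D) (b : Bool) : Pos (D + 1) := Fin.snoc (α := fun _ => Bool) y b

@[simp] lemma lowP_snocP (y : Pos D) (b : Bool) : lowP (snocP y b) = y := by
  funext i; simp [lowP, snocP]

@[simp] lemma topP_snocP (y : Pos D) (b : Bool) : topP (snocP y b) = b := by
  simp [topP, snocP]

@[simp] lemma snocP_lowP_topP (x : Pos (D + 1)) : snocP (lowP x) (topP x) = x := by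
  funext i
  refine Fin.lastCases ?_ (fun j => ?_) i
  · simp [snocP, topP]
  · simp [snocP, lowP]

lemma pos_ext {x y : Pos (D + 1)} (h1 : lowP x = lowP y) (h2 : topP x = topP y) : x = y := by
  rw [← snocP_lowP_topP x, ← snocP_lowP_topP y, h1, h2]

/-- The sum of two permutations of the halves. -/
def sumPerm (a0 a1 : Equiv.Perm (Pos D)) : Equiv.Perm (Pos (D + 1)) where
  toFun x := snocP ((bif topP x then a1 else a0) (lowP x)) (topP x)
  invFun x := snocP ((bif topP x then a1⁻¹ else a0⁻¹) (lowP x)) (topP x)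
  left_inv x := by
    apply pos_ext
    · cases h : topP x <;> simp [h]
    · simp
  right_inv x := by
    apply pos_ext
    · cases h : topP x <;> simp [h]
    · simp

lemma sumPerm_apply (a0 a1 : Equiv.Perm (Pos D)) (x : Pos (D + 1)) :
    sumPerm a0 a1 x = snocP ((bif topP x then a1 else a0) (lowP x)) (topP x) := rfl

@[simp] lemma sumPerm_snocP (a0 a1 : Equiv.Perm (Pos D)) (y : Pos D) (b : Bool) :
    sumPerm a0 a1 (snocP y b) = snocP ((bif b then a1 else a0) y) b := by
  simp [sumPerm_apply]

lemma sumPerm_mul (a0 a1 b0 b1 : Equiv.Perm (Pos D)) :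
    sumPerm a0 a1 * sumPerm b0 b1 = sumPerm (a0 * b0) (a1 * b1) := by
  ext1 x
  apply pos_ext
  · cases h : topP x <;> simp [sumPerm_apply, h]
  · simp [sumPerm_apply]

lemma sumPerm_one : sumPerm (1 : Equiv.Perm (Pos D)) 1 = 1 := by
  ext1 x
  apply pos_ext
  · cases h : topP x <;> simp [sumPerm_apply, h]
  · simp [sumPerm_apply]

lemma sumPerm_inv (a0 a1 : Equiv.Perm (Pos D)) : (sumPerm a0 a1)⁻¹ = sumPerm a0⁻¹ a1⁻¹ := by
  rw [inv_eq_iff_mul_eq_one, sumPerm_mul]
  simp [sumPerm_one]

lemma sumPerm_injective {a0 a1 b0 b1 : Equiv.Perm (Pos D)} (h : sumPerm a0 a1 = sumPerm b0 b1) :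
    a0 = b0 ∧ a1 = b1 := by
  constructor
  · ext1 y
    have := congrArg lowP (DFunLike.congr_fun h (snocP y false))
    simpa using this
  · ext1 y
    have := congrArg lowP (DFunLike.congr_fun h (snocP y true))
    simpa using this

/-- The top layer of coins, indexed by the low bits. -/
def hc (c : Pos D → Bool) : Equiv.Perm (Pos (D + 1)) where
  toFun x := snocP (lowP x) (xor (topP x) (c (lowP x)))
  invFun x := snocP (lowP x) (xor (topP x) (c (lowP x)))
  left_inv x := by
    apply pos_ext <;> simp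
  right_inv x := by
    apply pos_ext <;> simp

lemma hc_apply (c : Pos D → Bool) (x : Pos (D + 1)) :
    hc c x = snocP (lowP x) (xor (topP x) (c (lowP x))) := rfl

@[simp] lemma hc_snocP (c : Pos D → Bool) (y : Pos D) (b : Bool) :
    hc c (snocP y b) = snocP y (xor b (c y)) := by
  simp [hc_apply]

lemma hc_inv (c : Pos D → Bool) : (hc c)⁻¹ = hc c := rfl

lemma lowP_flipAt_last (x : Pos (D + 1)) : lowP (flipAt (Fin.last D) x) = lowP x := by
  funext i
  simp [lowP, flipAt]

lemma topP_flipAt_last (x : Pos (D + 1)) : topP (flipAt (Fin.last D) x) = !topP x := by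
  simp [topP, flipAt]

lemma lowP_flipAt_cast (b : Fin D) (x : Pos (D + 1)) :
    lowP (flipAt b.castSucc x) = flipAt b (lowP x) := by
  funext i
  by_cases h : i = b
  · subst h; simp [lowP, flipAt]
  · have : i.castSucc ≠ b.castSucc := fun e => h (Fin.castSucc_injective _ e)
    simp [lowP, flipAt, Function.update_of_ne this, Function.update_of_ne h]

lemma topP_flipAt_cast (b : Fin D) (x : Pos (D + 1)) :
    topP (flipAt b.castSucc x) = topP x := by
  simp [topP, flipAt, Function.update_of_ne (Fin.castSucc_lt_last b).ne']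

lemma flipAt_cast_snocP (b : Fin D) (y : Pos D) (t : Bool) :
    flipAt b.castSucc (snocP y t) = snocP (flipAt b y) t := by
  apply pos_ext
  · rw [lowP_flipAt_cast]; simp
  · rw [topP_flipAt_cast]; simp

/-- Coins of the top bit are functions of the low bits. -/
def coinLast : (Pos D → Bool) ≃ Coin (Fin.last D) where
  toFun c := ⟨fun x => c (lowP x), fun x => by
    dsimp only
    rw [lowP_flipAt_last]⟩
  invFun c y := c.1 (snocP y false)
  left_inv c := by
    funext y; simp
  right_inv c := by
    apply Subtype.ext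
    funext x
    change c.1 (snocP (lowP x) false) = c.1 x
    by_cases h : topP x = false
    · rw [← h, snocP_lowP_topP]
    · have h' : topP x = true := by simpa using h
      rw [← c.2 x]
      apply congrArg c.1
      apply pos_ext
      · rw [lowP_snocP, lowP_flipAt_last]
      · rw [topP_snocP, topP_flipAt_last, h']; rfl

lemma coinPerm_coinLast (c : Pos D → Bool) : coinPerm (coinLast c) = hc c := by
  ext1 x
  rw [coinPerm_apply, hc_apply]
  change (if c (lowP x) = true then flipAt (Fin.last D) x else x) = _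
  by_cases h : c (lowP x) = true
  · rw [if_pos h, h]
    apply pos_ext
    · simp [lowP_flipAt_last]
    · rw [topP_flipAt_last]; simp
  · rw [if_neg h]
    have h' : c (lowP x) = false := by simpa using h
    rw [h']
    simp

/-- The law of the top layer. -/
lemma swapLaw_last : swapLaw (Fin.last D) = push (hc (D := D)) := by
  unfold swapLaw
  rw [← push_equiv coinLast (coinPerm (b := Fin.last D))]
  congr 1
  funext c
  exact coinPerm_coinLast c

/-- Auxiliary: the two coins of the halves of a coin of a lower bit, glued back. -/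
def coinCast_aux (b : Fin D) (c : Coin b.castSucc) : Coin b.castSucc :=
  ⟨fun x => (bif topP x then (fun y => c.1 (snocP y true)) else (fun y => c.1 (snocP y false))) (lowP x),
    fun x => by
      dsimp only
      rw [topP_flipAt_cast, lowP_flipAt_cast]
      cases h : topP x
      · simp only [cond_false]
        rw [← c.2 (snocP (lowP x) false), flipAt_cast_snocP]
      · simp only [cond_true]
        rw [← c.2 (snocP (lowP x) true), flipAt_cast_snocP]⟩

/-- Coins of a lower bit are pairs of coins on the two halves. -/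
def coinCast (b : Fin D) : Coin b × Coin b ≃ Coin b.castSucc where
  toFun c := ⟨fun x => (bif topP x then c.2.1 else c.1.1) (lowP x), fun x => by
    dsimp only
    rw [topP_flipAt_cast, lowP_flipAt_cast]
    cases h : topP x
    · exact c.1.2 _
    · exact c.2.2 _⟩
  invFun c := (⟨fun y => c.1 (snocP y false), fun y => by
      dsimp only
      rw [← c.2 (snocP y false), flipAt_cast_snocP]⟩,
    ⟨fun y => c.1 (snocP y true), fun y => by
      dsimp only
      rw [← c.2 (snocP y true), flipAt_cast_snocP]⟩)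
  left_inv c := by
    ext y <;> simp
  right_inv c := by
    apply Subtype.ext
    funext x
    have hx : (coinCast_aux b c).1 x = c.1 x := by
      unfold coinCast_aux
      cases h : topP x
      · simp only [h, cond_false]
        conv_rhs => rw [← snocP_lowP_topP x, h]
      · simp only [h, cond_true]
        conv_rhs => rw [← snocP_lowP_topP x, h]
    exact hx

lemma coinPerm_coinCast (b : Fin D) (c : Coin b × Coin b) :
    coinPerm (coinCast b c) = sumPerm (coinPerm c.1) (coinPerm c.2) := by
  ext1 x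
  rw [← snocP_lowP_topP x]
  generalize lowP x = y
  generalize topP x = t
  rw [sumPerm_snocP, coinPerm_apply]
  have hval : (coinCast b c).1 (snocP y t) = (bif t then c.2.1 else c.1.1) y := by
    change (bif topP (snocP y t) then c.2.1 else c.1.1) (lowP (snocP y t)) = _
    simp
  rw [hval]
  cases t
  · simp only [cond_false, coinPerm_apply]
    by_cases h : c.1.1 y = true
    · rw [if_pos h, if_pos h, flipAt_cast_snocP]
    · rw [if_neg h, if_neg h]
  · simp only [cond_true, coinPerm_apply]
    by_cases h : c.2.1 y = true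
    · rw [if_pos h, if_pos h, flipAt_cast_snocP]
    · rw [if_neg h, if_neg h]

/-- The law of a sum of independent permutations of the two halves. -/
noncomputable def sumLaw (μ0 μ1 : Equiv.Perm (Pos D) → ℝ) : Equiv.Perm (Pos (D + 1)) → ℝ :=
  fun g => ∑ a0, ∑ a1, if g = sumPerm a0 a1 then μ0 a0 * μ1 a1 else 0

lemma sumLaw_apply_sum (μ0 μ1 : Equiv.Perm (Pos D) → ℝ) (F : Equiv.Perm (Pos (D + 1)) → ℝ) :
    ∑ g, sumLaw μ0 μ1 g * F g = ∑ a0, ∑ a1, μ0 a0 * μ1 a1 * F (sumPerm a0 a1) := by
  simp only [sumLaw, Finset.sum_mul]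
  rw [Finset.sum_comm]
  refine Finset.sum_congr rfl fun a0 _ => ?_
  rw [Finset.sum_comm]
  refine Finset.sum_congr rfl fun a1 _ => ?_
  rw [Finset.sum_eq_single (sumPerm a0 a1)]
  · simp
  · intro g _ hg
    simp [hg]
  · simp

lemma conv_sumLaw (μ0 μ1 ρ0 ρ1 : Equiv.Perm (Pos D) → ℝ) :
    conv (sumLaw μ0 μ1) (sumLaw ρ0 ρ1) = sumLaw (conv μ0 ρ0) (conv μ1 ρ1) := by
  funext g
  have hL : conv (sumLaw μ0 μ1) (sumLaw ρ0 ρ1) g
      = ∑ a0, ∑ a1, μ0 a0 * μ1 a1 * sumLaw ρ0 ρ1 ((sumPerm a0 a1)⁻¹ * g) := by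
    unfold conv
    exact sumLaw_apply_sum μ0 μ1 _
  rw [hL]
  by_cases hg : ∃ b0 b1, g = sumPerm b0 b1
  · obtain ⟨b0, b1, rfl⟩ := hg
    have hR : sumLaw (conv μ0 ρ0) (conv μ1 ρ1) (sumPerm b0 b1)
        = conv μ0 ρ0 b0 * conv μ1 ρ1 b1 := by
      unfold sumLaw
      rw [Finset.sum_eq_single b0, Finset.sum_eq_single b1]
      · simp
      · intro a1 _ h
        rw [if_neg]
        intro e
        exact h (sumPerm_injective e).2.symm
      · simp
      · intro a0 _ h
        apply Finset.sum_eq_zero
        intro a1 _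
        rw [if_neg]
        intro e
        exact h (sumPerm_injective e).1.symm
      · simp
    rw [hR]
    have hS : ∀ a0 a1 : Equiv.Perm (Pos D), sumLaw ρ0 ρ1 ((sumPerm a0 a1)⁻¹ * sumPerm b0 b1)
        = ρ0 (a0⁻¹ * b0) * ρ1 (a1⁻¹ * b1) := by
      intro a0 a1
      rw [sumPerm_inv, sumPerm_mul]
      unfold sumLaw
      rw [Finset.sum_eq_single (a0⁻¹ * b0), Finset.sum_eq_single (a1⁻¹ * b1)]
      · simp
      · intro a _ h
        rw [if_neg]
        intro e
        exact h (sumPerm_injective e).2.symm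
      · simp
      · intro a _ h
        apply Finset.sum_eq_zero
        intro a' _
        rw [if_neg]
        intro e
        exact h (sumPerm_injective e).1.symm
      · simp
    simp_rw [hS]
    simp only [conv]
    rw [Finset.sum_mul_sum]
    refine Finset.sum_congr rfl fun a0 _ => Finset.sum_congr rfl fun a1 _ => by ring
  · have h1 : sumLaw (conv μ0 ρ0) (conv μ1 ρ1) g = 0 := by
      apply Finset.sum_eq_zero
      intro a0 _
      apply Finset.sum_eq_zero
      intro a1 _
      rw [if_neg]
      intro e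
      exact hg ⟨a0, a1, e⟩
    rw [h1]
    apply Finset.sum_eq_zero
    intro a0 _
    apply Finset.sum_eq_zero
    intro a1 _
    have h2 : sumLaw ρ0 ρ1 ((sumPerm a0 a1)⁻¹ * g) = 0 := by
      apply Finset.sum_eq_zero
      intro b0 _
      apply Finset.sum_eq_zero
      intro b1 _
      rw [if_neg]
      intro e
      apply hg
      refine ⟨a0 * b0, a1 * b1, ?_⟩
      rw [← sumPerm_mul, ← e]
      group
    rw [h2, mul_zero]

lemma sumLaw_delta : sumLaw (delta (1 : Equiv.Perm (Pos D))) (delta 1) = delta 1 := by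
  funext g
  unfold sumLaw delta
  rw [Finset.sum_eq_single 1, Finset.sum_eq_single 1]
  · simp [sumPerm_one]
  · intro a _ h
    simp [h]
  · simp
  · intro a _ h
    apply Finset.sum_eq_zero
    intro a' _
    simp [h]
  · simp

lemma push_prod_sum {Ω0 Ω1 : Type*} [Fintype Ω0] [Fintype Ω1] (f0 : Ω0 → Equiv.Perm (Pos D))
    (f1 : Ω1 → Equiv.Perm (Pos D)) :
    push (fun p : Ω0 × Ω1 => sumPerm (f0 p.1) (f1 p.2)) = sumLaw (push f0) (push f1) := by
  funext g
  simp only [sumLaw, push_eq_sum, Fintype.card_prod]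
  have key : ∀ a0 a1 : Equiv.Perm (Pos D),
      (if g = sumPerm a0 a1 then
        ((∑ ω, if f0 ω = a0 then (1 : ℝ) else 0) / (Fintype.card Ω0 : ℝ)) *
        ((∑ ω, if f1 ω = a1 then (1 : ℝ) else 0) / (Fintype.card Ω1 : ℝ)) else 0)
      = (∑ ω, ∑ ω', (if f0 ω = a0 then (1 : ℝ) else 0) * (if f1 ω' = a1 then (1 : ℝ) else 0) *
          (if g = sumPerm a0 a1 then (1 : ℝ) else 0)) /
          ((Fintype.card Ω0 : ℝ) * (Fintype.card Ω1 : ℝ)) := by
    intro a0 a1
    by_cases hg : g = sumPerm a0 a1
    · simp only [hg, if_true, mul_one]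
      rw [div_mul_div_comm, Finset.sum_mul_sum]
    · simp [hg]
  simp_rw [key]
  simp only [← Finset.sum_div]
  push_cast
  congr 1
  rw [Fintype.sum_prod_type]
  symm
  calc ∑ a0, ∑ a1, ∑ ω, ∑ ω', (if f0 ω = a0 then (1 : ℝ) else 0) * (if f1 ω' = a1 then (1 : ℝ) else 0) *
          (if g = sumPerm a0 a1 then (1 : ℝ) else 0)
      = ∑ ω, ∑ ω', ∑ a0, ∑ a1, (if f0 ω = a0 then (1 : ℝ) else 0) * (if f1 ω' = a1 then (1 : ℝ) else 0) *
          (if g = sumPerm a0 a1 then (1 : ℝ) else 0) := by
        rw [Finset.sum_congr rfl (fun a0 _ => Finset.sum_comm), Finset.sum_comm]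
        refine Finset.sum_congr rfl fun ω _ => ?_
        rw [Finset.sum_congr rfl (fun a0 _ => Finset.sum_comm), Finset.sum_comm]
    _ = _ := by
        refine Finset.sum_congr rfl fun ω _ => Finset.sum_congr rfl fun ω' _ => ?_
        rw [Finset.sum_eq_single (f0 ω), Finset.sum_eq_single (f1 ω')]
        · by_cases h : g = sumPerm (f0 ω) (f1 ω')
          · simp [h]
          · simp [h, Ne.symm h]
        · intro a _ h
          simp [Ne.symm h]
        · simp
        · intro a _ h
          apply Finset.sum_eq_zero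
          intro a' _
          simp [Ne.symm h]
        · simp

lemma swapLaw_cast (b : Fin D) : swapLaw b.castSucc = sumLaw (swapLaw b) (swapLaw b) := by
  unfold swapLaw
  rw [← push_equiv (coinCast b) (coinPerm (b := b.castSucc))]
  have : (fun ω' => coinPerm (coinCast b ω')) = fun c : Coin b × Coin b =>
      sumPerm (coinPerm c.1) (coinPerm c.2) := by
    funext c
    exact coinPerm_coinCast b c
  rw [this]
  exact push_prod_sum _ _

/-- The law of a list of layers. -/
noncomputable def listLaw (L : List (Fin D)) : Equiv.Perm (Pos D) → ℝ :=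
  L.foldr (fun b ν => conv (swapLaw b) ν) (delta 1)

lemma list_prod_eq (L : List (Fin D)) : (L.map P).prod = regMat (listLaw L) := by
  induction L with
  | nil => simp [listLaw, regMat_delta_one]
  | cons b L ih =>
    rw [List.map_cons, List.prod_cons, ih]
    simp only [listLaw, List.foldr_cons]
    rw [regMat_conv]
    rfl

lemma listLaw_cast (L : List (Fin D)) :
    listLaw (L.map Fin.castSucc) = sumLaw (listLaw L) (listLaw L) := by
  induction L with
  | nil => simp [listLaw, sumLaw_delta]
  | cons b L ih =>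
    have h1 : listLaw ((b :: L).map Fin.castSucc)
        = conv (swapLaw b.castSucc) (listLaw (L.map Fin.castSucc)) := rfl
    have h2 : listLaw (b :: L) = conv (swapLaw b) (listLaw L) := rfl
    rw [h1, h2, ih, swapLaw_cast, conv_sumLaw]

/-- The law of one block. -/
noncomputable def nuT (D : ℕ) : Equiv.Perm (Pos D) → ℝ := listLaw (List.finRange D)

lemma blockT_eq (D : ℕ) : blockT D = regMat (nuT D) := list_prod_eq _

lemma blockT_succ (D : ℕ) :
    blockT (D + 1) = regMat (sumLaw (nuT D) (nuT D)) * regMat (swapLaw (Fin.last D)) := by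
  unfold blockT
  rw [List.finRange_succ_last, List.map_append, List.prod_append]
  simp only [List.map_cons, List.map_nil, List.prod_cons, List.prod_nil, mul_one]
  rw [list_prod_eq, listLaw_cast]
  rfl

/-- The inverted law. -/
def invLaw {G : Type*} [Group G] (μ : G → ℝ) : G → ℝ := fun g => μ g⁻¹

lemma invLaw_sumLaw (μ0 μ1 : Equiv.Perm (Pos D) → ℝ) :
    invLaw (sumLaw μ0 μ1) = sumLaw (invLaw μ0) (invLaw μ1) := by
  funext g
  unfold invLaw sumLaw
  apply Fintype.sum_equiv (Equiv.inv _)
  intro a0
  apply Fintype.sum_equiv (Equiv.inv _)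
  intro a1
  simp only [Equiv.inv_apply, inv_inv]
  have : g⁻¹ = sumPerm a0 a1 ↔ g = sumPerm a0⁻¹ a1⁻¹ := by
    rw [← sumPerm_inv, inv_eq_iff_eq_inv]
  simp only [this]

lemma invLaw_swapLaw_last : invLaw (swapLaw (Fin.last D)) = swapLaw (Fin.last D) := by
  rw [swapLaw_last]
  funext g
  simp only [invLaw, push_eq_sum]
  congr 1
  refine Finset.sum_congr rfl fun c _ => ?_
  have : hc c = g⁻¹ ↔ hc c = g := by
    constructor
    · intro h
      rw [← hc_inv c, h, inv_inv]
    · intro h
      rw [← h, hc_inv]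
  simp only [this]

/-- The law of `W = Tᵀ T`. -/
noncomputable def X (D : ℕ) : Equiv.Perm (Pos D) → ℝ := conv (invLaw (nuT D)) (nuT D)

theorem W_eq (D : ℕ) : (blockT D)ᵀ * blockT D = regMat (X D) := by
  rw [blockT_eq, regMat_transpose, X, regMat_conv]
  rfl

lemma regMat_injective {G : Type*} [Group G] [Fintype G] [DecidableEq G] {μ ν : G → ℝ}
    (h : regMat μ = regMat ν) : μ = ν := by
  funext g
  have := congrFun (congrFun h g) 1
  simpa using this

/-- The recursion of the law of `W` along the top bit. -/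
theorem X_succ_conv (D : ℕ) : X (D + 1) =
    conv (swapLaw (Fin.last D)) (conv (sumLaw (X D) (X D)) (swapLaw (Fin.last D))) := by
  apply regMat_injective
  rw [← W_eq, blockT_succ, regMat_conv, regMat_conv, Matrix.transpose_mul, regMat_transpose,
    regMat_transpose]
  have h1 : (fun g => swapLaw (Fin.last D) g⁻¹) = swapLaw (Fin.last D) := invLaw_swapLaw_last
  have h2 : (fun g => sumLaw (nuT D) (nuT D) g⁻¹) = sumLaw (invLaw (nuT D)) (invLaw (nuT D)) :=
    invLaw_sumLaw _ _
  rw [h1, h2]
  have h3 : sumLaw (X D) (X D) = conv (sumLaw (invLaw (nuT D)) (invLaw (nuT D)))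
      (sumLaw (nuT D) (nuT D)) := by
    rw [conv_sumLaw]
    rfl
  rw [h3, regMat_conv]
  simp only [Matrix.mul_assoc]

/-- Number of coins of the top layer. -/
lemma card_coins (D : ℕ) : (Fintype.card (Pos D → Bool) : ℝ) = 2 ^ (2 ^ D) := by
  simp

lemma conv_push_left {G Ω : Type*} [Group G] [Fintype G] [DecidableEq G] [Fintype Ω] (f : Ω → G)
    (μ : G → ℝ) (g : G) :
    conv (push f) μ g = (Fintype.card Ω : ℝ)⁻¹ * ∑ ω, μ ((f ω)⁻¹ * g) := by
  simp only [conv, push_eq_sum, div_eq_inv_mul, mul_assoc]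
  rw [← Finset.mul_sum]
  congr 1
  simp only [Finset.sum_mul]
  rw [Finset.sum_comm]
  refine Finset.sum_congr rfl fun ω _ => ?_
  rw [Finset.sum_eq_single (f ω)]
  · simp
  · intro h _ hh
    simp [Ne.symm hh]
  · simp

lemma conv_push_right {G Ω : Type*} [Group G] [Fintype G] [DecidableEq G] [Fintype Ω] (f : Ω → G)
    (μ : G → ℝ) (g : G) :
    conv μ (push f) g = (Fintype.card Ω : ℝ)⁻¹ * ∑ ω, μ (g * (f ω)⁻¹) := by
  simp only [conv, push_eq_sum, div_eq_inv_mul]
  have : ∀ h : G, μ h * ((Fintype.card Ω : ℝ)⁻¹ * ∑ ω, if f ω = h⁻¹ * g then (1 : ℝ) else 0)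
      = (Fintype.card Ω : ℝ)⁻¹ * ∑ ω, if h = g * (f ω)⁻¹ then μ h else 0 := by
    intro h
    rw [mul_left_comm, Finset.mul_sum]
    congr 1
    refine Finset.sum_congr rfl fun ω _ => ?_
    have : f ω = h⁻¹ * g ↔ h = g * (f ω)⁻¹ := by
      constructor
      · intro e; rw [e]; group
      · intro e; rw [e]; group
    simp only [this]
    split_ifs <;> simp
  simp_rw [this]
  rw [← Finset.mul_sum, Finset.sum_comm]
  congr 1
  refine Finset.sum_congr rfl fun ω _ => ?_
  simp

lemma hc_mul_self (c : Pos D → Bool) : hc c * hc c = 1 := by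
  ext1 x
  exact (hc c).left_inv x

lemma X_succ (D : ℕ) (g : Equiv.Perm (Pos (D + 1))) :
    X (D + 1) g = (Fintype.card (Pos D → Bool) : ℝ)⁻¹ * (Fintype.card (Pos D → Bool) : ℝ)⁻¹ *
      ∑ c' : Pos D → Bool, ∑ c : Pos D → Bool, ∑ a0, ∑ a1,
        if g = hc c' * sumPerm a0 a1 * hc c then X D a0 * X D a1 else 0 := by
  rw [X_succ_conv, swapLaw_last, conv_push_left]
  simp_rw [conv_push_right]
  have key : ∀ c' c : Pos D → Bool, sumLaw (X D) (X D) ((hc c')⁻¹ * g * (hc c)⁻¹)
      = ∑ a0, ∑ a1, if g = hc c' * sumPerm a0 a1 * hc c then X D a0 * X D a1 else 0 := by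
    intro c' c
    unfold sumLaw
    refine Finset.sum_congr rfl fun a0 _ => Finset.sum_congr rfl fun a1 _ => ?_
    have : (hc c')⁻¹ * g * (hc c)⁻¹ = sumPerm a0 a1 ↔ g = hc c' * sumPerm a0 a1 * hc c := by
      constructor
      · intro e
        rw [← e]; group
      · intro e
        rw [e]; group
    simp only [this]
  simp_rw [key]
  generalize (Fintype.card (Pos D → Bool) : ℝ)⁻¹ = A
  rw [← Finset.mul_sum, mul_assoc]

end Crest.Agent.Lib.Thorp.BandLaw
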