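/-
S0222 (Thorp shuffle), band trace, GROUP SIDE (helper59).

Let `W = Tᵀ T` with `T = regMat τ₀`, and let `W = regMat ν`, with `ν ≥ 0`.
Noise: `noiseW η S = η^|S| (1-η)^(n-|S|)`, `R = ∑_S noiseW η S • avgS S`.  Then

`trace (W⁴ E_k) ≤ trace (W³ E_k) ≤ (η^k (1-η)^(n-k))⁻³ * Band²`,

`Band = ∑_S noiseW η S ∑_τ φ_S(τ) √(n^|S| φ_S(τ))`, where `φ_S(τ) = ν{g : g|_S = τ}`.

Ingredients: `R` is central so it is also a left convolution; a two-line frame bound on the level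
pieces (eigenvector argument); Young for three functions on a finite group (AM-GM only); convexity of
`t ↦ t √t`.  No node structure here: that is the other half (helper39, `Band*.lean`).
-/
import Crest.Agent.Lib.Thorp.Bridge

set_option autoImplicit false
set_option linter.unusedSectionVars false

namespace Crest.Agent.Lib.Thorp

open Matrix

/-! ### Young for three functions -/

section Young

variable {G : Type*} [Group G] [Fintype G] [DecidableEq G]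

lemma trace_regMat (l : G → ℝ) : trace (regMat l) = (Fintype.card G : ℝ) * l 1 := by
  simp [Matrix.trace, regMat_apply, Finset.card_univ]

lemma regMat_cube (μ : G → ℝ) : (regMat μ) ^ 3 = regMat (conv μ (conv μ μ)) := by
  rw [regMat_conv, regMat_conv, pow_succ, pow_two, mul_assoc]

/-- Young's inequality for three functions on a finite group. -/
theorem young_three (μ : G → ℝ) (hμ : ∀ g, 0 ≤ μ g) :
    conv μ (conv μ μ) 1 ≤ (∑ g, μ g * Real.sqrt (μ g)) ^ 2 := by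
  set a : G → ℝ := fun g => Real.sqrt (μ g) with ha
  have ha0 : ∀ g, 0 ≤ a g := fun g => Real.sqrt_nonneg _
  have ha2 : ∀ g, a g * a g = μ g := fun g => Real.mul_self_sqrt (hμ g)
  set b : G → ℝ := fun g => μ g * Real.sqrt (μ g) with hb
  have hb3 : ∀ g, a g ^ 3 = b g := by
    intro g
    have := ha2 g
    simp only [hb]
    calc a g ^ 3 = (a g * a g) * a g := by ring
      _ = μ g * Real.sqrt (μ g) := by rw [this]
  set A : ℝ := ∑ g, b g with hA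
  -- the sum over triples
  have hstep : ∀ h h' : G, μ h * (μ h' * μ (h'⁻¹ * h⁻¹)) ≤
      (b h * b h' + b h' * b (h'⁻¹ * h⁻¹) + b (h'⁻¹ * h⁻¹) * b h) / 3 := by
    intro h h'
    set k := h'⁻¹ * h⁻¹
    have e1 : μ h * (μ h' * μ k) = (a h * a h') * (a h' * a k) * (a k * a h) := by
      rw [← ha2 h, ← ha2 h', ← ha2 k]; ring
    have e2 : b h * b h' = (a h * a h') ^ 3 := by rw [← hb3, ← hb3]; ring
    have e3 : b h' * b k = (a h' * a k) ^ 3 := by rw [← hb3, ← hb3]; ring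
    have e4 : b k * b h = (a k * a h) ^ 3 := by rw [← hb3, ← hb3]; ring
    rw [e1, e2, e3, e4]
    have hx : 0 ≤ a h * a h' := mul_nonneg (ha0 _) (ha0 _)
    have hy : 0 ≤ a h' * a k := mul_nonneg (ha0 _) (ha0 _)
    have hz : 0 ≤ a k * a h := mul_nonneg (ha0 _) (ha0 _)
    generalize a h * a h' = x at *
    generalize a h' * a k = y at *
    generalize a k * a h = z at *
    nlinarith [mul_nonneg (add_nonneg (add_nonneg hx hy) hz) (add_nonneg (add_nonneg (sq_nonneg (x - y))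
      (sq_nonneg (y - z))) (sq_nonneg (z - x)))]
  have hexp : conv μ (conv μ μ) 1 = ∑ h, ∑ h', μ h * (μ h' * μ (h'⁻¹ * h⁻¹)) := by
    simp only [conv, mul_one, Finset.mul_sum]
  rw [hexp]
  have h1 : ∑ h, ∑ h', b h * b h' = A ^ 2 := by
    rw [pow_two, hA, Finset.sum_mul_sum]
  have h2 : ∑ h, ∑ h', b h' * b (h'⁻¹ * h⁻¹) = A ^ 2 := by
    rw [Finset.sum_comm]
    have : ∀ h' : G, ∑ h, b h' * b (h'⁻¹ * h⁻¹) = b h' * A := by
      intro h'
      rw [← Finset.mul_sum]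
      congr 1
      exact Fintype.sum_equiv ((Equiv.inv G).trans (Equiv.mulLeft h'⁻¹)) _ _ (fun _ => rfl)
    simp_rw [this]
    rw [← Finset.sum_mul, pow_two]
  have h3 : ∑ h, ∑ h', b (h'⁻¹ * h⁻¹) * b h = A ^ 2 := by
    have : ∀ h : G, ∑ h', b (h'⁻¹ * h⁻¹) * b h = A * b h := by
      intro h
      rw [← Finset.sum_mul]
      congr 1
      exact Fintype.sum_equiv ((Equiv.inv G).trans (Equiv.mulRight h⁻¹)) _ _ (fun _ => rfl)
    simp_rw [this]
    rw [← Finset.mul_sum, pow_two]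
  calc ∑ h, ∑ h', μ h * (μ h' * μ (h'⁻¹ * h⁻¹))
      ≤ ∑ h, ∑ h', (b h * b h' + b h' * b (h'⁻¹ * h⁻¹) + b (h'⁻¹ * h⁻¹) * b h) / 3 :=
        Finset.sum_le_sum fun h _ => Finset.sum_le_sum fun h' _ => hstep h h'
    _ = (∑ h, ∑ h', b h * b h' + ∑ h, ∑ h', b h' * b (h'⁻¹ * h⁻¹) +
          ∑ h, ∑ h', b (h'⁻¹ * h⁻¹) * b h) / 3 := by
        simp only [← Finset.sum_add_distrib, Finset.sum_div]
    _ = A ^ 2 := by rw [h1, h2, h3]; ring

/-- A probability law acts as a contraction. -/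
lemma regMat_contraction (μ : G → ℝ) (h0 : ∀ g, 0 ≤ μ g) (h1 : ∑ g, μ g = 1) (v : G → ℝ) :
    (regMat μ *ᵥ v) ⬝ᵥ (regMat μ *ᵥ v) ≤ v ⬝ᵥ v := by
  simp only [dotProduct]
  have hpt : ∀ x, (regMat μ *ᵥ v) x * (regMat μ *ᵥ v) x ≤ ∑ h, μ h * (v (h⁻¹ * x) * v (h⁻¹ * x)) := by
    intro x
    rw [regMat_mulVec]
    have hcs := Finset.sum_mul_sq_le_sq_mul_sq Finset.univ (fun h => Real.sqrt (μ h))
      (fun h => Real.sqrt (μ h) * v (h⁻¹ * x))
    have e1 : ∀ h, Real.sqrt (μ h) * (Real.sqrt (μ h) * v (h⁻¹ * x)) = μ h * v (h⁻¹ * x) := by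
      intro h
      rw [← mul_assoc, Real.mul_self_sqrt (h0 h)]
    have e2 : ∀ h, Real.sqrt (μ h) ^ 2 = μ h := fun h => Real.sq_sqrt (h0 h)
    have e3 : ∀ h, (Real.sqrt (μ h) * v (h⁻¹ * x)) ^ 2 = μ h * (v (h⁻¹ * x) * v (h⁻¹ * x)) := by
      intro h
      rw [mul_pow, e2]; ring
    simp only [e1, e2, e3, h1, one_mul] at hcs
    nlinarith [hcs]
  calc ∑ x, (regMat μ *ᵥ v) x * (regMat μ *ᵥ v) x
      ≤ ∑ x, ∑ h, μ h * (v (h⁻¹ * x) * v (h⁻¹ * x)) := Finset.sum_le_sum fun x _ => hpt x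
    _ = ∑ h, ∑ x, μ h * (v (h⁻¹ * x) * v (h⁻¹ * x)) := Finset.sum_comm
    _ = ∑ h, μ h * ∑ x, v x * v x := by
        refine Finset.sum_congr rfl fun h _ => ?_
        rw [← Finset.mul_sum]
        congr 1
        exact Fintype.sum_equiv (Equiv.mulLeft h⁻¹) _ _ (fun _ => rfl)
    _ = ∑ x, v x * v x := by rw [← Finset.sum_mul, h1, one_mul]

end Young

/-! ### The noise operator -/

section Noise

variable {Ω : Type*} [Fintype Ω] [DecidableEq Ω]

/-- Noise weights: `S` is a random subset of density `η`. -/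
noncomputable def noiseW (η : ℝ) (S : Finset Ω) : ℝ :=
  η ^ S.card * (1 - η) ^ (Fintype.card Ω - S.card)

lemma noiseW_sum (η : ℝ) : ∑ S : Finset Ω, noiseW η S = 1 := by
  have h := Finset.sum_pow_mul_eq_add_pow η (1 - η) (Finset.univ : Finset Ω)
  rw [Finset.powerset_univ] at h
  simp only [Finset.card_univ] at h
  simp only [noiseW]
  rw [h]
  simp

lemma noiseW_nonneg {η : ℝ} (h0 : 0 ≤ η) (h1 : η ≤ 1) (S : Finset Ω) : 0 ≤ noiseW η S :=
  mul_nonneg (pow_nonneg h0 _) (pow_nonneg (by linarith) _)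

lemma noiseW_map (η : ℝ) (x : Equiv.Perm Ω) (S : Finset Ω) :
    noiseW η (S.map x.toEmbedding) = noiseW η S := by
  simp [noiseW]

lemma noiseW_ge {η : ℝ} (h0 : 0 < η) (h1 : η ≤ 1 / 2) {k : ℕ} (hk : k ≤ Fintype.card Ω)
    {S : Finset Ω} (hS : S.card ≤ k) :
    η ^ k * (1 - η) ^ (Fintype.card Ω - k) ≤ noiseW η S := by
  obtain ⟨j, rfl⟩ := Nat.exists_eq_add_of_le hS
  have e : Fintype.card Ω - S.card = (Fintype.card Ω - (S.card + j)) + j := by omega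
  simp only [noiseW]
  rw [e, pow_add η, pow_add (1 - η)]
  have h2 : η ^ j ≤ (1 - η) ^ j := pow_le_pow_left₀ h0.le (by linarith) j
  have h3 : 0 ≤ η ^ S.card := pow_nonneg h0.le _
  have h4 : 0 ≤ (1 - η) ^ (Fintype.card Ω - (S.card + j)) := pow_nonneg (by linarith) _
  calc η ^ S.card * η ^ j * (1 - η) ^ (Fintype.card Ω - (S.card + j))
      = (η ^ S.card * (1 - η) ^ (Fintype.card Ω - (S.card + j))) * η ^ j := by ring
    _ ≤ (η ^ S.card * (1 - η) ^ (Fintype.card Ω - (S.card + j))) * (1 - η) ^ j :=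
        mul_le_mul_of_nonneg_left h2 (mul_nonneg h3 h4)
    _ = _ := by ring

lemma sum_fixS_map (x : Equiv.Perm Ω) (S : Finset Ω) (φ : Equiv.Perm Ω → ℝ) :
    ∑ π ∈ fixS (S.map x.toEmbedding), φ π = ∑ τ ∈ fixS S, φ (x * τ * x⁻¹) := by
  symm
  refine Finset.sum_bij' (fun τ _ => x * τ * x⁻¹) (fun π _ => x⁻¹ * π * x) ?_ ?_ ?_ ?_ ?_
  · intro τ hτ
    rw [mem_fixS] at hτ ⊢
    intro a ha
    obtain ⟨b, hb, rfl⟩ := Finset.mem_map.mp ha
    simp [hτ b hb]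
  · intro π hπ
    rw [mem_fixS] at hπ ⊢
    intro a ha
    have : π (x a) = x a := hπ _ (Finset.mem_map.mpr ⟨a, ha, rfl⟩)
    simp [this]
  · intro τ _; group
  · intro π _; group
  · intro τ _; rfl

lemma card_fixS_map (x : Equiv.Perm Ω) (S : Finset Ω) :
    (fixS (S.map x.toEmbedding)).card = (fixS S).card := by
  have := sum_fixS_map x S (fun _ => (1 : ℝ))
  simp only [Finset.sum_const, nsmul_eq_mul, mul_one] at this
  exact_mod_cast this

/-- The uniform law on the stabilizer. -/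
noncomputable def fixLaw (S : Finset Ω) (σ : Equiv.Perm Ω) : ℝ :=
  if σ ∈ fixS S then ((fixS S).card : ℝ)⁻¹ else 0

lemma fixLaw_nonneg (S : Finset Ω) (σ : Equiv.Perm Ω) : 0 ≤ fixLaw S σ := by
  unfold fixLaw; split_ifs <;> positivity

/-- The noise law. -/
noncomputable def noiseLaw (η : ℝ) (σ : Equiv.Perm Ω) : ℝ :=
  ∑ S : Finset Ω, noiseW η S * fixLaw S σ

lemma noiseLaw_nonneg {η : ℝ} (h0 : 0 ≤ η) (h1 : η ≤ 1) (σ : Equiv.Perm Ω) : 0 ≤ noiseLaw η σ :=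
  Finset.sum_nonneg fun S _ => mul_nonneg (noiseW_nonneg h0 h1 S) (fixLaw_nonneg S σ)

/-- The noise operator, a central element: both a right average and a left convolution. -/
theorem noiseR_eq (η : ℝ) :
    regMat (noiseLaw (Ω := Ω) η) = ∑ S : Finset Ω, noiseW η S • avgS S := by
  apply mat_ext_of_mulVec
  intro f
  funext x
  rw [regMat_mulVec, Matrix.sum_mulVec, Finset.sum_apply]
  simp only [Matrix.smul_mulVec, Pi.smul_apply, smul_eq_mul, avgS_mulVec, noiseLaw, Finset.sum_mul]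
  rw [Finset.sum_comm]
  -- reindex the cards by `x`
  refine (Fintype.sum_equiv (x.finsetCongr) _ _ ?_).symm
  intro S
  have hS : x.finsetCongr S = S.map x.toEmbedding := rfl
  rw [hS, noiseW_map]
  have h1 : ∑ h, noiseW η S * fixLaw (S.map x.toEmbedding) h * f (h⁻¹ * x)
      = noiseW η S * (((fixS S).card : ℝ)⁻¹ * ∑ π ∈ fixS (S.map x.toEmbedding), f (π * x)) := by
    rw [← card_fixS_map x S]
    have : ∀ h, noiseW η S * fixLaw (S.map x.toEmbedding) h * f (h⁻¹ * x)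
        = noiseW η S * (((fixS (S.map x.toEmbedding)).card : ℝ)⁻¹ *
          (if h ∈ fixS (S.map x.toEmbedding) then f (h⁻¹ * x) else 0)) := by
      intro h
      unfold fixLaw
      split_ifs <;> ring
    simp_rw [this]
    rw [← Finset.mul_sum, ← Finset.mul_sum]
    congr 2
    rw [Finset.sum_ite_mem]
    simp only [Finset.univ_inter]
    refine Finset.sum_bij' (fun τ _ => τ⁻¹) (fun τ _ => τ⁻¹) (fun τ h => inv_mem_fixS h)
      (fun τ h => inv_mem_fixS h) (by simp) (by simp) (by simp)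
  rw [h1]
  congr 2
  rw [sum_fixS_map]
  refine Finset.sum_congr rfl fun τ _ => ?_
  congr 1
  group

lemma noiseR_transpose (η : ℝ) : (regMat (noiseLaw (Ω := Ω) η))ᵀ = regMat (noiseLaw η) := by
  rw [noiseR_eq, Matrix.transpose_sum]
  simp_rw [Matrix.transpose_smul, avgS_transpose]

lemma avgS_idem_dot (S : Finset Ω) (u : Equiv.Perm Ω → ℝ) :
    (avgS S *ᵥ u) ⬝ᵥ u = (avgS S *ᵥ u) ⬝ᵥ (avgS S *ᵥ u) := by
  rw [avgS_dot S u (avgS S *ᵥ u), avgS_fix S _ (avgS_mem_VS S u), dotProduct_comm]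

lemma noiseR_quad (η : ℝ) (u : Equiv.Perm Ω → ℝ) :
    (regMat (noiseLaw η) *ᵥ u) ⬝ᵥ u
      = ∑ S : Finset Ω, noiseW η S * ((avgS S *ᵥ u) ⬝ᵥ (avgS S *ᵥ u)) := by
  rw [noiseR_eq, Matrix.sum_mulVec, sum_dotProduct]
  refine Finset.sum_congr rfl fun S _ => ?_
  rw [Matrix.smul_mulVec, smul_dotProduct, avgS_idem_dot, smul_eq_mul]

lemma dot_self_nonneg' {ι : Type*} [Fintype ι] (u : ι → ℝ) : 0 ≤ u ⬝ᵥ u := by
  simp only [dotProduct]
  exact Finset.sum_nonneg fun i _ => mul_self_nonneg _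

lemma noiseR_quad_nonneg {η : ℝ} (h0 : 0 ≤ η) (h1 : η ≤ 1) (u : Equiv.Perm Ω → ℝ) :
    0 ≤ (regMat (noiseLaw η) *ᵥ u) ⬝ᵥ u := by
  rw [noiseR_quad]
  exact Finset.sum_nonneg fun S _ => mul_nonneg (noiseW_nonneg h0 h1 S) (dot_self_nonneg' _)

lemma levelE_mem_levelV (k : ℕ) (v : Equiv.Perm Ω → ℝ) : levelE k *ᵥ v ∈ levelV (Ω := Ω) k := by
  cases k with
  | zero => exact projMat_mem _ v
  | succ k => exact flagE_succ_mem _ levelV_mono k v

/-- **Frame bound**: the noise operator is bounded below on the level piece `k`. -/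
theorem noise_frame {η : ℝ} (h0 : 0 < η) (h1 : η ≤ 1 / 2) {k : ℕ} (hk : k ≤ Fintype.card Ω)
    (u : Equiv.Perm Ω → ℝ) (hu : levelE k *ᵥ u = u) :
    η ^ k * (1 - η) ^ (Fintype.card Ω - k) * (u ⬝ᵥ u) ≤ (regMat (noiseLaw η) *ᵥ u) ⬝ᵥ u := by
  set c : ℝ := η ^ k * (1 - η) ^ (Fintype.card Ω - k) with hc
  set R : Matrix (Equiv.Perm Ω) (Equiv.Perm Ω) ℝ := regMat (noiseLaw η) with hR
  set E : Matrix (Equiv.Perm Ω) (Equiv.Perm Ω) ℝ := levelE k with hE
  have hRE : R * E = E * R := levelE_comm_regMat _ k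
  have hEE : E * E = E := levelE_idem k
  set M : Matrix (Equiv.Perm Ω) (Equiv.Perm Ω) ℝ := E * (c • 1 - R) * E with hM
  have hMsymm : Mᵀ = M := by
    rw [hM, Matrix.transpose_mul, Matrix.transpose_mul, Matrix.transpose_sub, Matrix.transpose_smul,
      Matrix.transpose_one, hE, levelE_symm, hR, noiseR_transpose, mul_assoc]
  have hMv : ∀ w, E *ᵥ w = w → M *ᵥ w = c • w - R *ᵥ w := by
    intro w hw
    rw [hM, ← Matrix.mulVec_mulVec, hw, ← Matrix.mulVec_mulVec]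
    have h3 : (c • (1 : Matrix _ _ ℝ) - R) *ᵥ w = c • w - R *ᵥ w := by
      rw [Matrix.sub_mulVec, Matrix.smul_mulVec, Matrix.one_mulVec]
    rw [h3, Matrix.mulVec_sub, Matrix.mulVec_smul, hw, Matrix.mulVec_mulVec, ← hRE,
      ← Matrix.mulVec_mulVec, hw]
  have hev : ∀ (μ : ℝ) (w : Equiv.Perm Ω → ℝ), w ≠ 0 → M *ᵥ w = μ • w → μ ≤ 0 := by
    intro μ w hw hμ
    by_contra hpos
    push Not at hpos
    have hEw : E *ᵥ w = w := by
      have h4 : E *ᵥ (M *ᵥ w) = M *ᵥ w := by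
        rw [Matrix.mulVec_mulVec, hM, ← mul_assoc, ← mul_assoc, hEE]
      rw [hμ, Matrix.mulVec_smul] at h4
      exact smul_right_injective _ hpos.ne' h4
    have hRw : R *ᵥ w = (c - μ) • w := by
      have h5 := hMv w hEw
      rw [hμ] at h5
      have : R *ᵥ w = c • w - μ • w := by rw [h5]; abel
      rw [this, sub_smul]
    have hwV : w ∈ levelV (Ω := Ω) k := by
      rw [← hEw]; exact levelE_mem_levelV k w
    obtain ⟨S, hS, hg⟩ := exists_avgS_ne_zero hwV hw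
    set g := avgS S *ᵥ w with hgdef
    have hRg : R *ᵥ g = (c - μ) • g := by
      rw [hgdef, Matrix.mulVec_mulVec, hR, avgS_comm_regMat, ← Matrix.mulVec_mulVec, ← hR, hRw,
        Matrix.mulVec_smul]
    have hPg : avgS S *ᵥ g = g := avgS_fix S _ (avgS_mem_VS S w)
    have hgpos : 0 < g ⬝ᵥ g := by
      rcases (dot_self_nonneg' g).lt_or_eq with h | h
      · exact h
      · exact absurd (dot_self_eq_zero' h.symm) hg
    have h6 : (R *ᵥ g) ⬝ᵥ g = (c - μ) * (g ⬝ᵥ g) := by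
      rw [hRg, smul_dotProduct, smul_eq_mul]
    have h7 : noiseW η S * (g ⬝ᵥ g) ≤ (R *ᵥ g) ⬝ᵥ g := by
      rw [hR, noiseR_quad]
      have h8 := Finset.single_le_sum (f := fun B : Finset Ω =>
        noiseW η B * ((avgS B *ᵥ g) ⬝ᵥ (avgS B *ᵥ g)))
        (fun B _ => mul_nonneg (noiseW_nonneg h0.le (by linarith) B) (dot_self_nonneg' _))
        (Finset.mem_univ S)
      simp only [hPg] at h8
      exact h8
    have h9 : c ≤ noiseW η S := noiseW_ge h0 h1 hk hS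
    nlinarith [mul_le_mul_of_nonneg_right h9 hgpos.le]
  have h10 := quad_le_of_eigen M hMsymm 0 hev u
  rw [hMv u hu, sub_dotProduct, smul_dotProduct, smul_eq_mul, zero_mul] at h10
  linarith

/-- The cubic form of the noise operator dominates the level piece. -/
theorem noise_cube {η : ℝ} (h0 : 0 < η) (h1 : η ≤ 1 / 2) {k : ℕ} (hk : k ≤ Fintype.card Ω)
    (v : Equiv.Perm Ω → ℝ) :
    (η ^ k * (1 - η) ^ (Fintype.card Ω - k)) ^ 3 * ((levelE k *ᵥ v) ⬝ᵥ v)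
      ≤ ((regMat (noiseLaw η)) ^ 3 *ᵥ v) ⬝ᵥ v := by
  set c : ℝ := η ^ k * (1 - η) ^ (Fintype.card Ω - k) with hc
  have hc0 : 0 ≤ c := mul_nonneg (pow_nonneg h0.le _) (pow_nonneg (by linarith) _)
  set R : Matrix (Equiv.Perm Ω) (Equiv.Perm Ω) ℝ := regMat (noiseLaw η) with hR
  set E : Matrix (Equiv.Perm Ω) (Equiv.Perm Ω) ℝ := levelE k with hE
  have hRE : R * E = E * R := levelE_comm_regMat _ k
  have hEE : E * E = E := levelE_idem k
  have hEsymm : Eᵀ = E := levelE_symm k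
  have hRsymm : Rᵀ = R := noiseR_transpose η
  have hsd : ∀ (A : Matrix (Equiv.Perm Ω) (Equiv.Perm Ω) ℝ), Aᵀ = A → ∀ a b : Equiv.Perm Ω → ℝ,
      (A *ᵥ a) ⬝ᵥ b = a ⬝ᵥ (A *ᵥ b) := by
    intro A hA a b
    rw [Matrix.dotProduct_mulVec, ← Matrix.mulVec_transpose, hA]
  set y := E *ᵥ v with hy
  have hEy : E *ᵥ y = y := by rw [hy, Matrix.mulVec_mulVec, hEE]
  have hRy : E *ᵥ (R *ᵥ y) = R *ᵥ y := by
    rw [Matrix.mulVec_mulVec, ← hRE, ← Matrix.mulVec_mulVec, hEy]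
  have f1 : c * (y ⬝ᵥ y) ≤ (R *ᵥ y) ⬝ᵥ y := noise_frame h0 h1 hk y hEy
  have f2 : c * ((R *ᵥ y) ⬝ᵥ (R *ᵥ y)) ≤ (R *ᵥ (R *ᵥ y)) ⬝ᵥ (R *ᵥ y) :=
    noise_frame h0 h1 hk _ hRy
  have hyy : 0 ≤ y ⬝ᵥ y := dot_self_nonneg' y
  -- `‖R y‖² ≥ c² ‖y‖²`
  have f3 : c ^ 2 * (y ⬝ᵥ y) ≤ (R *ᵥ y) ⬝ᵥ (R *ᵥ y) := by
    have h := dot_self_nonneg' (R *ᵥ y - c • y)
    simp only [sub_dotProduct, dotProduct_sub, smul_dotProduct, dotProduct_smul, smul_eq_mul] at h
    rw [dotProduct_comm y (R *ᵥ y)] at h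
    nlinarith [mul_le_mul_of_nonneg_left f1 hc0]
  -- `⟨v, R³ v⟩ = ⟨R u, u⟩`, `u = R v`, and drop the part off the level piece
  set u := R *ᵥ v with hu
  have hEu : E *ᵥ u = R *ᵥ y := by
    rw [hu, hy, Matrix.mulVec_mulVec, Matrix.mulVec_mulVec, hRE]
  have e1 : (R ^ 3 *ᵥ v) ⬝ᵥ v = (R *ᵥ u) ⬝ᵥ u := by
    have : R ^ 3 = R * (R * R) := by rw [pow_succ, pow_two, mul_assoc]
    rw [this, hu, ← Matrix.mulVec_mulVec, ← Matrix.mulVec_mulVec, hsd R hRsymm]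
  -- split `u = E u + (u - E u)`
  have hEorth : ∀ a b, E *ᵥ b = 0 → (E *ᵥ a) ⬝ᵥ b = 0 := by
    intro a b hb
    rw [hsd E hEsymm, hb, dotProduct_zero]
  clear_value u
  have hsplit : (R *ᵥ u) ⬝ᵥ u
      = (R *ᵥ (E *ᵥ u)) ⬝ᵥ (E *ᵥ u) + (R *ᵥ (u - E *ᵥ u)) ⬝ᵥ (u - E *ᵥ u) := by
    have hE0 : E *ᵥ (u - E *ᵥ u) = 0 := by
      rw [Matrix.mulVec_sub, Matrix.mulVec_mulVec, hEE, sub_self]
    have hREu : R *ᵥ (E *ᵥ u) = E *ᵥ (R *ᵥ u) := by
      rw [Matrix.mulVec_mulVec, hRE, ← Matrix.mulVec_mulVec]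
    have hdec : u = E *ᵥ u + (u - E *ᵥ u) := by abel
    set w := u - E *ᵥ u with hw
    set a := E *ᵥ u with ha
    have c1 : (R *ᵥ a) ⬝ᵥ w = 0 := by
      rw [hREu]; exact hEorth _ _ hE0
    have c2 : (R *ᵥ w) ⬝ᵥ a = 0 := by
      rw [hsd R hRsymm, hREu, dotProduct_comm]; exact hEorth _ _ hE0
    conv_lhs => rw [hdec]
    rw [Matrix.mulVec_add, add_dotProduct, dotProduct_add, dotProduct_add, c1, c2]
    ring
  have hrest : 0 ≤ (R *ᵥ (u - E *ᵥ u)) ⬝ᵥ (u - E *ᵥ u) :=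
    noiseR_quad_nonneg h0.le (by linarith) _
  have hyv : (E *ᵥ v) ⬝ᵥ v = y ⬝ᵥ y := by
    rw [← hy]
    conv_rhs => rw [hy, hsd E hEsymm, Matrix.mulVec_mulVec, hEE, ← hy]
    rw [dotProduct_comm]
  rw [hEu] at hsplit hrest
  rw [hyv, e1, hsplit]
  have h3 := mul_le_mul_of_nonneg_left f3 hc0
  have h4 : c ^ 3 * (y ⬝ᵥ y) = c * (c ^ 2 * (y ⬝ᵥ y)) := by ring
  rw [h4]
  linarith

end Noise

/-! ### Traces -/

section Trace

lemma trace_ZtZ {ι : Type*} [Fintype ι] [DecidableEq ι] (Z A : Matrix ι ι ℝ) :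
    trace (Zᵀ * Z * A) = ∑ i, (A *ᵥ Z i) ⬝ᵥ Z i := by
  rw [Matrix.mul_assoc, Matrix.trace_mul_comm]
  simp only [Matrix.trace, Matrix.diag, Matrix.mul_apply, Matrix.transpose_apply, dotProduct,
    Matrix.mulVec]
  refine Finset.sum_congr rfl fun i _ => ?_
  simp only [Finset.sum_mul]
  rw [Finset.sum_comm]
  refine Finset.sum_congr rfl fun a _ => Finset.sum_congr rfl fun b _ => ?_
  ring

lemma hsSq_mul_le_of_contraction {ι : Type*} [Fintype ι] [DecidableEq ι] (B C : Matrix ι ι ℝ)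
    (hB : ∀ v : ι → ℝ, (B *ᵥ v) ⬝ᵥ (B *ᵥ v) ≤ v ⬝ᵥ v) : hsSq (B * C) ≤ hsSq C := by
  simp only [hsSq]
  rw [Finset.sum_comm, Finset.sum_comm (f := fun i j => C i j ^ 2)]
  refine Finset.sum_le_sum fun j _ => ?_
  have h := hB (fun i => C i j)
  simp only [dotProduct] at h
  simp only [sq]
  exact h

/-- `trace W⁴E ≤ trace W³E` if `Tᵀ` is a contraction. -/
theorem trace_four_le_three {ι : Type*} [Fintype ι] [DecidableEq ι] (T E : Matrix ι ι ℝ)
    (hT : ∀ v : ι → ℝ, (Tᵀ *ᵥ v) ⬝ᵥ (Tᵀ *ᵥ v) ≤ v ⬝ᵥ v) (hEs : Eᵀ = E) (hEi : E * E = E) :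
    trace ((Tᵀ * T) ^ 4 * E) ≤ trace ((Tᵀ * T) ^ 3 * E) := by
  set W := Tᵀ * T with hW
  have hWs : Wᵀ = W := by rw [hW, Matrix.transpose_mul, Matrix.transpose_transpose]
  have hC := hsSq_mul_le_of_contraction Tᵀ (T * (W * E)) hT
  rw [hsSq_eq_trace, hsSq_eq_trace] at hC
  have e1 : (Tᵀ * (T * (W * E)))ᵀ * (Tᵀ * (T * (W * E))) = E * (W ^ 4 * E) := by
    have : Tᵀ * (T * (W * E)) = W * (W * E) := by
      rw [← Matrix.mul_assoc, ← hW]
    rw [this, Matrix.transpose_mul, Matrix.transpose_mul, hWs, hEs]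
    simp only [pow_succ, pow_zero, Matrix.one_mul, Matrix.mul_assoc]
  have e2 : (T * (W * E))ᵀ * (T * (W * E)) = E * (W ^ 3 * E) := by
    rw [Matrix.transpose_mul, Matrix.transpose_mul, hWs, hEs]
    have : E * W * Tᵀ * (T * (W * E)) = E * (W * ((Tᵀ * T) * (W * E))) := by
      simp only [Matrix.mul_assoc]
    rw [this, ← hW]
    simp only [pow_succ, pow_zero, Matrix.one_mul, Matrix.mul_assoc]
  have e3 : ∀ A : Matrix ι ι ℝ, trace (E * (A * E)) = trace (A * E) := by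
    intro A
    rw [Matrix.trace_mul_comm, Matrix.mul_assoc, hEi]
  rw [e1, e2, e3, e3] at hC
  exact hC

variable {Ω : Type*} [Fintype Ω] [DecidableEq Ω]

theorem trace_frame {η : ℝ} (h0 : 0 < η) (h1 : η ≤ 1 / 2) {k : ℕ} (hk : k ≤ Fintype.card Ω)
    (Z : Matrix (Equiv.Perm Ω) (Equiv.Perm Ω) ℝ) :
    (η ^ k * (1 - η) ^ (Fintype.card Ω - k)) ^ 3 * trace (Zᵀ * Z * levelE k)
      ≤ trace (Zᵀ * Z * (regMat (noiseLaw η)) ^ 3) := by
  rw [trace_ZtZ, trace_ZtZ, Finset.mul_sum]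
  exact Finset.sum_le_sum fun i _ => noise_cube h0 h1 hk (Z i)

lemma noiseR_comm (η : ℝ) (ν : Equiv.Perm Ω → ℝ) :
    regMat ν * regMat (noiseLaw η) = regMat (noiseLaw η) * regMat ν := by
  rw [noiseR_eq, Finset.mul_sum, Finset.sum_mul]
  refine Finset.sum_congr rfl fun S _ => ?_
  rw [Matrix.mul_smul, Matrix.smul_mul, avgS_comm_regMat]

/-- The marginal of `ν` on the cards `S`. -/
noncomputable def phiS (ν : Equiv.Perm Ω → ℝ) (S : Finset Ω) (τ : S → Ω) : ℝ :=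
  ∑ g ∈ Finset.univ.filter (fun g : Equiv.Perm Ω => restr S g = τ), ν g

lemma phiS_nonneg {ν : Equiv.Perm Ω → ℝ} (hν : ∀ g, 0 ≤ ν g) (S : Finset Ω) (τ : S → Ω) :
    0 ≤ phiS ν S τ :=
  Finset.sum_nonneg fun g _ => hν g

lemma phiS_not_inj (ν : Equiv.Perm Ω → ℝ) (S : Finset Ω) (τ : S → Ω)
    (hτ : ¬ Function.Injective τ) : phiS ν S τ = 0 := by
  unfold phiS
  rw [Finset.filter_eq_empty_iff.mpr, Finset.sum_empty]
  intro x _ h
  exact hτ (h ▸ restr_injective S x)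

lemma conv_fixLaw (ν : Equiv.Perm Ω → ℝ) (S : Finset Ω) (g : Equiv.Perm Ω) :
    conv ν (fixLaw S) g = ((fixS S).card : ℝ)⁻¹ * phiS ν S (restr S g) := by
  simp only [conv, fixLaw, phiS]
  rw [Finset.sum_filter, Finset.mul_sum]
  refine Finset.sum_congr rfl fun h _ => ?_
  have key : h⁻¹ * g ∈ fixS S ↔ restr S h = restr S g := by
    rw [mem_fixS, restr_eq_iff]
    refine forall₂_congr fun a _ => ?_
    rw [Equiv.Perm.mul_apply, Equiv.Perm.inv_eq_iff_eq, eq_comm]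
  by_cases H : restr S h = restr S g
  · rw [if_pos (key.mpr H), if_pos H]; ring
  · rw [if_neg (fun hh => H (key.mp hh)), if_neg H]; simp

lemma conv_noise_eq (ν : Equiv.Perm Ω → ℝ) (η : ℝ) (g : Equiv.Perm Ω) :
    conv ν (noiseLaw η) g
      = ∑ S : Finset Ω, noiseW η S * (((fixS S).card : ℝ)⁻¹ * phiS ν S (restr S g)) := by
  simp_rw [← conv_fixLaw]
  simp only [conv, noiseLaw, Finset.mul_sum]
  rw [Finset.sum_comm]
  refine Finset.sum_congr rfl fun S _ => Finset.sum_congr rfl fun h _ => ?_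
  ring

/-- The function `t ↦ t^{3/2}`. -/
noncomputable def psi32 (t : ℝ) : ℝ := t * Real.sqrt t

lemma psi32_nonneg {t : ℝ} (ht : 0 ≤ t) : 0 ≤ psi32 t := mul_nonneg ht (Real.sqrt_nonneg _)

lemma psi32_eq_rpow {t : ℝ} (ht : 0 ≤ t) : t ^ (3 / 2 : ℝ) = psi32 t := by
  unfold psi32
  rw [Real.sqrt_eq_rpow]
  nth_rewrite 2 [← Real.rpow_one t]
  rw [← Real.rpow_add' ht (by norm_num)]
  norm_num

lemma psi32_convex : ConvexOn ℝ (Set.Ici 0) psi32 :=
  (convexOn_rpow (by norm_num : (1 : ℝ) ≤ 3 / 2)).congr (fun _ ht => psi32_eq_rpow ht)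

lemma psi32_mul {a t : ℝ} (ha : 0 ≤ a) : psi32 (a * t) = a * Real.sqrt a * psi32 t := by
  unfold psi32
  rw [Real.sqrt_mul ha]
  ring

/-- The band sum. -/
noncomputable def bandSum (ν : Equiv.Perm Ω → ℝ) (η : ℝ) : ℝ :=
  ∑ S : Finset Ω, noiseW η S *
    ∑ τ : S → Ω, phiS ν S τ * Real.sqrt ((Fintype.card Ω : ℝ) ^ S.card * phiS ν S τ)

lemma sum_psi_S {ν : Equiv.Perm Ω → ℝ} (S : Finset Ω) :
    ∑ g : Equiv.Perm Ω, psi32 (((fixS S).card : ℝ)⁻¹ * phiS ν S (restr S g))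
      = Real.sqrt (((fixS S).card : ℝ)⁻¹) * ∑ τ : S → Ω, psi32 (phiS ν S τ) := by
  have hF : (0 : ℝ) < ((fixS S).card : ℝ) := by exact_mod_cast fixS_card_pos S
  have hF' : (0 : ℝ) ≤ ((fixS S).card : ℝ)⁻¹ := by positivity
  have := sum_restr_of_inj S (fun τ => psi32 (((fixS S).card : ℝ)⁻¹ * phiS ν S τ))
    (fun τ hτ => by simp [phiS_not_inj ν S τ hτ, psi32])
  rw [this]
  simp_rw [psi32_mul hF']
  rw [← Finset.mul_sum, ← mul_assoc, ← mul_assoc, mul_inv_cancel₀ hF.ne', one_mul]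

lemma card_perm_le (S : Finset Ω) :
    (Fintype.card (Equiv.Perm Ω) : ℝ) ≤ ((fixS S).card : ℝ) * (Fintype.card Ω : ℝ) ^ S.card := by
  have := sum_restr_le S (fun _ => (1 : ℝ)) (fun _ => zero_le_one)
  simpa [Fintype.card_fun, Finset.card_univ] using this

theorem sqrt_card_mul_sum_psi_le {ν : Equiv.Perm Ω → ℝ} (hν : ∀ g, 0 ≤ ν g) {η : ℝ} (h0 : 0 ≤ η)
    (h1 : η ≤ 1) :
    Real.sqrt (Fintype.card (Equiv.Perm Ω) : ℝ) * ∑ g, psi32 (conv ν (noiseLaw η) g)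
      ≤ bandSum ν η := by
  have hw : ∀ S : Finset Ω, 0 ≤ noiseW η S := noiseW_nonneg h0 h1
  -- Jensen
  have hJ : ∀ g : Equiv.Perm Ω, psi32 (conv ν (noiseLaw η) g)
      ≤ ∑ S : Finset Ω, noiseW η S * psi32 (((fixS S).card : ℝ)⁻¹ * phiS ν S (restr S g)) := by
    intro g
    rw [conv_noise_eq]
    have := psi32_convex.map_sum_le (t := Finset.univ) (w := fun S : Finset Ω => noiseW η S)
      (p := fun S => ((fixS S).card : ℝ)⁻¹ * phiS ν S (restr S g))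
      (fun S _ => hw S) (noiseW_sum η)
      (fun S _ => mul_nonneg (by positivity) (phiS_nonneg hν S _))
    simpa only [smul_eq_mul] using this
  have h2 : ∑ g, psi32 (conv ν (noiseLaw η) g) ≤ ∑ S : Finset Ω, noiseW η S *
      (Real.sqrt (((fixS S).card : ℝ)⁻¹) * ∑ τ : S → Ω, psi32 (phiS ν S τ)) := by
    calc ∑ g, psi32 (conv ν (noiseLaw η) g)
        ≤ ∑ g, ∑ S : Finset Ω, noiseW η S *
            psi32 (((fixS S).card : ℝ)⁻¹ * phiS ν S (restr S g)) :=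
          Finset.sum_le_sum fun g _ => hJ g
      _ = ∑ S : Finset Ω, noiseW η S * ∑ g,
            psi32 (((fixS S).card : ℝ)⁻¹ * phiS ν S (restr S g)) := by
          rw [Finset.sum_comm]
          simp only [Finset.mul_sum]
      _ = _ := by
          simp_rw [sum_psi_S]
  have hc : 0 ≤ Real.sqrt (Fintype.card (Equiv.Perm Ω) : ℝ) := Real.sqrt_nonneg _
  refine (mul_le_mul_of_nonneg_left h2 hc).trans ?_
  unfold bandSum
  rw [Finset.mul_sum]
  refine Finset.sum_le_sum fun S _ => ?_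
  rw [mul_left_comm]
  refine mul_le_mul_of_nonneg_left ?_ (hw S)
  rw [← mul_assoc, Finset.mul_sum]
  refine Finset.sum_le_sum fun τ _ => ?_
  have hφ := phiS_nonneg hν S τ
  have hF : (0 : ℝ) < ((fixS S).card : ℝ) := by exact_mod_cast fixS_card_pos S
  have hn : (0 : ℝ) ≤ (Fintype.card Ω : ℝ) ^ S.card := by positivity
  have hle : Real.sqrt (Fintype.card (Equiv.Perm Ω) : ℝ) * Real.sqrt (((fixS S).card : ℝ)⁻¹)
      ≤ Real.sqrt ((Fintype.card Ω : ℝ) ^ S.card) := by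
    rw [← Real.sqrt_mul (by positivity)]
    apply Real.sqrt_le_sqrt
    have := card_perm_le (Ω := Ω) S
    rw [← div_eq_mul_inv, div_le_iff₀ hF]
    linarith
  unfold psi32
  rw [Real.sqrt_mul hn]
  have h3 : 0 ≤ phiS ν S τ * Real.sqrt (phiS ν S τ) := mul_nonneg hφ (Real.sqrt_nonneg _)
  calc Real.sqrt (Fintype.card (Equiv.Perm Ω) : ℝ) * Real.sqrt (((fixS S).card : ℝ)⁻¹)
        * (phiS ν S τ * Real.sqrt (phiS ν S τ))
      ≤ Real.sqrt ((Fintype.card Ω : ℝ) ^ S.card) * (phiS ν S τ * Real.sqrt (phiS ν S τ)) :=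
        mul_le_mul_of_nonneg_right hle h3
    _ = _ := by ring

/-- **The group side**: the band sum bounds the cubic trace on the level piece `k`. -/
theorem band_trace_cube (T : Matrix (Equiv.Perm Ω) (Equiv.Perm Ω) ℝ) (ν : Equiv.Perm Ω → ℝ)
    (hν : ∀ g, 0 ≤ ν g) (hW : Tᵀ * T = regMat ν) {η : ℝ} (h0 : 0 < η) (h1 : η ≤ 1 / 2) {k : ℕ}
    (hk : k ≤ Fintype.card Ω) :
    (η ^ k * (1 - η) ^ (Fintype.card Ω - k)) ^ 3 * trace ((Tᵀ * T) ^ 3 * levelE k)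
      ≤ (bandSum ν η) ^ 2 := by
  set W := Tᵀ * T with hWdef
  have hWs : Wᵀ = W := by rw [hWdef, Matrix.transpose_mul, Matrix.transpose_transpose]
  have hZ : (T * W)ᵀ * (T * W) = W ^ 3 := by
    rw [Matrix.transpose_mul, hWs]
    have : W * Tᵀ * (T * W) = W * ((Tᵀ * T) * W) := by simp only [Matrix.mul_assoc]
    rw [this, ← hWdef]
    simp only [pow_succ, pow_zero, Matrix.one_mul, Matrix.mul_assoc]
  have hF := trace_frame h0 h1 hk (T * W)
  rw [hZ] at hF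
  refine hF.trans ?_
  set r : Equiv.Perm Ω → ℝ := noiseLaw η with hr
  set μ : Equiv.Perm Ω → ℝ := conv ν r with hμ
  have hr0 : ∀ g, 0 ≤ r g := noiseLaw_nonneg h0.le (by linarith)
  have hμ0 : ∀ g, 0 ≤ μ g := fun g => Finset.sum_nonneg fun h _ => mul_nonneg (hν h) (hr0 _)
  have hcomm : Commute (regMat ν) (regMat r) := noiseR_comm η ν
  have e1 : W ^ 3 * (regMat r) ^ 3 = (regMat μ) ^ 3 := by
    rw [hμ, regMat_conv, hW, hcomm.mul_pow]
  rw [e1, regMat_cube, trace_regMat]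
  have hy := young_three μ hμ0
  have hs := sqrt_card_mul_sum_psi_le hν h0.le (by linarith : η ≤ 1)
  have hP : ∑ g, μ g * Real.sqrt (μ g) = ∑ g, psi32 (conv ν (noiseLaw η) g) := rfl
  rw [hP] at hy
  set A : ℝ := ∑ g, psi32 (conv ν (noiseLaw η) g) with hA
  have hA0 : 0 ≤ A := Finset.sum_nonneg fun g _ => psi32_nonneg (hμ0 g)
  have hN : (0 : ℝ) ≤ (Fintype.card (Equiv.Perm Ω) : ℝ) := by positivity
  have hB : (Fintype.card (Equiv.Perm Ω) : ℝ) * A ^ 2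
      = (Real.sqrt (Fintype.card (Equiv.Perm Ω) : ℝ) * A) ^ 2 := by
    rw [mul_pow, Real.sq_sqrt hN]
  calc (Fintype.card (Equiv.Perm Ω) : ℝ) * conv μ (conv μ μ) 1
      ≤ (Fintype.card (Equiv.Perm Ω) : ℝ) * A ^ 2 := mul_le_mul_of_nonneg_left hy hN
    _ = (Real.sqrt (Fintype.card (Equiv.Perm Ω) : ℝ) * A) ^ 2 := hB
    _ ≤ (bandSum ν η) ^ 2 :=
        pow_le_pow_left₀ (mul_nonneg (Real.sqrt_nonneg _) hA0) hs 2

/-- Above the number of cards the level pieces vanish. -/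
lemma levelE_succ_eq_zero {k : ℕ} (hk : Fintype.card Ω ≤ k) : levelE (Ω := Ω) (k + 1) = 0 := by
  have h1 : levelV (Ω := Ω) k = ⊤ := top_le_iff.mp (levelV_top (Ω := Ω) ▸ levelV_mono hk)
  have h2 : levelV (Ω := Ω) (k + 1) = ⊤ := top_le_iff.mp (h1 ▸ levelV_mono (Nat.le_succ k))
  change projMat (levelV (k + 1)) - projMat (levelV k) = 0
  rw [h1, h2, sub_self]

end Trace

section Block

variable {D : ℕ}

/-- The block is the regular representation matrix of a probability law. -/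
lemma exists_blockT_eq_regMat_nonneg (D : ℕ) :
    ∃ ν : Equiv.Perm (Pos D) → ℝ, blockT D = regMat ν ∧ (∀ g, 0 ≤ ν g) ∧ ∑ g, ν g = 1 := by
  have hP : ∀ b : Fin D, ∑ g, swapLaw b g = 1 := by
    intro b
    have : Nonempty (Coin b) := ⟨⟨fun _ => false, fun _ => rfl⟩⟩
    exact push_sum _
  have hP0 : ∀ (b : Fin D) g, 0 ≤ swapLaw b g := fun b g => push_nonneg _ g
  have key : ∀ L : List (Fin D),
      ∃ ν : Equiv.Perm (Pos D) → ℝ, (L.map P).prod = regMat ν ∧ (∀ g, 0 ≤ ν g) ∧ ∑ g, ν g = 1 := by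
    intro L
    induction L with
    | nil =>
      refine ⟨delta 1, by simp [regMat_delta_one], ?_, ?_⟩
      · intro g; simp only [delta]; split_ifs <;> norm_num
      · simp [delta]
    | cons b L ih =>
      obtain ⟨ν, h1, h0, h2⟩ := ih
      refine ⟨conv (swapLaw b) ν, ?_, ?_, ?_⟩
      · rw [List.map_cons, List.prod_cons, h1, regMat_conv]; rfl
      · intro g
        exact Finset.sum_nonneg fun h _ => mul_nonneg (hP0 b h) (h0 _)
      · simp only [conv]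
        rw [Finset.sum_comm]
        have : ∀ h : Equiv.Perm (Pos D), ∑ g, swapLaw b h * ν (h⁻¹ * g) = swapLaw b h := by
          intro h
          rw [← Finset.mul_sum]
          have h3 : ∑ g, ν (h⁻¹ * g) = ∑ g, ν g :=
            Fintype.sum_equiv (Equiv.mulLeft h⁻¹) _ _ (fun _ => rfl)
          rw [h3, h2, mul_one]
        simp_rw [this]
        exact hP b
  exact key _

lemma blockT_transpose_contraction (D : ℕ) (v : Equiv.Perm (Pos D) → ℝ) :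
    ((blockT D)ᵀ *ᵥ v) ⬝ᵥ ((blockT D)ᵀ *ᵥ v) ≤ v ⬝ᵥ v := by
  obtain ⟨τ, h1, h0, h2⟩ := exists_blockT_eq_regMat_nonneg D
  rw [h1, regMat_transpose]
  refine regMat_contraction _ (fun g => h0 _) ?_ v
  rw [← h2]
  exact Fintype.sum_equiv (Equiv.inv _) _ _ (fun _ => rfl)

/-- The canonical law of `W = Tᵀ T`. -/
lemma exists_W_eq_regMat (D : ℕ) :
    ∃ ν : Equiv.Perm (Pos D) → ℝ,
      (blockT D)ᵀ * blockT D = regMat ν ∧ (∀ g, 0 ≤ ν g) ∧ ∑ g, ν g = 1 := by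
  obtain ⟨τ, h1, h0, h2⟩ := exists_blockT_eq_regMat_nonneg D
  refine ⟨conv (fun g => τ g⁻¹) τ, ?_, ?_, ?_⟩
  · rw [h1, regMat_transpose, regMat_conv]
  · intro g
    exact Finset.sum_nonneg fun h _ => mul_nonneg (h0 _) (h0 _)
  · simp only [conv]
    rw [Finset.sum_comm]
    have : ∀ h : Equiv.Perm (Pos D), ∑ g, τ h⁻¹ * τ (h⁻¹ * g) = τ h⁻¹ := by
      intro h
      rw [← Finset.mul_sum]
      have h3 : ∑ g, τ (h⁻¹ * g) = ∑ g, τ g :=
        Fintype.sum_equiv (Equiv.mulLeft h⁻¹) _ _ (fun _ => rfl)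
      rw [h3, h2, mul_one]
    simp_rw [this]
    rw [← h2]
    exact Fintype.sum_equiv (Equiv.inv _) _ _ (fun _ => rfl)

/-- **The band trace, group side.**  For every law `ν ≥ 0` of `W = Tᵀ T`, every noise `η ≤ 1/2` and
every level `k ≤ 2^D`: `trace (W⁴ E_k) ≤ trace (W³ E_k) ≤ Band² / (η^k (1-η)^(2^D-k))³`. -/
theorem trace_W4_levelE_le_band (D k : ℕ) (hk : k ≤ 2 ^ D) (ν : Equiv.Perm (Pos D) → ℝ)
    (hν : ∀ g, 0 ≤ ν g) (hW : (blockT D)ᵀ * blockT D = regMat ν) {η : ℝ} (h0 : 0 < η)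
    (h1 : η ≤ 1 / 2) :
    trace (((blockT D)ᵀ * blockT D) ^ 4 * levelE k)
      ≤ (bandSum ν η) ^ 2 / (η ^ k * (1 - η) ^ (2 ^ D - k)) ^ 3 := by
  have hcard : Fintype.card (Pos D) = 2 ^ D := by simp [Pos]
  have hk' : k ≤ Fintype.card (Pos D) := by rwa [hcard]
  have h3 := band_trace_cube (blockT D) ν hν hW h0 h1 hk'
  rw [hcard] at h3
  have hc : 0 < (η ^ k * (1 - η) ^ (2 ^ D - k)) ^ 3 := by
    have : 0 < 1 - η := by linarith
    positivity
  rw [le_div_iff₀ hc]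
  have h4 := trace_four_le_three (blockT D) (levelE k) (blockT_transpose_contraction D)
    (levelE_symm k) (levelE_idem k)
  calc trace (((blockT D)ᵀ * blockT D) ^ 4 * levelE k) * (η ^ k * (1 - η) ^ (2 ^ D - k)) ^ 3
      ≤ trace (((blockT D)ᵀ * blockT D) ^ 3 * levelE k) * (η ^ k * (1 - η) ^ (2 ^ D - k)) ^ 3 :=
        mul_le_mul_of_nonneg_right h4 hc.le
    _ = (η ^ k * (1 - η) ^ (2 ^ D - k)) ^ 3 * trace (((blockT D)ᵀ * blockT D) ^ 3 * levelE k) := by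
        ring
    _ ≤ _ := h3

end Block

end Crest.Agent.Lib.Thorp
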