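/-
  Thorp band trace (row 155, S0222), part 1: the reflection-positivity step on colourings of partial maps.
  No cycle decompositions: "excited colourings" replace products over cycles.
-/
import Mathlib

set_option autoImplicit false
set_option linter.unusedSectionVars false

namespace Crest.Agent.Lib.Thorp.Band

open scoped Classical

noncomputable section

/-- Partial maps of a finite set of positions: the marked inputs and where they go. -/
abbrev PF (Q : Type) := Q → Option Q

section Colour

variable {Q : Type} [Fintype Q] [DecidableEq Q]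
variable {Y : Type} [Fintype Y] [DecidableEq Y]

/-- A partial map is injective where it is defined. -/
def PFInj (y : PF Q) : Prop := ∀ v v' w, y v = some w → y v' = some w → v = v'

/-- `y` transports the colouring `α` of inputs to the colouring `β` of outputs: every excited
(non-ground) colour travels along `y`. -/
def Transp (g : Y) (y : PF Q) (α β : Q → Y) : Prop :=
  (∀ v, α v ≠ g → ∃ w, y v = some w ∧ β w = α v) ∧
    (∀ w, β w ≠ g → ∃ v, y v = some w ∧ α v = β w)

/-- Indicator of transport. -/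
def ind (g : Y) (y : PF Q) (α β : Q → Y) : ℝ := if Transp g y α β then 1 else 0

lemma ind_nonneg (g : Y) (y : PF Q) (α β : Q → Y) : 0 ≤ ind g y α β := by
  unfold ind; split_ifs <;> norm_num

lemma ind_le_one (g : Y) (y : PF Q) (α β : Q → Y) : ind g y α β ≤ 1 := by
  unfold ind; split_ifs <;> norm_num

/-- Product weight of a colouring. -/
def wt (w : Y → ℝ) (α : Q → Y) : ℝ := ∏ v, w (α v)

lemma wt_nonneg {w : Y → ℝ} (hw : ∀ e, 0 ≤ w e) (α : Q → Y) : 0 ≤ wt w α :=
  Finset.prod_nonneg fun _ _ => hw _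

lemma wt_le_one {w : Y → ℝ} (hw : ∀ e, 0 ≤ w e) (hw1 : ∀ e, w e ≤ 1) (α : Q → Y) : wt w α ≤ 1 :=
  Finset.prod_le_one (fun _ _ => hw _) (fun _ _ => hw1 _)

/-- The output colouring is determined by the input colouring. -/
lemma Transp.unique_right {g : Y} {y : PF Q} {α β β' : Q → Y}
    (h : Transp g y α β) (h' : Transp g y α β') : β = β' := by
  funext w
  by_contra hne
  by_cases hb : β w = g
  · have hb' : β' w ≠ g := fun h2 => hne (by rw [hb, h2])
    obtain ⟨v, hv, hαv⟩ := h'.2 w hb'
    obtain ⟨w2, hw2, hβ⟩ := h.1 v (by rw [hαv]; exact hb')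
    have : w2 = w := by rw [hv] at hw2; exact (Option.some.inj hw2).symm
    subst this
    exact hne (by rw [hβ, hαv])
  · obtain ⟨v, hv, hαv⟩ := h.2 w hb
    obtain ⟨w2, hw2, hβ⟩ := h'.1 v (by rw [hαv]; exact hb)
    have : w2 = w := by rw [hv] at hw2; exact (Option.some.inj hw2).symm
    subst this
    exact hne (by rw [hβ, hαv])

/-- Product alphabet: transport is coordinatewise for injective partial maps. -/
lemma transp_prod {Z : Type} {g : Y} {gz : Z} {y : PF Q} (hy : PFInj y)
    {α β : Q → Y} {z z' : Q → Z} :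
    Transp (g, gz) y (fun v => (α v, z v)) (fun v => (β v, z' v)) ↔
      Transp g y α β ∧ Transp gz y z z' := by
  constructor
  · rintro ⟨h1, h2⟩
    refine ⟨⟨fun v hv => ?_, fun w hw => ?_⟩, ⟨fun v hv => ?_, fun w hw => ?_⟩⟩
    · obtain ⟨w, hw, he⟩ := h1 v (fun h => hv (congrArg Prod.fst h))
      exact ⟨w, hw, congrArg Prod.fst he⟩
    · obtain ⟨v, hv, he⟩ := h2 w (fun h => hw (congrArg Prod.fst h))
      exact ⟨v, hv, congrArg Prod.fst he⟩
    · obtain ⟨w, hw, he⟩ := h1 v (fun h => hv (congrArg Prod.snd h))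
      exact ⟨w, hw, congrArg Prod.snd he⟩
    · obtain ⟨v, hv, he⟩ := h2 w (fun h => hw (congrArg Prod.snd h))
      exact ⟨v, hv, congrArg Prod.snd he⟩
  · rintro ⟨⟨a1, a2⟩, ⟨b1, b2⟩⟩
    constructor
    · intro v hv
      by_cases hα : α v = g
      · have hz : z v ≠ gz := fun h => hv (by simp [hα, h])
        obtain ⟨w, hw, he⟩ := b1 v hz
        refine ⟨w, hw, ?_⟩
        simp only [Prod.mk.injEq]
        refine ⟨?_, he⟩
        by_contra hne
        by_cases hβ : β w = g
        · exact hne (by rw [hβ, hα])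
        · obtain ⟨v2, hv2, he2⟩ := a2 w hβ
          have : v2 = v := hy _ _ _ hv2 hw
          subst this
          exact hne he2.symm
      · obtain ⟨w, hw, he⟩ := a1 v hα
        refine ⟨w, hw, ?_⟩
        simp only [Prod.mk.injEq]
        refine ⟨he, ?_⟩
        by_cases hz : z v = gz
        · by_contra hne
          have hz' : z' w ≠ gz := fun h => hne (by rw [h, hz])
          obtain ⟨v2, hv2, he2⟩ := b2 w hz'
          have : v2 = v := hy _ _ _ hv2 hw
          subst this
          exact hz' (by rw [← he2, hz])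
        · obtain ⟨w2, hw2, he2⟩ := b1 v hz
          rw [hw] at hw2
          have : w = w2 := Option.some.inj hw2
          subst this
          exact he2
    · intro w hw
      by_cases hβ : β w = g
      · have hz : z' w ≠ gz := fun h => hw (by simp [hβ, h])
        obtain ⟨v, hv, he⟩ := b2 w hz
        refine ⟨v, hv, ?_⟩
        simp only [Prod.mk.injEq]
        refine ⟨?_, he⟩
        by_contra hne
        by_cases hα : α v = g
        · exact hne (by rw [hα, hβ])
        · obtain ⟨w2, hw2, he2⟩ := a1 v hα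
          rw [hv] at hw2
          have : w = w2 := Option.some.inj hw2
          subst this
          exact hne he2.symm
      · obtain ⟨v, hv, he⟩ := a2 w hβ
        refine ⟨v, hv, ?_⟩
        simp only [Prod.mk.injEq]
        refine ⟨he, ?_⟩
        by_cases hz : z' w = gz
        · by_contra hne
          have hz' : z v ≠ gz := fun h => hne (by rw [h, hz])
          obtain ⟨w2, hw2, he2⟩ := b1 v hz'
          rw [hv] at hw2
          have : w = w2 := Option.some.inj hw2
          subst this
          exact hz' (by rw [← he2, hz])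
        · obtain ⟨v2, hv2, he2⟩ := b2 w hz
          have : v2 = v := hy _ _ _ hv2 hv
          subst this
          exact he2

lemma ind_prod {Z : Type} {g : Y} {gz : Z} {y : PF Q} (hy : PFInj y)
    (α β : Q → Y) (z z' : Q → Z) :
    ind (g, gz) y (fun v => (α v, z v)) (fun v => (β v, z' v)) = ind g y α β * ind gz y z z' := by
  unfold ind
  by_cases h1 : Transp g y α β <;> by_cases h2 : Transp gz y z z' <;>
    simp [transp_prod hy, h1, h2]

/-! Relation form of the cycle argument. -/
section Cycle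

variable (R : Q → Q → Prop)

/-- Transport along a relation. -/
def TranspR (g : Y) (α β : Q → Y) : Prop :=
  (∀ v, α v ≠ g → ∃ w, R v w ∧ β w = α v) ∧ (∀ w, β w ≠ g → ∃ v, R v w ∧ α v = β w)

lemma transp_iff_R (g : Y) (y : PF Q) (α β : Q → Y) :
    Transp g y α β ↔ TranspR (fun v w => y v = some w) g α β := Iff.rfl

lemma transpR_flip (g : Y) (α β : Q → Y) :
    TranspR (fun w v => R v w) g β α ↔ TranspR R g α β := by
  unfold TranspR
  constructor
  · rintro ⟨h1, h2⟩
    refine ⟨fun v hv => ?_, fun w hw => ?_⟩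
    · obtain ⟨w, hw, he⟩ := h2 v hv
      exact ⟨w, hw, he⟩
    · obtain ⟨v, hv, he⟩ := h1 w hw
      exact ⟨v, hv, he⟩
  · rintro ⟨h1, h2⟩
    refine ⟨fun v hv => ?_, fun w hw => ?_⟩
    · obtain ⟨w, hw, he⟩ := h2 v hv
      exact ⟨w, hw, he⟩
    · obtain ⟨v, hv, he⟩ := h1 w hw
      exact ⟨v, hv, he⟩

variable {R}

/-- A cycle set inside `T`: a subset of `T` permuted by `R`. -/
def IsCycleSet (R : Q → Q → Prop) (T : Q → Prop) (C : Finset Q) : Prop :=
  (∀ v ∈ C, T v) ∧ (∀ v ∈ C, ∃ w ∈ C, R v w) ∧ (∀ w ∈ C, ∃ v ∈ C, R v w)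

/-- The positions on cycles inside `T`. -/
def CycPos (R : Q → Q → Prop) (T : Q → Prop) (v : Q) : Prop := ∃ C, IsCycleSet R T C ∧ v ∈ C

/-- Cut-down of a colouring to the cycle positions. -/
def cutCyc (R : Q → Q → Prop) (T : Q → Prop) (g : Y) (α : Q → Y) : Q → Y :=
  fun v => if CycPos R T v then α v else g

variable (hR1 : ∀ v w w', R v w → R v w' → w = w') (hR2 : ∀ v v' w, R v w → R v' w → v = v')

include hR1 hR2 in
/-- Claim 1: the cut-down of a solution is closed. -/
lemma cutCyc_closed {T : Q → Prop} {g : Y} {α β : Q → Y} (h : TranspR R g α β)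
    (hT : ∀ v, T v → β v = α v) :
    TranspR R g (cutCyc R T g α) (cutCyc R T g α) := by
  constructor
  · intro v hv
    have hc : CycPos R T v := by
      by_contra hc; exact hv (by simp [cutCyc, hc])
    have hαv : cutCyc R T g α v = α v := by simp [cutCyc, hc]
    rw [hαv] at hv ⊢
    obtain ⟨w, hw, hβ⟩ := h.1 v hv
    refine ⟨w, hw, ?_⟩
    obtain ⟨C, hC, hvC⟩ := hc
    obtain ⟨w2, hw2C, hw2⟩ := hC.2.1 v hvC
    have : w2 = w := hR1 _ _ _ hw2 hw
    subst this
    have hcw : CycPos R T w2 := ⟨C, hC, hw2C⟩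
    simp only [cutCyc, hcw, if_true]
    rw [← hT _ (hC.1 _ hw2C)]
    exact hβ
  · intro w hw
    have hc : CycPos R T w := by
      by_contra hc; exact hw (by simp [cutCyc, hc])
    have hαw : cutCyc R T g α w = α w := by simp [cutCyc, hc]
    rw [hαw] at hw ⊢
    obtain ⟨C, hC, hwC⟩ := hc
    obtain ⟨v, hvC, hv⟩ := hC.2.2 w hwC
    refine ⟨v, hv, ?_⟩
    have hcv : CycPos R T v := ⟨C, hC, hvC⟩
    simp only [cutCyc, hcv, if_true]
    have hTw := hT w (hC.1 _ hwC)
    obtain ⟨v2, hv2, he⟩ := h.2 w (by rw [hTw]; exact hw)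
    have : v2 = v := hR2 _ _ _ hv2 hv
    subst this
    rw [he, hTw]

include hR1 hR2 in
/-- Claim 2: two solutions with the same boundary and the same cycle part coincide. -/
lemma cutCyc_inj {T : Q → Prop} {g : Y} {α₁ α₂ β₁ β₂ : Q → Y}
    (h₁ : TranspR R g α₁ β₁) (h₂ : TranspR R g α₂ β₂)
    (hT₁ : ∀ v, T v → β₁ v = α₁ v) (hT₂ : ∀ v, T v → β₂ v = α₂ v)
    (hbd : ∀ v, ¬ T v → α₁ v = α₂ v)
    (hcut : cutCyc R T g α₁ = cutCyc R T g α₂) : α₁ = α₂ := by
  by_contra hne
  -- the difference set
  let D : Finset Q := Finset.univ.filter (fun v => α₁ v ≠ α₂ v)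
  have hDne : ∃ v, v ∈ D := by
    by_contra hemp
    apply hne
    funext v
    by_contra hv
    exact hemp ⟨v, by simp [D, hv]⟩
  have hDT : ∀ v ∈ D, T v := by
    intro v hv
    by_contra hT
    have := hbd v hT
    simp only [D, Finset.mem_filter, Finset.mem_univ, true_and] at hv
    exact hv this
  -- every point of `D` has a preimage in `D`
  have hpre : ∀ w ∈ D, ∃ v ∈ D, R v w := by
    intro w hw
    have hwne : α₁ w ≠ α₂ w := by simpa [D] using hw
    have hTw := hDT w hw
    by_cases h1 : α₁ w = g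
    · have h2 : α₂ w ≠ g := fun h => hwne (by rw [h1, h])
      obtain ⟨v, hv, he⟩ := h₂.2 w (by rw [hT₂ w hTw]; exact h2)
      refine ⟨v, ?_, hv⟩
      simp only [D, Finset.mem_filter, Finset.mem_univ, true_and]
      intro heq
      have hne2 : α₁ v ≠ g := by
        rw [heq, he, hT₂ w hTw]; exact h2
      obtain ⟨w2, hw2, hβ⟩ := h₁.1 v hne2
      have : w2 = w := hR1 _ _ _ hw2 hv
      subst this
      rw [hT₁ _ hTw, heq, he, hT₂ _ hTw] at hβ
      exact hwne hβ
    · obtain ⟨v, hv, he⟩ := h₁.2 w (by rw [hT₁ w hTw]; exact h1)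
      refine ⟨v, ?_, hv⟩
      simp only [D, Finset.mem_filter, Finset.mem_univ, true_and]
      intro heq
      have hne2 : α₂ v ≠ g := by
        rw [← heq, he, hT₁ w hTw]; exact h1
      obtain ⟨w2, hw2, hβ⟩ := h₂.1 v hne2
      have : w2 = w := hR1 _ _ _ hw2 hv
      subst this
      rw [hT₂ _ hTw, ← heq, he, hT₁ _ hTw] at hβ
      exact hwne hβ.symm
  -- `pre` is an injective self map of `D`
  choose! pre hpreD hpreR using hpre
  have hinj : Function.Injective (fun w : D => (⟨pre w.1, hpreD w.1 w.2⟩ : D)) := by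
    intro a b hab
    have hab' : pre a.1 = pre b.1 := congrArg Subtype.val hab
    have h1 := hpreR a.1 a.2
    have h2 := hpreR b.1 b.2
    rw [hab'] at h1
    exact Subtype.ext (hR1 _ _ _ h1 h2)
  have hsurj := Finite.injective_iff_surjective.mp hinj
  have hC : IsCycleSet R T D := by
    refine ⟨hDT, fun v hv => ?_, fun w hw => ⟨pre w, hpreD w hw, hpreR w hw⟩⟩
    obtain ⟨⟨w, hw⟩, hwv⟩ := hsurj ⟨v, hv⟩
    have : pre w = v := congrArg Subtype.val hwv
    exact ⟨w, hw, this ▸ hpreR w hw⟩
  -- but on `D` the cut-downs differ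
  obtain ⟨v, hv⟩ := hDne
  have hcv : CycPos R T v := ⟨D, hC, hv⟩
  have := congrFun hcut v
  simp only [cutCyc, hcv, if_true] at this
  have hv' : α₁ v ≠ α₂ v := by simpa [D] using hv
  exact hv' this

end Cycle

end Colour

end

end Crest.Agent.Lib.Thorp.Band
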