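/-
S0222 (Thorp shuffle), band trace, the node law (helper83).

For a law `l` on `Perm Q` let `lawSucc l` be the law of `S s' * (a0 + a1) * S s` on `Perm (Q × Bool)`
(uniform coins `s, s'`, independent `a0, a1 ∼ l`).  For a partial map `y : Q → Option Q` let
`phiP l y = P(a extends y)`, `psiP l y = |Q|^|dom y| phiP l y`.

* `psi_succ`: the recursion of `psiP` along `glue`;
* `gamma_le`: `2^|dom y| P_{s,s'}(y matched) ≤ gammaB y0 y1` (Fourier on the coins, no cycles);
* `node_power_mean`: `ν⁺ ψ⁺^{3/2} ≤ stepM (√γ) (ν ψ^{3/2})`.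
-/
import Crest.Agent.Lib.Thorp.BandPD
import Crest.Agent.Lib.Thorp.BandGroup

set_option autoImplicit false
set_option linter.unusedSectionVars false
set_option linter.unusedSimpArgs false

namespace Crest.Agent.Lib.Thorp.Band

open scoped Classical

noncomputable section

variable {Q : Type} [Fintype Q] [DecidableEq Q]

/-- The layer of coins on `Q × Bool`. -/
def swapS (s : Q → Bool) : Equiv.Perm (Q × Bool) where
  toFun x := (x.1, xor x.2 (s x.1))
  invFun x := (x.1, xor x.2 (s x.1))
  left_inv x := by ext <;> simp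
  right_inv x := by ext <;> simp

@[simp] lemma swapS_apply (s : Q → Bool) (x : Q × Bool) : swapS s x = (x.1, xor x.2 (s x.1)) := rfl

/-- Sum of two permutations. -/
def sumP (a0 a1 : Equiv.Perm Q) : Equiv.Perm (Q × Bool) where
  toFun x := ((bif x.2 then a1 else a0) x.1, x.2)
  invFun x := ((bif x.2 then a1⁻¹ else a0⁻¹) x.1, x.2)
  left_inv x := by
    rcases x with ⟨v, b⟩
    cases b <;> simp
  right_inv x := by
    rcases x with ⟨v, b⟩
    cases b <;> simp

@[simp] lemma sumP_apply (a0 a1 : Equiv.Perm Q) (x : Q × Bool) :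
    sumP a0 a1 x = ((bif x.2 then a1 else a0) x.1, x.2) := rfl

/-- The number of coin settings. -/
def NC (Q : Type) [Fintype Q] : ℝ := 2 ^ (Fintype.card Q)

lemma NC_pos : 0 < NC Q := by
  unfold NC
  positivity

lemma NC_eq : NC Q = (Fintype.card (Q → Bool) : ℝ) := by
  unfold NC
  simp

/-- The law one level up. -/
def lawSucc (l : Equiv.Perm Q → ℝ) (g : Equiv.Perm (Q × Bool)) : ℝ :=
  (NC Q)⁻¹ * (NC Q)⁻¹ * ∑ s' : Q → Bool, ∑ s : Q → Bool, ∑ a0 : Equiv.Perm Q, ∑ a1 : Equiv.Perm Q,
    if g = swapS s' * sumP a0 a1 * swapS s then l a0 * l a1 else 0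

/-- `a` extends the partial map `y`. -/
def Ext {Q : Type} (a : Equiv.Perm Q) (y : PF Q) : Prop := ∀ v w, y v = some w → a v = w

/-- The probability that a permutation with law `l` extends `y`. -/
def phiP (l : Equiv.Perm Q → ℝ) (y : PF Q) : ℝ := ∑ a, if Ext a y then l a else 0

/-- Gluing two partial maps of the two sides. -/
def glue (s s' : Q → Bool) (y0 y1 : PF Q) : PF (Q × Bool) := fun x =>
  (bif (xor x.2 (s x.1)) then y1 x.1 else y0 x.1).map (fun w => (w, xor (xor x.2 (s x.1)) (s' w)))

/-- The partial map of one side. -/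
def child (s : Q → Bool) (y : PF (Q × Bool)) (c : Bool) : PF Q :=
  fun v => (y (v, xor c (s v))).map Prod.fst

lemma child_glue (s s' : Q → Bool) (y0 y1 : PF Q) :
    child s (glue s s' y0 y1) false = y0 ∧ child s (glue s s' y0 y1) true = y1 := by
  constructor
  · funext v
    simp only [child, glue]
    cases (y0 v) <;> simp
  · funext v
    simp only [child, glue]
    have : xor (xor true (s v)) (s v) = true := by cases s v <;> rfl
    rw [this]
    cases (y1 v) <;> simp

/-- `y` is matched by the coins `s, s'`. -/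
def Matched (s s' : Q → Bool) (y : PF (Q × Bool)) : Prop :=
  glue s s' (child s y false) (child s y true) = y

lemma glue_eq_iff (s s' : Q → Bool) (y0 y1 : PF Q) (y : PF (Q × Bool)) :
    glue s s' y0 y1 = y ↔ Matched s s' y ∧ y0 = child s y false ∧ y1 = child s y true := by
  constructor
  · intro h
    subst h
    have h1 := child_glue s s' y0 y1
    refine ⟨?_, h1.1.symm, h1.2.symm⟩
    unfold Matched
    rw [h1.1, h1.2]
  · rintro ⟨h1, rfl, rfl⟩
    exact h1

lemma glue_child_apply (s s' : Q → Bool) (y : PF (Q × Bool)) (x : Q × Bool) :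
    glue s s' (child s y false) (child s y true) x
      = (y x).map (fun p => (p.1, xor (xor x.2 (s x.1)) (s' p.1))) := by
  rcases x with ⟨v, b⟩
  simp only [glue, child]
  have h : (v, xor (xor (xor b (s v)) false) (s v)) = (v, b) ∧
      (v, xor (xor (xor b (s v)) true) (s v)) = (v, !b) := by
    cases b <;> cases s v <;> simp
  cases hb : xor b (s v)
  · simp only [cond_false]
    have hb' : xor false (s v) = b := by
      cases b <;> cases hs : s v <;> simp_all
    rw [hb', Option.map_map]
    rfl
  · simp only [cond_true]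
    have hb' : xor true (s v) = b := by
      cases b <;> cases hs : s v <;> simp_all
    rw [hb', Option.map_map]
    rfl

lemma matched_iff (s s' : Q → Bool) (y : PF (Q × Bool)) :
    Matched s s' y ↔ ∀ x p, y x = some p → p.2 = xor (xor x.2 (s x.1)) (s' p.1) := by
  unfold Matched
  constructor
  · intro h x p hp
    have := congrFun h x
    rw [glue_child_apply, hp] at this
    simp only [Option.map_some, Option.some.injEq] at this
    rw [← this]
  · intro h
    funext x
    rw [glue_child_apply]
    cases hx : y x with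
    | none => rfl
    | some p =>
      simp only [Option.map_some, Option.some.injEq]
      rw [Prod.ext_iff]
      exact ⟨rfl, (h x p hx).symm⟩

/-- The extension criterion. -/
lemma ext_comp_iff (s s' : Q → Bool) (a0 a1 : Equiv.Perm Q) (y : PF (Q × Bool)) :
    Ext (swapS s' * sumP a0 a1 * swapS s) y ↔
      Matched s s' y ∧ Ext a0 (child s y false) ∧ Ext a1 (child s y true) := by
  have hg : ∀ x : Q × Bool, (swapS s' * sumP a0 a1 * swapS s) x
      = ((bif (xor x.2 (s x.1)) then a1 else a0) x.1,
         xor (xor x.2 (s x.1)) (s' ((bif (xor x.2 (s x.1)) then a1 else a0) x.1))) := by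
    intro x; rfl
  constructor
  · intro h
    refine ⟨?_, ?_, ?_⟩
    · rw [matched_iff]
      intro x p hp
      have := h x p hp
      rw [hg] at this
      rw [← this]
    · intro v w hw
      simp only [child] at hw
      rw [Option.map_eq_some_iff] at hw
      obtain ⟨p, hp, rfl⟩ := hw
      have := h _ p hp
      rw [hg] at this
      have h2 := congrArg Prod.fst this
      simp only at h2
      have hc : xor (xor false (s v)) (s v) = false := by cases s v <;> rfl
      rw [hc] at h2
      exact h2
    · intro v w hw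
      simp only [child] at hw
      rw [Option.map_eq_some_iff] at hw
      obtain ⟨p, hp, rfl⟩ := hw
      have := h _ p hp
      rw [hg] at this
      have h2 := congrArg Prod.fst this
      simp only at h2
      have hc : xor (xor true (s v)) (s v) = true := by cases s v <;> rfl
      rw [hc] at h2
      exact h2
  · rintro ⟨hm, h0, h1⟩ x p hp
    rw [hg]
    have hm' := (matched_iff s s' y).mp hm x p hp
    rcases x with ⟨v, b⟩
    cases hb : xor b (s v)
    · simp only [hb] at hm' ⊢
      have hb' : xor false (s v) = b := by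
        cases b <;> cases hs : s v <;> simp_all
      have : child s y false v = some p.1 := by
        simp only [child, hb', hp, Option.map_some]
      have h2 := h0 v p.1 this
      simp only [cond_false]
      rw [h2, Prod.ext_iff]
      exact ⟨rfl, hm'.symm⟩
    · simp only [hb] at hm' ⊢
      have hb' : xor true (s v) = b := by
        cases b <;> cases hs : s v <;> simp_all
      have : child s y true v = some p.1 := by
        simp only [child, hb', hp, Option.map_some]
      have h2 := h1 v p.1 this
      simp only [cond_true]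
      rw [h2, Prod.ext_iff]
      exact ⟨rfl, hm'.symm⟩

/-- The recursion of `phiP`. -/
theorem phi_succ (l : Equiv.Perm Q → ℝ) (y : PF (Q × Bool)) :
    phiP (lawSucc l) y = (NC Q)⁻¹ * (NC Q)⁻¹ * ∑ s' : Q → Bool, ∑ s : Q → Bool,
      if Matched s s' y then phiP l (child s y false) * phiP l (child s y true) else 0 := by
  have step : ∀ s' s : Q → Bool, (∑ g : Equiv.Perm (Q × Bool), if Ext g y then
        (∑ a0 : Equiv.Perm Q, ∑ a1 : Equiv.Perm Q,
          if g = swapS s' * sumP a0 a1 * swapS s then l a0 * l a1 else 0) else 0)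
      = if Matched s s' y then phiP l (child s y false) * phiP l (child s y true) else 0 := by
    intro s' s
    have h1 : (∑ g : Equiv.Perm (Q × Bool), if Ext g y then
        (∑ a0 : Equiv.Perm Q, ∑ a1 : Equiv.Perm Q,
          if g = swapS s' * sumP a0 a1 * swapS s then l a0 * l a1 else 0) else 0)
        = ∑ a0 : Equiv.Perm Q, ∑ a1 : Equiv.Perm Q,
          if Ext (swapS s' * sumP a0 a1 * swapS s) y then l a0 * l a1 else 0 := by
      have : ∀ g : Equiv.Perm (Q × Bool), (if Ext g y then
        (∑ a0 : Equiv.Perm Q, ∑ a1 : Equiv.Perm Q,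
          if g = swapS s' * sumP a0 a1 * swapS s then l a0 * l a1 else 0) else 0)
          = ∑ a0 : Equiv.Perm Q, ∑ a1 : Equiv.Perm Q,
            if g = swapS s' * sumP a0 a1 * swapS s then (if Ext g y then l a0 * l a1 else 0) else 0 := by
        intro g
        by_cases hg : Ext g y
        · simp [hg]
        · simp [hg]
      simp_rw [this]
      rw [Finset.sum_comm]
      refine Finset.sum_congr rfl fun a0 _ => ?_
      rw [Finset.sum_comm]
      refine Finset.sum_congr rfl fun a1 _ => ?_
      rw [Finset.sum_eq_single (swapS s' * sumP a0 a1 * swapS s)]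
      · simp
      · intro g _ hg
        simp [hg]
      · simp
    rw [h1]
    by_cases hm : Matched s s' y
    · rw [if_pos hm]
      simp only [phiP]
      rw [Finset.sum_mul_sum]
      refine Finset.sum_congr rfl fun a0 _ => Finset.sum_congr rfl fun a1 _ => ?_
      by_cases h0 : Ext a0 (child s y false) <;> by_cases h1 : Ext a1 (child s y true) <;>
        simp [ext_comp_iff, hm, h0, h1]
    · rw [if_neg hm]
      apply Finset.sum_eq_zero
      intro a0 _
      apply Finset.sum_eq_zero
      intro a1 _
      rw [if_neg]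
      rw [ext_comp_iff]
      tauto
  have h2 : phiP (lawSucc l) y = (NC Q)⁻¹ * (NC Q)⁻¹ * ∑ g : Equiv.Perm (Q × Bool),
      if Ext g y then (∑ s' : Q → Bool, ∑ s : Q → Bool, ∑ a0 : Equiv.Perm Q, ∑ a1 : Equiv.Perm Q,
        if g = swapS s' * sumP a0 a1 * swapS s then l a0 * l a1 else 0) else 0 := by
    unfold phiP lawSucc
    rw [Finset.mul_sum]
    refine Finset.sum_congr rfl fun g _ => ?_
    by_cases hg : Ext g y
    · simp [hg]
    · simp [hg]
  rw [h2]
  congr 1
  simp_rw [← step]
  have h3 : ∀ g : Equiv.Perm (Q × Bool), (if Ext g y then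
      (∑ s' : Q → Bool, ∑ s : Q → Bool, ∑ a0 : Equiv.Perm Q, ∑ a1 : Equiv.Perm Q,
        if g = swapS s' * sumP a0 a1 * swapS s then l a0 * l a1 else 0) else 0)
      = ∑ s' : Q → Bool, ∑ s : Q → Bool, if Ext g y then
        (∑ a0 : Equiv.Perm Q, ∑ a1 : Equiv.Perm Q,
          if g = swapS s' * sumP a0 a1 * swapS s then l a0 * l a1 else 0) else 0 := by
    intro g
    by_cases hg : Ext g y
    · simp [hg]
    · simp [hg]
  simp_rw [h3]
  rw [Finset.sum_comm]
  refine Finset.sum_congr rfl fun s' _ => ?_
  rw [Finset.sum_comm]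

/-- The size of the domain. -/
def dc {Q : Type} [Fintype Q] (y : PF Q) : ℕ := (Finset.univ.filter (fun v => (y v).isSome = true)).card

lemma dc_eq_sum {Q : Type} [Fintype Q] (y : PF Q) :
    (dc y) = ∑ v, if (y v).isSome = true then 1 else 0 := by
  unfold dc
  rw [Finset.card_filter]

lemma dc_child (s : Q → Bool) (y : PF (Q × Bool)) :
    dc y = dc (child s y false) + dc (child s y true) := by
  simp only [dc_eq_sum, child, Option.isSome_map]
  rw [Fintype.sum_prod_type, ← Finset.sum_add_distrib]
  refine Finset.sum_congr rfl fun v _ => ?_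
  rw [Fintype.sum_bool]
  cases s v <;> simp [add_comm]

/-- The rescaled extension probability. -/
def psiP (l : Equiv.Perm Q → ℝ) (y : PF Q) : ℝ := (Fintype.card Q : ℝ) ^ dc y * phiP l y

/-- The recursion of `psiP`. -/
theorem psi_succ (l : Equiv.Perm Q → ℝ) (y : PF (Q × Bool)) :
    psiP (lawSucc l) y = 2 ^ dc y * ((NC Q)⁻¹ * (NC Q)⁻¹) * ∑ s' : Q → Bool, ∑ s : Q → Bool,
      if Matched s s' y then psiP l (child s y false) * psiP l (child s y true) else 0 := by
  unfold psiP
  rw [phi_succ]
  have hc : (Fintype.card (Q × Bool) : ℝ) = 2 * (Fintype.card Q : ℝ) := by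
    simp [Fintype.card_prod, mul_comm]
  rw [hc, mul_pow]
  simp only [mul_assoc]
  congr 1
  rw [mul_left_comm, mul_left_comm (Fintype.card Q ^ dc y : ℝ)]
  congr 2
  rw [Finset.mul_sum]
  refine Finset.sum_congr rfl fun s' _ => ?_
  rw [Finset.mul_sum]
  refine Finset.sum_congr rfl fun s _ => ?_
  by_cases hm : Matched s s' y
  · simp only [hm, if_true]
    rw [dc_child s y, pow_add]
    ring
  · simp [hm]

/-- The noise measure on partial maps. -/
def nuN {Q : Type} [Fintype Q] (η : ℝ) (y : PF Q) : ℝ :=
  ∏ v, if (y v).isSome = true then η / (Fintype.card Q : ℝ) else 1 - η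

lemma nuN_nonneg {Q : Type} [Fintype Q] {η : ℝ} (h0 : 0 ≤ η) (h1 : η ≤ 1) (y : PF Q) :
    0 ≤ nuN η y := by
  apply Finset.prod_nonneg
  intro v _
  split_ifs
  · positivity
  · linarith

lemma nu_child (η : ℝ) (s : Q → Bool) (y : PF (Q × Bool)) :
    nuN η y = (1 / 2) ^ dc y * (nuN η (child s y false) * nuN η (child s y true)) := by
  have hcard : (Fintype.card (Q × Bool) : ℝ) = 2 * (Fintype.card Q : ℝ) := by
    simp [Fintype.card_prod, mul_comm]
  have h1 : ((1 / 2 : ℝ)) ^ dc y = ∏ x, if (y x).isSome = true then (1 / 2 : ℝ) else 1 := by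
    unfold dc
    rw [Finset.prod_ite, Finset.prod_const, Finset.prod_const_one, mul_one]
  rw [h1]
  unfold nuN
  rw [hcard, Fintype.prod_prod_type, Fintype.prod_prod_type, ← Finset.prod_mul_distrib,
    ← Finset.prod_mul_distrib]
  refine Finset.prod_congr rfl fun v _ => ?_
  rw [Fintype.prod_bool, Fintype.prod_bool]
  simp only [child, Option.isSome_map]
  have hc : (Fintype.card Q : ℝ) = 0 ∨ (Fintype.card Q : ℝ) ≠ 0 := by tauto
  by_cases ha : (y (v, false)).isSome = true <;> by_cases hb : (y (v, true)).isSome = true <;>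
    cases hs : s v <;> simp [ha, hb] <;> ring

/-! ### Fourier on the coins -/

/-- The sign of a bit. -/
def sg (b : Bool) : ℝ := if b then -1 else 1

lemma sg_xor (a b : Bool) : sg (xor a b) = sg a * sg b := by
  cases a <;> cases b <;> simp [sg]

lemma sg_not (a : Bool) : sg (!a) = - sg a := by
  cases a <;> simp [sg]

lemma sg_mul_self (a : Bool) : sg a * sg a = 1 := by
  cases a <;> simp [sg]

lemma abs_sg (a : Bool) : |sg a| = 1 := by
  cases a <;> simp [sg]

lemma sum_prod_sg_eq_zero {ι : Type} (B : Finset ι) (φ : ι → Q) (q : Q)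
    (hodd : Odd (B.filter (fun x => φ x = q)).card) :
    ∑ s : Q → Bool, ∏ x ∈ B, sg (s (φ x)) = 0 := by
  let e : (Q → Bool) ≃ (Q → Bool) :=
    { toFun := fun s => Function.update s q (!s q)
      invFun := fun s => Function.update s q (!s q)
      left_inv := fun s => by
        funext v
        by_cases h : v = q
        · subst h; simp
        · simp [Function.update_of_ne h]
      right_inv := fun s => by
        funext v
        by_cases h : v = q
        · subst h; simp
        · simp [Function.update_of_ne h] }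
  have hflip : ∀ s : Q → Bool, ∏ x ∈ B, sg (e s (φ x)) = - ∏ x ∈ B, sg (s (φ x)) := by
    intro s
    rw [← Finset.prod_filter_mul_prod_filter_not B (fun x => φ x = q),
      ← Finset.prod_filter_mul_prod_filter_not B (fun x => φ x = q) (fun x => sg (s (φ x)))]
    have h1 : ∏ x ∈ B.filter (fun x => φ x = q), sg (e s (φ x))
        = - ∏ x ∈ B.filter (fun x => φ x = q), sg (s (φ x)) := by
      have e1 : ∀ x ∈ B.filter (fun x => φ x = q), sg (e s (φ x)) = - sg (s (φ x)) := by
        intro x hx
        have hq : φ x = q := (Finset.mem_filter.mp hx).2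
        rw [hq]
        change sg (Function.update s q (!s q) q) = _
        simp [sg_not]
      rw [Finset.prod_congr rfl e1, Finset.prod_neg, hodd.neg_one_pow]
      ring
    have h2 : ∏ x ∈ B.filter (fun x => ¬ φ x = q), sg (e s (φ x))
        = ∏ x ∈ B.filter (fun x => ¬ φ x = q), sg (s (φ x)) := by
      refine Finset.prod_congr rfl fun x hx => ?_
      have hq : φ x ≠ q := (Finset.mem_filter.mp hx).2
      change sg (Function.update s q (!s q) (φ x)) = _
      rw [Function.update_of_ne hq]
    rw [h1, h2]
    ring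
  have h : ∑ s : Q → Bool, ∏ x ∈ B, sg (s (φ x)) = - ∑ s : Q → Bool, ∏ x ∈ B, sg (s (φ x)) := by
    rw [← Finset.sum_neg_distrib]
    conv_lhs => rw [← Equiv.sum_comp e]
    exact Finset.sum_congr rfl fun s _ => hflip s
  linarith

lemma abs_prod_sg {ι : Type} (B : Finset ι) (f : ι → Bool) : |∏ x ∈ B, sg (f x)| = 1 := by
  rw [Finset.abs_prod]
  exact Finset.prod_eq_one fun x _ => abs_sg _

lemma abs_sum_prod_sg_le {ι : Type} (B : Finset ι) (φ : ι → Q) :
    |∑ s : Q → Bool, ∏ x ∈ B, sg (s (φ x))| ≤ NC Q := by
  refine (Finset.abs_sum_le_sum_abs _ _).trans ?_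
  simp_rw [abs_prod_sg]
  rw [NC_eq]
  simp

/-- The output of a partial map, total version. -/
def outP {Q : Type} (y : PF Q) (x : Q) : Q := (y x).getD x

lemma y_eq_some_outP {Q : Type} {y : PF Q} {x : Q} (h : (y x).isSome = true) :
    y x = some (outP y x) := by
  unfold outP
  cases hx : y x with
  | none => simp [hx] at h
  | some p => rfl

/-- The domain. -/
def domP {Q : Type} [Fintype Q] (y : PF Q) : Finset Q := Finset.univ.filter (fun v => (y v).isSome = true)

lemma mem_domP {Q : Type} [Fintype Q] {y : PF Q} {x : Q} : x ∈ domP y ↔ (y x).isSome = true := by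
  simp [domP]

/-- A subset of the domain meeting every input site and every output site evenly. -/
def EvenB (y : PF (Q × Bool)) (B : Finset (Q × Bool)) : Prop :=
  (∀ q, Even (B.filter (fun x => x.1 = q)).card) ∧
    (∀ q, Even (B.filter (fun x => (outP y x).1 = q)).card)

/-- The Fourier bound: the number of matching coins. -/
theorem matched_count_le (y : PF (Q × Bool)) :
    (2 : ℝ) ^ dc y * ∑ s' : Q → Bool, ∑ s : Q → Bool, (if Matched s s' y then (1 : ℝ) else 0)
      ≤ NC Q * NC Q * (((domP y).powerset.filter (EvenB y)).card : ℝ) := by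
  set D := domP y with hD
  let chi : (Q → Bool) → (Q → Bool) → (Q × Bool) → ℝ := fun s' s x =>
    sg (outP y x).2 * sg x.2 * sg (s x.1) * sg (s' (outP y x).1)
  have hprod : ∀ s' s : Q → Bool, (2 : ℝ) ^ dc y * (if Matched s s' y then (1 : ℝ) else 0)
      = ∏ x ∈ D, (1 + chi s' s x) := by
    intro s' s
    by_cases hm : Matched s s' y
    · rw [if_pos hm, mul_one]
      have h2 : ∀ x ∈ D, 1 + chi s' s x = 2 := by
        intro x hx
        have hx' := y_eq_some_outP (mem_domP.mp hx)
        have h3 := (matched_iff s s' y).mp hm x _ hx'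
        simp only [chi]
        have h4 : sg (outP y x).2 = sg x.2 * sg (s x.1) * sg (s' (outP y x).1) := by
          rw [h3, sg_xor, sg_xor]
        rw [h4]
        have e1 := sg_mul_self x.2
        have e2 := sg_mul_self (s x.1)
        have e3 := sg_mul_self (s' (outP y x).1)
        have : sg x.2 * sg (s x.1) * sg (s' (outP y x).1) * sg x.2 * sg (s x.1) * sg (s' (outP y x).1)
            = (sg x.2 * sg x.2) * (sg (s x.1) * sg (s x.1)) * (sg (s' (outP y x).1) * sg (s' (outP y x).1)) := by
          ring
        rw [this, e1, e2, e3]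
        norm_num
      rw [Finset.prod_congr rfl h2, Finset.prod_const]
      rfl
    · rw [if_neg hm, mul_zero]
      symm
      rw [matched_iff] at hm
      push Not at hm
      obtain ⟨x, p, hx, hp⟩ := hm
      have hxD : x ∈ D := by
        rw [hD, mem_domP, hx]; rfl
      apply Finset.prod_eq_zero hxD
      have hx' : outP y x = p := by
        unfold outP; rw [hx]; rfl
      simp only [chi]
      rw [hx']
      have h3 : sg p.2 = - (sg x.2 * sg (s x.1) * sg (s' p.1)) := by
        have : p.2 = ! (xor (xor x.2 (s x.1)) (s' p.1)) := by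
          cases h : p.2 <;> cases h' : xor (xor x.2 (s x.1)) (s' p.1) <;> simp_all
        rw [this, sg_not, sg_xor, sg_xor]
      rw [h3]
      have e1 := sg_mul_self x.2
      have e2 := sg_mul_self (s x.1)
      have e3 := sg_mul_self (s' p.1)
      have : -(sg x.2 * sg (s x.1) * sg (s' p.1)) * sg x.2 * sg (s x.1) * sg (s' p.1)
          = - ((sg x.2 * sg x.2) * (sg (s x.1) * sg (s x.1)) * (sg (s' p.1) * sg (s' p.1))) := by
        ring
      rw [this, e1, e2, e3]
      norm_num
  have hterm : ∀ B ∈ D.powerset, ∑ s' : Q → Bool, ∑ s : Q → Bool, ∏ x ∈ B, chi s' s x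
      ≤ NC Q * NC Q * (if EvenB y B then (1 : ℝ) else 0) := by
    intro B _
    have hfac : ∑ s' : Q → Bool, ∑ s : Q → Bool, ∏ x ∈ B, chi s' s x
        = (∏ x ∈ B, (sg (outP y x).2 * sg x.2)) *
          ((∑ s' : Q → Bool, ∏ x ∈ B, sg (s' (outP y x).1)) *
            (∑ s : Q → Bool, ∏ x ∈ B, sg (s x.1))) := by
      rw [Finset.sum_mul_sum, Finset.mul_sum]
      refine Finset.sum_congr rfl fun s' _ => ?_
      rw [Finset.mul_sum]
      refine Finset.sum_congr rfl fun s _ => ?_
      simp only [chi]
      rw [← Finset.prod_mul_distrib, ← Finset.prod_mul_distrib]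
      refine Finset.prod_congr rfl fun x _ => ?_
      ring
    rw [hfac]
    by_cases he : EvenB y B
    · rw [if_pos he, mul_one]
      have h1 : |∏ x ∈ B, (sg (outP y x).2 * sg x.2)| = 1 := by
        rw [Finset.abs_prod]
        refine Finset.prod_eq_one fun x _ => ?_
        rw [abs_mul, abs_sg, abs_sg, mul_one]
      refine (le_abs_self _).trans ?_
      rw [abs_mul, h1, one_mul, abs_mul]
      exact mul_le_mul (abs_sum_prod_sg_le B _) (abs_sum_prod_sg_le B _) (abs_nonneg _) NC_pos.le
    · rw [if_neg he, mul_zero]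
      unfold EvenB at he
      push Not at he
      by_cases h1 : ∀ q, Even (B.filter (fun x => x.1 = q)).card
      · obtain ⟨q, hq⟩ := he h1
        rw [Nat.not_even_iff_odd] at hq
        rw [sum_prod_sg_eq_zero B (fun x => (outP y x).1) q hq]
        simp
      · push Not at h1
        obtain ⟨q, hq⟩ := h1
        rw [Nat.not_even_iff_odd] at hq
        rw [sum_prod_sg_eq_zero B (fun x => x.1) q hq]
        simp
  have hL : (2 : ℝ) ^ dc y * ∑ s' : Q → Bool, ∑ s : Q → Bool, (if Matched s s' y then (1 : ℝ) else 0)
      = ∑ B ∈ D.powerset, ∑ s' : Q → Bool, ∑ s : Q → Bool, ∏ x ∈ B, chi s' s x := by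
    rw [Finset.mul_sum]
    simp_rw [Finset.mul_sum, hprod, Finset.prod_one_add]
    calc _ = ∑ s' : Q → Bool, ∑ B ∈ D.powerset, ∑ s : Q → Bool, ∏ x ∈ B, chi s' s x :=
            Finset.sum_congr rfl fun s' _ => Finset.sum_comm
      _ = _ := Finset.sum_comm
  rw [hL]
  calc _ ≤ ∑ B ∈ D.powerset, NC Q * NC Q * (if EvenB y B then (1 : ℝ) else 0) :=
        Finset.sum_le_sum hterm
    _ = _ := by rw [← Finset.mul_sum, Finset.sum_boole]

/-! ### The closed colourings -/

/-- The number of pairs of colourings transported by both partial maps. -/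
def gammaB {Q : Type} [Fintype Q] [DecidableEq Q] (y0 y1 : PF Q) : ℝ :=
  ((Finset.univ.filter (fun p : (Q → Bool) × (Q → Bool) =>
    Transp false y0 p.1 p.2 ∧ Transp false y1 p.1 p.2)).card : ℝ)

lemma gammaB_nonneg {Q : Type} [Fintype Q] [DecidableEq Q] (y0 y1 : PF Q) : 0 ≤ gammaB y0 y1 := by
  unfold gammaB; positivity

/-- An even subset is determined by its colouring, and the colouring is transported. -/
theorem evenB_card_le {s s' : Q → Bool} {y : PF (Q × Bool)} (hm : Matched s s' y) (hy : PFInj y) :
    (((domP y).powerset.filter (EvenB y)).card : ℝ) ≤ gammaB (child s y false) (child s y true) := by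
  unfold gammaB
  rw [Nat.cast_le]
  -- the two elements over an input site
  have hpair : ∀ B : Finset (Q × Bool), EvenB y B → ∀ x ∈ B, (x.1, !x.2) ∈ B := by
    intro B hB x hx
    by_contra hn
    have hsub : B.filter (fun z => z.1 = x.1) = {x} := by
      ext z
      simp only [Finset.mem_filter, Finset.mem_singleton]
      constructor
      · rintro ⟨hz, hz1⟩
        by_contra hne
        apply hn
        have : z = (x.1, !x.2) := by
          rcases z with ⟨v, b⟩
          rcases x with ⟨v', b'⟩
          simp only at hz1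
          subst hz1
          cases b <;> cases b' <;> simp_all
        rw [← this]
        exact hz
      · rintro rfl
        exact ⟨hx, rfl⟩
    have := hB.1 x.1
    rw [hsub, Finset.card_singleton] at this
    exact Nat.not_even_one this
  -- the two elements over an output site
  have hpair2 : ∀ B : Finset (Q × Bool), EvenB y B → ∀ x ∈ B,
      ∃ x' ∈ B, x' ≠ x ∧ (outP y x').1 = (outP y x).1 := by
    intro B hB x hx
    by_contra hn
    have hsub : B.filter (fun z => (outP y z).1 = (outP y x).1) = {x} := by
      ext z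
      simp only [Finset.mem_filter, Finset.mem_singleton]
      constructor
      · rintro ⟨hz, hz1⟩
        by_contra hne
        exact hn ⟨z, hz, hne, hz1⟩
      · rintro rfl
        exact ⟨hx, rfl⟩
    have := hB.2 (outP y x).1
    rw [hsub, Finset.card_singleton] at this
    exact Nat.not_even_one this
  -- transport
  have htr : ∀ B ∈ (domP y).powerset.filter (EvenB y), ∀ c : Bool,
      Transp false (child s y c) (fun v => decide ((v, false) ∈ B))
        (fun w => decide (∃ x ∈ B, (outP y x).1 = w)) := by
    intro B hB c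
    obtain ⟨hBD, hBe⟩ := Finset.mem_filter.mp hB
    rw [Finset.mem_powerset] at hBD
    constructor
    · intro v hv
      have hv' : (v, false) ∈ B := by simpa using hv
      have hboth : ∀ b, (v, b) ∈ B := by
        intro b
        cases b
        · exact hv'
        · exact hpair B hBe _ hv'
      set x : Q × Bool := (v, xor c (s v)) with hx
      have hxB : x ∈ B := hboth _
      have hxsome := y_eq_some_outP (mem_domP.mp (hBD hxB))
      refine ⟨(outP y x).1, ?_, ?_⟩
      · simp only [child]
        rw [← hx, hxsome]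
        rfl
      · have h7 : decide (∃ x' ∈ B, (outP y x').1 = (outP y x).1) = true :=
          decide_eq_true ⟨x, hxB, rfl⟩
        have h6 : decide ((v, false) ∈ B) = true := decide_eq_true hv'
        simp only [h6, h7]
    · intro w hw
      have hw' : ∃ x ∈ B, (outP y x).1 = w := by
        by_contra hn
        exact hw (decide_eq_false hn)
      obtain ⟨x, hxB, rfl⟩ := hw'
      obtain ⟨x', hxB', hne, hout⟩ := hpair2 B hBe x hxB
      have hxs := y_eq_some_outP (mem_domP.mp (hBD hxB))
      have hxs' := y_eq_some_outP (mem_domP.mp (hBD hxB'))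
      have hm1 := (matched_iff s s' y).mp hm x _ hxs
      have hm2 := (matched_iff s s' y).mp hm x' _ hxs'
      -- the two outputs differ in the second coordinate
      have hoth : (outP y x').2 ≠ (outP y x).2 := by
        intro h2
        have : outP y x' = outP y x := Prod.ext hout h2
        apply hne
        exact hy _ _ _ hxs' (by rw [hxs, this])
      have hside : xor x'.2 (s x'.1) ≠ xor x.2 (s x.1) := by
        intro h2
        apply hoth
        rw [hm1, hm2, h2, hout]
      -- one of them lies on the side `c`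
      have : ∃ z ∈ B, (outP y z).1 = (outP y x).1 ∧ xor z.2 (s z.1) = c := by
        by_cases hc : xor x.2 (s x.1) = c
        · exact ⟨x, hxB, rfl, hc⟩
        · refine ⟨x', hxB', hout, ?_⟩
          cases h3 : xor x'.2 (s x'.1) <;> cases h4 : xor x.2 (s x.1) <;> cases c <;> simp_all
      obtain ⟨z, hzB, hz1, hzc⟩ := this
      have hzs := y_eq_some_outP (mem_domP.mp (hBD hzB))
      refine ⟨z.1, ?_, ?_⟩
      · simp only [child]
        have : (z.1, xor c (s z.1)) = z := by
          rcases z with ⟨v, b⟩
          simp only at hzc ⊢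
          rw [← hzc]
          cases b <;> cases hs : s v <;> simp
        rw [this, hzs]
        simp [hz1]
      · have h5 : (z.1, false) ∈ B := by
          rcases z with ⟨v, b⟩
          cases b
          · exact hzB
          · exact hpair B hBe _ hzB
        have h6 : decide ((z.1, false) ∈ B) = true := decide_eq_true h5
        have h7 : decide (∃ x' ∈ B, (outP y x').1 = (outP y x).1) = true :=
          decide_eq_true ⟨x, hxB, rfl⟩
        simp only [h6, h7]
  -- the injection
  refine Finset.card_le_card_of_injOn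
    (fun B => ((fun v => decide ((v, false) ∈ B)), (fun w => decide (∃ x ∈ B, (outP y x).1 = w))))
    ?_ ?_
  · intro B hB
    simp only [Finset.coe_filter, Finset.mem_univ, true_and, Set.mem_ofPred_eq]
    exact ⟨htr B hB false, htr B hB true⟩
  · intro B hB B' hB' h
    have hα := congrArg Prod.fst h
    simp only at hα
    have hBe := (Finset.mem_filter.mp (Finset.mem_coe.mp hB)).2
    have hBe' := (Finset.mem_filter.mp (Finset.mem_coe.mp hB')).2
    have key : ∀ (C : Finset (Q × Bool)), EvenB y C → ∀ x, x ∈ C ↔ (x.1, false) ∈ C := by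
      intro C hC x
      constructor
      · intro hx
        rcases x with ⟨v, b⟩
        cases b
        · exact hx
        · exact hpair C hC _ hx
      · intro hx
        rcases x with ⟨v, b⟩
        cases b
        · exact hx
        · exact hpair C hC _ hx
    ext x
    rw [key B hBe x, key B' hBe' x]
    have := congrFun hα x.1
    simpa using this

/-! ### The power mean -/

/-- The recursion of the majorant. -/
def stepN (gam : PF Q → PF Q → ℝ) (M : PF Q → ℝ) (y : PF (Q × Bool)) : ℝ :=
  (NC Q)⁻¹ * (NC Q)⁻¹ * ∑ s' : Q → Bool, ∑ s : Q → Bool, ∑ y0 : PF Q, ∑ y1 : PF Q,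
    if glue s s' y0 y1 = y then M y0 * M y1 * gam y0 y1 else 0

lemma stepN_eq (gam : PF Q → PF Q → ℝ) (M : PF Q → ℝ) (y : PF (Q × Bool)) :
    stepN gam M y = (NC Q)⁻¹ * (NC Q)⁻¹ * ∑ s' : Q → Bool, ∑ s : Q → Bool,
      if Matched s s' y then
        M (child s y false) * M (child s y true) * gam (child s y false) (child s y true) else 0 := by
  unfold stepN
  congr 1
  refine Finset.sum_congr rfl fun s' _ => Finset.sum_congr rfl fun s _ => ?_
  by_cases hm : Matched s s' y
  · rw [if_pos hm]
    rw [Finset.sum_eq_single (child s y false)]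
    · rw [Finset.sum_eq_single (child s y true)]
      · rw [if_pos]
        exact (glue_eq_iff _ _ _ _ _).mpr ⟨hm, rfl, rfl⟩
      · intro y1 _ hy1
        rw [if_neg]
        intro h
        exact hy1 ((glue_eq_iff _ _ _ _ _).mp h).2.2
      · simp
    · intro y0 _ hy0
      apply Finset.sum_eq_zero
      intro y1 _
      rw [if_neg]
      intro h
      exact hy0 ((glue_eq_iff _ _ _ _ _).mp h).2.1
    · simp
  · rw [if_neg hm]
    apply Finset.sum_eq_zero
    intro y0 _
    apply Finset.sum_eq_zero
    intro y1 _
    rw [if_neg]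
    intro h
    exact hm ((glue_eq_iff _ _ _ _ _).mp h).1

lemma phiP_nonneg {l : Equiv.Perm Q → ℝ} (hl : ∀ g, 0 ≤ l g) (y : PF Q) : 0 ≤ phiP l y := by
  unfold phiP
  apply Finset.sum_nonneg
  intro a _
  split_ifs
  · exact hl a
  · exact le_rfl

lemma psiP_nonneg {l : Equiv.Perm Q → ℝ} (hl : ∀ g, 0 ≤ l g) (y : PF Q) : 0 ≤ psiP l y :=
  mul_nonneg (by positivity) (phiP_nonneg hl y)

lemma ext_inj {a : Equiv.Perm Q} {y : PF Q} (h : Ext a y) : PFInj y := by
  intro v v' w hv hv'
  have h1 := h v w hv
  have h2 := h v' w hv'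
  exact a.injective (h1.trans h2.symm)

lemma phiP_not_inj (l : Equiv.Perm Q → ℝ) {y : PF Q} (hy : ¬ PFInj y) : phiP l y = 0 := by
  unfold phiP
  apply Finset.sum_eq_zero
  intro a _
  rw [if_neg]
  exact fun h => hy (ext_inj h)

/-- Power mean at a node. -/
theorem node_power_mean {l : Equiv.Perm Q → ℝ} (hl : ∀ g, 0 ≤ l g) {η : ℝ} (h0 : 0 ≤ η) (h1 : η ≤ 1)
    (y : PF (Q × Bool)) :
    nuN η y * psi32 (psiP (lawSucc l) y) ≤
      stepN (fun y0 y1 => Real.sqrt (gammaB y0 y1)) (fun y' => nuN η y' * psi32 (psiP l y')) y := by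
  by_cases hy : PFInj y
  swap
  · have hz : psiP (lawSucc l) y = 0 := by
      unfold psiP
      rw [phiP_not_inj _ hy, mul_zero]
    rw [hz, stepN_eq]
    simp only [psi32, zero_mul, mul_zero]
    apply mul_nonneg (by have := NC_pos (Q := Q); positivity)
    apply Finset.sum_nonneg
    intro s' _
    apply Finset.sum_nonneg
    intro s _
    split_ifs
    · have a0 := nuN_nonneg h0 h1 (child s y false)
      have a1 := nuN_nonneg h0 h1 (child s y true)
      have b0 := psi32_nonneg (psiP_nonneg hl (child s y false))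
      have b1 := psi32_nonneg (psiP_nonneg hl (child s y true))
      simp only [psi32] at b0 b1
      positivity
    · exact le_rfl
  -- the matched coins
  set T := (Finset.univ : Finset ((Q → Bool) × (Q → Bool))).filter
    (fun t => Matched t.2 t.1 y) with hT
  set x : ((Q → Bool) × (Q → Bool)) → ℝ := fun t =>
    psiP l (child t.2 y false) * psiP l (child t.2 y true) with hx
  have hx0 : ∀ t, 0 ≤ x t := fun t =>
    mul_nonneg (psiP_nonneg hl _) (psiP_nonneg hl _)
  have hNC := NC_pos (Q := Q)
  set c : ℝ := 2 ^ dc y * ((NC Q)⁻¹ * (NC Q)⁻¹) with hc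
  have hc0 : 0 ≤ c := by positivity
  -- rewriting double sums over the coins
  have hsumT : ∀ F : (Q → Bool) → (Q → Bool) → ℝ,
      (∑ s' : Q → Bool, ∑ s : Q → Bool, if Matched s s' y then F s' s else 0)
        = ∑ t ∈ T, F t.1 t.2 := by
    intro F
    rw [hT, Finset.sum_filter, Fintype.sum_prod_type]
  have hpsi : psiP (lawSucc l) y = c * ∑ t ∈ T, x t := by
    rw [psi_succ, hsumT]
  -- the count
  have hcount : ∀ t ∈ T, c * (T.card : ℝ) ≤ gammaB (child t.2 y false) (child t.2 y true) := by
    intro t ht
    have hm : Matched t.2 t.1 y := (Finset.mem_filter.mp ht).2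
    refine le_trans ?_ (evenB_card_le hm hy)
    have h2 := matched_count_le y
    have h3 : (∑ s' : Q → Bool, ∑ s : Q → Bool, if Matched s s' y then (1 : ℝ) else 0)
        = (T.card : ℝ) := by
      rw [hsumT (fun _ _ => 1)]
      simp
    rw [h3] at h2
    have h4 : c * (T.card : ℝ) = (NC Q)⁻¹ * (NC Q)⁻¹ * (2 ^ dc y * (T.card : ℝ)) := by
      rw [hc]; ring
    rw [h4]
    have hNN : 0 < NC Q * NC Q := by positivity
    have h5 : (NC Q)⁻¹ * (NC Q)⁻¹ * (NC Q * NC Q) = 1 := by
      field_simp
    calc (NC Q)⁻¹ * (NC Q)⁻¹ * (2 ^ dc y * (T.card : ℝ))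
        ≤ (NC Q)⁻¹ * (NC Q)⁻¹ * (NC Q * NC Q * (((domP y).powerset.filter (EvenB y)).card : ℝ)) :=
          mul_le_mul_of_nonneg_left h2 (by positivity)
      _ = _ := by rw [← mul_assoc, h5, one_mul]
  -- the right side
  have hR : stepN (fun y0 y1 => Real.sqrt (gammaB y0 y1))
      (fun y' => nuN η y' * psi32 (psiP l y')) y
      = (NC Q)⁻¹ * (NC Q)⁻¹ * ∑ t ∈ T,
        ((nuN η (child t.2 y false) * psi32 (psiP l (child t.2 y false))) *
          (nuN η (child t.2 y true) * psi32 (psiP l (child t.2 y true))) *
            Real.sqrt (gammaB (child t.2 y false) (child t.2 y true))) := by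
    rw [stepN_eq]
    congr 1
    exact hsumT (fun s' s =>
      (nuN η (child s y false) * psi32 (psiP l (child s y false))) *
          (nuN η (child s y true) * psi32 (psiP l (child s y true))) *
            Real.sqrt (gammaB (child s y false) (child s y true)))
  rw [hR, hpsi]
  by_cases hTe : T = ∅
  · rw [hTe]
    simp [psi32]
  have hTpos : 0 < (T.card : ℝ) := by
    have : 0 < T.card := Finset.card_pos.mpr (Finset.nonempty_iff_ne_empty.mpr hTe)
    exact_mod_cast this
  set N : ℝ := (T.card : ℝ) with hN
  -- Jensen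
  have hJ : psi32 (∑ t ∈ T, x t) ≤ Real.sqrt N * ∑ t ∈ T, psi32 (x t) := by
    have hconv := psi32_convex.map_sum_le (t := T) (w := fun _ => N⁻¹) (p := x)
      (fun _ _ => by positivity) (by
        rw [Finset.sum_const, nsmul_eq_mul, ← hN]
        field_simp) (fun t _ => hx0 t)
    simp only [smul_eq_mul] at hconv
    rw [← Finset.mul_sum, ← Finset.mul_sum] at hconv
    have e : ∑ t ∈ T, x t = N * (N⁻¹ * ∑ t ∈ T, x t) := by
      field_simp
    rw [e, psi32_mul hTpos.le]
    have hsN : Real.sqrt N * Real.sqrt N = N := Real.mul_self_sqrt hTpos.le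
    have e2 : Real.sqrt N * ∑ t ∈ T, psi32 (x t)
        = N * Real.sqrt N * (N⁻¹ * ∑ t ∈ T, psi32 (x t)) := by
      field_simp
    rw [e2]
    exact mul_le_mul_of_nonneg_left hconv (mul_nonneg hTpos.le (Real.sqrt_nonneg _))
  -- pointwise
  have hnu : ∀ (s : Q → Bool) (y : PF (Q × Bool)), nuN η y = _ := fun s y => nu_child η s y
  have hpsi32_mul : ∀ a b : ℝ, 0 ≤ a → psi32 (a * b) = psi32 a * psi32 b := by
    intro a b ha
    rw [psi32_mul ha]
    rfl
  have hsum0 : 0 ≤ ∑ t ∈ T, x t := Finset.sum_nonneg fun t _ => hx0 t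
  rw [psi32_mul hc0]
  have hν0 : 0 ≤ nuN η y := nuN_nonneg h0 h1 y
  have hcN : Real.sqrt c * Real.sqrt N = Real.sqrt (c * N) := (Real.sqrt_mul hc0 N).symm
  have hhalf : ((1 / 2 : ℝ)) ^ dc y * 2 ^ dc y = 1 := by
    rw [← mul_pow]
    norm_num
  calc nuN η y * (c * Real.sqrt c * psi32 (∑ t ∈ T, x t))
      ≤ nuN η y * (c * Real.sqrt c * (Real.sqrt N * ∑ t ∈ T, psi32 (x t))) := by
        apply mul_le_mul_of_nonneg_left _ hν0
        apply mul_le_mul_of_nonneg_left hJ (by positivity)
    _ = (NC Q)⁻¹ * (NC Q)⁻¹ * ∑ t ∈ T,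
        ((nuN η (child t.2 y false) * psi32 (psiP l (child t.2 y false))) *
          (nuN η (child t.2 y true) * psi32 (psiP l (child t.2 y true))) *
            Real.sqrt (c * N)) := by
        rw [← hcN, Finset.mul_sum, Finset.mul_sum, Finset.mul_sum, Finset.mul_sum]
        refine Finset.sum_congr rfl fun t _ => ?_
        have hn := hnu t.2 y
        simp only [hx]
        rw [hpsi32_mul _ _ (psiP_nonneg hl _)]
        rw [hn]
        generalize Real.sqrt c = r
        generalize Real.sqrt N = r'
        generalize nuN η (child t.2 y false) = n0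
        generalize nuN η (child t.2 y true) = n1
        generalize psi32 (psiP l (child t.2 y false)) = p0
        generalize psi32 (psiP l (child t.2 y true)) = p1
        have e3 : (1 / 2 : ℝ) ^ dc y * (n0 * n1) * (c * r * (r' * (p0 * p1)))
            = ((1 / 2 : ℝ) ^ dc y * 2 ^ dc y) * ((NC Q)⁻¹ * (NC Q)⁻¹ *
              (n0 * p0 * (n1 * p1) * (r * r'))) := by
          rw [hc]
          ring
        rw [e3, hhalf, one_mul]
    _ ≤ _ := by
        apply mul_le_mul_of_nonneg_left _ (by positivity)
        apply Finset.sum_le_sum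
        intro t ht
        apply mul_le_mul_of_nonneg_left
        · exact Real.sqrt_le_sqrt (hcount t ht)
        · have a0 := nuN_nonneg h0 h1 (child t.2 y false)
          have a1 := nuN_nonneg h0 h1 (child t.2 y true)
          have b0 := psi32_nonneg (psiP_nonneg hl (child t.2 y false))
          have b1 := psi32_nonneg (psiP_nonneg hl (child t.2 y true))
          positivity

end

end Crest.Agent.Lib.Thorp.Band
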