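/-
S0222 (Thorp shuffle), band trace: from `bandSum` to partial maps, and from `Pos D` to the tower
`NT D` (helper83).
-/
import Crest.Agent.Lib.Thorp.BandNode
import Crest.Agent.Lib.Thorp.BandLaw

set_option autoImplicit false
set_option linter.unusedSectionVars false
set_option linter.unusedSimpArgs false

namespace Crest.Agent.Lib.Thorp.Band

open scoped Classical
open Crest.Agent.Lib.Thorp

noncomputable section

section Bridge

variable {Ω : Type} [Fintype Ω] [DecidableEq Ω]

/-- The partial map with domain `S` and values `τ`. -/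
def ofST (S : Finset Ω) (τ : S → Ω) : PF Ω := fun v => if h : v ∈ S then some (τ ⟨v, h⟩) else none

lemma ofST_isSome (S : Finset Ω) (τ : S → Ω) (v : Ω) : (ofST S τ v).isSome = true ↔ v ∈ S := by
  unfold ofST
  by_cases h : v ∈ S <;> simp [h]

lemma ofST_mem (S : Finset Ω) (τ : S → Ω) (a : S) : ofST S τ a = some (τ a) := by
  unfold ofST
  simp

lemma ofST_injective : Function.Injective (fun p : (Σ S : Finset Ω, (S → Ω)) => ofST p.1 p.2) := by
  rintro ⟨S, τ⟩ ⟨S', τ'⟩ h
  simp only at h
  have hS : S = S' := by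
    ext v
    rw [← ofST_isSome S τ v, ← ofST_isSome S' τ' v, h]
  subst hS
  have hτ : τ = τ' := by
    funext a
    have := congrFun h a
    rw [ofST_mem, ofST_mem] at this
    exact Option.some.inj this
  subst hτ
  rfl

lemma ofST_surjective : Function.Surjective (fun p : (Σ S : Finset Ω, (S → Ω)) => ofST p.1 p.2) := by
  intro y
  refine ⟨⟨domP y, fun a => (y a).get (mem_domP.mp a.2)⟩, ?_⟩
  funext v
  simp only [ofST]
  by_cases hv : v ∈ domP y
  · rw [dif_pos hv]
    simp
  · rw [dif_neg hv]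
    rw [mem_domP] at hv
    cases hy : y v with
    | none => rfl
    | some p => simp [hy] at hv

/-- Partial maps are pairs `(S, τ)`. -/
def stEquiv : (Σ S : Finset Ω, (S → Ω)) ≃ PF Ω :=
  Equiv.ofBijective _ ⟨ofST_injective, ofST_surjective⟩

lemma ext_ofST (g : Equiv.Perm Ω) (S : Finset Ω) (τ : S → Ω) :
    Ext g (ofST S τ) ↔ restr S g = τ := by
  constructor
  · intro h
    funext a
    exact h a (τ a) (ofST_mem S τ a)
  · rintro rfl v w hv
    simp only [ofST] at hv
    by_cases hs : v ∈ S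
    · rw [dif_pos hs] at hv
      exact Option.some.inj hv
    · rw [dif_neg hs] at hv
      cases hv

lemma phiP_ofST (l : Equiv.Perm Ω → ℝ) (S : Finset Ω) (τ : S → Ω) :
    phiP l (ofST S τ) = phiS l S τ := by
  unfold phiP phiS
  rw [Finset.sum_filter]
  refine Finset.sum_congr rfl fun g _ => ?_
  simp only [ext_ofST]

lemma domP_ofST (S : Finset Ω) (τ : S → Ω) : domP (ofST S τ) = S := by
  ext v
  rw [mem_domP, ofST_isSome]

lemma dc_ofST (S : Finset Ω) (τ : S → Ω) : dc (ofST S τ) = S.card := by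
  have : dc (ofST S τ) = (domP (ofST S τ)).card := rfl
  rw [this, domP_ofST]

lemma nuN_ofST (η : ℝ) (S : Finset Ω) (τ : S → Ω) :
    nuN η (ofST S τ) = (η / (Fintype.card Ω : ℝ)) ^ S.card * (1 - η) ^ (Fintype.card Ω - S.card) := by
  unfold nuN
  rw [Finset.prod_ite, Finset.prod_const, Finset.prod_const]
  congr 2
  · rw [← dc_ofST S τ]
    rfl
  · have h1 := Finset.card_filter_add_card_filter_not (s := (Finset.univ : Finset Ω))
      (fun v => (ofST S τ v).isSome = true)
    have h2 : (Finset.univ.filter (fun v => (ofST S τ v).isSome = true)).card = S.card := by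
      rw [← dc_ofST S τ]
      rfl
    rw [Finset.card_univ, h2] at h1
    omega

/-- The band sum as a sum over partial maps. -/
theorem bandSum_eq (l : Equiv.Perm Ω → ℝ) (η : ℝ) :
    bandSum l η = ∑ y : PF Ω, nuN η y * psi32 (psiP l y) := by
  rw [← Equiv.sum_comp (stEquiv (Ω := Ω)), Fintype.sum_sigma]
  unfold bandSum
  refine Finset.sum_congr rfl fun S _ => ?_
  rw [Finset.mul_sum]
  refine Finset.sum_congr rfl fun τ _ => ?_
  change noiseW η S * _ = nuN η (ofST S τ) * psi32 (psiP l (ofST S τ))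
  rw [nuN_ofST]
  unfold psiP
  rw [dc_ofST, phiP_ofST]
  unfold psi32 noiseW
  have hS : S.card ≤ Fintype.card Ω := Finset.card_le_univ S
  have e : (η / (Fintype.card Ω : ℝ)) ^ S.card * (Fintype.card Ω : ℝ) ^ S.card = η ^ S.card := by
    by_cases hn : (Fintype.card Ω : ℝ) = 0
    · have : S.card = 0 := by
        have : Fintype.card Ω = 0 := by exact_mod_cast hn
        omega
      rw [this]
      simp
    · rw [← mul_pow, div_mul_cancel₀ _ hn]
  set t := Real.sqrt ((Fintype.card Ω : ℝ) ^ S.card * phiS l S τ)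
  calc η ^ S.card * (1 - η) ^ (Fintype.card Ω - S.card) * (phiS l S τ * t)
      = ((η / (Fintype.card Ω : ℝ)) ^ S.card * (Fintype.card Ω : ℝ) ^ S.card)
          * (1 - η) ^ (Fintype.card Ω - S.card) * (phiS l S τ * t) := by rw [e]
    _ = _ := by ring

end Bridge

section Transport

variable {Q Q' : Type} [Fintype Q] [DecidableEq Q] [Fintype Q'] [DecidableEq Q']

/-- Transport of partial maps. -/
def pfCongr (e : Q ≃ Q') : PF Q ≃ PF Q' := Equiv.arrowCongr e (Equiv.optionCongr e)

lemma pfCongr_apply (e : Q ≃ Q') (y : PF Q) (v : Q') :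
    pfCongr e y v = (y (e.symm v)).map e := rfl

lemma pfCongr_apply_e (e : Q ≃ Q') (y : PF Q) (v : Q) :
    pfCongr e y (e v) = (y v).map e := by
  rw [pfCongr_apply]
  simp

lemma ext_pfCongr (e : Q ≃ Q') (a : Equiv.Perm Q) (y : PF Q) :
    Ext (e.permCongr a) (pfCongr e y) ↔ Ext a y := by
  constructor
  · intro h v w hv
    have := h (e v) (e w) (by rw [pfCongr_apply_e, hv]; rfl)
    simpa [Equiv.permCongr_apply] using this
  · intro h v w hv
    rw [pfCongr_apply, Option.map_eq_some_iff] at hv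
    obtain ⟨p, hp, rfl⟩ := hv
    have := h _ _ hp
    simp [Equiv.permCongr_apply, this]

lemma phiP_pfCongr (e : Q ≃ Q') (l : Equiv.Perm Q' → ℝ) (y : PF Q) :
    phiP l (pfCongr e y) = phiP (fun a => l (e.permCongr a)) y := by
  unfold phiP
  rw [← Equiv.sum_comp (e.permCongr)]
  simp only [ext_pfCongr]

lemma isSome_pfCongr (e : Q ≃ Q') (y : PF Q) (v : Q) :
    (pfCongr e y (e v)).isSome = (y v).isSome := by
  rw [pfCongr_apply_e]
  simp

lemma dc_pfCongr (e : Q ≃ Q') (y : PF Q) : dc (pfCongr e y) = dc y := by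
  rw [dc_eq_sum, dc_eq_sum, ← Equiv.sum_comp e]
  simp only [isSome_pfCongr]

lemma nuN_pfCongr (e : Q ≃ Q') (η : ℝ) (y : PF Q) : nuN η (pfCongr e y) = nuN η y := by
  unfold nuN
  rw [← Equiv.prod_comp e]
  simp only [isSome_pfCongr, Fintype.card_congr e]

lemma psiP_pfCongr (e : Q ≃ Q') (l : Equiv.Perm Q' → ℝ) (y : PF Q) :
    psiP l (pfCongr e y) = psiP (fun a => l (e.permCongr a)) y := by
  unfold psiP
  rw [phiP_pfCongr, dc_pfCongr, Fintype.card_congr e]

/-- The sum over partial maps is invariant. -/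
theorem sum_pf_transport (e : Q ≃ Q') (l : Equiv.Perm Q' → ℝ) (η : ℝ) :
    ∑ y : PF Q', nuN η y * psi32 (psiP l y)
      = ∑ y : PF Q, nuN η y * psi32 (psiP (fun a => l (e.permCongr a)) y) := by
  rw [← Equiv.sum_comp (pfCongr e)]
  refine Finset.sum_congr rfl fun y _ => ?_
  rw [nuN_pfCongr, psiP_pfCongr]

end Transport

section Tower

open BandLaw

/-- The tower of position sets. -/
def NT : ℕ → Type
  | 0 => Unit
  | i + 1 => NT i × Bool

/-- Finiteness of the tower. -/
@[reducible] def instFintypeNT : ∀ i, Fintype (NT i)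
  | 0 => inferInstanceAs (Fintype Unit)
  | i + 1 => letI := instFintypeNT i; inferInstanceAs (Fintype (NT i × Bool))

/-- Decidable equality on the tower. -/
@[reducible] def instDecEqNT : ∀ i, DecidableEq (NT i)
  | 0 => inferInstanceAs (DecidableEq Unit)
  | i + 1 => letI := instDecEqNT i; inferInstanceAs (DecidableEq (NT i × Bool))

instance (i : ℕ) : Fintype (NT i) := instFintypeNT i
instance (i : ℕ) : DecidableEq (NT i) := instDecEqNT i

/-- The tower is the set of positions. -/
def posE : ∀ D, NT D ≃ Pos D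
  | 0 => { toFun := fun _ => fun i => i.elim0
           invFun := fun _ => ()
           left_inv := fun _ => rfl
           right_inv := fun x => by
             funext i
             exact i.elim0 }
  | D + 1 => { toFun := fun x => snocP (posE D x.1) x.2
               invFun := fun x => ((posE D).symm (lowP x), topP x)
               left_inv := fun x => by
                 rcases x with ⟨v, b⟩
                 simp
               right_inv := fun x => by
                 apply pos_ext <;> simp }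

lemma posE_succ (D : ℕ) (v : NT D) (b : Bool) : posE (D + 1) (v, b) = snocP (posE D v) b := rfl

/-- The law on the tower. -/
def LT (D : ℕ) (g : Equiv.Perm (NT D)) : ℝ := X D ((posE D).permCongr g)

lemma X_nonneg (D : ℕ) (g : Equiv.Perm (Pos D)) : 0 ≤ X D g := by
  obtain ⟨ν, h1, h2, _⟩ := exists_W_eq_regMat D
  have : X D = ν := regMat_injective ((W_eq D).symm.trans h1)
  rw [this]
  exact h2 g

lemma LT_nonneg (D : ℕ) (g : Equiv.Perm (NT D)) : 0 ≤ LT D g := X_nonneg _ _

/-- Coins on the tower. -/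
def coinE (D : ℕ) : (NT D → Bool) ≃ (Pos D → Bool) :=
  Equiv.arrowCongr (posE D) (Equiv.refl Bool)

lemma coinE_apply (D : ℕ) (s : NT D → Bool) (v : NT D) : coinE D s (posE D v) = s v := by
  simp [coinE, Equiv.arrowCongr]

lemma permCongr_swapS (D : ℕ) (s : NT D → Bool) :
    (posE (D + 1)).permCongr (swapS (Q := NT D) s) = hc (coinE D s) := by
  ext1 x
  obtain ⟨⟨v, b⟩, rfl⟩ := (posE (D + 1)).surjective x
  rw [Equiv.permCongr_apply, Equiv.symm_apply_apply]
  change posE (D + 1) (v, xor b (s v)) = hc (coinE D s) (posE (D + 1) (v, b))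
  rw [posE_succ, posE_succ, hc_snocP, coinE_apply]

lemma permCongr_sumP (D : ℕ) (a0 a1 : Equiv.Perm (NT D)) :
    (posE (D + 1)).permCongr (sumP (Q := NT D) a0 a1)
      = sumPerm ((posE D).permCongr a0) ((posE D).permCongr a1) := by
  ext1 x
  obtain ⟨⟨v, b⟩, rfl⟩ := (posE (D + 1)).surjective x
  rw [Equiv.permCongr_apply, Equiv.symm_apply_apply]
  change posE (D + 1) ((bif b then a1 else a0) v, b) = sumPerm _ _ (posE (D + 1) (v, b))
  rw [posE_succ, posE_succ, sumPerm_snocP]
  cases b <;> simp [Equiv.permCongr_apply]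

lemma permCongr_comp (D : ℕ) (s' s : NT D → Bool) (a0 a1 : Equiv.Perm (NT D)) :
    (posE (D + 1)).permCongr (swapS (Q := NT D) s' * sumP (Q := NT D) a0 a1 * swapS (Q := NT D) s)
      = hc (coinE D s') * sumPerm ((posE D).permCongr a0) ((posE D).permCongr a1) * hc (coinE D s) := by
  rw [← permCongr_swapS, ← permCongr_swapS, ← permCongr_sumP]
  ext1 x
  simp only [Equiv.permCongr_apply, Equiv.Perm.coe_mul, Function.comp_apply, Equiv.symm_apply_apply]
  rfl

/-- The recursion of the law on the tower. -/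
theorem LT_succ (D : ℕ) : LT (D + 1) = lawSucc (Q := NT D) (LT D) := by
  funext g
  unfold LT lawSucc
  rw [X_succ]
  have hNC : NC (NT D) = (Fintype.card (Pos D → Bool) : ℝ) := by
    rw [NC_eq, Fintype.card_congr (coinE D)]
  rw [hNC]
  congr 1
  rw [← Equiv.sum_comp (coinE D)]
  refine Finset.sum_congr rfl fun s' _ => ?_
  rw [← Equiv.sum_comp (coinE D)]
  refine Finset.sum_congr rfl fun s _ => ?_
  rw [← Equiv.sum_comp ((posE D).permCongr)]
  refine Finset.sum_congr rfl fun a0 _ => ?_
  rw [← Equiv.sum_comp ((posE D).permCongr)]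
  refine Finset.sum_congr rfl fun a1 _ => ?_
  rw [← permCongr_comp]
  have : (posE (D + 1)).permCongr g = (posE (D + 1)).permCongr
      (swapS (Q := NT D) s' * sumP (Q := NT D) a0 a1 * swapS (Q := NT D) s) ↔
      g = swapS (Q := NT D) s' * sumP (Q := NT D) a0 a1 * swapS (Q := NT D) s :=
    (posE (D + 1)).permCongr.injective.eq_iff
  simp only [this]
  congr

lemma X_sum (D : ℕ) : ∑ g, X D g = 1 := by
  obtain ⟨ν, h1, _, h3⟩ := exists_W_eq_regMat D
  have : X D = ν := regMat_injective ((W_eq D).symm.trans h1)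
  rw [this, h3]

lemma LT_sum (D : ℕ) : ∑ g, LT D g = 1 := by
  unfold LT
  rw [Equiv.sum_comp ((posE D).permCongr) (X D), X_sum]

lemma card_NT_zero : Fintype.card (NT 0) = 1 := rfl

lemma ext_NT_zero (a : Equiv.Perm (NT 0)) (y : PF (NT 0)) : Ext a y := by
  intro v w _
  exact Subsingleton.elim (α := Unit) _ _

lemma psiP_LT_zero (y : PF (NT 0)) : psiP (LT 0) y = 1 := by
  unfold psiP phiP
  rw [card_NT_zero]
  simp only [ext_NT_zero, if_true]
  rw [LT_sum]
  simp

lemma stepN_mono {Q : Type} [Fintype Q] [DecidableEq Q] {gam : PF Q → PF Q → ℝ}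
    (hg : ∀ y0 y1, 0 ≤ gam y0 y1) {M M' : PF Q → ℝ} (h0 : ∀ y, 0 ≤ M y) (h : ∀ y, M y ≤ M' y)
    (y : PF (Q × Bool)) : stepN gam M y ≤ stepN gam M' y := by
  unfold stepN
  apply mul_le_mul_of_nonneg_left _ (by have := NC_pos (Q := Q); positivity)
  refine Finset.sum_le_sum fun s' _ => Finset.sum_le_sum fun s _ =>
    Finset.sum_le_sum fun y0 _ => Finset.sum_le_sum fun y1 _ => ?_
  split_ifs
  · apply mul_le_mul_of_nonneg_right _ (hg _ _)
    exact mul_le_mul (h _) (h _) (h0 _) ((h0 _).trans (h _))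
  · exact le_rfl

/-- The majorant on the tower. -/
def MhT (η : ℝ) : ∀ i, PF (NT i) → ℝ
  | 0 => nuN η
  | i + 1 => stepN (Q := NT i) (fun y0 y1 => Real.sqrt (gammaB y0 y1)) (MhT η i)

/-- The power mean along the tower. -/
theorem power_mean_tower {η : ℝ} (h0 : 0 ≤ η) (h1 : η ≤ 1) :
    ∀ i (y : PF (NT i)), nuN η y * psi32 (psiP (LT i) y) ≤ MhT η i y := by
  intro i
  induction i with
  | zero =>
    intro y
    rw [psiP_LT_zero]
    simp [psi32, MhT]
  | succ i ih =>
    intro y
    have h2 := node_power_mean (Q := NT i) (l := LT i) (LT_nonneg i) h0 h1 y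
    have h3 := stepN_mono (Q := NT i) (gam := fun y0 y1 => Real.sqrt (gammaB y0 y1))
      (fun _ _ => Real.sqrt_nonneg _)
      (M := fun y' => nuN η y' * psi32 (psiP (LT i) y')) (M' := MhT η i)
      (fun y' => mul_nonneg (nuN_nonneg h0 h1 y') (psi32_nonneg (psiP_nonneg (LT_nonneg i) y')))
      ih y
    rw [LT_succ]
    exact h2.trans h3

/-- The band sum of the law of `W` is bounded by the total mass of the majorant. -/
theorem bandSum_X_le {η : ℝ} (h0 : 0 ≤ η) (h1 : η ≤ 1) (D : ℕ) :
    bandSum (X D) η ≤ ∑ y : PF (NT D), MhT η D y := by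
  rw [bandSum_eq, sum_pf_transport (posE D) (X D) η]
  exact Finset.sum_le_sum fun y _ => power_mean_tower h0 h1 D y

end Tower

end

end Crest.Agent.Lib.Thorp.Band
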