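/-
  Thorp band trace (row 155, S0222), part 2: row and column sums after tracing out part of the positions,
  and the Gram/Schur bound.
-/
import Crest.Agent.Lib.Thorp.BandPD

set_option autoImplicit false
set_option linter.unusedSectionVars false

namespace Crest.Agent.Lib.Thorp.Band

open scoped Classical

noncomputable section

variable {Q : Type} [Fintype Q] [DecidableEq Q]
variable {Y : Type} [Fintype Y] [DecidableEq Y]

/-- Glue a colouring of the kept positions (`h v = true`) and of the traced positions. -/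
def join (h : Q → Bool) (γ : {v // h v = true} → Y) (a : {v // ¬ h v = true} → Y) : Q → Y :=
  fun v => if hv : h v = true then γ ⟨v, hv⟩ else a ⟨v, hv⟩

lemma join_true {h : Q → Bool} (γ : {v // h v = true} → Y) (a : {v // ¬ h v = true} → Y) {v : Q}
    (hv : h v = true) : join h γ a v = γ ⟨v, hv⟩ := by simp [join, hv]

lemma join_false {h : Q → Bool} (γ : {v // h v = true} → Y) (a : {v // ¬ h v = true} → Y) {v : Q}
    (hv : ¬ h v = true) : join h γ a v = a ⟨v, hv⟩ := by simp [join, hv]

lemma join_inj_right {h : Q → Bool} {γ : {v // h v = true} → Y} {a a' : {v // ¬ h v = true} → Y}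
    (hj : join h γ a = join h γ a') : a = a' := by
  funext ⟨v, hv⟩
  have := congrFun hj v
  rwa [join_false γ a hv, join_false γ a' hv] at this

lemma join_inj_left {h : Q → Bool} {γ γ' : {v // h v = true} → Y} {a : {v // ¬ h v = true} → Y}
    (hj : join h γ a = join h γ' a) : γ = γ' := by
  funext ⟨v, hv⟩
  have := congrFun hj v
  rwa [join_true γ a hv, join_true γ' a hv] at this

/-- The equivalence behind `join`. -/
def joinEquiv (h : Q → Bool) :
    (({v // h v = true} → Y) × ({v // ¬ h v = true} → Y)) ≃ (Q → Y) where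
  toFun p := join h p.1 p.2
  invFun α := (fun v => α v.1, fun v => α v.1)
  left_inv p := by
    ext ⟨v, hv⟩
    · simp [join_true _ _ hv]
    · simp [join_false _ _ hv]
  right_inv α := by
    funext v
    by_cases hv : h v = true
    · simp [join_true _ _ hv]
    · simp [join_false _ _ hv]

/-- Weight on the traced positions only. -/
def wtT (h : Q → Bool) (w : Y → ℝ) (α : Q → Y) : ℝ := ∏ v, if h v = true then 1 else w (α v)

lemma wtT_join (h : Q → Bool) (w : Y → ℝ) (γ γ' : {v // h v = true} → Y)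
    (a : {v // ¬ h v = true} → Y) : wtT h w (join h γ a) = wtT h w (join h γ' a) := by
  unfold wtT
  refine Finset.prod_congr rfl fun v _ => ?_
  by_cases hv : h v = true
  · simp [hv]
  · simp [hv, join_false _ _ hv]

lemma wt_le_wtT (h : Q → Bool) {w : Y → ℝ} (hw : ∀ e, 0 ≤ w e) (hw1 : ∀ e, w e ≤ 1) (α : Q → Y) :
    wt w α ≤ wtT h w α := by
  unfold wt wtT
  refine Finset.prod_le_prod (fun _ _ => hw _) fun v _ => ?_
  by_cases hv : h v = true
  · simp [hv, hw1]
  · simp [hv]

/-- Closed colourings of weight, excited on the traced positions only. -/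
def closedSumR (g : Y) (w : Y → ℝ) (R : Q → Q → Prop) (h : Q → Bool) : ℝ :=
  ∑ α : Q → Y, (if TranspR R g α α then (1 : ℝ) else 0) * wt w α *
    (if ∀ v, h v = true → α v = g then 1 else 0)

lemma closedSumR_flip (g : Y) (w : Y → ℝ) (R : Q → Q → Prop) (h : Q → Bool) :
    closedSumR g w (fun w' v => R v w') h = closedSumR g w R h := by
  unfold closedSumR
  refine Finset.sum_congr rfl fun α _ => ?_
  have := transpR_flip R g α α
  by_cases h1 : TranspR R g α α
  · have h2 := this.2 h1
    simp [h1, h2]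
  · have h2 : ¬ TranspR (fun w' v => R v w') g α α := fun h3 => h1 (this.1 h3)
    simp [h1, h2]

/-- The cycle bound. -/
theorem sol_sum_le (R : Q → Q → Prop)
    (hR1 : ∀ v w w', R v w → R v w' → w = w') (hR2 : ∀ v v' w, R v w → R v' w → v = v')
    (g : Y) {w : Y → ℝ} (hw : ∀ e, 0 ≤ w e) (hw1 : ∀ e, w e ≤ 1) (hwg : w g = 1)
    (h : Q → Bool) (γ : {v // h v = true} → Y) :
    ∑ a : {v // ¬ h v = true} → Y,
      (if ∃ γ', TranspR R g (join h γ a) (join h γ' a) then (1 : ℝ) else 0) *
        wtT h w (join h γ a) ≤ closedSumR g w R h := by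
  set Tp : Q → Prop := fun v => ¬ h v = true with hTp
  set Sol : Finset ({v // ¬ h v = true} → Y) :=
    Finset.univ.filter (fun a => ∃ γ', TranspR R g (join h γ a) (join h γ' a)) with hSol
  set F : (Q → Y) → ℝ := fun α => (if TranspR R g α α then (1 : ℝ) else 0) * wt w α *
    (if ∀ v, h v = true → α v = g then 1 else 0) with hF
  have hFnn : ∀ α, 0 ≤ F α := by
    intro α
    simp only [hF]
    have := wt_nonneg hw α
    split_ifs <;> simp [this]
  set Tm : ({v // ¬ h v = true} → Y) → (Q → Y) :=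
    fun a => cutCyc R Tp g (join h γ a) with hTm
  have hcuttrue : ∀ (α : Q → Y) (v : Q), h v = true → cutCyc R Tp g α v = g := by
    intro α v hv
    have : ¬ CycPos R Tp v := by
      rintro ⟨C, hC, hvC⟩
      exact hC.1 v hvC hv
    simp [cutCyc, this]
  have hsolR : ∀ a ∈ Sol, ∃ γ', TranspR R g (join h γ a) (join h γ' a) := by
    intro a ha
    exact (Finset.mem_filter.mp ha).2
  have hTjoin : ∀ (γ' : {v // h v = true} → Y) (a : {v // ¬ h v = true} → Y) (v : Q), Tp v →
      join h γ' a v = join h γ a v := by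
    intro γ' a v hv
    rw [join_false _ _ hv, join_false _ _ hv]
  -- value of `F` on the image
  have hFTm : ∀ a ∈ Sol, wtT h w (join h γ a) ≤ F (Tm a) := by
    intro a ha
    obtain ⟨γ', hγ'⟩ := hsolR a ha
    have h1 : TranspR R g (Tm a) (Tm a) := cutCyc_closed hR1 hR2 hγ' (hTjoin γ' a)
    have h2 : ∀ v, h v = true → Tm a v = g := fun v hv => hcuttrue _ v hv
    have hFval : F (Tm a) = wt w (Tm a) := by
      have h2' : ∀ v, h v = true → Tm a v = g := h2
      simp only [hF]
      rw [if_pos h1, if_pos h2']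
      ring
    rw [hFval]
    unfold wtT wt
    apply Finset.prod_le_prod
    · intro v _
      split_ifs
      · norm_num
      · exact hw _
    · intro v _
      by_cases hv : h v = true
      · simp [hv, h2 v hv, hwg]
      · simp only [hv, if_false]
        by_cases hc : CycPos R Tp v
        · simp [hTm, cutCyc, hc]
        · simp [hTm, cutCyc, hc, hwg, hw1]
  have hinj : Set.InjOn Tm Sol := by
    intro a ha b hb hab
    obtain ⟨γ₁, hγ₁⟩ := hsolR a ha
    obtain ⟨γ₂, hγ₂⟩ := hsolR b hb
    have := cutCyc_inj hR1 hR2 hγ₁ hγ₂ (hTjoin γ₁ a) (hTjoin γ₂ b)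
      (by
        intro v hv
        have hv' : h v = true := by
          by_contra hc
          exact hv hc
        rw [join_true _ _ hv', join_true _ _ hv']) hab
    exact join_inj_right this
  calc ∑ a, (if ∃ γ', TranspR R g (join h γ a) (join h γ' a) then (1 : ℝ) else 0) *
        wtT h w (join h γ a)
      = ∑ a ∈ Sol, wtT h w (join h γ a) := by
        rw [hSol, Finset.sum_filter]
        refine Finset.sum_congr rfl fun a _ => ?_
        split_ifs <;> simp
    _ ≤ ∑ a ∈ Sol, F (Tm a) := Finset.sum_le_sum hFTm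
    _ = ∑ α ∈ Sol.image Tm, F α := (Finset.sum_image hinj).symm
    _ ≤ ∑ α, F α := Finset.sum_le_sum_of_subset_of_nonneg (Finset.subset_univ _)
        (fun α _ _ => hFnn α)

/-- Gram/Schur bound: the `Tr X L ≤ c Tr L` step in coordinates. -/
theorem gram_schur {I κ ι : Type} [Fintype I] [Fintype κ] [Fintype ι]
    (M : κ → ℝ) (hM : ∀ k, 0 ≤ M k) (X : κ → I → I → ℝ) (hX : ∀ k a b, 0 ≤ X k a b)
    (c : κ → ℝ)
    (hrow : ∀ k a, ∑ b, X k a b ≤ c k) (hcol : ∀ k b, ∑ a, X k a b ≤ c k)
    (A : ι → I → ℝ)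
    (hgram : ∀ a b, ∑ k, M k * X k a b = ∑ i, A i a * A i b) :
    ∑ a, ∑ b, (∑ k, M k * X k a b) ^ 2 ≤ (∑ k, M k * c k) * ∑ a, ∑ k, M k * X k a a := by
  have hdiag : ∑ a, ∑ k, M k * X k a a = ∑ i, ∑ a, (A i a) ^ 2 := by
    simp_rw [hgram]
    rw [Finset.sum_comm]
    simp only [sq]
  have hone : ∀ k, ∑ a, ∑ b, X k a b * ∑ i, A i a * A i b ≤ c k * ∑ i, ∑ a, (A i a) ^ 2 := by
    intro k
    have hpt : ∀ i, ∑ a, ∑ b, X k a b * (A i a * A i b) ≤ c k * ∑ a, (A i a) ^ 2 := by
      intro i
      have h1 : ∑ a, ∑ b, X k a b * (A i a * A i b) ≤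
          ∑ a, ∑ b, X k a b * (((A i a) ^ 2 + (A i b) ^ 2) / 2) := by
        refine Finset.sum_le_sum fun a _ => Finset.sum_le_sum fun b _ => ?_
        exact mul_le_mul_of_nonneg_left (by nlinarith [sq_nonneg (A i a - A i b)]) (hX k a b)
      have h2 : ∑ a, ∑ b, X k a b * (((A i a) ^ 2 + (A i b) ^ 2) / 2)
          = (1 / 2) * ∑ a, (A i a) ^ 2 * ∑ b, X k a b +
            (1 / 2) * ∑ b, (A i b) ^ 2 * ∑ a, X k a b := by
        have e1 : ∀ a b, X k a b * (((A i a) ^ 2 + (A i b) ^ 2) / 2)
            = (1 / 2) * ((A i a) ^ 2 * X k a b) + (1 / 2) * ((A i b) ^ 2 * X k a b) := by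
          intro a b; ring
        simp_rw [e1, Finset.sum_add_distrib, ← Finset.mul_sum]
        congr 2
        rw [Finset.sum_comm]
        refine Finset.sum_congr rfl fun b _ => ?_
        rw [Finset.mul_sum]
      rw [h2] at h1
      have h3 : ∑ a, (A i a) ^ 2 * ∑ b, X k a b ≤ c k * ∑ a, (A i a) ^ 2 := by
        rw [Finset.mul_sum]
        refine Finset.sum_le_sum fun a _ => ?_
        rw [mul_comm]
        exact mul_le_mul_of_nonneg_right (hrow k a) (sq_nonneg _)
      have h4 : ∑ b, (A i b) ^ 2 * ∑ a, X k a b ≤ c k * ∑ b, (A i b) ^ 2 := by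
        rw [Finset.mul_sum]
        refine Finset.sum_le_sum fun b _ => ?_
        rw [mul_comm]
        exact mul_le_mul_of_nonneg_right (hcol k b) (sq_nonneg _)
      linarith
    calc ∑ a, ∑ b, X k a b * ∑ i, A i a * A i b
        = ∑ i, ∑ a, ∑ b, X k a b * (A i a * A i b) := by
          simp_rw [Finset.mul_sum]
          calc ∑ a, ∑ b, ∑ i, X k a b * (A i a * A i b)
              = ∑ a, ∑ i, ∑ b, X k a b * (A i a * A i b) :=
                Finset.sum_congr rfl fun a _ => Finset.sum_comm
            _ = ∑ i, ∑ a, ∑ b, X k a b * (A i a * A i b) := Finset.sum_comm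
      _ ≤ ∑ i, c k * ∑ a, (A i a) ^ 2 := Finset.sum_le_sum fun i _ => hpt i
      _ = c k * ∑ i, ∑ a, (A i a) ^ 2 := by rw [Finset.mul_sum]
  calc ∑ a, ∑ b, (∑ k, M k * X k a b) ^ 2
      = ∑ k, ∑ a, ∑ b, M k * ∑ i, X k a b * (A i a * A i b) := by
        have e : ∀ a b, (∑ k, M k * X k a b) ^ 2
            = ∑ k, M k * (X k a b * ∑ i, A i a * A i b) := by
          intro a b
          rw [sq]
          nth_rw 2 [hgram a b]
          rw [Finset.sum_mul]
          refine Finset.sum_congr rfl fun k _ => by ring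
        simp_rw [e]
        calc ∑ a, ∑ b, ∑ k, M k * (X k a b * ∑ i, A i a * A i b)
            = ∑ a, ∑ k, ∑ b, M k * (X k a b * ∑ i, A i a * A i b) :=
              Finset.sum_congr rfl fun a _ => Finset.sum_comm
          _ = ∑ k, ∑ a, ∑ b, M k * (X k a b * ∑ i, A i a * A i b) := Finset.sum_comm
          _ = ∑ k, ∑ a, ∑ b, M k * ∑ i, X k a b * (A i a * A i b) := by
              simp_rw [Finset.mul_sum]
    _ = ∑ k, M k * ∑ a, ∑ b, X k a b * ∑ i, A i a * A i b := by
        refine Finset.sum_congr rfl fun k _ => ?_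
        simp_rw [Finset.mul_sum]
    _ ≤ ∑ k, M k * (c k * ∑ i, ∑ a, (A i a) ^ 2) :=
        Finset.sum_le_sum fun k _ => mul_le_mul_of_nonneg_left (hone k) (hM k)
    _ = (∑ k, M k * c k) * ∑ a, ∑ k, M k * X k a a := by
        rw [hdiag, Finset.sum_mul]
        refine Finset.sum_congr rfl fun k _ => by ring

end

end Crest.Agent.Lib.Thorp.Band
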