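/-
  Thorp band trace (row 155, S0222), part 3: gluing two children into a node, the node recursion of
  tilted masses, and the kernels.
-/
import Crest.Agent.Lib.Thorp.BandRow
import Crest.Agent.Lib.Thorp.BandNode

set_option autoImplicit false
set_option linter.unusedSectionVars false

namespace Crest.Agent.Lib.Thorp.Band

open scoped Classical

noncomputable section

variable {Q : Type} [Fintype Q] [DecidableEq Q]
variable {Y : Type} [Fintype Y] [DecidableEq Y]
variable {Z : Type} [Fintype Z] [DecidableEq Z]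

/-- Selection of a child. -/
def sel {A : Type} (c : Bool) (a0 a1 : A) : A := bif c then a1 else a0

@[simp] lemma sel_false {A : Type} (a0 a1 : A) : sel false a0 a1 = a0 := rfl
@[simp] lemma sel_true {A : Type} (a0 a1 : A) : sel true a0 a1 = a1 := rfl

/-- Colouring seen by child `c` when the switches are `s`. -/
def cut (s : Q → Bool) (α : Q × Bool → Y) (c : Bool) : Q → Y := fun v => α (v, xor c (s v))

/-- Inverse of `cut`. -/
def uncut (s : Q → Bool) (α0 α1 : Q → Y) : Q × Bool → Y :=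
  fun p => sel (xor p.2 (s p.1)) (α0 p.1) (α1 p.1)

lemma cut_uncut (s : Q → Bool) (α0 α1 : Q → Y) (c : Bool) :
    cut s (uncut s α0 α1) c = sel c α0 α1 := by
  funext v
  cases c <;> simp [cut, uncut, sel]

lemma uncut_cut (s : Q → Bool) (α : Q × Bool → Y) : uncut s (cut s α false) (cut s α true) = α := by
  funext ⟨v, b⟩
  cases b <;> cases hs : s v <;> simp [cut, uncut, sel, hs]

/-- The equivalence behind `cut`. -/
def cutEquiv (s : Q → Bool) : ((Q → Y) × (Q → Y)) ≃ (Q × Bool → Y) where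
  toFun p := uncut s p.1 p.2
  invFun α := (cut s α false, cut s α true)
  left_inv p := by
    refine Prod.ext ?_ ?_
    · show cut s (uncut s p.1 p.2) false = p.1
      rw [cut_uncut]; rfl
    · show cut s (uncut s p.1 p.2) true = p.2
      rw [cut_uncut]; rfl
  right_inv α := uncut_cut s α

lemma xor_right_cancel' : ∀ x c t : Bool, xor x t = xor c t → x = c := by decide

lemma xor_xor_self' : ∀ c t : Bool, xor (xor c t) t = c := by decide

lemma sel_apply {A : Type} (c : Bool) (y0 y1 : Q → A) (v : Q) : sel c y0 y1 v = sel c (y0 v) (y1 v) := by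
  cases c <;> rfl

lemma glue_apply (s s' : Q → Bool) (y0 y1 : PF Q) (v : Q) (c : Bool) :
    glue s s' y0 y1 (v, xor c (s v)) = (sel c y0 y1 v).map (fun w => (w, xor c (s' w))) := by
  simp only [glue, xor_xor_self']
  cases c <;> rfl

lemma glue_eq_some {s s' : Q → Bool} {y0 y1 : PF Q} {v w : Q} {b b' : Bool}
    (h : glue s s' y0 y1 (v, b) = some (w, b')) :
    sel (xor b (s v)) y0 y1 v = some w ∧ b' = xor (xor b (s v)) (s' w) := by
  simp only [glue, Option.map_eq_some_iff] at h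
  obtain ⟨w2, hw2, he⟩ := h
  simp only [Prod.mk.injEq] at he
  obtain ⟨rfl, rfl⟩ := he
  refine ⟨?_, rfl⟩
  rw [sel_apply]; exact hw2

lemma glue_injective_pf {s s' : Q → Bool} {y0 y1 : PF Q} (h0 : PFInj y0) (h1 : PFInj y1) :
    PFInj (glue s s' y0 y1) := by
  rintro ⟨v, b⟩ ⟨v', b'⟩ ⟨w, c⟩ hp hp'
  obtain ⟨h1a, h1b⟩ := glue_eq_some hp
  obtain ⟨h2a, h2b⟩ := glue_eq_some hp'
  have hc : xor b (s v) = xor b' (s v') := xor_right_cancel' _ _ (s' w) (h1b.symm.trans h2b)
  rw [← hc] at h2a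
  have hvv : v = v' := by
    generalize xor b (s v) = c' at h1a h2a
    cases c'
    · exact h0 _ _ _ h1a h2a
    · exact h1 _ _ _ h1a h2a
  subst hvv
  have hbb : b = b' := xor_right_cancel' _ _ _ hc
  rw [hbb]

/-- Transport through a glued map is transport through both children. -/
lemma transp_glue_all (g : Y) (s s' : Q → Bool) (y0 y1 : PF Q) (α β : Q × Bool → Y) :
    (∀ c : Bool, Transp g (sel c y0 y1) (cut s α c) (cut s' β c)) ↔
      Transp g (glue s s' y0 y1) α β := by
  constructor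
  · intro H
    constructor
    · rintro ⟨v, b⟩ hp
      obtain ⟨c, rfl⟩ : ∃ c, b = xor c (s v) := ⟨xor b (s v), (xor_xor_self' b (s v)).symm⟩
      obtain ⟨w, hw, he⟩ := (H c).1 v hp
      refine ⟨(w, xor c (s' w)), ?_, he⟩
      rw [glue_apply, hw]; rfl
    · rintro ⟨w, b⟩ hq
      obtain ⟨c, rfl⟩ : ∃ c, b = xor c (s' w) := ⟨xor b (s' w), (xor_xor_self' b (s' w)).symm⟩
      obtain ⟨v, hv, he⟩ := (H c).2 w hq
      refine ⟨(v, xor c (s v)), ?_, he⟩
      rw [glue_apply, hv]; rfl
  · intro H c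
    constructor
    · intro v hv
      obtain ⟨⟨w, b⟩, hq, he⟩ := H.1 (v, xor c (s v)) hv
      rw [glue_apply, Option.map_eq_some_iff] at hq
      obtain ⟨w2, hw2, he2⟩ := hq
      simp only [Prod.mk.injEq] at he2
      obtain ⟨rfl, rfl⟩ := he2
      exact ⟨w2, hw2, he⟩
    · intro w hw
      obtain ⟨⟨v, b⟩, hp, he⟩ := H.2 (w, xor c (s' w)) hw
      obtain ⟨h1, h2⟩ := glue_eq_some hp
      have hcc : c = xor b (s v) := xor_right_cancel' _ _ (s' w) h2
      rw [← hcc] at h1
      refine ⟨v, h1, ?_⟩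
      have hb : b = xor c (s v) := by rw [hcc, xor_xor_self']
      show α (v, xor c (s v)) = β (w, xor c (s' w))
      rw [← hb]
      exact he

lemma transp_glue (g : Y) (s s' : Q → Bool) (y0 y1 : PF Q) (α β : Q × Bool → Y) :
    Transp g (glue s s' y0 y1) α β ↔
      Transp g y0 (cut s α false) (cut s' β false) ∧ Transp g y1 (cut s α true) (cut s' β true) := by
  rw [← transp_glue_all]
  constructor
  · intro H
    exact ⟨H false, H true⟩
  · rintro ⟨h0, h1⟩ c
    cases c
    · exact h0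
    · exact h1

lemma ind_glue (g : Y) (s s' : Q → Bool) (y0 y1 : PF Q) (α β : Q × Bool → Y) :
    ind g (glue s s' y0 y1) α β =
      ind g y0 (cut s α false) (cut s' β false) * ind g y1 (cut s α true) (cut s' β true) := by
  unfold ind
  by_cases h1 : Transp g y0 (cut s α false) (cut s' β false) <;>
    by_cases h2 : Transp g y1 (cut s α true) (cut s' β true) <;>
    simp [transp_glue, h1, h2]

lemma wt_cut (w : Y → ℝ) (s : Q → Bool) (α : Q × Bool → Y) :
    wt w α = wt w (cut s α false) * wt w (cut s α true) := by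
  unfold wt cut
  rw [Fintype.prod_prod_type, ← Finset.prod_mul_distrib]
  refine Finset.prod_congr rfl fun v _ => ?_
  rw [Fintype.prod_bool]
  cases s v
  · simp [mul_comm]
  · simp

lemma sum4_fiber {S S' A A' B : Type} [Fintype S] [Fintype S'] [Fintype A] [Fintype A'] [Fintype B]
    [DecidableEq B] (f : S → S' → A → A' → B) (a : S → S' → A → A' → ℝ) (F : B → ℝ) :
    ∑ y, (∑ s, ∑ s', ∑ y0, ∑ y1, if f s s' y0 y1 = y then a s s' y0 y1 else 0) * F y
      = ∑ s, ∑ s', ∑ y0, ∑ y1, a s s' y0 y1 * F (f s s' y0 y1) := by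
  simp only [Finset.sum_mul]
  rw [Finset.sum_comm]
  refine Finset.sum_congr rfl fun s _ => ?_
  rw [Finset.sum_comm]
  refine Finset.sum_congr rfl fun s' _ => ?_
  rw [Finset.sum_comm]
  refine Finset.sum_congr rfl fun y0 _ => ?_
  rw [Finset.sum_comm]
  refine Finset.sum_congr rfl fun y1 _ => ?_
  rw [Finset.sum_eq_single (f s s' y0 y1)]
  · simp
  · intro y _ hy
    simp [Ne.symm hy]
  · simp

lemma sum_stepN_mul (gam : PF Q → PF Q → ℝ) (M : PF Q → ℝ) (F : PF (Q × Bool) → ℝ) :
    ∑ y, stepN gam M y * F y = (NC Q)⁻¹ * (NC Q)⁻¹ * ∑ s' : Q → Bool, ∑ s : Q → Bool, ∑ y0 : PF Q, ∑ y1 : PF Q,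
      M y0 * M y1 * gam y0 y1 * F (glue s s' y0 y1) := by
  have h := sum4_fiber (S := Q → Bool) (S' := Q → Bool) (A := PF Q) (A' := PF Q) (B := PF (Q × Bool))
    (fun s' s y0 y1 => glue s s' y0 y1) (fun _ _ y0 y1 => M y0 * M y1 * gam y0 y1) F
  rw [← h, Finset.mul_sum]
  refine Finset.sum_congr rfl fun y _ => ?_
  unfold stepN
  ring

lemma stepN_nonneg {gam : PF Q → PF Q → ℝ} {M : PF Q → ℝ} (hgam : ∀ a b, 0 ≤ gam a b)
    (hM : ∀ y, 0 ≤ M y) (y : PF (Q × Bool)) : 0 ≤ stepN gam M y := by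
  unfold stepN
  refine mul_nonneg (mul_nonneg (inv_nonneg.mpr NC_pos.le) (inv_nonneg.mpr NC_pos.le)) ?_
  refine Finset.sum_nonneg fun _ _ => Finset.sum_nonneg fun _ _ =>
    Finset.sum_nonneg fun _ _ => Finset.sum_nonneg fun _ _ => ?_
  split_ifs
  · exact mul_nonneg (mul_nonneg (hM _) (hM _)) (hgam _ _)
  · exact le_rfl

lemma stepN_inj {gam : PF Q → PF Q → ℝ} {M : PF Q → ℝ} (hM : ∀ y, ¬ PFInj y → M y = 0)
    (y : PF (Q × Bool)) (hy : ¬ PFInj y) : stepN gam M y = 0 := by
  unfold stepN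
  refine mul_eq_zero_of_right _ ?_
  refine Finset.sum_eq_zero fun s' _ => Finset.sum_eq_zero fun s _ =>
    Finset.sum_eq_zero fun y0 _ => Finset.sum_eq_zero fun y1 _ => ?_
  split_ifs with h
  · by_cases h0 : PFInj y0
    · by_cases h1 : PFInj y1
      · exact absurd (h ▸ glue_injective_pf h0 h1) hy
      · rw [hM y1 h1]; ring
    · rw [hM y0 h0]; ring
  · rfl

/-- Tilt by the colourings in an alphabet `Z`: number of common transports. -/
def GamZ (gz : Z) (y0 y1 : PF Q) : ℝ :=
  ∑ z : Q → Z, ∑ z' : Q → Z, ind gz y0 z z' * ind gz y1 z z'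

lemma GamZ_nonneg (gz : Z) (y0 y1 : PF Q) : 0 ≤ GamZ gz y0 y1 :=
  Finset.sum_nonneg fun _ _ => Finset.sum_nonneg fun _ _ =>
    mul_nonneg (ind_nonneg _ _ _ _) (ind_nonneg _ _ _ _)

/-- Halving the excited weights. -/
def halve (g : Y) (w : Y → ℝ) : Y → ℝ := fun e => if e = g then 1 else w e / 2

/-- Gram form of a kernel. -/
def IsGram (Ψ : (Q → Y) → (Q → Y) → ℝ) : Prop :=
  ∃ (ι : Type) (_ : Fintype ι) (R : ι → (Q → Y) → ℝ), ∀ α β, Ψ α β = ∑ i, R i α * R i β

/-- The tilt by `Bool` colourings is `gammaB`. -/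
lemma GamZ_bool (y0 y1 : PF Q) : GamZ false y0 y1 = gammaB y0 y1 := by
  unfold GamZ gammaB
  rw [Finset.natCast_card_filter, Fintype.sum_prod_type]
  refine Finset.sum_congr rfl fun z _ => Finset.sum_congr rfl fun z' _ => ?_
  unfold ind
  by_cases h1 : Transp false y0 z z' <;> by_cases h2 : Transp false y1 z z' <;> simp [h1, h2]

/-- The tilt by `Unit` colourings is trivial. -/
lemma GamZ_unit (y0 y1 : PF Q) : GamZ () y0 y1 = 1 := by
  unfold GamZ
  have h : ∀ (y : PF Q) (z z' : Q → Unit), ind () y z z' = 1 := by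
    intro y z z'
    unfold ind
    rw [if_pos]
    exact ⟨fun v hv => absurd rfl hv, fun v hv => absurd rfl hv⟩
  simp [h]

/-- Pairing two colourings. -/
def pair (a : Q → Y) (z : Q → Z) : Q → Y × Z := fun v => (a v, z v)

/-- Weight on the product alphabet. -/
def wX (w : Y → ℝ) : Y × Z → ℝ := fun e => w e.1

lemma wt_pair (w : Y → ℝ) (a : Q → Y) (z : Q → Z) : wt (wX w) (pair a z) = wt w a := rfl

/-- Equivalence for the product alphabet. -/
def pairEquiv : ((Q → Y) × (Q → Z)) ≃ (Q → Y × Z) where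
  toFun p := pair p.1 p.2
  invFun α := (fun v => (α v).1, fun v => (α v).2)
  left_inv _ := rfl
  right_inv _ := rfl

/-- The kernel on colourings. -/
def PsiM (M : PF Q → ℝ) (g : Y) (w : Y → ℝ) (α β : Q → Y) : ℝ :=
  ∑ y, M y * ind g y α β * wt w α

/-- Trace of the kernel. -/
def TT (M : PF Q → ℝ) (g : Y) (w : Y → ℝ) : ℝ := ∑ α, PsiM M g w α α

/-- Pairing the two kernels. -/
lemma sum_gam_ind (M : PF Q → ℝ) (hM : ∀ y, ¬ PFInj y → M y = 0) (g : Y) (gz : Z) (w : Y → ℝ)
    (a0 b0 a1 b1 : Q → Y) :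
    ∑ y0 : PF Q, ∑ y1 : PF Q, M y0 * M y1 * GamZ gz y0 y1 *
        (ind g y0 a0 b0 * ind g y1 a1 b1 * (wt w a0 * wt w a1))
      = ∑ z : Q → Z, ∑ z' : Q → Z,
        PsiM M (g, gz) (wX w) (pair a0 z) (pair b0 z') *
        PsiM M (g, gz) (wX w) (pair a1 z) (pair b1 z') := by
  have hL : ∀ y (a b : Q → Y) (z z' : Q → Z), M y * ind (g, gz) y (pair a z) (pair b z')
      = M y * (ind g y a b * ind gz y z z') := by
    intro y a b z z'
    by_cases hy : PFInj y
    · rw [show pair a z = (fun v => (a v, z v)) from rfl, show pair b z' = (fun v => (b v, z' v)) from rfl,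
        ind_prod hy]
    · rw [hM y hy]; ring
  simp only [PsiM, wt_pair]
  simp_rw [Finset.sum_mul_sum]
  calc ∑ y0 : PF Q, ∑ y1 : PF Q, M y0 * M y1 * GamZ gz y0 y1 *
        (ind g y0 a0 b0 * ind g y1 a1 b1 * (wt w a0 * wt w a1))
      = ∑ y0 : PF Q, ∑ y1 : PF Q, ∑ z : Q → Z, ∑ z' : Q → Z,
        M y0 * ind (g, gz) y0 (pair a0 z) (pair b0 z') * wt w a0 *
        (M y1 * ind (g, gz) y1 (pair a1 z) (pair b1 z') * wt w a1) := by
        refine Finset.sum_congr rfl fun y0 _ => Finset.sum_congr rfl fun y1 _ => ?_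
        unfold GamZ
        rw [Finset.mul_sum, Finset.sum_mul]
        refine Finset.sum_congr rfl fun z _ => ?_
        rw [Finset.mul_sum, Finset.sum_mul]
        refine Finset.sum_congr rfl fun z' _ => ?_
        have e1 := hL y0 a0 b0 z z'
        have e2 := hL y1 a1 b1 z z'
        calc M y0 * M y1 * (ind gz y0 z z' * ind gz y1 z z') *
              (ind g y0 a0 b0 * ind g y1 a1 b1 * (wt w a0 * wt w a1))
            = (M y0 * (ind g y0 a0 b0 * ind gz y0 z z')) * wt w a0 *
              ((M y1 * (ind g y1 a1 b1 * ind gz y1 z z')) * wt w a1) := by ring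
          _ = _ := by rw [← e1, ← e2]
    _ = _ := by
        calc _ = ∑ y0 : PF Q, ∑ z : Q → Z, ∑ z' : Q → Z, ∑ y1 : PF Q,
              M y0 * ind (g, gz) y0 (pair a0 z) (pair b0 z') * wt w a0 *
              (M y1 * ind (g, gz) y1 (pair a1 z) (pair b1 z') * wt w a1) := by
              refine Finset.sum_congr rfl fun y0 _ => ?_
              rw [Finset.sum_comm]
              refine Finset.sum_congr rfl fun z _ => ?_
              rw [Finset.sum_comm]
          _ = ∑ z : Q → Z, ∑ z' : Q → Z, ∑ y0 : PF Q, ∑ y1 : PF Q,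
              M y0 * ind (g, gz) y0 (pair a0 z) (pair b0 z') * wt w a0 *
              (M y1 * ind (g, gz) y1 (pair a1 z) (pair b1 z') * wt w a1) := by
              rw [Finset.sum_comm]
              refine Finset.sum_congr rfl fun z _ => ?_
              rw [Finset.sum_comm]

/-- The kernel after one tilted step. -/
lemma PsiM_step (M : PF Q → ℝ) (hM : ∀ y, ¬ PFInj y → M y = 0) (g : Y) (gz : Z) (w : Y → ℝ)
    (α β : Q × Bool → Y) :
    PsiM (stepN (GamZ gz) M) g w α β = (NC Q)⁻¹ * (NC Q)⁻¹ * ∑ s' : Q → Bool, ∑ s : Q → Bool,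
      ∑ z : Q → Z, ∑ z' : Q → Z,
        PsiM M (g, gz) (wX w) (pair (cut s α false) z) (pair (cut s' β false) z') *
        PsiM M (g, gz) (wX w) (pair (cut s α true) z) (pair (cut s' β true) z') := by
  unfold PsiM
  have := sum_stepN_mul (GamZ gz) M (fun y => ind g y α β * wt w α)
  simp_rw [mul_assoc] at this ⊢
  rw [this]
  congr 2
  refine Finset.sum_congr rfl fun s' _ => Finset.sum_congr rfl fun s _ => ?_
  have h2 := sum_gam_ind M hM g gz w (cut s α false) (cut s' β false) (cut s α true) (cut s' β true)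
  simp only [PsiM, mul_assoc] at h2
  rw [← h2]
  refine Finset.sum_congr rfl fun y0 _ => Finset.sum_congr rfl fun y1 _ => ?_
  rw [ind_glue, wt_cut w s α]
  ring

end

end Crest.Agent.Lib.Thorp.Band
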