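/-
S0222 (Thorp shuffle), band trace: the ends of the T-functional argument (helper83).

* `MhT_le_sqrt`: the Cauchy-Schwarz split of the `√γ` majorant into the two `γ`-on-alternate-levels
  majorants `MgT`;
* `TT_bound`: the numeric closure of the recursion `TT_{i+1} ≤ TT_i TT_i`;
* `sum_MhT_le`: the band bound from the two recursions.
-/
import Crest.Agent.Lib.Thorp.BandBridge
import Crest.Agent.Lib.Thorp.BandStep

set_option autoImplicit false
set_option linter.unusedSectionVars false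
set_option linter.unusedSimpArgs false

namespace Crest.Agent.Lib.Thorp.Band

open scoped Classical
open Crest.Agent.Lib.Thorp
open Matrix

noncomputable section

/-! ### Cauchy-Schwarz split -/

/-- The majorant with `γ` on the levels marked by `tilt`. -/
def MgT (η : ℝ) (tilt : ℕ → Bool) : ∀ i, PF (NT i) → ℝ
  | 0 => nuN η
  | i + 1 => stepN (Q := NT i) (fun y0 y1 => if tilt i then gammaB y0 y1 else 1) (MgT η tilt i)

lemma MgT_nonneg {η : ℝ} (h0 : 0 ≤ η) (h1 : η ≤ 1) (tilt : ℕ → Bool) :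
    ∀ i y, 0 ≤ MgT η tilt i y := by
  intro i
  induction i with
  | zero => exact fun y => nuN_nonneg h0 h1 y
  | succ i ih =>
    refine fun y => stepN_nonneg (Q := NT i) (fun y0 y1 => ?_) ih y
    split_ifs
    · exact gammaB_nonneg _ _
    · exact zero_le_one

lemma MhT_nonneg {η : ℝ} (h0 : 0 ≤ η) (h1 : η ≤ 1) : ∀ i y, 0 ≤ MhT η i y := by
  intro i
  induction i with
  | zero => exact fun y => nuN_nonneg h0 h1 y
  | succ i ih => exact fun y => stepN_nonneg (Q := NT i) (fun _ _ => Real.sqrt_nonneg _) ih y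

lemma cs_sum {ι : Type} [Fintype ι] {A F G : ι → ℝ} (hF : ∀ a, 0 ≤ F a) (hG : ∀ a, 0 ≤ G a)
    (h : ∀ a, A a ≤ Real.sqrt (F a) * Real.sqrt (G a)) :
    ∑ a, A a ≤ Real.sqrt (∑ a, F a) * Real.sqrt (∑ a, G a) :=
  (Finset.sum_le_sum fun a _ => h a).trans
    (Real.sum_sqrt_mul_sqrt_le _ (fun a => hF a) (fun a => hG a))

/-- Cauchy-Schwarz at a node. -/
lemma step_cs {Q : Type} [Fintype Q] [DecidableEq Q] {M E O : PF Q → ℝ} {ge go gs : PF Q → PF Q → ℝ}
    (hE : ∀ y, 0 ≤ E y) (hO : ∀ y, 0 ≤ O y) (hge : ∀ y0 y1, 0 ≤ ge y0 y1)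
    (hgo : ∀ y0 y1, 0 ≤ go y0 y1) (hM0 : ∀ y, 0 ≤ M y) (hgs : ∀ y0 y1, 0 ≤ gs y0 y1)
    (hgs2 : ∀ y0 y1, gs y0 y1 = Real.sqrt (ge y0 y1) * Real.sqrt (go y0 y1))
    (hM : ∀ y, M y ≤ Real.sqrt (E y) * Real.sqrt (O y)) (y : PF (Q × Bool)) :
    stepN gs M y ≤ Real.sqrt (stepN ge E y) * Real.sqrt (stepN go O y) := by
  unfold stepN
  have hNC := NC_pos (Q := Q)
  have hNN : 0 ≤ (NC Q)⁻¹ * (NC Q)⁻¹ := by positivity
  rw [Real.sqrt_mul hNN, Real.sqrt_mul hNN]
  have hs : Real.sqrt ((NC Q)⁻¹ * (NC Q)⁻¹) * Real.sqrt ((NC Q)⁻¹ * (NC Q)⁻¹)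
      = (NC Q)⁻¹ * (NC Q)⁻¹ := Real.mul_self_sqrt hNN
  have key : (∑ s' : Q → Bool, ∑ s : Q → Bool, ∑ y0 : PF Q, ∑ y1 : PF Q,
      if glue s s' y0 y1 = y then M y0 * M y1 * gs y0 y1 else 0)
      ≤ Real.sqrt (∑ s' : Q → Bool, ∑ s : Q → Bool, ∑ y0 : PF Q, ∑ y1 : PF Q,
          if glue s s' y0 y1 = y then E y0 * E y1 * ge y0 y1 else 0) *
        Real.sqrt (∑ s' : Q → Bool, ∑ s : Q → Bool, ∑ y0 : PF Q, ∑ y1 : PF Q,
          if glue s s' y0 y1 = y then O y0 * O y1 * go y0 y1 else 0) := by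
    have t1 : ∀ (X : PF Q → ℝ) (h : PF Q → PF Q → ℝ) (_ : ∀ y, 0 ≤ X y) (_ : ∀ y0 y1, 0 ≤ h y0 y1)
        (s s' : Q → Bool) (y0 y1 : PF Q),
        0 ≤ (if glue s s' y0 y1 = y then X y0 * X y1 * h y0 y1 else 0) := by
      intro X h hX hh s s' y0 y1
      split_ifs
      · exact mul_nonneg (mul_nonneg (hX _) (hX _)) (hh _ _)
      · exact le_rfl
    refine cs_sum (fun s' => Finset.sum_nonneg fun s _ => Finset.sum_nonneg fun y0 _ =>
        Finset.sum_nonneg fun y1 _ => t1 E ge hE hge _ _ _ _)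
      (fun s' => Finset.sum_nonneg fun s _ => Finset.sum_nonneg fun y0 _ =>
        Finset.sum_nonneg fun y1 _ => t1 O go hO hgo _ _ _ _) fun s' => ?_
    refine cs_sum (fun s => Finset.sum_nonneg fun y0 _ =>
        Finset.sum_nonneg fun y1 _ => t1 E ge hE hge _ _ _ _)
      (fun s => Finset.sum_nonneg fun y0 _ =>
        Finset.sum_nonneg fun y1 _ => t1 O go hO hgo _ _ _ _) fun s => ?_
    refine cs_sum (fun y0 => Finset.sum_nonneg fun y1 _ => t1 E ge hE hge _ _ _ _)
      (fun y0 => Finset.sum_nonneg fun y1 _ => t1 O go hO hgo _ _ _ _) fun y0 => ?_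
    refine cs_sum (fun y1 => t1 E ge hE hge _ _ _ _)
      (fun y1 => t1 O go hO hgo _ _ _ _) fun y1 => ?_
    by_cases hgl : glue s s' y0 y1 = y
    · simp only [if_pos hgl]
      rw [Real.sqrt_mul (mul_nonneg (hE _) (hE _)), Real.sqrt_mul (mul_nonneg (hO _) (hO _)),
        Real.sqrt_mul (hE _), Real.sqrt_mul (hO _), hgs2]
      have h0 := hM y0
      have h1 := hM y1
      calc M y0 * M y1 * (Real.sqrt (ge y0 y1) * Real.sqrt (go y0 y1))
          ≤ (Real.sqrt (E y0) * Real.sqrt (O y0)) * (Real.sqrt (E y1) * Real.sqrt (O y1)) *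
              (Real.sqrt (ge y0 y1) * Real.sqrt (go y0 y1)) := by
            apply mul_le_mul_of_nonneg_right _ (by positivity)
            exact mul_le_mul h0 h1 (hM0 _) (by positivity)
        _ = _ := by ring
    · simp [hgl]
  calc (NC Q)⁻¹ * (NC Q)⁻¹ * _
      ≤ (NC Q)⁻¹ * (NC Q)⁻¹ * _ := mul_le_mul_of_nonneg_left key hNN
    _ = _ := by
      have h4 : ∀ r A B : ℝ, (r * r) * (A * B) = r * A * (r * B) := by
        intros; ring
      rw [← h4, hs]

/-- The two alternating patterns. -/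
def tiltE (i : ℕ) : Bool := decide (i % 2 = 0)
/-- The two alternating patterns. -/
def tiltO (i : ℕ) : Bool := decide (i % 2 = 1)

lemma MhT_le_sqrt {η : ℝ} (h0 : 0 ≤ η) (h1 : η ≤ 1) : ∀ i (y : PF (NT i)),
    MhT η i y ≤ Real.sqrt (MgT η tiltE i y) * Real.sqrt (MgT η tiltO i y) := by
  intro i
  induction i with
  | zero =>
    intro y
    change nuN η y ≤ Real.sqrt (nuN η y) * Real.sqrt (nuN η y)
    rw [Real.mul_self_sqrt (nuN_nonneg h0 h1 y)]
  | succ i ih =>
    intro y
    refine step_cs (Q := NT i) (MgT_nonneg h0 h1 tiltE i) (MgT_nonneg h0 h1 tiltO i) ?_ ?_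
      (MhT_nonneg h0 h1 i) (fun _ _ => Real.sqrt_nonneg _) ?_ ih y
    · intro y0 y1
      split_ifs
      · exact gammaB_nonneg _ _
      · exact zero_le_one
    · intro y0 y1
      split_ifs
      · exact gammaB_nonneg _ _
      · exact zero_le_one
    · intro y0 y1
      rcases Nat.mod_two_eq_zero_or_one i with hi | hi
      · simp [tiltE, tiltO, hi]
      · simp [tiltE, tiltO, hi]

/-- The band bound from the two alternating bounds. -/
theorem sum_MhT_le {η : ℝ} (h0 : 0 ≤ η) (h1 : η ≤ 1) (D : ℕ) {AE AO : ℝ}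
    (hE : ∑ y : PF (NT D), MgT η tiltE D y ≤ AE) (hO : ∑ y : PF (NT D), MgT η tiltO D y ≤ AO) :
    ∑ y : PF (NT D), MhT η D y ≤ Real.sqrt AE * Real.sqrt AO := by
  calc ∑ y : PF (NT D), MhT η D y
      ≤ Real.sqrt (∑ y : PF (NT D), MgT η tiltE D y) * Real.sqrt (∑ y : PF (NT D), MgT η tiltO D y) :=
        cs_sum (MgT_nonneg h0 h1 _ D) (MgT_nonneg h0 h1 _ D) (MhT_le_sqrt h0 h1 D)
    _ ≤ _ := mul_le_mul (Real.sqrt_le_sqrt hE) (Real.sqrt_le_sqrt hO) (Real.sqrt_nonneg _)
        (Real.sqrt_nonneg _)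

/-! ### The numeric closure -/

/-- The coefficients of the exponential bound. -/
def abT (tilt : ℕ → Bool) : ℕ → ℝ × ℝ
  | 0 => (1, 0)
  | i + 1 =>
    if tilt i then ((5 / 4) * (abT tilt i).1, (abT tilt i).2 + (abT tilt i).1 / 2)
    else ((3 / 4) * (abT tilt i).1, (abT tilt i).2)

lemma abT_fst_nonneg (tilt : ℕ → Bool) : ∀ i, 0 ≤ (abT tilt i).1 := by
  intro i
  induction i with
  | zero => simp [abT]
  | succ i ih =>
    simp only [abT]
    split_ifs <;> simp only <;> linarith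

lemma abT_E : ∀ i, (if i % 2 = 0 then (abT tiltE i).2 + 8 * (abT tiltE i).1
    else (abT tiltE i).2 + 6 * (abT tiltE i).1) ≤ 8 := by
  intro i
  induction i with
  | zero => norm_num [abT]
  | succ i ih =>
    rcases Nat.mod_two_eq_zero_or_one i with hi | hi
    · have h2 : (i + 1) % 2 = 1 := by omega
      simp only [hi, if_true] at ih
      simp only [abT, h2, tiltE, hi]
      norm_num
      linarith
    · have h2 : (i + 1) % 2 = 0 := by omega
      simp only [hi] at ih
      simp only [abT, h2, tiltE, hi]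
      norm_num at ih ⊢
      linarith

lemma abT_O : ∀ i, (if i % 2 = 0 then (abT tiltO i).2 + 6 * (abT tiltO i).1
    else (abT tiltO i).2 + 8 * (abT tiltO i).1) ≤ 6 := by
  intro i
  induction i with
  | zero => norm_num [abT]
  | succ i ih =>
    rcases Nat.mod_two_eq_zero_or_one i with hi | hi
    · have h2 : (i + 1) % 2 = 1 := by omega
      simp only [hi, if_true] at ih
      simp only [abT, h2, tiltO, hi]
      norm_num
      linarith
    · have h2 : (i + 1) % 2 = 0 := by omega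
      simp only [hi] at ih
      simp only [abT, h2, tiltO, hi]
      norm_num at ih ⊢
      linarith

lemma abT_E_le (i : ℕ) : (abT tiltE i).2 ≤ 8 := by
  have h1 := abT_E i
  have h2 := abT_fst_nonneg tiltE i
  split_ifs at h1 <;> linarith

lemma abT_O_le (i : ℕ) : (abT tiltO i).2 ≤ 6 := by
  have h1 := abT_O i
  have h2 := abT_fst_nonneg tiltO i
  split_ifs at h1 <;> linarith

/-- The excited mass of a weight. -/
def tMass {Y : Type} [Fintype Y] [DecidableEq Y] (g : Y) (b : Y → ℝ) : ℝ :=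
  ∑ e, if e = g then 0 else b e

lemma tMass_add {Y : Type} [Fintype Y] [DecidableEq Y] (g : Y) (b : Y → ℝ) :
    ∑ e, b e = tMass g b + b g := by
  unfold tMass
  rw [← Finset.add_sum_erase Finset.univ b (Finset.mem_univ g), add_comm]
  congr 1
  rw [← Finset.add_sum_erase Finset.univ (fun e => if e = g then 0 else b e) (Finset.mem_univ g)]
  simp only [if_true, zero_add]
  refine Finset.sum_congr rfl fun e he => ?_
  rw [if_neg (Finset.ne_of_mem_erase he)]

lemma tMass_wX {Y : Type} [Fintype Y] [DecidableEq Y] (g : Y) (b : Y → ℝ) (hg : b g = 1) :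
    tMass (g, false) (wX (Z := Bool) b) = 2 * tMass g b + 1 := by
  have h1 := tMass_add (g, false) (wX (Z := Bool) b)
  have h2 := tMass_add g b
  have h3 : ∑ p : Y × Bool, wX (Z := Bool) b p = 2 * ∑ e, b e := by
    rw [Fintype.sum_prod_type]
    simp only [wX, Fintype.sum_bool]
    rw [Finset.mul_sum]
    refine Finset.sum_congr rfl fun e _ => ?_
    ring
  have h4 : wX (Z := Bool) b (g, false) = 1 := hg
  rw [hg] at h2
  linarith

lemma tMass_wX_unit {Y : Type} [Fintype Y] [DecidableEq Y] (g : Y) (b : Y → ℝ) (hg : b g = 1) :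
    tMass (g, ()) (wX (Z := Unit) b) = tMass g b := by
  have h1 := tMass_add (g, ()) (wX (Z := Unit) b)
  have h2 := tMass_add g b
  have h3 : ∑ p : Y × Unit, wX (Z := Unit) b p = ∑ e, b e := by
    rw [Fintype.sum_prod_type]
    simp [wX]
  have h4 : wX (Z := Unit) b (g, ()) = 1 := hg
  rw [hg] at h2
  linarith

lemma tMass_halve {Y : Type} [Fintype Y] [DecidableEq Y] (g : Y) (b : Y → ℝ) :
    tMass g (halve g b) = tMass g b / 2 := by
  unfold tMass halve
  rw [Finset.sum_div]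
  refine Finset.sum_congr rfl fun e _ => ?_
  by_cases h : e = g <;> simp [h]

/-- Admissible weights. -/
structure AdmW {Y : Type} (g : Y) (b : Y → ℝ) : Prop where
  nonneg : ∀ e, 0 ≤ b e
  le_one : ∀ e, b e ≤ 1
  ground : b g = 1

lemma AdmW.wX {Y Z : Type} {g : Y} {gz : Z} {b : Y → ℝ} (h : AdmW g b) :
    AdmW (g, gz) (wX (Z := Z) b) :=
  ⟨fun e => h.nonneg _, fun e => h.le_one _, h.ground⟩

lemma AdmW.halve {Y : Type} [DecidableEq Y] {g : Y} {b : Y → ℝ} (h : AdmW g b) :
    AdmW g (halve g b) := by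
  constructor
  · intro e
    unfold Band.halve
    split_ifs
    · exact zero_le_one
    · have := h.nonneg e
      positivity
  · intro e
    unfold Band.halve
    split_ifs
    · exact le_rfl
    · have := h.nonneg e
      have := h.le_one e
      linarith
  · simp [Band.halve]

/-- The numeric closure of the recursion. -/
theorem TT_bound (η : ℝ) (h0 : 0 ≤ η) (tilt : ℕ → Bool)
    (TT : ℕ → ∀ (Y : Type) [Fintype Y] [DecidableEq Y], Y → (Y → ℝ) → ℝ)
    (hTT0 : ∀ i (Y : Type) [Fintype Y] [DecidableEq Y] (g : Y) (b : Y → ℝ), AdmW g b → 0 ≤ TT i Y g b)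
    (hleaf : ∀ (Y : Type) [Fintype Y] [DecidableEq Y] (g : Y) (b : Y → ℝ), AdmW g b →
      TT 0 Y g b ≤ 1 + η * tMass g b)
    (hstep1 : ∀ i, tilt i = true → ∀ (Y : Type) [Fintype Y] [DecidableEq Y] (g : Y) (b : Y → ℝ),
      AdmW g b → TT (i + 1) Y g b ≤ TT i (Y × Bool) (g, false) (wX (Z := Bool) b) * TT i Y g (halve g b))
    (hstep2 : ∀ i, tilt i = false → ∀ (Y : Type) [Fintype Y] [DecidableEq Y] (g : Y) (b : Y → ℝ),
      AdmW g b → TT (i + 1) Y g b ≤ TT i (Y × Unit) (g, ()) (wX (Z := Unit) b) * TT i Y g (halve g b)) :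
    ∀ i (Y : Type) [Fintype Y] [DecidableEq Y] (g : Y) (b : Y → ℝ), AdmW g b →
      TT i Y g b ≤ Real.exp (2 ^ i * η * ((abT tilt i).1 * tMass g b + (abT tilt i).2)) := by
  intro i
  induction i with
  | zero =>
    intro Y _ _ g b hb
    refine (hleaf Y g b hb).trans ?_
    have := Real.add_one_le_exp (η * tMass g b)
    simp only [abT, pow_zero, one_mul, add_zero]
    linarith
  | succ i ih =>
    intro Y _ _ g b hb
    cases ht : tilt i
    · refine (hstep2 i ht Y g b hb).trans ?_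
      have h1 := ih (Y × Unit) (g, ()) (wX (Z := Unit) b) hb.wX
      have h2 := ih Y g (halve g b) hb.halve
      rw [tMass_halve] at h2
      rw [tMass_wX_unit _ _ hb.ground] at h1
      refine (mul_le_mul h1 h2 (hTT0 _ _ _ _ hb.halve) (Real.exp_pos _).le).trans ?_
      rw [← Real.exp_add]
      apply Real.exp_le_exp.mpr
      simp only [abT, ht, Bool.false_eq_true, if_false]
      apply le_of_eq
      ring
    · refine (hstep1 i ht Y g b hb).trans ?_
      have h1 := ih (Y × Bool) (g, false) (wX (Z := Bool) b) hb.wX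
      have h2 := ih Y g (halve g b) hb.halve
      rw [tMass_halve] at h2
      rw [tMass_wX _ _ hb.ground] at h1
      refine (mul_le_mul h1 h2 (hTT0 _ _ _ _ hb.halve) (Real.exp_pos _).le).trans ?_
      rw [← Real.exp_add]
      apply Real.exp_le_exp.mpr
      simp only [abT, ht, if_true]
      apply le_of_eq
      ring

/-! ### The functional -/

/-- The `T`-functional: the trace over colourings of the majorant. -/
def TTc (η : ℝ) (tilt : ℕ → Bool) (i : ℕ) (Y : Type) [Fintype Y] [DecidableEq Y] (g : Y)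
    (b : Y → ℝ) : ℝ :=
  ∑ y : PF (NT i), MgT η tilt i y * ∑ α : NT i → Y, ind g y α α * wt b α

lemma TTc_nonneg {η : ℝ} (h0 : 0 ≤ η) (h1 : η ≤ 1) (tilt : ℕ → Bool) (i : ℕ) (Y : Type) [Fintype Y]
    [DecidableEq Y] (g : Y) (b : Y → ℝ) (hb : AdmW g b) : 0 ≤ TTc η tilt i Y g b :=
  Finset.sum_nonneg fun y _ => mul_nonneg (MgT_nonneg h0 h1 tilt i y)
    (Finset.sum_nonneg fun α _ => mul_nonneg (ind_nonneg _ _ _ _) (wt_nonneg hb.nonneg _))

/-- At the trivial alphabet the functional is the total mass. -/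
lemma TTc_unit (η : ℝ) (tilt : ℕ → Bool) (i : ℕ) :
    TTc η tilt i Unit () (fun _ => 1) = ∑ y : PF (NT i), MgT η tilt i y := by
  unfold TTc
  refine Finset.sum_congr rfl fun y _ => ?_
  have h : ∀ α : NT i → Unit, ind () y α α * wt (fun _ => (1 : ℝ)) α = 1 := by
    intro α
    have : Transp () y α α := by
      constructor
      · intro v hv
        exact absurd rfl hv
      · intro v hv
        exact absurd rfl hv
    simp [ind, this, wt]
  simp [h]

instance instUniqueNT0 : Unique (NT 0) := inferInstanceAs (Unique Unit)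

/-- The point of the bottom of the tower. -/
def u0 : NT 0 := ()

lemma sum_fun_NT0 {Y : Type} [Fintype Y] [DecidableEq Y] (F : (NT 0 → Y) → ℝ) :
    ∑ α, F α = ∑ e, F (fun _ => e) := by
  rw [← Equiv.sum_comp (Equiv.funUnique (NT 0) Y).symm]
  rfl

/-- The leaf of the functional. -/
lemma TTc_leaf (η : ℝ) (tilt : ℕ → Bool) (Y : Type) [Fintype Y] [DecidableEq Y] (g : Y)
    (b : Y → ℝ) (hb : AdmW g b) : TTc η tilt 0 Y g b ≤ 1 + η * tMass g b := by
  apply le_of_eq
  unfold TTc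
  rw [sum_fun_NT0 (Y := Option (NT 0))]
  rw [Fintype.sum_option]
  have hu : ∑ i : NT 0, (fun o : Option (NT 0) => MgT η tilt 0 (fun _ => o) *
      ∑ α : NT 0 → Y, ind g (fun _ => o) α α * wt b α) (some i)
      = MgT η tilt 0 (fun _ => some u0) * ∑ α : NT 0 → Y, ind g (fun _ => some u0) α α * wt b α := by
    rw [Fintype.sum_unique]
    rfl
  simp only [] at hu
  rw [hu]
  have hν0 : MgT η tilt 0 (fun _ => none) = 1 - η := by
    change nuN η _ = _
    unfold nuN
    rw [Fintype.prod_unique]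
    simp
  have hν1 : MgT η tilt 0 (fun _ => some u0) = η := by
    change nuN η _ = _
    unfold nuN
    rw [Fintype.prod_unique]
    have : Fintype.card (NT 0) = 1 := rfl
    simp [this]
  rw [hν0, hν1, sum_fun_NT0, sum_fun_NT0]
  have hw : ∀ e : Y, wt b (fun _ : NT 0 => e) = b e := by
    intro e
    unfold wt
    rw [Fintype.prod_unique]
  have h1 : ∀ e : Y, ind g (fun _ : NT 0 => (none : Option (NT 0))) (fun _ => e) (fun _ => e)
      = if e = g then 1 else 0 := by
    intro e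
    unfold ind
    by_cases he : e = g
    · subst he
      rw [if_pos rfl, if_pos]
      constructor
      · intro v hv
        exact absurd rfl hv
      · intro v hv
        exact absurd rfl hv
    · rw [if_neg he, if_neg]
      intro h
      obtain ⟨w, hw, _⟩ := h.1 () he
      cases hw
  have h2 : ∀ e : Y, ind g (fun _ : NT 0 => some u0) (fun _ => e) (fun _ => e) = 1 := by
    intro e
    unfold ind
    rw [if_pos]
    constructor
    · intro v _
      exact ⟨u0, rfl, rfl⟩
    · intro v _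
      exact ⟨u0, rfl, rfl⟩
  simp only [hw, h1, h2, one_mul]
  have h3 : ∑ e : Y, (if e = g then (1 : ℝ) else 0) * b e = 1 := by
    rw [Finset.sum_eq_single g]
    · simp [hb.ground]
    · intro e _ he
      simp [he]
    · simp
  rw [h3, tMass_add g b, hb.ground]
  ring

/-- The base case of the Gram property. -/
lemma gram_leaf {η : ℝ} (h0 : 0 ≤ η) (h1 : η ≤ 1) {Y : Type} [Fintype Y] [DecidableEq Y] (g : Y)
    (w : Y → ℝ) (hw : ∀ e, 0 ≤ w e) :
    ∃ (ι : Type) (_ : Fintype ι) (R : ι → (NT 0 → Y) → ℝ), ∀ a b : NT 0 → Y,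
      ∑ y : PF (NT 0), nuN η y * ind g y a b * wt w a = ∑ k, R k a * R k b := by
  -- the kernel is diagonal
  set d : (NT 0 → Y) → ℝ := fun a =>
    ∑ y : PF (NT 0), nuN η y * ind g y a a * wt w a with hd
  have hd0 : ∀ a, 0 ≤ d a := fun a => Finset.sum_nonneg fun y _ =>
    mul_nonneg (mul_nonneg (nuN_nonneg h0 h1 y) (ind_nonneg _ _ _ _)) (wt_nonneg hw a)
  have hoff : ∀ (a b : NT 0 → Y) (y : PF (NT 0)), a ≠ b → ind g y a b = 0 := by
    intro a b y hab
    unfold ind
    rw [if_neg]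
    intro ht
    apply hab
    funext v
    have hv : v = u0 := Subsingleton.elim _ _
    subst hv
    by_cases ha : a u0 = g
    · by_cases hb : b u0 = g
      · rw [ha, hb]
      · obtain ⟨v, _, he⟩ := ht.2 u0 hb
        have : v = u0 := Subsingleton.elim _ _
        subst this
        exact he
    · obtain ⟨w', _, he⟩ := ht.1 u0 ha
      have : w' = u0 := Subsingleton.elim _ _
      subst this
      exact he.symm
  refine ⟨NT 0 → Y, inferInstance, fun k a => if a = k then Real.sqrt (d a) else 0, ?_⟩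
  intro a b
  rw [Finset.sum_eq_single a]
  · by_cases hab : a = b
    · subst hab
      simp only [if_true]
      rw [Real.mul_self_sqrt (hd0 a)]
    · have h2 : ∀ y : PF (NT 0), nuN η y * ind g y a b * wt w a = 0 := by
        intro y
        rw [hoff a b y hab]
        ring
      simp only [h2, if_true]
      rw [if_neg (Ne.symm hab)]
      simp
  · intro k _ hk
    simp only [if_neg (Ne.symm hk), zero_mul]
  · simp

lemma sum_comm5 {P S S' A A' : Type} [Fintype P] [Fintype S] [Fintype S'] [Fintype A] [Fintype A']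
    (T : P → S → S' → A → A' → ℝ) :
    ∑ p, ∑ s, ∑ s', ∑ a, ∑ a', T p s s' a a' = ∑ s, ∑ s', ∑ a, ∑ a', ∑ p, T p s s' a a' := by
  rw [Finset.sum_comm]
  refine Finset.sum_congr rfl fun s _ => ?_
  rw [Finset.sum_comm]
  refine Finset.sum_congr rfl fun s' _ => ?_
  rw [Finset.sum_comm]
  refine Finset.sum_congr rfl fun a _ => ?_
  rw [Finset.sum_comm]

lemma gram_sum {S A ι : Type} [Fintype S] [Fintype A] [Fintype ι]
    (a a' b b' : S → A → ι → ℝ) :
    ∑ s, ∑ s', ∑ z, ∑ z', (∑ k, a s z k * b s' z' k) * (∑ l, a' s z l * b' s' z' l)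
      = ∑ p : ι × ι, (∑ s, ∑ z, a s z p.1 * a' s z p.2) * (∑ s', ∑ z', b s' z' p.1 * b' s' z' p.2) := by
  have h1 : ∀ p : ι × ι, (∑ s, ∑ z, a s z p.1 * a' s z p.2) * (∑ s', ∑ z', b s' z' p.1 * b' s' z' p.2)
      = ∑ s, ∑ s', ∑ z, ∑ z', (a s z p.1 * b s' z' p.1) * (a' s z p.2 * b' s' z' p.2) := by
    intro p
    rw [Finset.sum_mul_sum]
    refine Finset.sum_congr rfl fun s _ => Finset.sum_congr rfl fun s' _ => ?_
    rw [Finset.sum_mul_sum]
    refine Finset.sum_congr rfl fun z _ => Finset.sum_congr rfl fun z' _ => ?_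
    ring
  simp_rw [h1]
  rw [sum_comm5]
  refine Finset.sum_congr rfl fun s _ => Finset.sum_congr rfl fun s' _ =>
    Finset.sum_congr rfl fun z _ => Finset.sum_congr rfl fun z' _ => ?_
  rw [Finset.sum_mul_sum, Fintype.sum_prod_type]

/-- The Gram form is preserved by the recursion. -/
theorem isGram_step {Q Y Z : Type} [Fintype Q] [DecidableEq Q] [Fintype Y] [DecidableEq Y] [Fintype Z]
    [DecidableEq Z] (M : PF Q → ℝ) (hM : ∀ y, ¬ PFInj y → M y = 0) (g : Y) (gz : Z) (w : Y → ℝ)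
    (hG : IsGram (PsiM M (g, gz) (wX w))) : IsGram (PsiM (stepN (GamZ gz) M) g w) := by
  obtain ⟨ι, _, R, hR⟩ := hG
  refine ⟨ι × ι, inferInstance, fun k α => (NC Q)⁻¹ * ∑ s : Q → Bool, ∑ z : Q → Z,
    R k.1 (pair (cut s α false) z) * R k.2 (pair (cut s α true) z), ?_⟩
  intro α β
  rw [PsiM_step M hM]
  simp_rw [hR]
  have := gram_sum (S := Q → Bool) (A := Q → Z) (ι := ι)
    (fun s z k => R k (pair (cut s α false) z)) (fun s z k => R k (pair (cut s α true) z))
    (fun s z k => R k (pair (cut s β false) z)) (fun s z k => R k (pair (cut s β true) z))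
  rw [Finset.sum_comm, this, Finset.mul_sum]
  refine Finset.sum_congr rfl fun p _ => ?_
  ring

/-- The core recursion of the `T`-functional. -/
def CoreStep (η : ℝ) (tilt : ℕ → Bool) : Prop :=
  ∀ (i : ℕ) (Y : Type) [Fintype Y] [DecidableEq Y] (g : Y) (b : Y → ℝ), AdmW g b →
    TTc η tilt (i + 1) Y g b ≤
      (if tilt i then TTc η tilt i (Y × Bool) (g, false) (wX (Z := Bool) b)
        else TTc η tilt i (Y × Unit) (g, ()) (wX (Z := Unit) b)) *
        TTc η tilt i Y g (halve g b)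

lemma MgT_inj (η : ℝ) (tilt : ℕ → Bool) : ∀ i (y : PF (NT i)), ¬ PFInj y → MgT η tilt i y = 0 := by
  intro i
  induction i with
  | zero =>
    intro y hy
    exact absurd (fun v v' _ _ _ => Subsingleton.elim (α := NT 0) v v') hy
  | succ i ih => exact fun y hy => stepN_inj (Q := NT i) ih y hy

lemma MgT_succ_tilted {η : ℝ} {tilt : ℕ → Bool} {i : ℕ} (hi : tilt i = true) :
    MgT η tilt (i + 1) = stepN (Q := NT i) (GamZ false) (MgT η tilt i) := by
  funext y
  change stepN (Q := NT i) _ _ y = _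
  congr 1
  funext y0 y1
  rw [GamZ_bool, if_pos hi]

lemma MgT_succ_untilted {η : ℝ} {tilt : ℕ → Bool} {i : ℕ} (hi : tilt i = false) :
    MgT η tilt (i + 1) = stepN (Q := NT i) (GamZ ()) (MgT η tilt i) := by
  funext y
  change stepN (Q := NT i) _ _ y = _
  congr 1
  funext y0 y1
  rw [GamZ_unit, if_neg (by simp [hi])]

lemma TTc_eq_TT (η : ℝ) (tilt : ℕ → Bool) (i : ℕ) (Y : Type) [Fintype Y] [DecidableEq Y] (g : Y)
    (b : Y → ℝ) : TTc η tilt i Y g b = TT (MgT η tilt i) g b := by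
  unfold TTc TT PsiM
  simp_rw [Finset.mul_sum]
  rw [Finset.sum_comm]
  exact Finset.sum_congr rfl fun α _ => Finset.sum_congr rfl fun y _ => by ring

/-- The Gram property of the kernels. -/
lemma MgT_gram {η : ℝ} (h0 : 0 ≤ η) (h1 : η ≤ 1) (tilt : ℕ → Bool) :
    ∀ i (Y : Type) [Fintype Y] [DecidableEq Y] (g : Y) (w : Y → ℝ), AdmW g w →
      IsGram (PsiM (MgT η tilt i) g w) := by
  intro i
  induction i with
  | zero =>
    intro Y _ _ g w hw
    obtain ⟨ι, hι, R, hR⟩ := gram_leaf h0 h1 g w hw.nonneg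
    exact ⟨ι, hι, R, fun a b => hR a b⟩
  | succ i ih =>
    intro Y _ _ g w hw
    cases ht : tilt i
    · rw [MgT_succ_untilted ht]
      exact isGram_step (Q := NT i) _ (MgT_inj η tilt i) g () w
        (ih (Y × Unit) (g, ()) (wX w) hw.wX)
    · rw [MgT_succ_tilted ht]
      exact isGram_step (Q := NT i) _ (MgT_inj η tilt i) g false w
        (ih (Y × Bool) (g, false) (wX w) hw.wX)

/-- The core inequality (a hypothesis, proved elsewhere). -/
def TTStep : Prop :=
  ∀ (Q Y Z : Type) [Fintype Q] [DecidableEq Q] [Fintype Y] [DecidableEq Y] [Fintype Z] [DecidableEq Z]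
    (M : PF Q → ℝ) (_ : ∀ y, 0 ≤ M y) (_ : ∀ y, ¬ PFInj y → M y = 0) (g : Y) (gz : Z) (w : Y → ℝ)
    (_ : ∀ e, 0 ≤ w e) (_ : ∀ e, w e ≤ 1) (_ : w g = 1) (_ : IsGram (PsiM M (g, gz) (wX w))),
    TT (stepN (GamZ gz) M) g w ≤ TT M (g, gz) (wX w) * TT M g (halve g w)

lemma admW_one : AdmW (() : Unit) (fun _ => (1 : ℝ)) :=
  ⟨fun _ => zero_le_one, fun _ => le_rfl, rfl⟩

lemma tMass_unit : tMass (() : Unit) (fun _ => (1 : ℝ)) = 0 := by
  simp [tMass]

/-- The total mass of the alternating majorant, from the core recursion. -/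
theorem sum_MgT_le {η : ℝ} (h0 : 0 ≤ η) (h1 : η ≤ 1) (tilt : ℕ → Bool) (hc : CoreStep η tilt)
    (D : ℕ) : ∑ y : PF (NT D), MgT η tilt D y ≤ Real.exp (2 ^ D * η * (abT tilt D).2) := by
  have := TT_bound η h0 tilt (TTc η tilt)
    (fun i Y _ _ g b hb => TTc_nonneg h0 h1 tilt i Y g b hb)
    (fun Y _ _ g b hb => TTc_leaf η tilt Y g b hb)
    (fun i hi Y _ _ g b hb => by
      have h2 := hc i Y g b hb
      rwa [if_pos hi] at h2)
    (fun i hi Y _ _ g b hb => by
      have h2 := hc i Y g b hb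
      rw [if_neg (by simp [hi])] at h2
      exact h2) D Unit () (fun _ => 1) admW_one
  rw [TTc_unit, tMass_unit] at this
  simpa using this

/-- The band bound, from the core recursion on the two alternating patterns. -/
theorem sum_MhT_le_exp {η : ℝ} (h0 : 0 ≤ η) (h1 : η ≤ 1) (hE : CoreStep η tiltE)
    (hO : CoreStep η tiltO) (D : ℕ) :
    ∑ y : PF (NT D), MhT η D y ≤ Real.exp (7 * η * 2 ^ D) := by
  have hpos : 0 ≤ 2 ^ D * η := by positivity
  have e1 : ∑ y : PF (NT D), MgT η tiltE D y ≤ Real.exp (8 * (2 ^ D * η)) :=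
    (sum_MgT_le h0 h1 tiltE hE D).trans (Real.exp_le_exp.mpr (by
      have := mul_le_mul_of_nonneg_left (abT_E_le D) hpos
      linarith))
  have e2 : ∑ y : PF (NT D), MgT η tiltO D y ≤ Real.exp (6 * (2 ^ D * η)) :=
    (sum_MgT_le h0 h1 tiltO hO D).trans (Real.exp_le_exp.mpr (by
      have := mul_le_mul_of_nonneg_left (abT_O_le D) hpos
      linarith))
  refine (sum_MhT_le h0 h1 D e1 e2).trans (le_of_eq ?_)
  rw [← Real.sqrt_mul (Real.exp_pos _).le, ← Real.exp_add, Real.sqrt_eq_iff_mul_self_eq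
    (Real.exp_pos _).le (Real.exp_pos _).le, ← Real.exp_add]
  congr 1
  ring

/-- The core recursion from the core inequality. -/
theorem coreStep_of_TTStep (hS : TTStep) {η : ℝ} (h0 : 0 ≤ η) (h1 : η ≤ 1) (tilt : ℕ → Bool) :
    CoreStep η tilt := by
  intro i Y _ _ g b hb
  simp only [TTc_eq_TT]
  cases ht : tilt i
  · simp only [Bool.false_eq_true, if_false]
    rw [MgT_succ_untilted ht]
    exact hS (NT i) Y Unit _ (MgT_nonneg h0 h1 tilt i) (MgT_inj η tilt i) g () b hb.nonneg hb.le_one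
      hb.ground (MgT_gram h0 h1 tilt i _ _ _ hb.wX)
  · simp only [if_true]
    rw [MgT_succ_tilted ht]
    exact hS (NT i) Y Bool _ (MgT_nonneg h0 h1 tilt i) (MgT_inj η tilt i) g false b hb.nonneg hb.le_one
      hb.ground (MgT_gram h0 h1 tilt i _ _ _ hb.wX)

/-- `hBand` of the final assembly, from the core recursion. -/
theorem hBand_of_TTStep (hS : TTStep)
    (D : ℕ) (η : ℝ) (h0 : 0 < η) (h1 : η ≤ 1 / 2) :
    ∃ ν : Equiv.Perm (Pos D) → ℝ, (blockT D)ᵀ * blockT D = regMat ν ∧ (∀ g, 0 ≤ ν g) ∧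
      bandSum ν η ≤ Real.exp (7 * η * 2 ^ D) := by
  have h2 := coreStep_of_TTStep hS h0.le (by linarith) tiltE
  have h3 := coreStep_of_TTStep hS h0.le (by linarith) tiltO
  exact ⟨BandLaw.X D, BandLaw.W_eq D, X_nonneg D,
    (bandSum_X_le h0.le (by linarith) D).trans (sum_MhT_le_exp h0.le (by linarith) h2 h3 D)⟩

end

end Crest.Agent.Lib.Thorp.Band
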