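/-
  Thorp band trace (row 155, S0222), part 4: the reflection positivity inequality
  `TT (stepM (GamZ gz) M) g w ≤ TT M (g, gz) (wX w) * TT M g (halve g w)`.
-/
import Crest.Agent.Lib.Thorp.BandStep

set_option autoImplicit false
set_option linter.unusedSectionVars false

namespace Crest.Agent.Lib.Thorp.Band

open scoped Classical

noncomputable section

variable {Q : Type} [Fintype Q] [DecidableEq Q]
variable {Y : Type} [Fintype Y] [DecidableEq Y]
variable {Z : Type} [Fintype Z] [DecidableEq Z]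

/-- The relation of a partial map. -/
def relOf (y : PF Q) : Q → Q → Prop := fun v w => y v = some w

lemma relOf_fun (y : PF Q) (v w w' : Q) (h : relOf y v w) (h' : relOf y v w') : w = w' := by
  unfold relOf at h h'
  rw [h] at h'
  exact Option.some.inj h'

lemma TranspR.unique_right {R : Q → Q → Prop} (hR1 : ∀ v w w', R v w → R v w' → w = w')
    {g : Y} {α β β' : Q → Y}
    (h : TranspR R g α β) (h' : TranspR R g α β') : β = β' := by
  funext w
  by_contra hne
  by_cases hb : β w = g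
  · have hb' : β' w ≠ g := fun h2 => hne (by rw [hb, h2])
    obtain ⟨v, hv, hαv⟩ := h'.2 w hb'
    obtain ⟨w2, hw2, hβ⟩ := h.1 v (by rw [hαv]; exact hb')
    have : w2 = w := hR1 _ _ _ hw2 hv
    subst this
    exact hne (by rw [hβ, hαv])
  · obtain ⟨v, hv, hαv⟩ := h.2 w hb
    obtain ⟨w2, hw2, hβ⟩ := h'.1 v (by rw [hαv]; exact hb)
    have : w2 = w := hR1 _ _ _ hw2 hv
    subst this
    exact hne (by rw [hβ, hαv])

/-- A sum of indicators of a predicate holding at most once. -/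
lemma sum_ite_le_one {T : Type} [Fintype T] (P : T → Prop) (hP : ∀ a b, P a → P b → a = b) :
    ∑ t, (if P t then (1 : ℝ) else 0) ≤ if ∃ t, P t then 1 else 0 := by
  by_cases h : ∃ t, P t
  · obtain ⟨t0, ht0⟩ := h
    rw [if_pos ⟨t0, ht0⟩, Finset.sum_eq_single t0]
    · simp [ht0]
    · intro b _ hb
      rw [if_neg]
      intro hPb
      exact hb (hP _ _ hPb ht0)
    · simp
  · rw [if_neg h]
    refine le_of_eq (Finset.sum_eq_zero fun t _ => ?_)
    rw [if_neg]
    exact fun ht => h ⟨t, ht⟩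

/-- Trace-part of a fixed `y`. -/
def gTT (g : Y) (w : Y → ℝ) (y : PF Q) : ℝ := ∑ α, ind g y α α * wt w α

lemma TT_eq (M : PF Q → ℝ) (g : Y) (w : Y → ℝ) : TT M g w = ∑ y, M y * gTT g w y := by
  unfold TT PsiM gTT
  rw [Finset.sum_comm]
  refine Finset.sum_congr rfl fun y _ => ?_
  rw [Finset.mul_sum]
  refine Finset.sum_congr rfl fun α _ => by ring

/-- Matrix block after tracing out. `h v = true`: kept site. -/
def XX (h : Q → Bool) (g : Y) (gz : Z) (w : Y → ℝ) (y : PF Q)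
    (I J : ({v // h v = true} → Y) × (Q → Z)) : ℝ :=
  ∑ a : {v // ¬ h v = true} → Y,
    ind (g, gz) y (pair (join h I.1 a) I.2) (pair (join h J.1 a) J.2) * wt w (join h I.1 a)

lemma XX_nonneg (h : Q → Bool) (g : Y) (gz : Z) {w : Y → ℝ} (hw : ∀ e, 0 ≤ w e) (y : PF Q)
    (I J : ({v // h v = true} → Y) × (Q → Z)) : 0 ≤ XX h g gz w y I J :=
  Finset.sum_nonneg fun _ _ => mul_nonneg (ind_nonneg _ _ _ _) (wt_nonneg hw _)

/-- Bound on the second factor. -/
lemma sum_ind_right_le_one (gz : Z) (y : PF Q) (z : Q → Z) :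
    ∑ z' : Q → Z, ind gz y z z' ≤ 1 := by
  unfold ind
  refine (sum_ite_le_one (fun z' => Transp gz y z z') ?_).trans ?_
  · intro a b ha hb
    exact Transp.unique_right ha hb
  · split_ifs <;> norm_num

lemma sum_ind_left_le_one (gz : Z) {y : PF Q} (hy : PFInj y) (z' : Q → Z) :
    ∑ z : Q → Z, ind gz y z z' ≤ 1 := by
  unfold ind
  refine (sum_ite_le_one (fun z => Transp gz y z z') ?_).trans ?_
  · intro a b ha hb
    have ha' : TranspR (fun w v => relOf y v w) gz z' a := (transpR_flip (relOf y) gz a z').2 ha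
    have hb' : TranspR (fun w v => relOf y v w) gz z' b := (transpR_flip (relOf y) gz b z').2 hb
    exact TranspR.unique_right (R := fun w v => relOf y v w)
      (fun w v v' h1 h2 => hy _ _ _ h1 h2) ha' hb'
  · split_ifs <;> norm_num

/-- Generic factorisation bound. -/
lemma sum_two_le {G T : Type} [Fintype G] [Fintype T] (f : G → ℝ) (k : T → ℝ) (W : G → ℝ) (c W' : ℝ)
    (hf0 : ∀ x, 0 ≤ f x) (hk0 : ∀ x, 0 ≤ k x) (hf : ∑ x, f x ≤ c) (hk : ∑ x, k x ≤ 1)
    (hW' : 0 ≤ W') (hW : ∀ x, W x ≤ W') :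
    ∑ x, ∑ z, (f x * k z) * W x ≤ c * W' := by
  have hc : 0 ≤ c := le_trans (Finset.sum_nonneg fun x _ => hf0 x) hf
  calc ∑ x, ∑ z, (f x * k z) * W x ≤ ∑ x, ∑ z, (f x * k z) * W' :=
        Finset.sum_le_sum fun x _ => Finset.sum_le_sum fun z _ =>
          mul_le_mul_of_nonneg_left (hW x) (mul_nonneg (hf0 x) (hk0 z))
    _ = (∑ x, f x) * (∑ z, k z) * W' := by
        rw [Finset.sum_mul_sum, Finset.sum_mul]
        refine Finset.sum_congr rfl fun x _ => ?_
        rw [Finset.sum_mul]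
    _ ≤ c * 1 * W' := by
        refine mul_le_mul_of_nonneg_right ?_ hW'
        exact mul_le_mul hf hk (Finset.sum_nonneg fun x _ => hk0 x) hc
    _ = c * W' := by ring

/-- The reduction of `XX` to a product over the two alphabets. -/
lemma ind_pair (g : Y) (gz : Z) {y : PF Q} (hy : PFInj y) (a b : Q → Y) (z z' : Q → Z) :
    ind (g, gz) y (pair a z) (pair b z') = ind g y a b * ind gz y z z' := by
  rw [show pair a z = (fun v => (a v, z v)) from rfl, show pair b z' = (fun v => (b v, z' v)) from rfl,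
    ind_prod hy]

/-- Reorder the sums in a row. -/
lemma sum3_comm {A B C : Type} [Fintype A] [Fintype B] [Fintype C] (F : A → B → C → ℝ) :
    ∑ a, ∑ b, ∑ c, F a b c = ∑ c, ∑ a, ∑ b, F a b c := by
  calc ∑ a, ∑ b, ∑ c, F a b c = ∑ a, ∑ c, ∑ b, F a b c :=
        Finset.sum_congr rfl fun a _ => Finset.sum_comm
    _ = ∑ c, ∑ a, ∑ b, F a b c := Finset.sum_comm

/-- Row bound. -/
lemma XX_row (h : Q → Bool) (g : Y) (gz : Z) {w : Y → ℝ} (hw : ∀ e, 0 ≤ w e) (hw1 : ∀ e, w e ≤ 1)
    (hwg : w g = 1) {y : PF Q} (hy : PFInj y) (I : ({v // h v = true} → Y) × (Q → Z)) :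
    ∑ J, XX h g gz w y I J ≤ closedSumR g w (relOf y) h := by
  obtain ⟨γ, z⟩ := I
  have hsol := sol_sum_le (relOf y) (relOf_fun y) (fun v v' w' h1 h2 => hy v v' w' h1 h2) g hw hw1 hwg h γ
  refine le_trans ?_ hsol
  unfold XX
  rw [Fintype.sum_prod_type]
  rw [sum3_comm]
  refine Finset.sum_le_sum fun a _ => ?_
  have e : ∀ (γ' : {v // h v = true} → Y) (z' : Q → Z),
      ind (g, gz) y (pair (join h γ a) z) (pair (join h γ' a) z') * wt w (join h γ a)
      = (ind g y (join h γ a) (join h γ' a) * ind gz y z z') * wt w (join h γ a) := by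
    intro γ' z'
    rw [ind_pair g gz hy]
  calc _ = ∑ γ' : {v // h v = true} → Y, ∑ z' : Q → Z,
        (ind g y (join h γ a) (join h γ' a) * ind gz y z z') * wt w (join h γ a) :=
        Finset.sum_congr rfl fun γ' _ => Finset.sum_congr rfl fun z' _ => e γ' z'
    _ ≤ _ := by
        refine sum_two_le (fun γ' => ind g y (join h γ a) (join h γ' a)) (fun z' => ind gz y z z')
          (fun _ => wt w (join h γ a)) _ _ (fun _ => ind_nonneg _ _ _ _) (fun _ => ind_nonneg _ _ _ _)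
          ?_ (sum_ind_right_le_one gz y z) ?_ (fun _ => wt_le_wtT h hw hw1 _)
        · unfold ind
          refine (sum_ite_le_one _ ?_).trans (le_of_eq ?_)
          · intro a1 b1 h1 h2
            exact join_inj_left (Transp.unique_right h1 h2)
          · rfl
        · exact le_trans (wt_nonneg hw _) (wt_le_wtT h hw hw1 _)

/-- Column bound. -/
lemma XX_col (h : Q → Bool) (g : Y) (gz : Z) {w : Y → ℝ} (hw : ∀ e, 0 ≤ w e) (hw1 : ∀ e, w e ≤ 1)
    (hwg : w g = 1) {y : PF Q} (hy : PFInj y) (J : ({v // h v = true} → Y) × (Q → Z)) :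
    ∑ I, XX h g gz w y I J ≤ closedSumR g w (relOf y) h := by
  obtain ⟨γ', z'⟩ := J
  have hsol := sol_sum_le (fun w v => relOf y v w) (fun w v v' h1 h2 => hy _ _ _ h1 h2)
    (fun v v' w' h1 h2 => relOf_fun y _ _ _ h1 h2) g hw hw1 hwg h γ'
  rw [closedSumR_flip] at hsol
  refine le_trans ?_ hsol
  unfold XX
  rw [Fintype.sum_prod_type]
  rw [sum3_comm]
  refine Finset.sum_le_sum fun a _ => ?_
  have e : ∀ (γ : {v // h v = true} → Y) (z : Q → Z),
      ind (g, gz) y (pair (join h γ a) z) (pair (join h γ' a) z') * wt w (join h γ a)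
      = (ind g y (join h γ a) (join h γ' a) * ind gz y z z') * wt w (join h γ a) := by
    intro γ z
    rw [ind_pair g gz hy]
  calc _ = ∑ γ : {v // h v = true} → Y, ∑ z : Q → Z,
        (ind g y (join h γ a) (join h γ' a) * ind gz y z z') * wt w (join h γ a) :=
        Finset.sum_congr rfl fun γ _ => Finset.sum_congr rfl fun z _ => e γ z
    _ ≤ _ := by
        refine sum_two_le (fun γ => ind g y (join h γ a) (join h γ' a)) (fun z => ind gz y z z')
          (fun γ => wt w (join h γ a)) _ _ (fun _ => ind_nonneg _ _ _ _) (fun _ => ind_nonneg _ _ _ _)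
          ?_ (sum_ind_left_le_one gz hy z') ?_ ?_
        · unfold ind
          refine (sum_ite_le_one _ ?_).trans (le_of_eq ?_)
          · intro a1 b1 h1 h2
            have ha' : TranspR (fun w v => relOf y v w) g (join h γ' a) (join h a1 a) :=
              (transpR_flip (relOf y) g (join h a1 a) (join h γ' a)).2 h1
            have hb' : TranspR (fun w v => relOf y v w) g (join h γ' a) (join h b1 a) :=
              (transpR_flip (relOf y) g (join h b1 a) (join h γ' a)).2 h2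
            exact join_inj_left (TranspR.unique_right (R := fun w v => relOf y v w)
              (fun w v v' h1 h2 => hy _ _ _ h1 h2) ha' hb')
          · congr 1
            refine propext ⟨?_, ?_⟩
            · rintro ⟨γ0, h0⟩
              exact ⟨γ0, (transpR_flip (relOf y) g _ _).2 h0⟩
            · rintro ⟨γ0, h0⟩
              exact ⟨γ0, (transpR_flip (relOf y) g _ _).1 h0⟩
        · exact le_trans (wt_nonneg hw _) (wt_le_wtT h hw hw1 _)
        · intro γ
          rw [wtT_join h w γ' γ a]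
          exact wt_le_wtT h hw hw1 _

/-! ### Gram form one level up -/

lemma sum_out {X I J : Type} [Fintype X] [Fintype I] [Fintype J] (f : X → I → J → ℝ) :
    ∑ x, ∑ i, ∑ j, f x i j = ∑ i, ∑ j, ∑ x, f x i j := by
  calc ∑ x, ∑ i, ∑ j, f x i j = ∑ i, ∑ x, ∑ j, f x i j := Finset.sum_comm
    _ = ∑ i, ∑ j, ∑ x, f x i j := Finset.sum_congr rfl fun i _ => Finset.sum_comm

lemma gram_step_alg {S T I : Type} [Fintype S] [Fintype T] [Fintype I]
    (A A' B B' : I → S → T → ℝ) :
    ∑ s', ∑ s, ∑ z, ∑ z', (∑ i, A i s z * B i s' z') * (∑ j, A' j s z * B' j s' z')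
      = ∑ p : I × I, (∑ s, ∑ z, A p.1 s z * A' p.2 s z) * (∑ s', ∑ z', B p.1 s' z' * B' p.2 s' z') := by
  rw [Fintype.sum_prod_type]
  have e : ∀ i j, (∑ s, ∑ z, A i s z * A' j s z) * (∑ s', ∑ z', B i s' z' * B' j s' z')
      = ∑ s', ∑ s, ∑ z, ∑ z', (A i s z * B i s' z') * (A' j s z * B' j s' z') := by
    intro i j
    rw [Finset.sum_mul_sum, Finset.sum_comm]
    refine Finset.sum_congr rfl fun s' _ => Finset.sum_congr rfl fun s _ => ?_
    rw [Finset.sum_mul_sum]
    refine Finset.sum_congr rfl fun z _ => Finset.sum_congr rfl fun z' _ => by ring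
  simp only [e]
  have e2 : ∀ s s' z z', (∑ i, A i s z * B i s' z') * (∑ j, A' j s z * B' j s' z')
      = ∑ i, ∑ j, (A i s z * B i s' z') * (A' j s z * B' j s' z') := fun s s' z z' =>
    Finset.sum_mul_sum _ _ _ _
  simp only [e2]
  calc ∑ s', ∑ s, ∑ z, ∑ z', ∑ i, ∑ j, (A i s z * B i s' z') * (A' j s z * B' j s' z')
      = ∑ s', ∑ s, ∑ z, ∑ i, ∑ j, ∑ z', (A i s z * B i s' z') * (A' j s z * B' j s' z') :=
        Finset.sum_congr rfl fun s' _ => Finset.sum_congr rfl fun s _ =>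
          Finset.sum_congr rfl fun z _ => sum_out _
    _ = ∑ s', ∑ s, ∑ i, ∑ j, ∑ z, ∑ z', (A i s z * B i s' z') * (A' j s z * B' j s' z') :=
        Finset.sum_congr rfl fun s' _ => Finset.sum_congr rfl fun s _ => sum_out _
    _ = ∑ s', ∑ i, ∑ j, ∑ s, ∑ z, ∑ z', (A i s z * B i s' z') * (A' j s z * B' j s' z') :=
        Finset.sum_congr rfl fun s' _ => sum_out _
    _ = _ := sum_out _

/-- Gram form is preserved by a node step. -/
theorem isGram_step' {M : PF Q → ℝ} (hM : ∀ y, ¬ PFInj y → M y = 0) (g : Y) (gz : Z) (w : Y → ℝ)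
    (hG : IsGram (PsiM M (g, gz) (wX w))) : IsGram (PsiM (stepN (GamZ gz) M) g w) := by
  obtain ⟨ι, hι, R, hR⟩ := hG
  refine ⟨ι × ι, inferInstance, fun p α => (NC Q)⁻¹ * ∑ s : Q → Bool, ∑ z : Q → Z,
    R p.1 (pair (cut s α false) z) * R p.2 (pair (cut s α true) z), ?_⟩
  intro α β
  rw [PsiM_step M hM]
  have e : ∀ (s' s : Q → Bool) (z z' : Q → Z),
      PsiM M (g, gz) (wX w) (pair (cut s α false) z) (pair (cut s' β false) z') *
        PsiM M (g, gz) (wX w) (pair (cut s α true) z) (pair (cut s' β true) z')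
      = (∑ i, R i (pair (cut s α false) z) * R i (pair (cut s' β false) z')) *
        (∑ j, R j (pair (cut s α true) z) * R j (pair (cut s' β true) z')) := by
    intro s' s z z'
    rw [hR, hR]
  simp only [e]
  rw [gram_step_alg (fun i s z => R i (pair (cut s α false) z))
    (fun i s z => R i (pair (cut s α true) z)) (fun i s z => R i (pair (cut s β false) z))
    (fun i s z => R i (pair (cut s β true) z)), Finset.mul_sum]
  refine Finset.sum_congr rfl fun p _ => by ring

/-! ### The main inequality -/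

/-- The two halves after switching at `h`. -/
def swc (h : Q → Bool) (α0 α1 : Q → Y) (c : Bool) : Q → Y := fun v => sel (xor c (h v)) (α0 v) (α1 v)

lemma cut_uncut' (s s' : Q → Bool) (α0 α1 : Q → Y) (c : Bool) :
    cut s' (uncut s α0 α1) c = swc (fun v => xor (s v) (s' v)) α0 α1 c := by
  funext v
  cases c <;> cases hs : s v <;> cases hs' : s' v <;> simp [cut, uncut, swc, sel, hs, hs']

lemma swc_join_false (h : Q → Bool) (γ γ' : {v // h v = true} → Y) (a b : {v // ¬ h v = true} → Y) :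
    swc h (join h γ a) (join h γ' b) false = join h γ' a := by
  funext v
  by_cases hv : h v = true
  · simp [swc, sel, hv, join_true _ _ hv]
  · have hv' : h v = false := by simpa using hv
    simp [swc, sel, hv', join_false _ _ hv]

lemma swc_join_true (h : Q → Bool) (γ γ' : {v // h v = true} → Y) (a b : {v // ¬ h v = true} → Y) :
    swc h (join h γ a) (join h γ' b) true = join h γ b := by
  funext v
  by_cases hv : h v = true
  · simp [swc, sel, hv, join_true _ _ hv]
  · have hv' : h v = false := by simpa using hv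
    simp [swc, sel, hv', join_false _ _ hv]

lemma sum4_swap {A B C D : Type} [Fintype A] [Fintype B] [Fintype C] [Fintype D]
    (f : A → B → C → D → ℝ) : ∑ a, ∑ b, ∑ c, ∑ d, f a b c d = ∑ c, ∑ d, ∑ a, ∑ b, f a b c d := by
  calc ∑ a, ∑ b, ∑ c, ∑ d, f a b c d = ∑ a, ∑ c, ∑ b, ∑ d, f a b c d :=
        Finset.sum_congr rfl fun a _ => Finset.sum_comm
    _ = ∑ c, ∑ a, ∑ b, ∑ d, f a b c d := Finset.sum_comm
    _ = ∑ c, ∑ a, ∑ d, ∑ b, f a b c d :=
        Finset.sum_congr rfl fun c _ => Finset.sum_congr rfl fun a _ => Finset.sum_comm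
    _ = ∑ c, ∑ d, ∑ a, ∑ b, f a b c d := Finset.sum_congr rfl fun c _ => Finset.sum_comm

/-- The algebra of reflection positivity. -/
lemma AM_reindex {Γ A T : Type} [Fintype Γ] [Fintype A] [Fintype T] (F : Γ → T → Γ → T → A → ℝ) :
    ∑ γ, ∑ a, ∑ γ', ∑ b, ∑ z, ∑ z', F γ z γ' z' a * F γ' z γ z' b
      ≤ ∑ I : Γ × T, ∑ J : Γ × T, (∑ a, F I.1 I.2 J.1 J.2 a) ^ 2 := by
  set L : Γ → T → Γ → T → ℝ := fun γ z γ' z' => ∑ a, F γ z γ' z' a with hL
  have e1 : ∑ γ, ∑ a, ∑ γ', ∑ b, ∑ z, ∑ z', F γ z γ' z' a * F γ' z γ z' b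
      = ∑ γ, ∑ γ', ∑ z, ∑ z', L γ z γ' z' * L γ' z γ z' := by
    refine Finset.sum_congr rfl fun γ _ => ?_
    rw [Finset.sum_comm]
    refine Finset.sum_congr rfl fun γ' _ => ?_
    rw [sum4_swap]
    refine Finset.sum_congr rfl fun z _ => Finset.sum_congr rfl fun z' _ => ?_
    simp only [hL]
    rw [Finset.sum_mul_sum]
  have e2 : ∑ I : Γ × T, ∑ J : Γ × T, (∑ a, F I.1 I.2 J.1 J.2 a) ^ 2
      = ∑ γ, ∑ γ', ∑ z, ∑ z', (L γ z γ' z') ^ 2 := by
    rw [Fintype.sum_prod_type]
    refine Finset.sum_congr rfl fun γ _ => ?_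
    simp only [Fintype.sum_prod_type]
    rw [Finset.sum_comm]
  have e3 : ∑ γ, ∑ γ', ∑ z, ∑ z', (L γ' z γ z') ^ 2 = ∑ γ, ∑ γ', ∑ z, ∑ z', (L γ z γ' z') ^ 2 :=
    Finset.sum_comm
  rw [e1, e2]
  have e4 : ∑ γ, ∑ γ', ∑ z, ∑ z', L γ z γ' z' * L γ' z γ z'
      ≤ ∑ γ, ∑ γ', ∑ z, ∑ z', (1 / 2) * ((L γ z γ' z') ^ 2 + (L γ' z γ z') ^ 2) := by
    refine Finset.sum_le_sum fun γ _ => Finset.sum_le_sum fun γ' _ => Finset.sum_le_sum fun z _ =>
      Finset.sum_le_sum fun z' _ => ?_
    nlinarith [sq_nonneg (L γ z γ' z' - L γ' z γ z')]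
  refine e4.trans (le_of_eq ?_)
  have e5 : ∑ γ, ∑ γ', ∑ z, ∑ z', (1 / 2) * ((L γ z γ' z') ^ 2 + (L γ' z γ z') ^ 2)
      = (1 / 2) * (∑ γ, ∑ γ', ∑ z, ∑ z', (L γ z γ' z') ^ 2 + ∑ γ, ∑ γ', ∑ z, ∑ z', (L γ' z γ z') ^ 2) := by
    simp only [mul_add, Finset.mul_sum, Finset.sum_add_distrib]
  rw [e5, e3]
  ring

/-- The quantity at a fixed switching pattern. -/
def AAh (P : (Q → Y × Z) → (Q → Y × Z) → ℝ) (h : Q → Bool) : ℝ :=
  ∑ p : (Q → Y) × (Q → Y), ∑ z : Q → Z, ∑ z' : Q → Z,
    P (pair p.1 z) (pair (swc h p.1 p.2 false) z') * P (pair p.2 z) (pair (swc h p.1 p.2 true) z')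

lemma sum_pair_join (h : Q → Bool) (f : (Q → Y) × (Q → Y) → ℝ) :
    ∑ p, f p = ∑ γ : {v // h v = true} → Y, ∑ a : {v // ¬ h v = true} → Y,
      ∑ γ' : {v // h v = true} → Y, ∑ b : {v // ¬ h v = true} → Y,
        f (join h γ a, join h γ' b) := by
  rw [Fintype.sum_prod_type, ← (joinEquiv h).sum_comp, Fintype.sum_prod_type]
  refine Finset.sum_congr rfl fun γ _ => Finset.sum_congr rfl fun a _ => ?_
  rw [← (joinEquiv h).sum_comp, Fintype.sum_prod_type]
  rfl

lemma AAh_le_sq (P : (Q → Y × Z) → (Q → Y × Z) → ℝ) (h : Q → Bool) :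
    AAh P h ≤ ∑ I : ({v // h v = true} → Y) × (Q → Z), ∑ J : ({v // h v = true} → Y) × (Q → Z),
      (∑ a : {v // ¬ h v = true} → Y,
        P (pair (join h I.1 a) I.2) (pair (join h J.1 a) J.2)) ^ 2 := by
  unfold AAh
  rw [sum_pair_join h]
  simp only [swc_join_false, swc_join_true]
  exact AM_reindex (fun γ z γ' z' a => P (pair (join h γ a) z) (pair (join h γ' a) z'))

/-- `L` through the `XX` blocks. -/
lemma sum_PsiM_eq_XX (M : PF Q → ℝ) (h : Q → Bool) (g : Y) (gz : Z) (w : Y → ℝ)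
    (I J : ({v // h v = true} → Y) × (Q → Z)) :
    ∑ a : {v // ¬ h v = true} → Y,
        PsiM M (g, gz) (wX w) (pair (join h I.1 a) I.2) (pair (join h J.1 a) J.2)
      = ∑ y, M y * XX h g gz w y I J := by
  unfold PsiM XX
  rw [Finset.sum_comm]
  refine Finset.sum_congr rfl fun y _ => ?_
  rw [Finset.mul_sum]
  refine Finset.sum_congr rfl fun a _ => ?_
  rw [wt_pair]
  ring

/-- Diagonal of the `XX` blocks. -/
lemma TT_eq_XX (M : PF Q → ℝ) (h : Q → Bool) (g : Y) (gz : Z) (w : Y → ℝ) :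
    TT M (g, gz) (wX w) = ∑ I : ({v // h v = true} → Y) × (Q → Z), ∑ y, M y * XX h g gz w y I I := by
  unfold TT
  rw [← (pairEquiv (Q := Q) (Y := Y) (Z := Z)).sum_comp, Fintype.sum_prod_type,
    ← (joinEquiv h).sum_comp, Fintype.sum_prod_type, Fintype.sum_prod_type]
  refine Finset.sum_congr rfl fun γ _ => ?_
  rw [Finset.sum_comm]
  refine Finset.sum_congr rfl fun z _ => ?_
  exact sum_PsiM_eq_XX M h g gz w (γ, z) (γ, z)

lemma closedSumR_nonneg (g : Y) {w : Y → ℝ} (hw : ∀ e, 0 ≤ w e) (R : Q → Q → Prop) (h : Q → Bool) :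
    0 ≤ closedSumR g w R h := by
  unfold closedSumR
  refine Finset.sum_nonneg fun α _ => ?_
  have := wt_nonneg hw α
  split_ifs <;> simp [this]

/-- The bound at a fixed switching pattern. -/
lemma AAh_le {M : PF Q → ℝ} (hM0 : ∀ y, 0 ≤ M y) (hM : ∀ y, ¬ PFInj y → M y = 0)
    (h : Q → Bool) (g : Y) (gz : Z) {w : Y → ℝ} (hw : ∀ e, 0 ≤ w e) (hw1 : ∀ e, w e ≤ 1)
    (hwg : w g = 1) (hG : IsGram (PsiM M (g, gz) (wX w))) :
    AAh (PsiM M (g, gz) (wX w)) h
      ≤ (∑ y, M y * closedSumR g w (relOf y) h) * TT M (g, gz) (wX w) := by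
  obtain ⟨ι, hι, R, hR⟩ := hG
  refine (AAh_le_sq _ h).trans ?_
  simp only [sum_PsiM_eq_XX]
  rw [TT_eq_XX M h g gz w]
  set X : PF Q → ({v // h v = true} → Y) × (Q → Z) → ({v // h v = true} → Y) × (Q → Z) → ℝ :=
    fun y I J => if PFInj y then XX h g gz w y I J else 0 with hX
  have hMX : ∀ I J, ∑ y, M y * XX h g gz w y I J = ∑ y, M y * X y I J := by
    intro I J
    refine Finset.sum_congr rfl fun y _ => ?_
    by_cases hy : PFInj y
    · simp [hX, hy]
    · simp [hX, hy, hM y hy]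
  simp only [hMX]
  refine gram_schur M hM0 X ?_ (fun y => closedSumR g w (relOf y) h) ?_ ?_
    (fun (p : ι × ({v // ¬ h v = true} → Y)) I => R p.1 (pair (join h I.1 p.2) I.2)) ?_
  · intro y I J
    simp only [hX]
    split_ifs
    · exact XX_nonneg h g gz hw y I J
    · exact le_rfl
  · intro y I
    by_cases hy : PFInj y
    · simp only [hX, if_pos hy]
      exact XX_row h g gz hw hw1 hwg hy I
    · simp only [hX, if_neg hy, Finset.sum_const_zero]
      exact closedSumR_nonneg g hw _ h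
  · intro y J
    by_cases hy : PFInj y
    · simp only [hX, if_pos hy]
      exact XX_col h g gz hw hw1 hwg hy J
    · simp only [hX, if_neg hy, Finset.sum_const_zero]
      exact closedSumR_nonneg g hw _ h
  · intro I J
    rw [← hMX, ← sum_PsiM_eq_XX, Fintype.sum_prod_type, Finset.sum_comm]
    refine Finset.sum_congr rfl fun a _ => ?_
    exact hR _ _

/-! ### Averaging over the switches -/

lemma sum_xor (f : (Q → Bool) → ℝ) :
    ∑ s' : Q → Bool, ∑ s : Q → Bool, f (fun v => xor (s v) (s' v)) = NC Q * ∑ h, f h := by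
  have e : ∀ s' : Q → Bool, ∑ s : Q → Bool, f (fun v => xor (s v) (s' v)) = ∑ h, f h := by
    intro s'
    let E : (Q → Bool) ≃ (Q → Bool) :=
      { toFun := fun s v => xor (s v) (s' v)
        invFun := fun s v => xor (s v) (s' v)
        left_inv := fun s => by funext v; simp
        right_inv := fun s => by funext v; simp }
    exact E.sum_comp f
  simp only [e]
  rw [Finset.sum_const, Finset.card_univ, nsmul_eq_mul, NC_eq]

lemma count_h (g : Y) (α : Q → Y) :
    ∑ h : Q → Bool, (if ∀ v, h v = true → α v = g then (1 : ℝ) else 0)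
      = ∏ v, (if α v = g then 2 else 1) := by
  have key := Finset.prod_univ_sum (fun _ : Q => (Finset.univ : Finset Bool))
    (fun v (b : Bool) => if (b = true → α v = g) then (1 : ℝ) else 0)
  rw [Fintype.piFinset_univ] at key
  have e1 : ∀ h : Q → Bool, (∏ v, if (h v = true → α v = g) then (1 : ℝ) else 0)
      = if ∀ v, h v = true → α v = g then (1 : ℝ) else 0 := by
    intro h
    rw [Finset.prod_ite_zero]
    simp
  simp only [e1] at key
  rw [← key]
  refine Finset.prod_congr rfl fun v _ => ?_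
  rw [Fintype.sum_bool]
  by_cases hv : α v = g
  · simp [hv]; norm_num
  · simp [hv]

lemma closed_avg (g : Y) {w : Y → ℝ} (hwg : w g = 1) (y : PF Q) :
    (NC Q)⁻¹ * ∑ h, closedSumR g w (relOf y) h = gTT g (halve g w) y := by
  unfold closedSumR gTT
  rw [Finset.sum_comm, Finset.mul_sum]
  refine Finset.sum_congr rfl fun α _ => ?_
  rw [← Finset.mul_sum, count_h]
  have e : (if TranspR (relOf y) g α α then (1 : ℝ) else 0) = ind g y α α := rfl
  rw [e]
  have e2 : (NC Q)⁻¹ * (wt w α * ∏ v, (if α v = g then (2 : ℝ) else 1)) = wt (halve g w) α := by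
    unfold NC wt
    rw [← Finset.prod_mul_distrib]
    have e3 : ((2 : ℝ) ^ Fintype.card Q)⁻¹ = ∏ _v : Q, (2 : ℝ)⁻¹ := by
      rw [Finset.prod_const, Finset.card_univ, inv_pow]
    rw [e3, ← Finset.prod_mul_distrib]
    refine Finset.prod_congr rfl fun v _ => ?_
    unfold halve
    by_cases hv : α v = g
    · simp only [hv, if_true, hwg]; norm_num
    · simp only [hv, if_false]; ring
  calc (NC Q)⁻¹ * (ind g y α α * wt w α * ∏ v, (if α v = g then (2 : ℝ) else 1))
      = ind g y α α * ((NC Q)⁻¹ * (wt w α * ∏ v, (if α v = g then (2 : ℝ) else 1))) := by ring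
    _ = _ := by rw [e2]

/-- The trace after a node step, as an average of `AAh`. -/
lemma TT_step_eq (M : PF Q → ℝ) (hM : ∀ y, ¬ PFInj y → M y = 0) (g : Y) (gz : Z) (w : Y → ℝ) :
    TT (stepN (GamZ gz) M) g w = (NC Q)⁻¹ * (NC Q)⁻¹ * ∑ s' : Q → Bool, ∑ s : Q → Bool,
      AAh (PsiM M (g, gz) (wX w)) (fun v => xor (s v) (s' v)) := by
  unfold TT
  have e := fun α : Q × Bool → Y => PsiM_step M hM g gz w α α
  rw [Finset.sum_congr rfl fun α _ => e α, ← Finset.mul_sum]
  congr 1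
  rw [sum_out]
  refine Finset.sum_congr rfl fun s' _ => Finset.sum_congr rfl fun s _ => ?_
  unfold AAh
  rw [← (cutEquiv s).sum_comp]
  refine Finset.sum_congr rfl fun p _ => ?_
  show ∑ z : Q → Z, ∑ z' : Q → Z,
      PsiM M (g, gz) (wX w) (pair (cut s (uncut s p.1 p.2) false) z)
          (pair (cut s' (uncut s p.1 p.2) false) z') *
        PsiM M (g, gz) (wX w) (pair (cut s (uncut s p.1 p.2) true) z)
          (pair (cut s' (uncut s p.1 p.2) true) z') = _
  simp only [cut_uncut, cut_uncut', sel_false, sel_true]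

/-- **Reflection positivity for the band trace.** -/
theorem TT_step_le {M : PF Q → ℝ} (hM0 : ∀ y, 0 ≤ M y) (hM : ∀ y, ¬ PFInj y → M y = 0)
    (g : Y) (gz : Z) {w : Y → ℝ} (hw : ∀ e, 0 ≤ w e) (hw1 : ∀ e, w e ≤ 1) (hwg : w g = 1)
    (hG : IsGram (PsiM M (g, gz) (wX w))) :
    TT (stepN (GamZ gz) M) g w ≤ TT M (g, gz) (wX w) * TT M g (halve g w) := by
  have hN : (NC Q) ≠ 0 := NC_pos.ne'
  set T1 := TT M (g, gz) (wX w) with hT1
  have hb : ∑ s' : Q → Bool, ∑ s : Q → Bool, AAh (PsiM M (g, gz) (wX w)) (fun v => xor (s v) (s' v))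
      ≤ NC Q * ∑ h : Q → Bool, (∑ y, M y * closedSumR g w (relOf y) h) * T1 := by
    rw [← sum_xor (fun h : Q → Bool => (∑ y, M y * closedSumR g w (relOf y) h) * T1)]
    exact Finset.sum_le_sum fun s' _ => Finset.sum_le_sum fun s _ =>
      AAh_le hM0 hM _ g gz hw hw1 hwg hG
  rw [TT_step_eq M hM]
  have hNi : 0 ≤ (NC Q)⁻¹ * (NC Q)⁻¹ := mul_nonneg (inv_nonneg.mpr NC_pos.le) (inv_nonneg.mpr NC_pos.le)
  refine (mul_le_mul_of_nonneg_left hb hNi).trans (le_of_eq ?_)
  rw [TT_eq M g (halve g w)]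
  have e : (∑ y, M y * gTT g (halve g w) y)
      = (NC Q)⁻¹ * ∑ h : Q → Bool, ∑ y, M y * closedSumR g w (relOf y) h := by
    rw [Finset.sum_comm, Finset.mul_sum]
    refine Finset.sum_congr rfl fun y _ => ?_
    rw [← closed_avg g hwg y, ← Finset.mul_sum]
    ring
  rw [e, ← Finset.sum_mul]
  field_simp

end

end Crest.Agent.Lib.Thorp.Band
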