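/-
  Thorp band trace (row 155, S0222): the hypothesis `hBand` of the final assembly, unconditional.
-/
import Crest.Agent.Lib.Thorp.BandClose
import Crest.Agent.Lib.Thorp.BandTT

set_option autoImplicit false
set_option linter.unusedSectionVars false

namespace Crest.Agent.Lib.Thorp.Band

open scoped Classical
open Matrix

noncomputable section

/-- The core recursion of the band trace. -/
theorem ttStep : TTStep := by
  intro Q Y Z _ _ _ _ _ _ M hM0 hMinj g gz w hw hw1 hwg hG
  exact TT_step_le hM0 hMinj g gz hw hw1 hwg hG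

/-- `hBand` of the final assembly with `A = 7`. -/
theorem hBand (D : ℕ) (η : ℝ) (h0 : 0 < η) (h1 : η ≤ 1 / 2) :
    ∃ ν : Equiv.Perm (Pos D) → ℝ, (blockT D)ᵀ * blockT D = regMat ν ∧ (∀ g, 0 ≤ ν g) ∧
      bandSum ν η ≤ Real.exp (7 * η * 2 ^ D) :=
  hBand_of_TTStep ttStep D η h0 h1

end

end Crest.Agent.Lib.Thorp.Band
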