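/-
Theorem A for S0222 (domination of the block by the random transposition heat kernel),
Part 1: the scalar walk counts `W Y j = E[chi_Y(eps) (sum eps)^(2j)]` over sign vectors.
-/
import Mathlib

set_option autoImplicit false
set_option linter.unusedSectionVars false

namespace Crest.Agent.Lib.Thorp.Casimir

open Finset

variable {S : Type*} [Fintype S] [DecidableEq S]

/-- The sign of a bit. -/
def sg (b : Bool) : ℝ := if b then -1 else 1

@[simp] lemma sg_false : sg false = 1 := rfl
@[simp] lemma sg_true : sg true = -1 := rfl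

lemma sg_mul_self (b : Bool) : sg b * sg b = 1 := by cases b <;> simp [sg]

lemma sg_not (b : Bool) : sg (!b) = - sg b := by cases b <;> simp [sg]

lemma sg_abs (b : Bool) : |sg b| = 1 := by cases b <;> simp [sg]

lemma sg_xor (a b : Bool) : sg (xor a b) = sg a * sg b := by cases a <;> cases b <;> simp [sg]

/-- The character of `Y` at `ε`. -/
def chi (Y ε : S → Bool) : ℝ := ∏ y, sg (Y y && ε y)

/-- The sign sum. -/
def sumS (ε : S → Bool) : ℝ := ∑ y, sg (ε y)

/-- Average over sign vectors of `chi Y * (sum)^(2j)`. -/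
noncomputable def W (Y : S → Bool) (j : ℕ) : ℝ :=
  (Fintype.card (S → Bool) : ℝ)⁻¹ * ∑ ε : S → Bool, chi Y ε * (sumS ε) ^ (2 * j)

/-- Flip one coordinate. -/
def flp (y : S) (Y : S → Bool) : S → Bool := Function.update Y y (!Y y)

lemma flp_invol (y : S) : Function.Involutive (flp y) := by
  intro Y
  funext z
  by_cases h : z = y
  · subst h; simp [flp]
  · simp [flp, Function.update_of_ne h]

lemma flp_apply_self (y : S) (Y : S → Bool) : flp y Y y = !Y y := by simp [flp]

lemma flp_apply_ne {y z : S} (h : z ≠ y) (Y : S → Bool) : flp y Y z = Y z := by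
  simp [flp, Function.update_of_ne h]

lemma chi_comm (Y ε : S → Bool) : chi Y ε = chi ε Y := by
  simp only [chi, Bool.and_comm]

lemma chi_flp (y : S) (Y ε : S → Bool) : chi (flp y Y) ε = chi Y ε * sg (ε y) := by
  have key : ∀ z, sg (flp y Y z && ε z) = sg (Y z && ε z) * (if z = y then sg (ε y) else 1) := by
    intro z
    by_cases h : z = y
    · subst h
      rw [flp_apply_self]
      cases Y z <;> cases ε z <;> simp [sg]
    · rw [flp_apply_ne h]; simp [h]
  simp only [chi, key, Finset.prod_mul_distrib]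
  simp

lemma chi_false (ε : S → Bool) : chi (fun _ => false) ε = 1 := by simp [chi]

lemma sumS_sq (ε : S → Bool) : (sumS ε) ^ 2 = ∑ y, ∑ y', sg (ε y) * sg (ε y') := by
  rw [sq, sumS, Finset.sum_mul_sum]

lemma W_succ (Y : S → Bool) (j : ℕ) :
    W Y (j + 1) = ∑ y, ∑ y', W (flp y (flp y' Y)) j := by
  simp only [W, ← Finset.mul_sum]
  congr 1
  have : ∀ ε : S → Bool, chi Y ε * (sumS ε) ^ (2 * (j + 1))
      = ∑ y, ∑ y', chi (flp y (flp y' Y)) ε * (sumS ε) ^ (2 * j) := by
    intro ε
    have h2 : (sumS ε) ^ (2 * (j + 1)) = (sumS ε) ^ (2 * j) * (sumS ε) ^ 2 := by ring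
    rw [h2, sumS_sq, Finset.mul_sum, Finset.mul_sum]
    refine Finset.sum_congr rfl fun y _ => ?_
    rw [Finset.mul_sum, Finset.mul_sum]
    refine Finset.sum_congr rfl fun y' _ => ?_
    rw [chi_flp, chi_flp]
    ring
  simp_rw [this]
  rw [Finset.sum_comm]
  refine Finset.sum_congr rfl fun y _ => ?_
  rw [Finset.sum_comm]

/-- Summing a character over sign vectors. -/
lemma sum_chi_eq_zero (Y : S → Bool) (y : S) (hy : Y y = true) : ∑ ε : S → Bool, chi Y ε = 0 := by
  have h1 : ∑ ε : S → Bool, chi Y ε = ∑ ε : S → Bool, chi Y (flp y ε) :=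
    (Fintype.sum_equiv (flp_invol y).toPerm _ _ (fun _ => rfl)).symm
  have h2 : ∀ ε : S → Bool, chi Y (flp y ε) = - chi Y ε := by
    intro ε
    rw [chi_comm, chi_flp, chi_comm, hy]; simp
  simp_rw [h2, Finset.sum_neg_distrib] at h1
  linarith

lemma W_zero_of_ne (Y : S → Bool) (y : S) (hy : Y y = true) : W Y 0 = 0 := by
  simp only [W, Nat.mul_zero, pow_zero, mul_one]
  rw [sum_chi_eq_zero Y y hy, mul_zero]

lemma W_zero_false : W (fun _ : S => false) 0 = 1 := by
  simp only [W, Nat.mul_zero, pow_zero, mul_one, chi_false]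
  simp [Finset.card_univ]

lemma W_zero_nonneg (Y : S → Bool) : 0 ≤ W Y 0 := by
  by_cases h : ∃ y, Y y = true
  · obtain ⟨y, hy⟩ := h
    rw [W_zero_of_ne Y y hy]
  · have : Y = fun _ => false := by
      funext z
      by_contra hz
      exact h ⟨z, by simpa using hz⟩
    rw [this, W_zero_false]
    exact zero_le_one

/-- The walk counts are nonnegative. -/
lemma W_nonneg (j : ℕ) : ∀ Y : S → Bool, 0 ≤ W Y j := by
  induction j with
  | zero => exact W_zero_nonneg
  | succ j ih =>
    intro Y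
    rw [W_succ]
    exact Finset.sum_nonneg fun y _ => Finset.sum_nonneg fun y' _ => ih _

/-- Symmetry under permuting the coordinates. -/
lemma W_perm (σ : Equiv.Perm S) (Y : S → Bool) (j : ℕ) : W (Y ∘ σ) j = W Y j := by
  simp only [W]
  congr 1
  have hchi : ∀ ε : S → Bool, chi (Y ∘ σ) ε = chi Y (ε ∘ σ.symm) := by
    intro ε
    simp only [chi, Function.comp]
    exact Fintype.prod_equiv σ _ _ (fun y => by simp)
  have hsum : ∀ ε : S → Bool, sumS (ε ∘ σ.symm) = sumS ε := by
    intro ε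
    simp only [sumS, Function.comp]
    exact Fintype.sum_equiv σ.symm _ _ (fun _ => rfl)
  refine Fintype.sum_equiv (Equiv.arrowCongr σ (Equiv.refl Bool)) _ _ ?_
  intro ε
  have : (Equiv.arrowCongr σ (Equiv.refl Bool)) ε = ε ∘ σ.symm := by
    funext z; simp [Equiv.arrowCongr]
  rw [this, hchi, hsum]

/-- The pattern of two sites. -/
def pat (y y' : S) : S → Bool := flp y (flp y' (fun _ => false))

lemma pat_self (y : S) : pat y y = fun _ => false := flp_invol y _

lemma pat_apply (y y' x : S) : pat y y' x = xor (decide (x = y)) (decide (x = y')) := by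
  unfold pat
  by_cases h : x = y
  · subst h
    rw [flp_apply_self]
    by_cases h' : x = y'
    · subst h'; simp [flp]
    · rw [flp_apply_ne h']; simp [h']
  · rw [flp_apply_ne h]
    by_cases h' : x = y'
    · subst h'; simp [flp, h]
    · rw [flp_apply_ne h']; simp [h, h']

/-- Two-transitivity of the symmetric group, by hand. -/
lemma exists_perm_two {y y' z z' : S} (h : y ≠ y') (h' : z ≠ z') :
    ∃ σ : Equiv.Perm S, σ z = y ∧ σ z' = y' := by
  set σ1 := Equiv.swap z y with hσ1
  have h1 : σ1 z = y := Equiv.swap_apply_left _ _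
  set z1 := σ1 z' with hz1
  have hz1y : z1 ≠ y := by
    intro e
    apply h'
    have : σ1 z' = σ1 z := by rw [← hz1, e, h1]
    exact (σ1.injective this).symm
  refine ⟨Equiv.swap z1 y' * σ1, ?_, ?_⟩
  · simp only [Equiv.Perm.coe_mul, Function.comp_apply, h1]
    exact Equiv.swap_apply_of_ne_of_ne hz1y.symm h
  · simp only [Equiv.Perm.coe_mul, Function.comp_apply, ← hz1]
    exact Equiv.swap_apply_left _ _

lemma W_pat_eq {y y' z z' : S} (h : y ≠ y') (h' : z ≠ z') (j : ℕ) :
    W (pat y y') j = W (pat z z') j := by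
  obtain ⟨σ, h1, h2⟩ := exists_perm_two h h'
  rw [← W_perm σ (pat y y') j]
  congr 1
  funext x
  simp only [Function.comp, pat_apply]
  have e1 : (σ x = y) ↔ (x = z) := by
    rw [← h1]; exact σ.injective.eq_iff
  have e2 : (σ x = y') ↔ (x = z') := by
    rw [← h2]; exact σ.injective.eq_iff
  simp [e1, e2]

/-- The main counting bound for off-diagonal pairs. -/
lemma W_pat_le {y y' : S} (h : y ≠ y') (j : ℕ) :
    ((Fintype.card S : ℝ) * ((Fintype.card S : ℝ) - 1)) * W (pat y y') j
      ≤ W (fun _ : S => false) (j + 1) := by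
  rw [W_succ]
  have hκ : ∀ a b : S, (if a ≠ b then W (pat y y') j else 0) ≤ W (flp a (flp b fun _ => false)) j := by
    intro a b
    by_cases hab : a = b
    · subst hab
      simp only [ne_eq, not_true_eq_false, if_false]
      exact W_nonneg j _
    · simp only [ne_eq, hab, not_false_eq_true, if_true]
      exact (W_pat_eq (z := a) (z' := b) h hab j).le
  calc ((Fintype.card S : ℝ) * ((Fintype.card S : ℝ) - 1)) * W (pat y y') j
      = ∑ a : S, ∑ b : S, (if a ≠ b then W (pat y y') j else 0) := by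
        have : ∀ a : S, ∑ b : S, (if a ≠ b then W (pat y y') j else 0)
            = ((Fintype.card S : ℝ) - 1) * W (pat y y') j := by
          intro a
          have h0 : ∑ b : S, (if a ≠ b then W (pat y y') j else 0)
              = ∑ b : S, (W (pat y y') j - if a = b then W (pat y y') j else 0) := by
            refine Finset.sum_congr rfl fun b _ => ?_
            by_cases hab : a = b <;> simp [hab]
          rw [h0, Finset.sum_sub_distrib]
          simp [Finset.card_univ, sub_mul]
        simp_rw [this]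
        simp [Finset.card_univ]
        ring
    _ ≤ ∑ a : S, ∑ b : S, W (flp a (flp b fun _ => false)) j :=
        Finset.sum_le_sum fun a _ => Finset.sum_le_sum fun b _ => hκ a b

/-! ### The moments -/

lemma sum_range_le_aux (A B : ℝ) (j : ℕ) :
    2 * ∑ i ∈ Finset.range (2 * j + 1), A ^ i * B ^ (2 * j - i)
      ≤ ((2 * j : ℕ) + 1 : ℝ) * (A ^ (2 * j) + B ^ (2 * j)) := by
  have hrefl : ∑ i ∈ Finset.range (2 * j + 1), A ^ i * B ^ (2 * j - i)
      = ∑ i ∈ Finset.range (2 * j + 1), A ^ (2 * j - i) * B ^ i := by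
    rw [← Finset.sum_range_reflect]
    refine Finset.sum_congr rfl fun i hi => ?_
    have hi' : i ≤ 2 * j := by
      have := Finset.mem_range.mp hi; omega
    have e1 : 2 * j + 1 - 1 - i = 2 * j - i := by omega
    have e2 : 2 * j - (2 * j - i) = i := by omega
    rw [e1, e2]
  have hpair : ∀ i ∈ Finset.range (2 * j + 1),
      A ^ i * B ^ (2 * j - i) + A ^ (2 * j - i) * B ^ i ≤ A ^ (2 * j) + B ^ (2 * j) := by
    intro i hi
    have hi' : i ≤ 2 * j := by
      have := Finset.mem_range.mp hi; omega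
    set a := |A| with ha
    set b := |B| with hb
    have ha0 : 0 ≤ a := abs_nonneg _
    have hb0 : 0 ≤ b := abs_nonneg _
    have e1 : A ^ i * B ^ (2 * j - i) ≤ a ^ i * b ^ (2 * j - i) := by
      calc A ^ i * B ^ (2 * j - i) ≤ |A ^ i * B ^ (2 * j - i)| := le_abs_self _
        _ = a ^ i * b ^ (2 * j - i) := by rw [abs_mul, abs_pow, abs_pow]
    have e2 : A ^ (2 * j - i) * B ^ i ≤ a ^ (2 * j - i) * b ^ i := by
      calc A ^ (2 * j - i) * B ^ i ≤ |A ^ (2 * j - i) * B ^ i| := le_abs_self _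
        _ = a ^ (2 * j - i) * b ^ i := by rw [abs_mul, abs_pow, abs_pow]
    have e3 : A ^ (2 * j) = a ^ (2 * j) := by
      rw [pow_mul, pow_mul, ha, sq_abs]
    have e4 : B ^ (2 * j) = b ^ (2 * j) := by
      rw [pow_mul, pow_mul, hb, sq_abs]
    have hp : (a ^ i - b ^ i) * (a ^ (2 * j - i) - b ^ (2 * j - i)) ≥ 0 := by
      rcases le_total a b with hab | hab
      · apply mul_nonneg_of_nonpos_of_nonpos
        · have := pow_le_pow_left₀ ha0 hab i; linarith
        · have := pow_le_pow_left₀ ha0 hab (2 * j - i); linarith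
      · apply mul_nonneg
        · have := pow_le_pow_left₀ hb0 hab i; linarith
        · have := pow_le_pow_left₀ hb0 hab (2 * j - i); linarith
    have e5 : a ^ i * a ^ (2 * j - i) = a ^ (2 * j) := by
      rw [← pow_add]; congr 1; omega
    have e6 : b ^ i * b ^ (2 * j - i) = b ^ (2 * j) := by
      rw [← pow_add]; congr 1; omega
    rw [e3, e4]
    nlinarith [hp, e5, e6, e1, e2]
  calc 2 * ∑ i ∈ Finset.range (2 * j + 1), A ^ i * B ^ (2 * j - i)
      = ∑ i ∈ Finset.range (2 * j + 1), (A ^ i * B ^ (2 * j - i) + A ^ (2 * j - i) * B ^ i) := by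
        rw [Finset.sum_add_distrib, ← hrefl]; ring
    _ ≤ ∑ _i ∈ Finset.range (2 * j + 1), (A ^ (2 * j) + B ^ (2 * j)) :=
        Finset.sum_le_sum hpair
    _ = _ := by
        simp [Finset.card_range]
        ring

/-- The two point inequality behind the moment recursion. -/
lemma two_point (A B s : ℝ) (hs : s * s = 1) (hAB : A - B = 2 * s) (j : ℕ) :
    s * A ^ (2 * j + 1) + (-s) * B ^ (2 * j + 1)
      ≤ ((2 * j : ℕ) + 1 : ℝ) * (A ^ (2 * j) + B ^ (2 * j)) := by
  have hgeom : (∑ i ∈ Finset.range (2 * j + 1), A ^ i * B ^ (2 * j + 1 - 1 - i)) * (A - B)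
      = A ^ (2 * j + 1) - B ^ (2 * j + 1) := geom_sum₂_mul A B (2 * j + 1)
  have h1 : s * A ^ (2 * j + 1) + (-s) * B ^ (2 * j + 1)
      = 2 * ∑ i ∈ Finset.range (2 * j + 1), A ^ i * B ^ (2 * j - i) := by
    have : s * A ^ (2 * j + 1) + (-s) * B ^ (2 * j + 1)
        = s * (A ^ (2 * j + 1) - B ^ (2 * j + 1)) := by ring
    rw [this, ← hgeom, hAB]
    have e : 2 * j + 1 - 1 = 2 * j := by omega
    rw [e]
    calc s * ((∑ i ∈ Finset.range (2 * j + 1), A ^ i * B ^ (2 * j - i)) * (2 * s))
        = (s * s) * (2 * ∑ i ∈ Finset.range (2 * j + 1), A ^ i * B ^ (2 * j - i)) := by ring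
      _ = _ := by rw [hs, one_mul]
  rw [h1]
  exact sum_range_le_aux A B j

lemma sumS_flp (y : S) (ε : S → Bool) : sumS ε - sumS (flp y ε) = 2 * sg (ε y) := by
  simp only [sumS]
  rw [← Finset.sum_sub_distrib, Finset.sum_eq_single y]
  · rw [flp_apply_self, sg_not]; ring
  · intro z _ hz
    rw [flp_apply_ne hz]; ring
  · intro h; exact absurd (Finset.mem_univ _) h

/-- Moment recursion: `E S^(2j+2) ≤ (2j+1) m E S^(2j)`. -/
lemma W_false_succ_le (j : ℕ) :
    W (fun _ : S => false) (j + 1)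
      ≤ ((2 * j : ℕ) + 1 : ℝ) * (Fintype.card S : ℝ) * W (fun _ : S => false) j := by
  simp only [W, chi_false, one_mul]
  have hcard : (0 : ℝ) ≤ (Fintype.card (S → Bool) : ℝ)⁻¹ := by positivity
  have key : ∀ y : S, ∑ ε : S → Bool, sg (ε y) * (sumS ε) ^ (2 * j + 1)
      ≤ ((2 * j : ℕ) + 1 : ℝ) * ∑ ε : S → Bool, (sumS ε) ^ (2 * j) := by
    intro y
    have h1 : ∑ ε : S → Bool, sg (ε y) * (sumS ε) ^ (2 * j + 1)
        = ∑ ε : S → Bool, sg (flp y ε y) * (sumS (flp y ε)) ^ (2 * j + 1) :=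
      (Fintype.sum_equiv (flp_invol y).toPerm _ _ (fun _ => rfl)).symm
    have h2 : ∑ ε : S → Bool, (sumS ε) ^ (2 * j)
        = ∑ ε : S → Bool, (sumS (flp y ε)) ^ (2 * j) :=
      (Fintype.sum_equiv (flp_invol y).toPerm _ _ (fun _ => rfl)).symm
    have h3 : ∀ ε : S → Bool, sg (ε y) * (sumS ε) ^ (2 * j + 1)
        + sg (flp y ε y) * (sumS (flp y ε)) ^ (2 * j + 1)
        ≤ ((2 * j : ℕ) + 1 : ℝ) * ((sumS ε) ^ (2 * j) + (sumS (flp y ε)) ^ (2 * j)) := by
      intro ε
      rw [flp_apply_self, sg_not]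
      exact two_point _ _ _ (sg_mul_self _) (sumS_flp y ε) j
    have h4 := Finset.sum_le_sum (s := Finset.univ) fun ε _ => h3 ε
    rw [Finset.sum_add_distrib, ← h1, ← Finset.mul_sum, Finset.sum_add_distrib, ← h2] at h4
    linarith
  calc (Fintype.card (S → Bool) : ℝ)⁻¹ * ∑ ε : S → Bool, (sumS ε) ^ (2 * (j + 1))
      = (Fintype.card (S → Bool) : ℝ)⁻¹ * ∑ y : S, ∑ ε : S → Bool,
          sg (ε y) * (sumS ε) ^ (2 * j + 1) := by
        congr 1
        rw [Finset.sum_comm]
        refine Finset.sum_congr rfl fun ε _ => ?_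
        rw [← Finset.sum_mul]
        have : (2 * (j + 1)) = (2 * j + 1) + 1 := by ring
        rw [this, pow_succ]
        simp only [sumS]
        ring
    _ ≤ (Fintype.card (S → Bool) : ℝ)⁻¹ * ∑ _y : S, (((2 * j : ℕ) + 1 : ℝ) *
          ∑ ε : S → Bool, (sumS ε) ^ (2 * j)) :=
        mul_le_mul_of_nonneg_left (Finset.sum_le_sum fun y _ => key y) hcard
    _ = _ := by
        simp [Finset.card_univ]
        ring

/-- The normalised moment series is dominated by a geometric series. -/
lemma moment_term_le (hm : 0 < Fintype.card S) (c : ℝ) (hc : 0 ≤ c) (j : ℕ) :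
    c ^ (j + 2) / ((j + 2).factorial : ℝ) * (W (fun _ : S => false) (j + 2)
        / (Fintype.card S : ℝ) ^ (j + 2)) ≤ (3 / 2) * c ^ 2 * (2 * c) ^ j := by
  have hm' : (0 : ℝ) < (Fintype.card S : ℝ) := by exact_mod_cast hm
  set R : ℕ → ℝ := fun i => W (fun _ : S => false) i / (Fintype.card S : ℝ) ^ i with hR
  have hRstep : ∀ i, R (i + 1) ≤ ((2 * i : ℕ) + 1 : ℝ) * R i := by
    intro i
    simp only [hR]
    rw [div_le_iff₀ (by positivity)]
    have := W_false_succ_le (S := S) i
    calc W (fun _ : S => false) (i + 1) ≤ _ := this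
      _ = _ := by
        field_simp
        ring
  have hR0 : R 0 = 1 := by simp [hR, W_zero_false]
  have hRnn : ∀ i, 0 ≤ R i := fun i => by
    simp only [hR]
    exact div_nonneg (W_nonneg i _) (by positivity)
  have hR1 : R 1 ≤ 1 := by
    have := hRstep 0
    simpa [hR0] using this
  have hR2 : R 2 ≤ 3 := by
    have := hRstep 1
    norm_num at this
    linarith
  induction j with
  | zero =>
    simp only [zero_add, pow_zero, mul_one]
    have : c ^ 2 / ((2 : ℕ).factorial : ℝ) * R 2 ≤ 3 / 2 * c ^ 2 := by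
      simp only [Nat.factorial]
      norm_num
      nlinarith [sq_nonneg c, hRnn 2]
    exact this
  | succ j ih =>
    have ih' : c ^ (j + 2) / ((j + 2).factorial : ℝ) * R (j + 2) ≤ 3 / 2 * c ^ 2 * (2 * c) ^ j := ih
    have hstep := hRstep (j + 2)
    have hfac : (((j + 1 + 2).factorial : ℕ) : ℝ) = ((j + 3 : ℕ) : ℝ) * ((j + 2).factorial : ℝ) := by
      rw [show j + 1 + 2 = (j + 2) + 1 by ring, Nat.factorial_succ]
      push_cast; ring
    have hf0 : (0 : ℝ) < ((j + 2).factorial : ℝ) := by exact_mod_cast Nat.factorial_pos _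
    change c ^ (j + 1 + 2) / (((j + 1 + 2).factorial : ℕ) : ℝ) * R (j + 1 + 2) ≤ _
    rw [hfac]
    have hj3 : (0 : ℝ) < ((j + 3 : ℕ) : ℝ) := by positivity
    have hR3 : R (j + 1 + 2) ≤ ((2 * (j + 2) : ℕ) + 1 : ℝ) * R (j + 2) := hstep
    have hfrac : (((2 * (j + 2) : ℕ) : ℝ) + 1) / ((j + 3 : ℕ) : ℝ) ≤ 2 := by
      rw [div_le_iff₀ hj3]
      push_cast
      linarith
    have hnn : 0 ≤ c ^ (j + 2) / ((j + 2).factorial : ℝ) * R (j + 2) := by
      have := hRnn (j + 2)
      positivity
    calc c ^ (j + 1 + 2) / (((j + 3 : ℕ) : ℝ) * ((j + 2).factorial : ℝ)) * R (j + 1 + 2)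
        ≤ c ^ (j + 1 + 2) / (((j + 3 : ℕ) : ℝ) * ((j + 2).factorial : ℝ))
            * (((2 * (j + 2) : ℕ) + 1 : ℝ) * R (j + 2)) := by
          apply mul_le_mul_of_nonneg_left hR3
          positivity
      _ = (c ^ (j + 2) / ((j + 2).factorial : ℝ) * R (j + 2))
            * (c * ((((2 * (j + 2) : ℕ) : ℝ) + 1) / ((j + 3 : ℕ) : ℝ))) := by
          field_simp
          ring
      _ ≤ (c ^ (j + 2) / ((j + 2).factorial : ℝ) * R (j + 2)) * (c * 2) := by
          apply mul_le_mul_of_nonneg_left _ hnn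
          exact mul_le_mul_of_nonneg_left hfrac hc
      _ ≤ (3 / 2 * c ^ 2 * (2 * c) ^ j) * (c * 2) := by
          apply mul_le_mul_of_nonneg_right ih'
          positivity
      _ = _ := by ring

end Crest.Agent.Lib.Thorp.Casimir
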