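/-
Theorem A for S0222, Part 2: orthogonal representations of a symmetric group by matrices, the
Laplacian `Lap ρ = (1/n) ∑_{i<j} (1 - (i j))` and helper lemmas on the matrix exponential.
-/
import Crest.Agent.Lib.Thorp.CasimirMoment

set_option autoImplicit false
set_option linter.unusedSectionVars false

namespace Crest.Agent.Lib.Thorp.Casimir

open Matrix NormedSpace

section Vec

variable {X : Type*} [Fintype X]

/-- The Euclidean norm of a vector. -/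
noncomputable def nrm (u : X → ℝ) : ℝ := Real.sqrt (u ⬝ᵥ u)

lemma dot_self_nonneg' (u : X → ℝ) : 0 ≤ u ⬝ᵥ u := by
  simp only [dotProduct]
  exact Finset.sum_nonneg fun i _ => mul_self_nonneg _

lemma nrm_nonneg (u : X → ℝ) : 0 ≤ nrm u := Real.sqrt_nonneg _

lemma nrm_sq (u : X → ℝ) : nrm u ^ 2 = u ⬝ᵥ u := Real.sq_sqrt (dot_self_nonneg' u)

lemma nrm_mul_self (u : X → ℝ) : nrm u * nrm u = u ⬝ᵥ u := Real.mul_self_sqrt (dot_self_nonneg' u)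

lemma abs_dot_le (u v : X → ℝ) : |u ⬝ᵥ v| ≤ nrm u * nrm v := by
  have h : (u ⬝ᵥ v) ^ 2 ≤ (u ⬝ᵥ u) * (v ⬝ᵥ v) := by
    simp only [dotProduct]
    have := Finset.sum_mul_sq_le_sq_mul_sq Finset.univ u v
    simpa [sq] using this
  rw [nrm, nrm, ← Real.sqrt_mul (dot_self_nonneg' u)]
  exact Real.abs_le_sqrt h

lemma nrm_add_le (u v : X → ℝ) : nrm (u + v) ≤ nrm u + nrm v := by
  have h : (u + v) ⬝ᵥ (u + v) ≤ (nrm u + nrm v) ^ 2 := by
    have h1 : (u + v) ⬝ᵥ (u + v) = u ⬝ᵥ u + 2 * (u ⬝ᵥ v) + v ⬝ᵥ v := by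
      simp only [add_dotProduct, dotProduct_add, dotProduct_comm v u]
      ring
    have h2 := abs_dot_le u v
    have h3 := le_abs_self (u ⬝ᵥ v)
    have h4 := nrm_sq u
    have h5 := nrm_sq v
    rw [h1]
    nlinarith
  exact Real.sqrt_le_iff.mpr ⟨add_nonneg (nrm_nonneg _) (nrm_nonneg _), h⟩

lemma nrm_neg (u : X → ℝ) : nrm (-u) = nrm u := by
  simp [nrm]

lemma nrm_sub_le (u v : X → ℝ) : nrm (u - v) ≤ nrm u + nrm v := by
  have := nrm_add_le u (-v)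
  rwa [← sub_eq_add_neg, nrm_neg] at this

lemma eq_zero_of_nrm {u : X → ℝ} (h : u ⬝ᵥ u = 0) : u = 0 := dotProduct_self_eq_zero.mp h

variable [DecidableEq X]

lemma mulVec_dot_of_symm {A : Matrix X X ℝ} (hA : Aᵀ = A) (u v : X → ℝ) :
    (A *ᵥ u) ⬝ᵥ v = u ⬝ᵥ (A *ᵥ v) := by
  rw [Matrix.dotProduct_mulVec, ← Matrix.mulVec_transpose, hA]

lemma mulVec_sum_fin {ι : Type*} (s : Finset ι) (f : ι → Matrix X X ℝ) (u : X → ℝ) :
    (∑ i ∈ s, f i) *ᵥ u = ∑ i ∈ s, f i *ᵥ u := Matrix.sum_mulVec s f u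

/-- The series of a quadratic form of an exponential. -/
lemma hasSum_quad (A : Matrix X X ℝ) (u v : X → ℝ) :
    HasSum (fun j : ℕ => ((j.factorial : ℝ))⁻¹ * (v ⬝ᵥ (A ^ j *ᵥ u))) (v ⬝ᵥ (exp A *ᵥ u)) := by
  open scoped Matrix.Norms.Operator in
  have h := NormedSpace.exp_series_hasSum_exp' (𝕂 := ℝ) A
  let φ : Matrix X X ℝ →ₗ[ℝ] ℝ :=
    { toFun := fun M => v ⬝ᵥ (M *ᵥ u)
      map_add' := fun M N => by rw [Matrix.add_mulVec, dotProduct_add]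
      map_smul' := fun c M => by
        rw [Matrix.smul_mulVec, dotProduct_smul]
        rfl }
  have hφ : Continuous φ := LinearMap.continuous_of_finiteDimensional φ
  have h2 := h.map φ.toAddMonoidHom hφ
  have h3 : HasSum (fun j : ℕ => ((j.factorial : ℝ))⁻¹ * (v ⬝ᵥ (A ^ j *ᵥ u))) (φ (exp A)) := by
    convert h2 using 1
    · funext j
      simp [φ, Matrix.smul_mulVec, dotProduct_smul]
    · rfl
  exact h3

lemma exp_smul_add (A : Matrix X X ℝ) (s t : ℝ) :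
    exp ((s + t) • A) = exp (s • A) * exp (t • A) := by
  rw [add_smul]
  exact Matrix.exp_add_of_commute _ _ ((Commute.refl A).smul_left s |>.smul_right t)

lemma exp_symm {A : Matrix X X ℝ} (hA : Aᵀ = A) : (exp A)ᵀ = exp A := by
  rw [← Matrix.exp_transpose, hA]

lemma smul_symm {A : Matrix X X ℝ} (hA : Aᵀ = A) (s : ℝ) : (s • A)ᵀ = s • A := by
  rw [Matrix.transpose_smul, hA]

/-- The quadratic form of an exponential, as a norm. -/
lemma quad_exp_half {A : Matrix X X ℝ} (hA : Aᵀ = A) (s : ℝ) (u : X → ℝ) :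
    u ⬝ᵥ (exp ((2 * s) • A) *ᵥ u) = (exp (s • A) *ᵥ u) ⬝ᵥ (exp (s • A) *ᵥ u) := by
  rw [mulVec_dot_of_symm (exp_symm (smul_symm hA s)), Matrix.mulVec_mulVec, ← exp_smul_add]
  congr 3
  ring

/-- Powers of a positive semidefinite symmetric matrix are positive semidefinite. -/
lemma quad_pow_nonneg {L : Matrix X X ℝ} (hL : Lᵀ = L) (hpsd : ∀ u : X → ℝ, 0 ≤ u ⬝ᵥ (L *ᵥ u))
    (j : ℕ) (u : X → ℝ) : 0 ≤ u ⬝ᵥ (L ^ j *ᵥ u) := by
  have hLj : ∀ i : ℕ, (L ^ i)ᵀ = L ^ i := fun i => by rw [Matrix.transpose_pow, hL]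
  rcases Nat.even_or_odd' j with ⟨i, rfl | rfl⟩
  · have : u ⬝ᵥ (L ^ (2 * i) *ᵥ u) = (L ^ i *ᵥ u) ⬝ᵥ (L ^ i *ᵥ u) := by
      rw [mulVec_dot_of_symm (hLj i), Matrix.mulVec_mulVec, two_mul, pow_add]
    rw [this]
    exact dot_self_nonneg' _
  · have : u ⬝ᵥ (L ^ (2 * i + 1) *ᵥ u) = (L ^ i *ᵥ u) ⬝ᵥ (L *ᵥ (L ^ i *ᵥ u)) := by
      have e : L ^ (2 * i + 1) = L ^ i * (L * L ^ i) := by
        rw [← pow_succ', ← pow_add]
        congr 1
        ring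
      rw [mulVec_dot_of_symm (hLj i), Matrix.mulVec_mulVec, Matrix.mulVec_mulVec, e, mul_assoc]
    rw [this]
    exact hpsd _

/-- `1 + η x ≤ exp (η x)` for a positive semidefinite `L`. -/
lemma quad_exp_ge {L : Matrix X X ℝ} (hL : Lᵀ = L) (hpsd : ∀ u : X → ℝ, 0 ≤ u ⬝ᵥ (L *ᵥ u))
    {η : ℝ} (hη : 0 ≤ η) (u : X → ℝ) :
    u ⬝ᵥ u + η * (u ⬝ᵥ (L *ᵥ u)) ≤ u ⬝ᵥ (exp (η • L) *ᵥ u) := by
  have h := hasSum_quad (η • L) u u
  have hterm : ∀ j : ℕ, 0 ≤ ((j.factorial : ℝ))⁻¹ * (u ⬝ᵥ ((η • L) ^ j *ᵥ u)) := by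
    intro j
    rw [smul_pow, Matrix.smul_mulVec, dotProduct_smul, smul_eq_mul]
    have := quad_pow_nonneg hL hpsd j u
    positivity
  have := sum_le_hasSum (Finset.range 2) (fun j _ => hterm j) h
  simpa [Finset.sum_range_succ, Matrix.smul_mulVec, dotProduct_smul] using this

end Vec

section Rep

variable {Ω X : Type*} [Fintype Ω] [DecidableEq Ω] [Fintype X] [DecidableEq X]

/-- Orthogonality of a matrix representation. -/
def IsORep (ρ : Equiv.Perm Ω →* Matrix X X ℝ) : Prop := ∀ g, (ρ g)ᵀ = ρ g⁻¹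

variable {ρ : Equiv.Perm Ω →* Matrix X X ℝ}

lemma dot_rep (hρ : IsORep ρ) (g : Equiv.Perm Ω) (u v : X → ℝ) :
    (ρ g *ᵥ u) ⬝ᵥ (ρ g *ᵥ v) = u ⬝ᵥ v := by
  rw [Matrix.dotProduct_mulVec, ← Matrix.mulVec_transpose, hρ g, Matrix.mulVec_mulVec, ← map_mul]
  simp

lemma dot_rep_left (hρ : IsORep ρ) (g : Equiv.Perm Ω) (u v : X → ℝ) :
    (ρ g *ᵥ u) ⬝ᵥ v = u ⬝ᵥ (ρ g⁻¹ *ᵥ v) := by
  rw [dotProduct_comm, Matrix.dotProduct_mulVec, ← Matrix.mulVec_transpose, hρ g, dotProduct_comm]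

lemma nrm_rep (hρ : IsORep ρ) (g : Equiv.Perm Ω) (u : X → ℝ) : nrm (ρ g *ᵥ u) = nrm u := by
  simp only [nrm, dot_rep hρ]

lemma rep_swap_symm (hρ : IsORep ρ) (i j : Ω) : (ρ (Equiv.swap i j))ᵀ = ρ (Equiv.swap i j) := by
  rw [hρ, Equiv.swap_inv]

lemma rep_mul_mulVec (g h : Equiv.Perm Ω) (u : X → ℝ) :
    ρ (g * h) *ᵥ u = ρ g *ᵥ (ρ h *ᵥ u) := by
  rw [map_mul, Matrix.mulVec_mulVec]

/-- The Laplacian: `(1/n) ∑_{i<j} (1 - (i j))`, written with ordered pairs. -/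
noncomputable def Lap (ρ : Equiv.Perm Ω →* Matrix X X ℝ) : Matrix X X ℝ :=
  (2 * (Fintype.card Ω : ℝ))⁻¹ • ∑ i, ∑ j, (1 - ρ (Equiv.swap i j))

lemma Lap_symm (hρ : IsORep ρ) : (Lap ρ)ᵀ = Lap ρ := by
  unfold Lap
  rw [Matrix.transpose_smul, Matrix.transpose_sum]
  congr 1
  refine Finset.sum_congr rfl fun i _ => ?_
  rw [Matrix.transpose_sum]
  refine Finset.sum_congr rfl fun j _ => ?_
  rw [Matrix.transpose_sub, Matrix.transpose_one, rep_swap_symm hρ]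

/-- The Laplacian is central. -/
lemma Lap_comm (ρ : Equiv.Perm Ω →* Matrix X X ℝ) (g : Equiv.Perm Ω) : Commute (ρ g) (Lap ρ) := by
  unfold Lap
  apply Commute.smul_right
  have key : ∀ i j, ρ g * (1 - ρ (Equiv.swap i j)) = (1 - ρ (Equiv.swap (g i) (g j))) * ρ g := by
    intro i j
    have h : Equiv.swap (g i) (g j) * g = g * Equiv.swap i j := by
      rw [Equiv.swap_apply_apply]
      group
    rw [mul_sub, sub_mul, mul_one, one_mul, ← map_mul, ← map_mul, h]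
  change ρ g * _ = _ * ρ g
  rw [Finset.mul_sum, Finset.sum_mul]
  have h1 : ∀ i, ρ g * ∑ j, (1 - ρ (Equiv.swap i j)) = (∑ j, (1 - ρ (Equiv.swap (g i) j))) * ρ g := by
    intro i
    rw [Finset.mul_sum, Finset.sum_mul]
    rw [← Equiv.sum_comp g (fun j => (1 - ρ (Equiv.swap (g i) j)) * ρ g)]
    exact Finset.sum_congr rfl fun j _ => key i j
  simp_rw [h1]
  exact Equiv.sum_comp g (fun i => (∑ j, (1 - ρ (Equiv.swap i j))) * ρ g)

/-- A matrix commuting with the representation commutes with the Laplacian. -/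
lemma Lap_comm_of {M : Matrix X X ℝ} (h : ∀ g, Commute M (ρ g)) : Commute M (Lap ρ) := by
  unfold Lap
  apply Commute.smul_right
  apply Commute.sum_right
  intro i _
  apply Commute.sum_right
  intro j _
  exact (Commute.one_right M).sub_right (h _)

lemma one_sub_quad_nonneg (hρ : IsORep ρ) (g : Equiv.Perm Ω) (u : X → ℝ) :
    0 ≤ u ⬝ᵥ ((1 - ρ g) *ᵥ u) := by
  have h1 : (u - ρ g *ᵥ u) ⬝ᵥ (u - ρ g *ᵥ u) = 2 * (u ⬝ᵥ u) - 2 * (u ⬝ᵥ (ρ g *ᵥ u)) := by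
    simp only [sub_dotProduct, dotProduct_sub, dot_rep hρ, dotProduct_comm (ρ g *ᵥ u) u]
    ring
  have h2 := dot_self_nonneg' (u - ρ g *ᵥ u)
  rw [Matrix.sub_mulVec, Matrix.one_mulVec, dotProduct_sub]
  linarith

lemma Lap_quad_eq (ρ : Equiv.Perm Ω →* Matrix X X ℝ) (u : X → ℝ) :
    u ⬝ᵥ (Lap ρ *ᵥ u) = (2 * (Fintype.card Ω : ℝ))⁻¹ *
      ∑ i, ∑ j, (u ⬝ᵥ u - u ⬝ᵥ (ρ (Equiv.swap i j) *ᵥ u)) := by
  unfold Lap
  rw [Matrix.smul_mulVec, dotProduct_smul, smul_eq_mul, Matrix.sum_mulVec, dotProduct_sum]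
  congr 1
  refine Finset.sum_congr rfl fun i _ => ?_
  rw [Matrix.sum_mulVec, dotProduct_sum]
  refine Finset.sum_congr rfl fun j _ => ?_
  rw [Matrix.sub_mulVec, Matrix.one_mulVec, dotProduct_sub]

lemma Lap_psd (hρ : IsORep ρ) (u : X → ℝ) : 0 ≤ u ⬝ᵥ (Lap ρ *ᵥ u) := by
  rw [Lap_quad_eq]
  apply mul_nonneg (by positivity)
  refine Finset.sum_nonneg fun i _ => Finset.sum_nonneg fun j _ => ?_
  have := one_sub_quad_nonneg hρ (Equiv.swap i j) u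
  rwa [Matrix.sub_mulVec, Matrix.one_mulVec, dotProduct_sub] at this

lemma IsORep.comp {Ω' : Type*} [Fintype Ω'] [DecidableEq Ω'] (hρ : IsORep ρ)
    (f : Equiv.Perm Ω' →* Equiv.Perm Ω) : IsORep (ρ.comp f) := by
  intro g
  simp only [MonoidHom.comp_apply, map_inv]
  exact hρ _

end Rep

end Crest.Agent.Lib.Thorp.Casimir
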