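/-
Theorem A for S0222, the recursion bridge.  For a matrix representation `ρ` of the symmetric group
of positions, `layer ρ b` is the average of `ρ` over the swap group across the bit `b`, and
`block ρ` is the product of the layers.  Splitting off the top bit of the positions gives
`block ρ = block (ρ ∘ child false) * block (ρ ∘ child true) * layer ρ (last)`, and for the regular
representation `lam`, `block lam = blockT D`.
-/
import Crest.Agent.Lib.Thorp.CasimirRep
import Crest.Agent.Lib.Thorp.Bits
import Crest.Agent.Lib.Thorp.Levels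

set_option autoImplicit false
set_option linter.unusedSectionVars false

namespace Crest.Agent.Lib.Thorp.Casimir

open Matrix

section Layer

variable {X : Type*} [Fintype X] [DecidableEq X]

/-- The average of `ρ` over the swap group across the bit `b`. -/
noncomputable def layer {D : ℕ} (ρ : Equiv.Perm (Pos D) →* Matrix X X ℝ) (b : Fin D) :
    Matrix X X ℝ :=
  ∑ g, swapLaw b g • ρ g

/-- The product of the layers. -/
noncomputable def block {D : ℕ} (ρ : Equiv.Perm (Pos D) →* Matrix X X ℝ) : Matrix X X ℝ :=
  ((List.finRange D).map (layer ρ)).prod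

/-- The layer as an average over the coins. -/
lemma layer_eq_avg {D : ℕ} (ρ : Equiv.Perm (Pos D) →* Matrix X X ℝ) (b : Fin D) :
    layer ρ b = (Fintype.card (Coin b) : ℝ)⁻¹ • ∑ c : Coin b, ρ (coinPerm c) := by
  unfold layer
  have key : ∀ g : Equiv.Perm (Pos D), swapLaw b g • ρ g =
      (Fintype.card (Coin b) : ℝ)⁻¹ • ∑ c : Coin b, (if coinPerm c = g then (1 : ℝ) else 0) • ρ g := by
    intro g
    rw [← Finset.sum_smul, smul_smul]
    congr 1
    rw [swapLaw, push_eq_sum, div_eq_inv_mul]
  simp_rw [key]
  rw [← Finset.smul_sum]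
  congr 1
  rw [Finset.sum_comm]
  refine Finset.sum_congr rfl fun c _ => ?_
  rw [Finset.sum_eq_single (coinPerm c)]
  · simp
  · intro g _ hg
    simp [Ne.symm hg]
  · intro h
    exact absurd (Finset.mem_univ _) h

lemma card_coin_ne_zero {D : ℕ} (b : Fin D) : (Fintype.card (Coin b) : ℝ) ≠ 0 := by
  have : Nonempty (Coin b) := ⟨⟨fun _ => false, fun _ => rfl⟩⟩
  exact_mod_cast Fintype.card_ne_zero

/-- A layer commutes with everything that commutes with `ρ`. -/
lemma layer_comm {D : ℕ} {ρ : Equiv.Perm (Pos D) →* Matrix X X ℝ} {A : Matrix X X ℝ}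
    (h : ∀ g, Commute A (ρ g)) (b : Fin D) : Commute A (layer ρ b) := by
  unfold layer
  exact Commute.sum_right _ _ _ fun g _ => (h g).smul_right _

/-- A block commutes with everything that commutes with `ρ`. -/
lemma block_comm {D : ℕ} {ρ : Equiv.Perm (Pos D) →* Matrix X X ℝ} {A : Matrix X X ℝ}
    (h : ∀ g, Commute A (ρ g)) : Commute A (block ρ) := by
  unfold block
  apply Commute.list_prod_right
  intro x hx
  obtain ⟨b, -, rfl⟩ := List.mem_map.mp hx
  exact layer_comm h b

/-- Every layer commutes with the Laplacian. -/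
lemma layer_comm_Lap {D : ℕ} (ρ : Equiv.Perm (Pos D) →* Matrix X X ℝ) (b : Fin D) :
    Commute (Lap ρ) (layer ρ b) :=
  layer_comm (fun g => (Lap_comm ρ g).symm) b

/-- The block commutes with the Laplacian. -/
lemma block_comm_Lap {D : ℕ} (ρ : Equiv.Perm (Pos D) →* Matrix X X ℝ) :
    Commute (Lap ρ) (block ρ) :=
  block_comm (fun g => (Lap_comm ρ g).symm)

/-- An average of an orthogonal representation is a contraction. -/
lemma nrm_layer_le {D : ℕ} {ρ : Equiv.Perm (Pos D) →* Matrix X X ℝ} (hρ : IsORep ρ) (b : Fin D)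
    (u : X → ℝ) : nrm (layer ρ b *ᵥ u) ≤ nrm u := by
  rw [layer_eq_avg, Matrix.smul_mulVec, Matrix.sum_mulVec]
  have hc := card_coin_ne_zero b
  have hcpos : (0 : ℝ) < Fintype.card (Coin b) := by
    have : Nonempty (Coin b) := ⟨⟨fun _ => false, fun _ => rfl⟩⟩
    exact_mod_cast Fintype.card_pos
  have hnrm_smul : ∀ (r : ℝ) (w : X → ℝ), 0 ≤ r → nrm (r • w) = r * nrm w := by
    intro r w hr
    unfold nrm
    rw [smul_dotProduct, dotProduct_smul, smul_eq_mul, smul_eq_mul, ← mul_assoc,
      Real.sqrt_mul (mul_self_nonneg r), Real.sqrt_mul_self hr]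
  have hnrm_sum : ∀ (s : Finset (Coin b)) (f : Coin b → X → ℝ),
      nrm (∑ c ∈ s, f c) ≤ ∑ c ∈ s, nrm (f c) := by
    intro s f
    induction s using Finset.induction_on with
    | empty => simp [nrm]
    | insert a s ha ih =>
      rw [Finset.sum_insert ha, Finset.sum_insert ha]
      exact (nrm_add_le _ _).trans (by linarith)
  rw [hnrm_smul _ _ (by positivity)]
  have h2 : nrm (∑ c : Coin b, ρ (coinPerm c) *ᵥ u) ≤ (Fintype.card (Coin b) : ℝ) * nrm u := by
    refine (hnrm_sum _ _).trans ?_
    simp_rw [nrm_rep hρ]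
    simp
  calc _ ≤ (Fintype.card (Coin b) : ℝ)⁻¹ * ((Fintype.card (Coin b) : ℝ) * nrm u) :=
        mul_le_mul_of_nonneg_left h2 (by positivity)
    _ = nrm u := by field_simp

/-- The block of an orthogonal representation is a contraction. -/
lemma nrm_block_le {D : ℕ} {ρ : Equiv.Perm (Pos D) →* Matrix X X ℝ} (hρ : IsORep ρ)
    (u : X → ℝ) : nrm (block ρ *ᵥ u) ≤ nrm u := by
  unfold block
  induction (List.finRange D) generalizing u with
  | nil => simp
  | cons a l ih =>
    simp only [List.map_cons, List.prod_cons]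
    rw [← Matrix.mulVec_mulVec]
    exact (nrm_layer_le hρ a _).trans (ih u)

/-- Symmetry of a layer. -/
lemma layer_symm {D : ℕ} {ρ : Equiv.Perm (Pos D) →* Matrix X X ℝ} (hρ : IsORep ρ) (b : Fin D) :
    (layer ρ b)ᵀ = layer ρ b := by
  rw [layer_eq_avg, Matrix.transpose_smul, Matrix.transpose_sum]
  congr 1
  refine Finset.sum_congr rfl fun c _ => ?_
  rw [hρ]
  congr 1

end Layer

/-! ### The invariance of a layer -/

section Inv

variable {X : Type*} [Fintype X] [DecidableEq X]

/-- The coin of one flip pair. -/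
def pairCoin {D : ℕ} (b : Fin D) (x : Pos D) : Coin b :=
  ⟨fun z => decide (z = x) || decide (z = flipAt b x), fun z => by
    have h1 : (flipAt b z = x) ↔ (z = flipAt b x) := by
      constructor
      · intro h; rw [← h, flipAt_flipAt]
      · intro h; rw [h, flipAt_flipAt]
    have h2 : (flipAt b z = flipAt b x) ↔ (z = x) := by
      constructor
      · intro h
        have := congrArg (flipAt b) h
        simpa using this
      · intro h; rw [h]
    simp only [h1, h2]
    rw [Bool.or_comm]⟩

/-- Adding coins. -/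
def addCoin {D : ℕ} {b : Fin D} (c c' : Coin b) : Coin b :=
  ⟨fun z => xor (c.1 z) (c'.1 z), fun z => by
    show xor (c.1 (flipAt b z)) (c'.1 (flipAt b z)) = xor (c.1 z) (c'.1 z)
    rw [c.2, c'.2]⟩

lemma addCoin_invol {D : ℕ} {b : Fin D} (c c' : Coin b) : addCoin c (addCoin c c') = c' := by
  apply Subtype.ext
  funext z
  simp [addCoin]

lemma flipAt_ne {D : ℕ} (b : Fin D) (x : Pos D) : flipAt b x ≠ x := by
  intro h
  have := congrFun h b
  simp [flipAt] at this

lemma coinPerm_pairCoin {D : ℕ} (b : Fin D) (x : Pos D) :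
    coinPerm (pairCoin b x) = Equiv.swap x (flipAt b x) := by
  ext1 z
  simp only [coinPerm_apply]
  by_cases h1 : z = x
  · subst h1
    simp [pairCoin]
  · by_cases h2 : z = flipAt b x
    · subst h2
      simp [pairCoin]
    · rw [Equiv.swap_apply_of_ne_of_ne h1 h2]
      simp [pairCoin, h1, h2]

lemma coinPerm_addCoin {D : ℕ} {b : Fin D} (c c' : Coin b) :
    coinPerm (addCoin c c') = coinPerm c * coinPerm c' := by
  ext1 z
  simp only [coinPerm_apply, Equiv.Perm.coe_mul, Function.comp_apply, addCoin]
  have h'' : c.1 (flipAt b z) = c.1 z := c.2 z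
  by_cases h : c'.1 z = true
  · by_cases h' : c.1 z = true <;> simp [h, h', h'']
  · by_cases h' : c.1 z = true <;> simp [h, h']

/-- The range of a layer is fixed by the flip-pair swaps. -/
lemma swap_mul_layer {D : ℕ} (ρ : Equiv.Perm (Pos D) →* Matrix X X ℝ) (b : Fin D) (x : Pos D) :
    ρ (Equiv.swap x (flipAt b x)) * layer ρ b = layer ρ b := by
  rw [layer_eq_avg, Matrix.mul_smul, Finset.mul_sum]
  congr 1
  let e : Coin b ≃ Coin b :=
    { toFun := addCoin (pairCoin b x)
      invFun := addCoin (pairCoin b x)
      left_inv := addCoin_invol _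
      right_inv := addCoin_invol _ }
  refine Fintype.sum_equiv e _ _ ?_
  intro c
  rw [← map_mul, ← coinPerm_pairCoin, ← coinPerm_addCoin]
  rfl

/-- The layer is idempotent. -/
lemma layer_idem {D : ℕ} (ρ : Equiv.Perm (Pos D) →* Matrix X X ℝ) (b : Fin D) :
    layer ρ b * layer ρ b = layer ρ b := by
  have key : ∀ c : Coin b, ρ (coinPerm c) * layer ρ b = layer ρ b := by
    intro c
    rw [layer_eq_avg, Matrix.mul_smul, Finset.mul_sum]
    congr 1
    let e : Coin b ≃ Coin b :=
      { toFun := addCoin c
        invFun := addCoin c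
        left_inv := addCoin_invol _
        right_inv := addCoin_invol _ }
    refine Fintype.sum_equiv e _ _ ?_
    intro c'
    rw [← map_mul, ← coinPerm_addCoin]
    rfl
  conv_lhs => lhs; rw [layer_eq_avg]
  rw [Matrix.smul_mul, Finset.sum_mul]
  simp_rw [key]
  rw [Finset.sum_const, Finset.card_univ, ← Nat.cast_smul_eq_nsmul ℝ, smul_smul,
    inv_mul_cancel₀ (card_coin_ne_zero b), one_smul]

end Inv

/-! ### Splitting off the top bit -/

section Split

/-- Positions with one more bit: the top bit and the rest. -/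
def posEquiv (D : ℕ) : Pos (D + 1) ≃ Bool × Pos D where
  toFun x := (x (Fin.last D), fun i => x i.castSucc)
  invFun p := Fin.snoc (α := fun _ => Bool) p.2 p.1
  left_inv x := by
    funext i
    refine Fin.lastCases ?_ (fun j => ?_) i
    · simp
    · simp
  right_inv p := by
    ext i
    · simp
    · simp

@[simp] lemma posEquiv_fst {D : ℕ} (x : Pos (D + 1)) : (posEquiv D x).1 = x (Fin.last D) := rfl

@[simp] lemma posEquiv_snd {D : ℕ} (x : Pos (D + 1)) (i : Fin D) :
    (posEquiv D x).2 i = x i.castSucc := rfl

lemma posEquiv_flipAt_castSucc {D : ℕ} (b : Fin D) (x : Pos (D + 1)) :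
    posEquiv D (flipAt b.castSucc x) = ((posEquiv D x).1, flipAt b (posEquiv D x).2) := by
  ext i
  · simp [flipAt, Function.update_of_ne (Fin.castSucc_lt_last b).ne']
  · by_cases h : i = b
    · subst h; simp [flipAt]
    · have h' : i.castSucc ≠ b.castSucc := fun e => h (Fin.castSucc_injective _ e)
      simp [flipAt, Function.update_of_ne h, Function.update_of_ne h']

lemma posEquiv_flipAt_last {D : ℕ} (x : Pos (D + 1)) :
    posEquiv D (flipAt (Fin.last D) x) = (!(posEquiv D x).1, (posEquiv D x).2) := by
  ext i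
  · simp [flipAt]
  · have h' : i.castSucc ≠ Fin.last D := (Fin.castSucc_lt_last i).ne
    simp [flipAt, Function.update_of_ne h']

/-- `g` acting on the side `s` of `Bool × S`. -/
def sideB {S : Type*} (s : Bool) : Equiv.Perm S →* Equiv.Perm (Bool × S) :=
  MonoidHom.mk' (fun g => Equiv.Perm.prodExtendRight s g) (by
    intro g h
    ext1 p
    obtain ⟨a, y⟩ := p
    by_cases ha : a = s
    · subst ha; simp
    · simp [Equiv.Perm.prodExtendRight_apply_ne _ ha])

@[simp] lemma sideB_apply_self {S : Type*} (s : Bool) (g : Equiv.Perm S) (y : S) :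
    sideB s g (s, y) = (s, g y) := by
  simp [sideB]

lemma sideB_apply_ne {S : Type*} {s a : Bool} (h : a ≠ s) (g : Equiv.Perm S) (y : S) :
    sideB s g (a, y) = (a, y) := by
  simp [sideB, Equiv.Perm.prodExtendRight_apply_ne _ h]

lemma sideB_comm {S : Type*} (g h : Equiv.Perm S) :
    Commute (sideB false g) (sideB true h) := by
  change _ * _ = _ * _
  ext1 p
  obtain ⟨a, y⟩ := p
  cases a
  · simp [sideB_apply_ne]
  · simp [sideB_apply_ne]

/-- Transport of permutations along `posEquiv`. -/
def trPerm (D : ℕ) : Equiv.Perm (Bool × Pos D) ≃* Equiv.Perm (Pos (D + 1)) :=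
  (posEquiv D).symm.permCongrHom

lemma trPerm_apply {D : ℕ} (g : Equiv.Perm (Bool × Pos D)) (x : Pos (D + 1)) :
    trPerm D g x = (posEquiv D).symm (g (posEquiv D x)) := rfl

lemma posEquiv_trPerm {D : ℕ} (g : Equiv.Perm (Bool × Pos D)) (x : Pos (D + 1)) :
    posEquiv D (trPerm D g x) = g (posEquiv D x) := by
  rw [trPerm_apply, Equiv.apply_symm_apply]

lemma trPerm_swap {D : ℕ} (p q : Bool × Pos D) :
    trPerm D (Equiv.swap p q) = Equiv.swap ((posEquiv D).symm p) ((posEquiv D).symm q) := by
  ext1 x
  rw [trPerm_apply, (posEquiv D).symm.injective.map_swap, Equiv.symm_apply_apply]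

/-- `g` acting on the positions with top bit `s`. -/
def child {D : ℕ} (s : Bool) : Equiv.Perm (Pos D) →* Equiv.Perm (Pos (D + 1)) :=
  (trPerm D).toMonoidHom.comp (sideB s)

lemma child_apply {D : ℕ} (s : Bool) (g : Equiv.Perm (Pos D)) :
    child s g = trPerm D (sideB s g) := rfl

lemma child_comm {D : ℕ} (g h : Equiv.Perm (Pos D)) :
    Commute (child false g) (child true h) := by
  have := sideB_comm g h
  exact (this.map (trPerm D).toMonoidHom)

/-- Splitting a coin for a low bit. -/
def coinSplit {D : ℕ} (b : Fin D) : Coin b.castSucc ≃ Coin b × Coin b where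
  toFun c :=
    (⟨fun w => c.1 ((posEquiv D).symm (false, w)), fun w => by
        have := c.2 ((posEquiv D).symm (false, w))
        show c.1 _ = c.1 _
        rw [← this]
        apply congrArg c.1
        apply (posEquiv D).injective
        rw [posEquiv_flipAt_castSucc]
        simp⟩,
      ⟨fun w => c.1 ((posEquiv D).symm (true, w)), fun w => by
        have := c.2 ((posEquiv D).symm (true, w))
        show c.1 _ = c.1 _
        rw [← this]
        apply congrArg c.1
        apply (posEquiv D).injective
        rw [posEquiv_flipAt_castSucc]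
        simp⟩)
  invFun q :=
    ⟨fun x => if (posEquiv D x).1 then q.2.1 (posEquiv D x).2 else q.1.1 (posEquiv D x).2, fun x => by
      show (if (posEquiv D (flipAt b.castSucc x)).1 then q.2.1 (posEquiv D (flipAt b.castSucc x)).2
        else q.1.1 (posEquiv D (flipAt b.castSucc x)).2) = _
      rw [posEquiv_flipAt_castSucc]
      simp only
      rw [q.1.2, q.2.2]⟩
  left_inv c := by
    apply Subtype.ext
    funext x
    simp only
    have hx : (posEquiv D).symm ((posEquiv D x).1, (posEquiv D x).2) = x := by
      rw [Prod.mk.eta, Equiv.symm_apply_apply]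
    cases h : (posEquiv D x).1
    · rw [h] at hx
      simp [hx]
    · rw [h] at hx
      simp [hx]
  right_inv q := by
    ext w
    · simp
    · simp

lemma coinPerm_split {D : ℕ} (b : Fin D) (c : Coin b.castSucc) :
    coinPerm c = child false (coinPerm (coinSplit b c).1) * child true (coinPerm (coinSplit b c).2) := by
  ext1 x
  apply (posEquiv D).injective
  simp only [Equiv.Perm.coe_mul, Function.comp_apply, child_apply, posEquiv_trPerm, coinPerm_apply]
  obtain ⟨a, w, rfl⟩ : ∃ a w, x = (posEquiv D).symm (a, w) := ⟨_, _, ((posEquiv D).symm_apply_apply x).symm⟩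
  rw [Equiv.apply_symm_apply]
  cases a
  · rw [sideB_apply_ne (s := true) (a := false) (by simp), sideB_apply_self]
    simp only [coinSplit, Equiv.coe_fn_mk, coinPerm_apply]
    cases h : c.1 ((posEquiv D).symm (false, w))
    · simp
    · simp [posEquiv_flipAt_castSucc]
  · rw [sideB_apply_self (s := true), sideB_apply_ne (s := false) (a := true) (by simp)]
    simp only [coinSplit, Equiv.coe_fn_mk, coinPerm_apply]
    cases h : c.1 ((posEquiv D).symm (true, w))
    · simp
    · simp [posEquiv_flipAt_castSucc]

variable {X : Type*} [Fintype X] [DecidableEq X]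

/-- The rep of a side. -/
abbrev side {D : ℕ} (ρ : Equiv.Perm (Pos (D + 1)) →* Matrix X X ℝ) (s : Bool) :
    Equiv.Perm (Pos D) →* Matrix X X ℝ :=
  ρ.comp (child s)

lemma side_isORep {D : ℕ} {ρ : Equiv.Perm (Pos (D + 1)) →* Matrix X X ℝ} (hρ : IsORep ρ) (s : Bool) :
    IsORep (side ρ s) := IsORep.comp hρ _

lemma side_comm {D : ℕ} (ρ : Equiv.Perm (Pos (D + 1)) →* Matrix X X ℝ) (g h : Equiv.Perm (Pos D)) :
    Commute (side ρ false g) (side ρ true h) :=
  (child_comm g h).map ρ

/-- A low layer splits into the two sides. -/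
theorem layer_castSucc {D : ℕ} (ρ : Equiv.Perm (Pos (D + 1)) →* Matrix X X ℝ) (b : Fin D) :
    layer ρ b.castSucc = layer (side ρ false) b * layer (side ρ true) b := by
  rw [layer_eq_avg, layer_eq_avg, layer_eq_avg, Fintype.card_congr (coinSplit b),
    Fintype.card_prod, Matrix.smul_mul, Matrix.mul_smul, smul_smul]
  push_cast
  rw [mul_inv]
  congr 1
  rw [Finset.sum_mul_sum, ← Finset.sum_product', Finset.univ_product_univ]
  refine Fintype.sum_equiv (coinSplit b) _ _ ?_
  intro c
  rw [coinPerm_split b c, map_mul]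
  rfl

/-- List products of pairwise commuting factors. -/
lemma list_prod_map_mul {M ι : Type*} [Monoid M] (l : List ι) (A B : ι → M)
    (h : ∀ i j, Commute (A i) (B j)) :
    (l.map (fun i => A i * B i)).prod = (l.map A).prod * (l.map B).prod := by
  induction l with
  | nil => simp
  | cons a l ih =>
    simp only [List.map_cons, List.prod_cons, ih]
    have hc : Commute (B a) (l.map A).prod := by
      apply Commute.list_prod_right
      intro x hx
      obtain ⟨i, -, rfl⟩ := List.mem_map.mp hx
      exact (h i a).symm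
    calc A a * B a * ((l.map A).prod * (l.map B).prod)
        = A a * (B a * (l.map A).prod) * (l.map B).prod := by simp only [mul_assoc]
      _ = A a * ((l.map A).prod * B a) * (l.map B).prod := by rw [hc.eq]
      _ = _ := by simp only [mul_assoc]

/-- **The block recursion.** -/
theorem block_succ {D : ℕ} (ρ : Equiv.Perm (Pos (D + 1)) →* Matrix X X ℝ) :
    block ρ = block (side ρ false) * block (side ρ true) * layer ρ (Fin.last D) := by
  unfold block
  rw [List.finRange_succ_last, List.map_append, List.prod_append, List.map_map]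
  simp only [List.map_cons, List.map_nil, List.prod_cons, List.prod_nil, mul_one]
  congr 1
  have : layer ρ ∘ Fin.castSucc = fun b : Fin D => layer (side ρ false) b * layer (side ρ true) b := by
    funext b
    exact layer_castSucc ρ b
  rw [this]
  apply list_prod_map_mul
  intro i j
  unfold layer
  refine Commute.sum_left _ _ _ fun g _ => Commute.sum_right _ _ _ fun h _ => ?_
  exact ((side_comm ρ g h).smul_left _).smul_right _

/-- `Lap` of a representation of `Perm (Pos (D+1))`, transported to `Bool × Pos D`. -/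
abbrev trRep {D : ℕ} (ρ : Equiv.Perm (Pos (D + 1)) →* Matrix X X ℝ) :
    Equiv.Perm (Bool × Pos D) →* Matrix X X ℝ :=
  ρ.comp (trPerm D).toMonoidHom

lemma trRep_isORep {D : ℕ} {ρ : Equiv.Perm (Pos (D + 1)) →* Matrix X X ℝ} (hρ : IsORep ρ) :
    IsORep (trRep ρ) := IsORep.comp hρ _

lemma trRep_side {D : ℕ} (ρ : Equiv.Perm (Pos (D + 1)) →* Matrix X X ℝ) (s : Bool) :
    side ρ s = (trRep ρ).comp (sideB s) := rfl

lemma Lap_trRep {D : ℕ} (ρ : Equiv.Perm (Pos (D + 1)) →* Matrix X X ℝ) :
    Lap (trRep ρ) = Lap ρ := by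
  unfold Lap
  rw [Fintype.card_congr (posEquiv D)]
  congr 1
  simp only [MonoidHom.comp_apply, MulEquiv.coe_toMonoidHom, trPerm_swap]
  have h := fun f : Pos (D + 1) → Matrix X X ℝ =>
    Equiv.sum_comp (posEquiv D).symm f
  rw [← Equiv.sum_comp (posEquiv D).symm]
  refine Finset.sum_congr rfl fun p _ => ?_
  rw [← Equiv.sum_comp (posEquiv D).symm]

/-- The range of the top layer is fixed by the swaps `(false, y) ↔ (true, y)`. -/
theorem trRep_swap_mul_top {D : ℕ} (ρ : Equiv.Perm (Pos (D + 1)) →* Matrix X X ℝ) (y : Pos D) :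
    trRep ρ (Equiv.swap (false, y) (true, y)) * layer ρ (Fin.last D) = layer ρ (Fin.last D) := by
  simp only [MonoidHom.comp_apply, MulEquiv.coe_toMonoidHom, trPerm_swap]
  have h : (posEquiv D).symm (true, y) = flipAt (Fin.last D) ((posEquiv D).symm (false, y)) := by
    apply (posEquiv D).injective
    rw [posEquiv_flipAt_last]
    simp
  rw [h]
  exact swap_mul_layer ρ (Fin.last D) _

end Split

/-! ### The regular representation -/

section Regular

variable {G : Type*} [Group G] [Fintype G] [DecidableEq G]

lemma conv_delta_delta (a b : G) : conv (delta a) (delta b) = delta (a * b) := by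
  rw [conv_delta_left]
  funext g
  simp only [delta]
  have : a⁻¹ * g = b ↔ g = a * b := by
    constructor
    · intro h; rw [← h]; group
    · intro h; rw [h]; group
  simp [this]

/-- The regular representation. -/
noncomputable def lam : G →* Matrix G G ℝ where
  toFun g := regMat (delta g)
  map_one' := regMat_delta_one
  map_mul' a b := by rw [← regMat_conv, conv_delta_delta]

lemma lam_apply (g : G) : lam g = regMat (delta g) := rfl

lemma lam_mulVec (g : G) (f : G → ℝ) (x : G) : (lam g *ᵥ f) x = f (g⁻¹ * x) := by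
  rw [lam_apply, regMat_mulVec, Finset.sum_eq_single g]
  · simp [delta]
  · intro h _ hh
    simp [delta, hh]
  · intro h
    exact absurd (Finset.mem_univ _) h

lemma lam_isORep {Ω : Type*} [Fintype Ω] [DecidableEq Ω] :
    IsORep (lam : Equiv.Perm Ω →* _) := by
  intro g
  ext x y
  rw [Matrix.transpose_apply, lam_apply, lam_apply, regMat_apply, regMat_apply]
  simp only [delta]
  have : (y * x⁻¹ = g) ↔ (x * y⁻¹ = g⁻¹) := by
    constructor
    · intro h; rw [← h]; group
    · intro h
      have := congrArg (fun z => z⁻¹) h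
      simpa using this
  simp [this]

lemma regMat_eq_sum (μ : G → ℝ) : regMat μ = ∑ g, μ g • regMat (delta g) := by
  ext x y
  rw [Matrix.sum_apply]
  simp only [Matrix.smul_apply, regMat_apply, delta, smul_eq_mul, mul_ite, mul_one, mul_zero]
  rw [Finset.sum_ite_eq]
  simp

lemma layer_lam {D : ℕ} (b : Fin D) : layer lam b = P b := by
  unfold layer P
  rw [regMat_eq_sum]
  rfl

/-- The block of the regular representation is the framework's block. -/
theorem block_lam (D : ℕ) : block (lam : Equiv.Perm (Pos D) →* _) = blockT D := by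
  unfold block blockT
  congr 1
  refine List.map_congr_left fun b _ => ?_
  exact layer_lam b

end Regular

end Crest.Agent.Lib.Thorp.Casimir
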