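/-
Theorem A for S0222, Part 3: one doubling step.  `ρ` is an orthogonal representation of the
permutations of `Bool × S` (positions = side × site).
-/
import Crest.Agent.Lib.Thorp.CasimirRep

set_option autoImplicit false
set_option linter.unusedSectionVars false

namespace Crest.Agent.Lib.Thorp.Casimir

open Matrix NormedSpace

variable {S X : Type*} [Fintype S] [DecidableEq S] [Fintype X] [DecidableEq X]

/-- The swap of the two positions at a site. -/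
def tauP (y : S) : Equiv.Perm (Bool × S) := Equiv.swap (false, y) (true, y)
/-- Same side transposition, side `false`. -/
def sA (y y' : S) : Equiv.Perm (Bool × S) := Equiv.swap (false, y) (false, y')
/-- Same side transposition, side `true`. -/
def sB (y y' : S) : Equiv.Perm (Bool × S) := Equiv.swap (true, y) (true, y')
/-- Cross transposition. -/
def sC (y y' : S) : Equiv.Perm (Bool × S) := Equiv.swap (false, y) (true, y')
/-- Cross transposition. -/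
def sD (y y' : S) : Equiv.Perm (Bool × S) := Equiv.swap (true, y) (false, y')

lemma tauP_apply_eq (s : Bool) (y : S) : tauP y (s, y) = (!s, y) := by
  cases s
  · simp [tauP]
  · simp [tauP]

lemma tauP_apply_ne (s : Bool) {y z : S} (h : z ≠ y) : tauP z (s, y) = (s, y) := by
  unfold tauP
  apply Equiv.swap_apply_of_ne_of_ne
  · intro e
    exact h (congrArg Prod.snd e).symm
  · intro e
    exact h (congrArg Prod.snd e).symm

/-- The action on one side. -/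
def childHom (b : Bool) : Equiv.Perm S →* Equiv.Perm (Bool × S) where
  toFun g := Equiv.Perm.prodExtendRight b g
  map_one' := by
    ext ⟨a, x⟩ <;> by_cases h : a = b <;> simp [Equiv.Perm.prodExtendRight, h]
  map_mul' g g' := by
    ext ⟨a, x⟩ <;> by_cases h : a = b <;> simp [Equiv.Perm.prodExtendRight, h]

lemma childHom_apply_eq (b : Bool) (g : Equiv.Perm S) (x : S) : childHom b g (b, x) = (b, g x) := by
  simp [childHom, Equiv.Perm.prodExtendRight]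

lemma childHom_apply_ne {a b : Bool} (h : a ≠ b) (g : Equiv.Perm S) (x : S) :
    childHom b g (a, x) = (a, x) := by
  simp [childHom, Equiv.Perm.prodExtendRight, h]

lemma childHom_swap (b : Bool) (y y' : S) :
    childHom b (Equiv.swap y y') = Equiv.swap (b, y) (b, y') := by
  ext1 ⟨a, x⟩
  by_cases h : a = b
  · subst h
    rw [childHom_apply_eq]
    by_cases h1 : x = y
    · subst h1; simp
    · by_cases h2 : x = y'
      · subst h2; simp
      · rw [Equiv.swap_apply_of_ne_of_ne h1 h2, Equiv.swap_apply_of_ne_of_ne]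
        · intro e; exact h1 (congrArg Prod.snd e)
        · intro e; exact h2 (congrArg Prod.snd e)
  · rw [childHom_apply_ne h, Equiv.swap_apply_of_ne_of_ne]
    · intro e; exact h (congrArg Prod.fst e)
    · intro e; exact h (congrArg Prod.fst e)

lemma childHom_comm (g g' : Equiv.Perm S) : Commute (childHom false g) (childHom true g') := by
  ext1 ⟨a, x⟩
  cases a
  · have h1 : childHom true g' (false, x) = (false, x) := childHom_apply_ne (by simp) _ _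
    have h2 : childHom true g' (false, g x) = (false, g x) := childHom_apply_ne (by simp) _ _
    simp [Equiv.Perm.coe_mul, h1, childHom_apply_eq, h2]
  · have h1 : childHom false g (true, x) = (true, x) := childHom_apply_ne (by simp) _ _
    have h2 : childHom false g (true, g' x) = (true, g' x) := childHom_apply_ne (by simp) _ _
    simp [Equiv.Perm.coe_mul, h1, childHom_apply_eq, h2]

variable (ρ : Equiv.Perm (Bool × S) →* Matrix X X ℝ)

/-- The hopping matrix. -/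
noncomputable def DD (y y' : S) : Matrix X X ℝ := ρ (sA y y') + ρ (sB y y') - ρ (sC y y') - ρ (sD y y')

/-- The sum of the hopping matrices. -/
noncomputable def GG : Matrix X X ℝ := ∑ y, ∑ y', DD ρ y y'

/-- The two child representations. -/
abbrev repL : Equiv.Perm S →* Matrix X X ℝ := ρ.comp (childHom false)
/-- The two child representations. -/
abbrev repR : Equiv.Perm S →* Matrix X X ℝ := ρ.comp (childHom true)

lemma Lap_expand : ∑ i, ∑ j, (1 - ρ (Equiv.swap i j))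
    = ∑ y : S, ∑ y' : S, ((1 - ρ (sA y y')) + (1 - ρ (sB y y')) + (1 - ρ (sC y y')) + (1 - ρ (sD y y'))) := by
  simp only [Fintype.sum_prod_type, Fintype.sum_bool, Finset.sum_add_distrib, sA, sB, sC, sD]
  abel

/-- **The exact identity** `L_L + L_R = L - G`. -/
theorem Lap_split (hm : (Fintype.card S : ℝ) ≠ 0) :
    Lap (repL ρ) + Lap (repR ρ) = Lap ρ - (4 * (Fintype.card S : ℝ))⁻¹ • GG ρ := by
  have hcard : (Fintype.card (Bool × S) : ℝ) = 2 * (Fintype.card S : ℝ) := by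
    simp [Fintype.card_prod]
  unfold Lap GG
  rw [Lap_expand, hcard]
  simp only [MonoidHom.comp_apply, childHom_swap]
  have h2 : (2 * (Fintype.card S : ℝ))⁻¹ = (2 : ℝ) * (2 * (2 * (Fintype.card S : ℝ)))⁻¹ := by
    field_simp
  have h4 : (4 * (Fintype.card S : ℝ))⁻¹ = (2 * (2 * (Fintype.card S : ℝ)))⁻¹ := by
    congr 1; ring
  rw [h4, h2]
  set q : ℝ := (2 * (2 * (Fintype.card S : ℝ)))⁻¹ with hq
  have hkey : (2 : ℝ) • (∑ y : S, ∑ y' : S, (1 - ρ (Equiv.swap (false, y) (false, y'))))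
      + (2 : ℝ) • (∑ y : S, ∑ y' : S, (1 - ρ (Equiv.swap (true, y) (true, y'))))
      = (∑ y : S, ∑ y' : S, ((1 - ρ (sA y y')) + (1 - ρ (sB y y')) + (1 - ρ (sC y y')) + (1 - ρ (sD y y'))))
        - ∑ y : S, ∑ y' : S, DD ρ y y' := by
    simp only [Finset.smul_sum]
    rw [← Finset.sum_add_distrib, ← Finset.sum_sub_distrib]
    refine Finset.sum_congr rfl fun y _ => ?_
    rw [← Finset.sum_add_distrib, ← Finset.sum_sub_distrib]
    refine Finset.sum_congr rfl fun y' _ => ?_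
    simp only [DD, sA, sB]
    module
  rw [← smul_sub, ← hkey]
  module

/-! ### Parity -/

/-- The conjugation formula for transpositions. -/
lemma mul_swap_eq (g : Equiv.Perm (Bool × S)) (i j : Bool × S) :
    g * Equiv.swap i j = Equiv.swap (g i) (g j) * g := by
  rw [Equiv.swap_apply_apply]
  group

section Parity

lemma tau_sA_ne {y y' z : S} (h : z ≠ y) (h' : z ≠ y') : tauP z * sA y y' = sA y y' * tauP z := by
  rw [sA, mul_swap_eq, tauP_apply_ne _ h, tauP_apply_ne _ h']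
lemma tau_sB_ne {y y' z : S} (h : z ≠ y) (h' : z ≠ y') : tauP z * sB y y' = sB y y' * tauP z := by
  rw [sB, mul_swap_eq, tauP_apply_ne _ h, tauP_apply_ne _ h']
lemma tau_sC_ne {y y' z : S} (h : z ≠ y) (h' : z ≠ y') : tauP z * sC y y' = sC y y' * tauP z := by
  rw [sC, mul_swap_eq, tauP_apply_ne _ h, tauP_apply_ne _ h']
lemma tau_sD_ne {y y' z : S} (h : z ≠ y) (h' : z ≠ y') : tauP z * sD y y' = sD y y' * tauP z := by
  rw [sD, mul_swap_eq, tauP_apply_ne _ h, tauP_apply_ne _ h']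

lemma tau_left {y y' : S} (h : y ≠ y') :
    tauP y * sA y y' = sD y y' * tauP y ∧ tauP y * sB y y' = sC y y' * tauP y ∧
    tauP y * sC y y' = sB y y' * tauP y ∧ tauP y * sD y y' = sA y y' * tauP y := by
  refine ⟨?_, ?_, ?_, ?_⟩
  · rw [sA, mul_swap_eq, tauP_apply_eq, tauP_apply_ne _ h]; rfl
  · rw [sB, mul_swap_eq, tauP_apply_eq, tauP_apply_ne _ h]; rfl
  · rw [sC, mul_swap_eq, tauP_apply_eq, tauP_apply_ne _ h]; rfl
  · rw [sD, mul_swap_eq, tauP_apply_eq, tauP_apply_ne _ h]; rfl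

lemma tau_right {y y' : S} (h : y ≠ y') :
    tauP y' * sA y y' = sC y y' * tauP y' ∧ tauP y' * sB y y' = sD y y' * tauP y' ∧
    tauP y' * sC y y' = sA y y' * tauP y' ∧ tauP y' * sD y y' = sB y y' * tauP y' := by
  refine ⟨?_, ?_, ?_, ?_⟩
  · rw [sA, mul_swap_eq, tauP_apply_eq, tauP_apply_ne _ h.symm]; rfl
  · rw [sB, mul_swap_eq, tauP_apply_eq, tauP_apply_ne _ h.symm]; rfl
  · rw [sC, mul_swap_eq, tauP_apply_eq, tauP_apply_ne _ h.symm]; rfl
  · rw [sD, mul_swap_eq, tauP_apply_eq, tauP_apply_ne _ h.symm]; rfl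

lemma tau_diag (z : S) :
    tauP z * sA z z = sA z z * tauP z ∧ tauP z * sB z z = sB z z * tauP z ∧
    tauP z * sC z z = sD z z * tauP z ∧ tauP z * sD z z = sC z z * tauP z := by
  refine ⟨?_, ?_, ?_, ?_⟩
  · rw [sA, Equiv.swap_self]
    change tauP z * 1 = 1 * tauP z
    simp
  · rw [sB, Equiv.swap_self]
    change tauP z * 1 = 1 * tauP z
    simp
  · rw [sC, mul_swap_eq, tauP_apply_eq, tauP_apply_eq]; rfl
  · rw [sD, mul_swap_eq, tauP_apply_eq, tauP_apply_eq]; rfl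

/-- Conjugation by `tauP z` multiplies `DD y y'` by a sign. -/
lemma tau_DD (y y' z : S) :
    ρ (tauP z) * DD ρ y y' = sg (pat y y' z) • (DD ρ y y' * ρ (tauP z)) := by
  have key : ∀ g g' : Equiv.Perm (Bool × S), tauP z * g = g' * tauP z →
      ρ (tauP z) * ρ g = ρ g' * ρ (tauP z) := by
    intro g g' h
    rw [← map_mul, ← map_mul, h]
  simp only [DD, mul_sub, mul_add, sub_mul, add_mul]
  by_cases h1 : z = y
  · subst h1
    by_cases h2 : z = y'
    · subst h2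
      obtain ⟨e1, e2, e3, e4⟩ := tau_diag z
      rw [key _ _ e1, key _ _ e2, key _ _ e3, key _ _ e4]
      have : pat z z z = false := by rw [pat_self]
      rw [this, sg_false, one_smul]
      abel
    · obtain ⟨e1, e2, e3, e4⟩ := tau_left (y := z) (y' := y') h2
      rw [key _ _ e1, key _ _ e2, key _ _ e3, key _ _ e4]
      have : pat z y' z = true := by rw [pat_apply]; simp [h2]
      rw [this, sg_true]
      simp only [neg_smul, one_smul]
      abel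
  · by_cases h2 : z = y'
    · subst h2
      obtain ⟨e1, e2, e3, e4⟩ := tau_right (y := y) (y' := z) (Ne.symm h1)
      rw [key _ _ e1, key _ _ e2, key _ _ e3, key _ _ e4]
      have : pat y z z = true := by rw [pat_apply]; simp [h1]
      rw [this, sg_true]
      simp only [neg_smul, one_smul]
      abel
    · rw [key _ _ (tau_sA_ne h1 h2), key _ _ (tau_sB_ne h1 h2), key _ _ (tau_sC_ne h1 h2),
        key _ _ (tau_sD_ne h1 h2)]
      have : pat y y' z = false := by rw [pat_apply]; simp [h1, h2]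
      rw [this, sg_false, one_smul]

/-- A vector with prescribed parities. -/
def HasPat (Y : S → Bool) (u : X → ℝ) : Prop := ∀ z, ρ (tauP z) *ᵥ u = sg (Y z) • u

variable {ρ}

lemma flp_flp_apply (y y' z : S) (Y : S → Bool) :
    flp y (flp y' Y) z = xor (pat y y' z) (Y z) := by
  rw [pat_apply]
  by_cases h : z = y
  · subst h
    rw [flp_apply_self]
    by_cases h' : z = y'
    · subst h'; simp [flp_apply_self]
    · rw [flp_apply_ne h']; simp [h']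
  · rw [flp_apply_ne h]
    by_cases h' : z = y'
    · subst h'; simp [flp_apply_self, h]
    · rw [flp_apply_ne h']; simp [h, h']

lemma HasPat.DD {Y : S → Bool} {u : X → ℝ} (hu : HasPat ρ Y u) (y y' : S) :
    HasPat ρ (flp y (flp y' Y)) (DD ρ y y' *ᵥ u) := by
  intro z
  rw [Matrix.mulVec_mulVec, tau_DD, Matrix.smul_mulVec, ← Matrix.mulVec_mulVec, hu z,
    Matrix.mulVec_smul, smul_smul, flp_flp_apply, sg_xor]

/-- xor of two patterns. -/
def xorF (Y Y' : S → Bool) : S → Bool := fun z => xor (Y z) (Y' z)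

lemma xorF_comm (Y Y' : S → Bool) : xorF Y Y' = xorF Y' Y := by
  funext z; simp [xorF, Bool.xor_comm]

lemma flp_flp_xorF (y y' : S) (Y Y' : S → Bool) :
    flp y (flp y' (xorF Y Y')) = xorF (flp y (flp y' Y)) Y' := by
  funext z
  simp only [flp_flp_apply, xorF, Bool.xor_assoc]

lemma flp_flp_eq_xorF (y y' : S) (Y : S → Bool) : flp y (flp y' Y) = xorF Y (pat y y') := by
  funext z
  simp only [flp_flp_apply, xorF, Bool.xor_comm]

lemma DD_symm (hρ : IsORep ρ) (y y' : S) : (DD ρ y y')ᵀ = DD ρ y y' := by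
  simp only [DD, Matrix.transpose_sub, Matrix.transpose_add, sA, sB, sC, sD, rep_swap_symm hρ]

lemma GG_symm (hρ : IsORep ρ) : (GG ρ)ᵀ = GG ρ := by
  simp only [GG, Matrix.transpose_sum, DD_symm hρ]

lemma DD_nrm_le (hρ : IsORep ρ) (y y' : S) (u : X → ℝ) : nrm (DD ρ y y' *ᵥ u) ≤ 4 * nrm u := by
  simp only [DD, Matrix.sub_mulVec, Matrix.add_mulVec]
  have h1 := nrm_sub_le (ρ (sA y y') *ᵥ u + ρ (sB y y') *ᵥ u - ρ (sC y y') *ᵥ u) (ρ (sD y y') *ᵥ u)
  have h2 := nrm_sub_le (ρ (sA y y') *ᵥ u + ρ (sB y y') *ᵥ u) (ρ (sC y y') *ᵥ u)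
  have h3 := nrm_add_le (ρ (sA y y') *ᵥ u) (ρ (sB y y') *ᵥ u)
  simp only [nrm_rep hρ] at h1 h2 h3
  linarith

lemma GG_mulVec (u : X → ℝ) : GG ρ *ᵥ u = ∑ y, ∑ y', DD ρ y y' *ᵥ u := by
  simp only [GG, Matrix.sum_mulVec]

/-- Vectors of different parities are orthogonal. -/
lemma dot_eq_zero_of_pat (hρ : IsORep ρ) {Y Y' : S → Bool} {u u' : X → ℝ} (hu : HasPat ρ Y u)
    (hu' : HasPat ρ Y' u') {z : S} (hz : xorF Y Y' z = true) : u' ⬝ᵥ u = 0 := by
  have h := dot_rep hρ (tauP z) u' u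
  rw [hu z, hu' z, smul_dotProduct, dotProduct_smul, smul_eq_mul, smul_eq_mul] at h
  have hs : sg (Y' z) * sg (Y z) = -1 := by
    rw [← sg_xor]
    have : xor (Y' z) (Y z) = true := by rw [Bool.xor_comm]; exact hz
    rw [this, sg_true]
  have h2 : sg (Y' z) * (sg (Y z) * (u' ⬝ᵥ u)) = - (u' ⬝ᵥ u) := by
    rw [← mul_assoc, hs]; ring
  linarith

/-- **The walk bound.** -/
theorem walk_bound (hρ : IsORep ρ) (j : ℕ) : ∀ (Y Y' : S → Bool) (u u' : X → ℝ),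
    HasPat ρ Y u → HasPat ρ Y' u' →
      |u' ⬝ᵥ (GG ρ ^ j *ᵥ u)| ≤ 4 ^ j * (nrm u' * nrm u) * W (xorF Y Y') j := by
  induction j with
  | zero =>
    intro Y Y' u u' hu hu'
    simp only [pow_zero, Matrix.one_mulVec, one_mul]
    by_cases h : ∃ z, xorF Y Y' z = true
    · obtain ⟨z, hz⟩ := h
      rw [dot_eq_zero_of_pat hρ hu hu' hz, abs_zero]
      have := W_zero_nonneg (xorF Y Y')
      have h2 := nrm_nonneg u
      have h3 := nrm_nonneg u'
      positivity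
    · have : xorF Y Y' = fun _ => false := by
        funext z
        by_contra hz
        exact h ⟨z, by simpa using hz⟩
      rw [this, W_zero_false, mul_one]
      exact abs_dot_le _ _
  | succ j ih =>
    intro Y Y' u u' hu hu'
    have e : u' ⬝ᵥ (GG ρ ^ (j + 1) *ᵥ u)
        = ∑ y, ∑ y', u' ⬝ᵥ (GG ρ ^ j *ᵥ (DD ρ y y' *ᵥ u)) := by
      rw [pow_succ, ← Matrix.mulVec_mulVec, GG_mulVec, Matrix.mulVec_sum, dotProduct_sum]
      refine Finset.sum_congr rfl fun y _ => ?_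
      rw [Matrix.mulVec_sum, dotProduct_sum]
    rw [e, W_succ]
    calc |∑ y, ∑ y', u' ⬝ᵥ (GG ρ ^ j *ᵥ (DD ρ y y' *ᵥ u))|
        ≤ ∑ y, ∑ y', |u' ⬝ᵥ (GG ρ ^ j *ᵥ (DD ρ y y' *ᵥ u))| := by
          refine (Finset.abs_sum_le_sum_abs _ _).trans (Finset.sum_le_sum fun y _ => ?_)
          exact Finset.abs_sum_le_sum_abs _ _
      _ ≤ ∑ y, ∑ y', (4 ^ (j + 1) * (nrm u' * nrm u) * W (flp y (flp y' (xorF Y Y'))) j) := by
          refine Finset.sum_le_sum fun y _ => Finset.sum_le_sum fun y' _ => ?_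
          have h1 := ih _ Y' _ u' (hu.DD y y') hu'
          have h2 := DD_nrm_le hρ y y' u
          rw [flp_flp_xorF]
          refine h1.trans ?_
          have h3 : 0 ≤ W (xorF (flp y (flp y' Y)) Y') j := W_nonneg j _
          have h4 := nrm_nonneg u'
          have h5 : 0 ≤ (4 : ℝ) ^ j := by positivity
          have h6 : nrm u' * nrm (DD ρ y y' *ᵥ u) ≤ nrm u' * (4 * nrm u) :=
            mul_le_mul_of_nonneg_left h2 h4
          calc (4 : ℝ) ^ j * (nrm u' * nrm (DD ρ y y' *ᵥ u)) * W (xorF (flp y (flp y' Y)) Y') j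
              ≤ (4 : ℝ) ^ j * (nrm u' * (4 * nrm u)) * W (xorF (flp y (flp y' Y)) Y') j := by
                gcongr
            _ = _ := by ring
      _ = _ := by
          simp only [Finset.mul_sum]

/-! ### The invariant vector -/

/-- The zero pattern. -/
abbrev Z0 : S → Bool := fun _ => false

lemma HasPat.tau {w : X → ℝ} (hw : HasPat ρ (Z0 (S := S)) w) (z : S) : ρ (tauP z) *ᵥ w = w := by
  have := hw z
  simpa using this

lemma DD_diag_mulVec {w : X → ℝ} (hw : HasPat ρ (Z0 (S := S)) w) (y : S) : DD ρ y y *ᵥ w = 0 := by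
  have h1 : sA y y = 1 := by simp [sA]; rfl
  have h2 : sB y y = 1 := by simp [sB]; rfl
  have h3 : sC y y = tauP y := rfl
  have h4 : sD y y = tauP y := by
    rw [sD, Equiv.swap_comm]; rfl
  simp only [DD, h1, h2, h3, h4, map_one, Matrix.sub_mulVec, Matrix.add_mulVec, Matrix.one_mulVec,
    hw.tau y]
  abel

/-- Transposition facts for the expansion of `‖D w‖²`. -/
lemma conj_facts {y y' : S} (h : y ≠ y') :
    sC y y' = sA y y' * tauP y' * sA y y' ∧ sD y y' = sA y y' * tauP y * sA y y' ∧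
    sC y y' = sB y y' * tauP y * sB y y' ∧ sD y y' = sB y y' * tauP y' * sB y y' := by
  have hconj : ∀ (f : Equiv.Perm (Bool × S)) (i j : Bool × S), f⁻¹ = f →
      f * Equiv.swap i j * f = Equiv.swap (f i) (f j) := by
    intro f i j hf
    have := Equiv.swap_apply_apply f i j
    rw [hf] at this
    exact this.symm
  have hsy : (false, y) ≠ (false, y') := fun e => h (congrArg Prod.snd e)
  have hty : (true, y) ≠ (true, y') := fun e => h (congrArg Prod.snd e)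
  have hA : (sA y y')⁻¹ = sA y y' := Equiv.swap_inv _ _
  have hB : (sB y y')⁻¹ = sB y y' := Equiv.swap_inv _ _
  refine ⟨?_, ?_, ?_, ?_⟩
  · rw [tauP, hconj _ _ _ hA]
    have e1 : sA y y' (false, y') = (false, y) := Equiv.swap_apply_right _ _
    have e2 : sA y y' (true, y') = (true, y') :=
      Equiv.swap_apply_of_ne_of_ne (by simp) (by simp)
    rw [e1, e2]; rfl
  · rw [tauP, hconj _ _ _ hA]
    have e1 : sA y y' (false, y) = (false, y') := Equiv.swap_apply_left _ _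
    have e2 : sA y y' (true, y) = (true, y) :=
      Equiv.swap_apply_of_ne_of_ne (by simp) (by simp)
    rw [e1, e2, sD, Equiv.swap_comm]
  · rw [tauP, hconj _ _ _ hB]
    have e1 : sB y y' (false, y) = (false, y) :=
      Equiv.swap_apply_of_ne_of_ne (by simp) (by simp)
    have e2 : sB y y' (true, y) = (true, y') := Equiv.swap_apply_left _ _
    rw [e1, e2]; rfl
  · rw [tauP, hconj _ _ _ hB]
    have e1 : sB y y' (false, y') = (false, y') :=
      Equiv.swap_apply_of_ne_of_ne (by simp) (by simp)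
    have e2 : sB y y' (true, y') = (true, y) := Equiv.swap_apply_right _ _
    rw [e1, e2, sD, Equiv.swap_comm]

/-- `(g w) ⬝ (g f g w) = w ⬝ (g w)` for `f w = w`. -/
lemma dot_conj (hρ : IsORep ρ) (g f : Equiv.Perm (Bool × S)) {w : X → ℝ} (hf : ρ f *ᵥ w = w) :
    (ρ g *ᵥ w) ⬝ᵥ (ρ (g * f * g) *ᵥ w) = w ⬝ᵥ (ρ g *ᵥ w) := by
  have e : ρ (g * f * g) *ᵥ w = ρ g *ᵥ (ρ f *ᵥ (ρ g *ᵥ w)) := by
    rw [map_mul, map_mul, Matrix.mulVec_mulVec, Matrix.mulVec_mulVec, mul_assoc]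
  rw [e, dot_rep hρ]
  nth_rewrite 1 [← hf]
  rw [dot_rep hρ]

/-- The quadratic forms of the two sides agree. -/
lemma quad_sB_eq (hρ : IsORep ρ) {w : X → ℝ} (hw : HasPat ρ (Z0 (S := S)) w) (y y' : S) :
    w ⬝ᵥ (ρ (sB y y') *ᵥ w) = w ⬝ᵥ (ρ (sA y y') *ᵥ w) := by
  by_cases h : y = y'
  · subst h
    have h1 : sA y y = 1 := by simp [sA]; rfl
    have h2 : sB y y = 1 := by simp [sB]; rfl
    rw [h1, h2]
  · have hf : ρ (tauP y * tauP y') *ᵥ w = w := by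
      rw [map_mul, ← Matrix.mulVec_mulVec, hw.tau, hw.tau]
    have e : tauP y * tauP y' * sA y y' = sB y y' * (tauP y * tauP y') := by
      obtain ⟨e1, _, _, _⟩ := tau_right (y := y) (y' := y') h
      obtain ⟨_, _, e3, _⟩ := tau_left (y := y) (y' := y') h
      rw [mul_assoc, e1, ← mul_assoc, e3, mul_assoc]
    have e2 : ρ (sB y y') *ᵥ w = ρ (tauP y * tauP y') *ᵥ (ρ (sA y y') *ᵥ w) := by
      rw [Matrix.mulVec_mulVec, ← map_mul, e, map_mul, ← Matrix.mulVec_mulVec, hf]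
    rw [e2]
    nth_rewrite 1 [← hf]
    rw [dot_rep hρ]

/-- The norm of a hop from an invariant vector. -/
lemma DD_sq_le (hρ : IsORep ρ) {w : X → ℝ} (hw : HasPat ρ (Z0 (S := S)) w) {y y' : S} (h : y ≠ y') :
    (DD ρ y y' *ᵥ w) ⬝ᵥ (DD ρ y y' *ᵥ w) ≤ 8 * (w ⬝ᵥ w - w ⬝ᵥ (ρ (sA y y') *ᵥ w)) := by
  obtain ⟨c1, c2, c3, c4⟩ := conj_facts (y := y) (y' := y') h
  set a := ρ (sA y y') *ᵥ w with ha
  set b := ρ (sB y y') *ᵥ w with hb
  set c := ρ (sC y y') *ᵥ w with hc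
  set d := ρ (sD y y') *ᵥ w with hd
  have haa : a ⬝ᵥ a = w ⬝ᵥ w := dot_rep hρ _ _ _
  have hbb : b ⬝ᵥ b = w ⬝ᵥ w := dot_rep hρ _ _ _
  have hcc : c ⬝ᵥ c = w ⬝ᵥ w := dot_rep hρ _ _ _
  have hdd : d ⬝ᵥ d = w ⬝ᵥ w := dot_rep hρ _ _ _
  have hqb : w ⬝ᵥ b = w ⬝ᵥ a := quad_sB_eq hρ hw y y'
  have hac : a ⬝ᵥ c = w ⬝ᵥ a := by
    rw [hc, c1]; exact dot_conj hρ _ _ (hw.tau y')
  have had : a ⬝ᵥ d = w ⬝ᵥ a := by
    rw [hd, c2]; exact dot_conj hρ _ _ (hw.tau y)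
  have hbc : b ⬝ᵥ c = w ⬝ᵥ a := by
    rw [hc, c3, ← hqb]; exact dot_conj hρ _ _ (hw.tau y)
  have hbd : b ⬝ᵥ d = w ⬝ᵥ a := by
    rw [hd, c4, ← hqb]; exact dot_conj hρ _ _ (hw.tau y')
  have hcd : c ⬝ᵥ d = a ⬝ᵥ b := by
    obtain ⟨e1, e2, _, _⟩ := tau_right (y := y) (y' := y') h
    have hC : c = ρ (tauP y') *ᵥ a := by
      rw [ha, Matrix.mulVec_mulVec, ← map_mul, e1, map_mul, ← Matrix.mulVec_mulVec, hw.tau]
    have hD : d = ρ (tauP y') *ᵥ b := by
      rw [hb, Matrix.mulVec_mulVec, ← map_mul, e2, map_mul, ← Matrix.mulVec_mulVec, hw.tau]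
    rw [hC, hD, dot_rep hρ]
  have hab : a ⬝ᵥ b ≤ w ⬝ᵥ w := by
    have := dot_self_nonneg' (a - b)
    simp only [sub_dotProduct, dotProduct_sub, haa, hbb, dotProduct_comm b a] at this
    linarith
  have hexp : (DD ρ y y' *ᵥ w) = a + b - c - d := by
    simp only [DD, Matrix.sub_mulVec, Matrix.add_mulVec, ha, hb, hc, hd]
  rw [hexp]
  simp only [sub_dotProduct, add_dotProduct, dotProduct_sub, dotProduct_add, haa, hbb, hcc, hdd,
    dotProduct_comm b a, dotProduct_comm c a, dotProduct_comm d a, dotProduct_comm c b,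
    dotProduct_comm d b, dotProduct_comm d c, hac, had, hbc, hbd, hcd]
  linarith

/-- The invariant vector is orthogonal to its hops. -/
lemma quad_GG_zero (hρ : IsORep ρ) {w : X → ℝ} (hw : HasPat ρ (Z0 (S := S)) w) :
    w ⬝ᵥ (GG ρ *ᵥ w) = 0 := by
  rw [GG_mulVec, dotProduct_sum]
  refine Finset.sum_eq_zero fun y _ => ?_
  rw [dotProduct_sum]
  refine Finset.sum_eq_zero fun y' _ => ?_
  by_cases h : y = y'
  · subst h
    rw [DD_diag_mulVec hw, dotProduct_zero]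
  · have hz : xorF (flp y (flp y' (Z0 (S := S)))) (Z0 (S := S)) y = true := by
      simp only [xorF, flp_flp_apply, pat_apply]
      simp [h]
    exact dot_eq_zero_of_pat hρ (hw.DD y y') hw hz

/-- The quadratic form of the Laplacian in terms of the same side transpositions. -/
lemma Lap_quad_same (hρ : IsORep ρ) (hm : (Fintype.card S : ℝ) ≠ 0) {w : X → ℝ}
    (hw : HasPat ρ (Z0 (S := S)) w) :
    w ⬝ᵥ (Lap ρ *ᵥ w) = (Fintype.card S : ℝ)⁻¹ * ∑ y, ∑ y', (w ⬝ᵥ w - w ⬝ᵥ (ρ (sA y y') *ᵥ w)) := by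
  have hsplit := Lap_split ρ hm
  have h1 : Lap ρ = Lap (repL ρ) + Lap (repR ρ) + (4 * (Fintype.card S : ℝ))⁻¹ • GG ρ := by
    rw [hsplit]; abel
  rw [h1, Matrix.add_mulVec, Matrix.add_mulVec, dotProduct_add, dotProduct_add, Matrix.smul_mulVec,
    dotProduct_smul, quad_GG_zero hρ hw, smul_zero, add_zero, Lap_quad_eq, Lap_quad_eq]
  simp only [MonoidHom.comp_apply, childHom_swap]
  have e1 : ∀ y y' : S, Equiv.swap (false, y) (false, y') = sA y y' := fun _ _ => rfl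
  have e2 : ∀ y y' : S, Equiv.swap (true, y) (true, y') = sB y y' := fun _ _ => rfl
  simp only [e1, e2, quad_sB_eq hρ hw]
  field_simp
  ring

/-- The sum of the squared hops. -/
lemma sum_DD_sq_le (hρ : IsORep ρ) (hm : (Fintype.card S : ℝ) ≠ 0) {w : X → ℝ}
    (hw : HasPat ρ (Z0 (S := S)) w) :
    ∑ y, ∑ y', (DD ρ y y' *ᵥ w) ⬝ᵥ (DD ρ y y' *ᵥ w)
      ≤ 8 * (Fintype.card S : ℝ) * (w ⬝ᵥ (Lap ρ *ᵥ w)) := by
  rw [Lap_quad_same hρ hm hw]
  have : 8 * (Fintype.card S : ℝ) * ((Fintype.card S : ℝ)⁻¹ *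
      ∑ y, ∑ y', (w ⬝ᵥ w - w ⬝ᵥ (ρ (sA y y') *ᵥ w)))
      = ∑ y : S, ∑ y' : S, 8 * (w ⬝ᵥ w - w ⬝ᵥ (ρ (sA y y') *ᵥ w)) := by
    rw [← mul_assoc, mul_assoc 8, mul_inv_cancel₀ hm, mul_one]
    simp only [Finset.mul_sum]
  rw [this]
  refine Finset.sum_le_sum fun y _ => Finset.sum_le_sum fun y' _ => ?_
  by_cases h : y = y'
  · subst h
    rw [DD_diag_mulVec hw]
    have h1 : sA y y = 1 := by simp [sA]; rfl
    simp [h1]
  · exact DD_sq_le hρ hw h

/-- The two-sided bound on the moments. -/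
theorem quad_two (hρ : IsORep ρ) {w : X → ℝ} (hw : HasPat ρ (Z0 (S := S)) w) (j : ℕ) :
    |w ⬝ᵥ (GG ρ ^ (j + 2) *ᵥ w)| ≤ 4 ^ j * ∑ p : S × S,
      ((DD ρ p.1 p.2 *ᵥ w) ⬝ᵥ (DD ρ p.1 p.2 *ᵥ w)) * W (pat p.1 p.2) (j + 1) := by
  set v : S × S → (X → ℝ) := fun p => DD ρ p.1 p.2 *ᵥ w with hv
  set P : S × S → (S → Bool) := fun p => pat p.1 p.2 with hP
  have hGw : GG ρ *ᵥ w = ∑ p, v p := by
    rw [GG_mulVec, Fintype.sum_prod_type]
  have hpat : ∀ p, HasPat ρ (P p) (v p) := fun p => hw.DD p.1 p.2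
  have e : w ⬝ᵥ (GG ρ ^ (j + 2) *ᵥ w) = ∑ q, ∑ p, (v q) ⬝ᵥ (GG ρ ^ j *ᵥ v p) := by
    have h1 : GG ρ ^ (j + 2) = GG ρ * (GG ρ ^ j * GG ρ) := by
      rw [pow_succ, pow_succ', mul_assoc]
    rw [h1, ← Matrix.mulVec_mulVec, ← mulVec_dot_of_symm (GG_symm hρ), ← Matrix.mulVec_mulVec, hGw,
      sum_dotProduct]
    refine Finset.sum_congr rfl fun q _ => ?_
    rw [Matrix.mulVec_sum, dotProduct_sum]
  have hW : ∀ p, W (P p) (j + 1) = ∑ q, W (xorF (P p) (P q)) j := by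
    intro p
    rw [W_succ, Fintype.sum_prod_type' (f := fun a b => W (xorF (P p) (P (a, b))) j)]
    simp only [flp_flp_eq_xorF, hP]
  have hWsymm : ∀ p q, W (xorF (P q) (P p)) j = W (xorF (P p) (P q)) j := by
    intro p q
    rw [xorF_comm]
  rw [e]
  have hterm : ∀ q p, |(v q) ⬝ᵥ (GG ρ ^ j *ᵥ v p)|
      ≤ 4 ^ j * (((v q ⬝ᵥ v q) + (v p ⬝ᵥ v p)) / 2) * W (xorF (P p) (P q)) j := by
    intro q p
    refine (walk_bound hρ j _ _ _ _ (hpat p) (hpat q)).trans ?_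
    have h1 : nrm (v q) * nrm (v p) ≤ ((v q ⬝ᵥ v q) + (v p ⬝ᵥ v p)) / 2 := by
      have := sq_nonneg (nrm (v q) - nrm (v p))
      have h2 := nrm_sq (v q)
      have h3 := nrm_sq (v p)
      nlinarith
    have h0 : 0 ≤ W (xorF (P p) (P q)) j := W_nonneg j _
    gcongr
  calc |∑ q, ∑ p, (v q) ⬝ᵥ (GG ρ ^ j *ᵥ v p)|
      ≤ ∑ q, ∑ p, |(v q) ⬝ᵥ (GG ρ ^ j *ᵥ v p)| := by
        refine (Finset.abs_sum_le_sum_abs _ _).trans (Finset.sum_le_sum fun y _ => ?_)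
        exact Finset.abs_sum_le_sum_abs _ _
    _ ≤ ∑ q, ∑ p, (4 ^ j * (((v q ⬝ᵥ v q) + (v p ⬝ᵥ v p)) / 2) * W (xorF (P p) (P q)) j) :=
        Finset.sum_le_sum fun q _ => Finset.sum_le_sum fun p _ => hterm q p
    _ = 4 ^ j * ∑ p, (v p ⬝ᵥ v p) * W (P p) (j + 1) := by
        have hsplit : ∀ q p, (4 : ℝ) ^ j * (((v q ⬝ᵥ v q) + (v p ⬝ᵥ v p)) / 2) * W (xorF (P p) (P q)) j
            = (4 : ℝ) ^ j / 2 * ((v q ⬝ᵥ v q) * W (xorF (P q) (P p)) j)
              + (4 : ℝ) ^ j / 2 * ((v p ⬝ᵥ v p) * W (xorF (P p) (P q)) j) := by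
          intro q p
          rw [hWsymm p q]
          ring
        simp only [hsplit]
        have h3 : ∑ q, ∑ p, ((4 : ℝ) ^ j / 2 * ((v q ⬝ᵥ v q) * W (xorF (P q) (P p)) j)
              + (4 : ℝ) ^ j / 2 * ((v p ⬝ᵥ v p) * W (xorF (P p) (P q)) j))
            = (4 : ℝ) ^ j / 2 * (∑ q, ∑ p, (v q ⬝ᵥ v q) * W (xorF (P q) (P p)) j)
              + (4 : ℝ) ^ j / 2 * (∑ q, ∑ p, (v p ⬝ᵥ v p) * W (xorF (P p) (P q)) j) := by
          simp only [Finset.sum_add_distrib, Finset.mul_sum]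
        rw [h3]
        have h1 : ∑ q, ∑ p, (v p ⬝ᵥ v p) * W (xorF (P p) (P q)) j
            = ∑ p, (v p ⬝ᵥ v p) * W (P p) (j + 1) := by
          rw [Finset.sum_comm]
          refine Finset.sum_congr rfl fun p _ => ?_
          rw [hW p, Finset.mul_sum]
        have h2 : ∑ q, ∑ p, (v q ⬝ᵥ v q) * W (xorF (P q) (P p)) j
            = ∑ p, (v p ⬝ᵥ v p) * W (P p) (j + 1) := by
          refine Finset.sum_congr rfl fun q _ => ?_
          rw [hW q, Finset.mul_sum]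
        rw [h1, h2]
        ring

/-- The bound on the moments of `GG` in terms of the Laplacian. -/
theorem quad_GG_le (hρ : IsORep ρ) (hm : 2 ≤ Fintype.card S) {w : X → ℝ}
    (hw : HasPat ρ (Z0 (S := S)) w) (j : ℕ) :
    w ⬝ᵥ (GG ρ ^ (j + 2) *ᵥ w) ≤ 4 ^ j * (W (Z0 (S := S)) (j + 2)
        / ((Fintype.card S : ℝ) * ((Fintype.card S : ℝ) - 1)))
        * (8 * (Fintype.card S : ℝ) * (w ⬝ᵥ (Lap ρ *ᵥ w))) := by
  have hm1 : (2 : ℝ) ≤ (Fintype.card S : ℝ) := by exact_mod_cast hm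
  have hm0 : (Fintype.card S : ℝ) ≠ 0 := by linarith
  have hpos : 0 < (Fintype.card S : ℝ) * ((Fintype.card S : ℝ) - 1) := by
    apply mul_pos <;> linarith
  set K := W (Z0 (S := S)) (j + 2) / ((Fintype.card S : ℝ) * ((Fintype.card S : ℝ) - 1)) with hK
  have hK0 : 0 ≤ K := div_nonneg (W_nonneg _ _) hpos.le
  have h1 := (le_abs_self _).trans (quad_two hρ hw j)
  have h2 : ∑ p : S × S, ((DD ρ p.1 p.2 *ᵥ w) ⬝ᵥ (DD ρ p.1 p.2 *ᵥ w)) * W (pat p.1 p.2) (j + 1)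
      ≤ K * ∑ p : S × S, ((DD ρ p.1 p.2 *ᵥ w) ⬝ᵥ (DD ρ p.1 p.2 *ᵥ w)) := by
    rw [Finset.mul_sum]
    refine Finset.sum_le_sum fun p _ => ?_
    by_cases h : p.1 = p.2
    · have : DD ρ p.1 p.2 *ᵥ w = 0 := by
        rw [← h]; exact DD_diag_mulVec hw p.1
      rw [this]
      simp
    · have h3 := W_pat_le h (j + 1)
      have h4 : W (pat p.1 p.2) (j + 1) ≤ K := by
        rw [hK, le_div_iff₀ hpos, mul_comm]
        exact h3
      rw [mul_comm K]
      exact mul_le_mul_of_nonneg_left h4 (dot_self_nonneg' _)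
  have h5 : ∑ p : S × S, ((DD ρ p.1 p.2 *ᵥ w) ⬝ᵥ (DD ρ p.1 p.2 *ᵥ w))
      ≤ 8 * (Fintype.card S : ℝ) * (w ⬝ᵥ (Lap ρ *ᵥ w)) := by
    rw [Fintype.sum_prod_type]
    exact sum_DD_sq_le hρ hm0 hw
  calc w ⬝ᵥ (GG ρ ^ (j + 2) *ᵥ w)
      ≤ 4 ^ j * ∑ p : S × S, ((DD ρ p.1 p.2 *ᵥ w) ⬝ᵥ (DD ρ p.1 p.2 *ᵥ w)) * W (pat p.1 p.2) (j + 1) := h1
    _ ≤ 4 ^ j * (K * ∑ p : S × S, ((DD ρ p.1 p.2 *ᵥ w) ⬝ᵥ (DD ρ p.1 p.2 *ᵥ w))) := by gcongr
    _ ≤ 4 ^ j * (K * (8 * (Fintype.card S : ℝ) * (w ⬝ᵥ (Lap ρ *ᵥ w)))) := by gcongr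
    _ = _ := by ring

/-- The hopping generator. -/
noncomputable def Gm (ρ : Equiv.Perm (Bool × S) →* Matrix X X ℝ) : Matrix X X ℝ :=
  (4 * (Fintype.card S : ℝ))⁻¹ • GG ρ

/-- **The moment generating function bound.** -/
theorem mgf_bound (hρ : IsORep ρ) (hm : 2 ≤ Fintype.card S) {c : ℝ} (hc0 : 0 ≤ c) (hc1 : c < 1 / 2)
    {w : X → ℝ} (hw : HasPat ρ (Z0 (S := S)) w) :
    w ⬝ᵥ (exp (c • Gm ρ) *ᵥ w) ≤ w ⬝ᵥ w + (3 / 4 * c ^ 2 / ((1 - 2 * c) * ((Fintype.card S : ℝ) - 1)))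
      * (w ⬝ᵥ (Lap ρ *ᵥ w)) := by
  have hm1 : (2 : ℝ) ≤ (Fintype.card S : ℝ) := by exact_mod_cast hm
  set m : ℝ := (Fintype.card S : ℝ) with hmdef
  have hm0 : 0 < m := by linarith
  have hm2 : 0 < m - 1 := by linarith
  have h2c : 0 < 1 - 2 * c := by linarith
  set X0 := w ⬝ᵥ (Lap ρ *ᵥ w) with hX0
  have hX0nn : 0 ≤ X0 := Lap_psd hρ w
  have hS := hasSum_quad (c • Gm ρ) w w
  set t : ℕ → ℝ := fun j => ((j.factorial : ℝ))⁻¹ * (w ⬝ᵥ ((c • Gm ρ) ^ j *ᵥ w)) with ht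
  have hpow : ∀ j, (c • Gm ρ) ^ j = (c / (4 * m)) ^ j • GG ρ ^ j := by
    intro j
    rw [Gm, smul_smul, smul_pow, div_eq_mul_inv]
  have ht0 : t 0 = w ⬝ᵥ w := by simp [ht]
  have ht1 : t 1 = 0 := by
    simp only [ht, hpow, pow_one, Matrix.smul_mulVec, dotProduct_smul, quad_GG_zero hρ hw]
    simp
  set B : ℝ := X0 / (2 * (m - 1)) with hB
  have hB0 : 0 ≤ B := div_nonneg hX0nn (by linarith)
  have hterm : ∀ j, t (j + 2) ≤ B * ((3 / 2) * c ^ 2) * (2 * c) ^ j := by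
    intro j
    have h1 := quad_GG_le hρ hm hw j
    rw [← hmdef, ← hX0] at h1
    have h2 := moment_term_le (S := S) (by omega) c hc0 j
    rw [← hmdef] at h2
    have hf : (0 : ℝ) < ((j + 2).factorial : ℝ) := by exact_mod_cast Nat.factorial_pos _
    have hc4 : 0 ≤ (c / (4 * m)) ^ (j + 2) := by positivity
    calc t (j + 2)
        = ((j + 2).factorial : ℝ)⁻¹ * ((c / (4 * m)) ^ (j + 2) * (w ⬝ᵥ (GG ρ ^ (j + 2) *ᵥ w))) := by
          simp only [ht, hpow, Matrix.smul_mulVec, dotProduct_smul, smul_eq_mul]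
      _ ≤ ((j + 2).factorial : ℝ)⁻¹ * ((c / (4 * m)) ^ (j + 2) * (4 ^ j * (W (Z0 (S := S)) (j + 2)
            / (m * (m - 1))) * (8 * m * X0))) := by
          gcongr
      _ = (c ^ (j + 2) / ((j + 2).factorial : ℝ) * (W (Z0 (S := S)) (j + 2) / m ^ (j + 2))) * B := by
          rw [hB]
          have e4 : (4 * m) ^ (j + 2) = 4 ^ j * 16 * m ^ (j + 2) := by
            rw [mul_pow, pow_add]; norm_num
          rw [div_pow, e4]
          field_simp
          ring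
      _ ≤ ((3 / 2) * c ^ 2 * (2 * c) ^ j) * B := by
          exact mul_le_mul_of_nonneg_right h2 hB0
      _ = _ := by ring
  have hS2 : HasSum (fun j => t (j + 2)) ((w ⬝ᵥ (exp (c • Gm ρ) *ᵥ w)) - (t 0 + t 1)) := by
    have := (hasSum_nat_add_iff' (f := t) 2).mpr hS
    simpa [Finset.sum_range_succ] using this
  have hgeo : HasSum (fun j : ℕ => B * ((3 / 2) * c ^ 2) * (2 * c) ^ j)
      (B * ((3 / 2) * c ^ 2) * (1 - 2 * c)⁻¹) :=
    (hasSum_geometric_of_lt_one (by positivity) (by linarith)).mul_left _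
  have hle := hasSum_le hterm hS2 hgeo
  rw [ht0, ht1, add_zero] at hle
  have e : B * ((3 / 2) * c ^ 2) * (1 - 2 * c)⁻¹ = 3 / 4 * c ^ 2 / ((1 - 2 * c) * (m - 1)) * X0 := by
    rw [hB]
    field_simp
    ring
  rw [e] at hle
  linarith

lemma Lap_child_comm : Commute (Lap (repL ρ)) (Lap (repR ρ)) := by
  apply Lap_comm_of
  intro g'
  apply Commute.symm
  apply Lap_comm_of
  intro g
  simp only [MonoidHom.comp_apply]
  change ρ (childHom true g') * ρ (childHom false g) = ρ (childHom false g) * ρ (childHom true g')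
  rw [← map_mul, ← map_mul, (childHom_comm g g').eq]

lemma DD_comm_Lap (y y' : S) : Commute (DD ρ y y') (Lap ρ) := by
  unfold DD
  exact (((Lap_comm ρ _).add_left (Lap_comm ρ _)).sub_left (Lap_comm ρ _)).sub_left (Lap_comm ρ _)

lemma Gm_comm_Lap : Commute (Gm ρ) (Lap ρ) := by
  unfold Gm GG
  apply Commute.smul_left
  apply Commute.sum_left
  intro y _
  apply Commute.sum_left
  intro y' _
  exact DD_comm_Lap y y'

lemma Gm_symm (hρ : IsORep ρ) : (Gm ρ)ᵀ = Gm ρ := by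
  rw [Gm, Matrix.transpose_smul, GG_symm hρ]

/-- **The doubling step.** -/
theorem step_main (hρ : IsORep ρ) (hm : 2 ≤ Fintype.card S) {c : ℝ} (hc0 : 0 ≤ c) (hc1 : c < 1 / 2)
    {T0 T1 P : Matrix X X ℝ}
    (h0 : ∀ u : X → ℝ, (T0 *ᵥ u) ⬝ᵥ (T0 *ᵥ u)
      ≤ (exp ((-(c / 2)) • Lap (repL ρ)) *ᵥ u) ⬝ᵥ (exp ((-(c / 2)) • Lap (repL ρ)) *ᵥ u))
    (h1 : ∀ u : X → ℝ, (T1 *ᵥ u) ⬝ᵥ (T1 *ᵥ u)
      ≤ (exp ((-(c / 2)) • Lap (repR ρ)) *ᵥ u) ⬝ᵥ (exp ((-(c / 2)) • Lap (repR ρ)) *ᵥ u))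
    (hcomm : Commute T1 (Lap (repL ρ)))
    (hP1 : ∀ z : S, ρ (tauP z) * P = P) (hPc : Commute P (Lap ρ))
    (hPn : ∀ u : X → ℝ, (P *ᵥ u) ⬝ᵥ (P *ᵥ u) ≤ u ⬝ᵥ u) (v : X → ℝ) :
    ((T0 * T1 * P) *ᵥ v) ⬝ᵥ ((T0 * T1 * P) *ᵥ v)
      ≤ (exp ((-((c - 3 / 4 * c ^ 2 / ((1 - 2 * c) * ((Fintype.card S : ℝ) - 1))) / 2)) • Lap ρ) *ᵥ v)
        ⬝ᵥ (exp ((-((c - 3 / 4 * c ^ 2 / ((1 - 2 * c) * ((Fintype.card S : ℝ) - 1))) / 2)) • Lap ρ) *ᵥ v) := by
  have hm1 : (2 : ℝ) ≤ (Fintype.card S : ℝ) := by exact_mod_cast hm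
  have hm0 : (Fintype.card S : ℝ) ≠ 0 := by linarith
  set η : ℝ := 3 / 4 * c ^ 2 / ((1 - 2 * c) * ((Fintype.card S : ℝ) - 1)) with hη
  have hη0 : 0 ≤ η := by
    apply div_nonneg (by positivity)
    apply mul_nonneg <;> linarith
  set L := Lap ρ with hL
  set L0 := Lap (repL ρ) with hL0
  set L1 := Lap (repR ρ) with hL1
  have hLs : Lᵀ = L := Lap_symm hρ
  have hL0s : L0ᵀ = L0 := Lap_symm (hρ.comp _)
  have hL1s : L1ᵀ = L1 := Lap_symm (hρ.comp _)
  have hQ : L0 + L1 = L - Gm ρ := Lap_split ρ hm0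
  have hQs : (L0 + L1)ᵀ = L0 + L1 := by rw [Matrix.transpose_add, hL0s, hL1s]
  have hcL : Commute L0 L1 := Lap_child_comm
  have hGL : Commute (Gm ρ) L := Gm_comm_Lap
  set w := P *ᵥ v with hw
  set E0 := exp ((-(c / 2)) • L0) with hE0
  set E1 := exp ((-(c / 2)) • L1) with hE1
  set E := exp ((-(c / 2)) • L) with hE
  set Xp := exp (c • Gm ρ) with hXp
  -- step 1
  have hT1E0 : T1 * E0 = E0 * T1 := (Commute.exp_right (hcomm.smul_right _)).eq
  have s1 : ((T0 * T1 * P) *ᵥ v) ⬝ᵥ ((T0 * T1 * P) *ᵥ v)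
      ≤ (exp ((-(c / 2)) • (L0 + L1)) *ᵥ w) ⬝ᵥ (exp ((-(c / 2)) • (L0 + L1)) *ᵥ w) := by
    have e1 : (T0 * T1 * P) *ᵥ v = T0 *ᵥ (T1 *ᵥ w) := by
      rw [hw, Matrix.mulVec_mulVec, Matrix.mulVec_mulVec, mul_assoc]
    rw [e1]
    refine (h0 _).trans ?_
    have e2 : ∀ x : X → ℝ, E0 *ᵥ (T1 *ᵥ x) = T1 *ᵥ (E0 *ᵥ x) := fun x => by
      rw [Matrix.mulVec_mulVec, Matrix.mulVec_mulVec, hT1E0]
    rw [e2]
    refine (h1 _).trans ?_
    have e3 : exp ((-(c / 2)) • (L0 + L1)) = E1 * E0 := by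
      rw [smul_add, add_comm]
      exact Matrix.exp_add_of_commute _ _ ((hcL.symm.smul_left _).smul_right _)
    rw [e3, Matrix.mulVec_mulVec]
  -- step 2
  have hexpc : exp ((2 * (-(c / 2))) • (L0 + L1)) = E * E * Xp := by
    have e1 : (2 * (-(c / 2))) • (L0 + L1) = (-c) • L + c • Gm ρ := by
      rw [hQ]
      have : (2 * (-(c / 2)) : ℝ) = -c := by ring
      rw [this, smul_sub, neg_smul, neg_smul]
      abel
    have e2 : exp ((-c) • L) = E * E := by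
      have : (-c : ℝ) = -(c / 2) + -(c / 2) := by ring
      rw [this, exp_smul_add]
    rw [e1, Matrix.exp_add_of_commute _ _ ((hGL.symm.smul_left _).smul_right _), e2]
  have s2 : (exp ((-(c / 2)) • (L0 + L1)) *ᵥ w) ⬝ᵥ (exp ((-(c / 2)) • (L0 + L1)) *ᵥ w)
      = w ⬝ᵥ ((E * E * Xp) *ᵥ w) := by
    rw [← quad_exp_half hQs, hexpc]
  -- step 3
  have hEs : Eᵀ = E := exp_symm (smul_symm hLs _)
  have hEX : E * Xp = Xp * E :=
    (Commute.exp ((hGL.symm.smul_left _).smul_right _)).eq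
  set w' := E *ᵥ w with hw'
  have s3 : w ⬝ᵥ ((E * E * Xp) *ᵥ w) = w' ⬝ᵥ (Xp *ᵥ w') := by
    have gen : ∀ x : X → ℝ, x ⬝ᵥ ((E * E * Xp) *ᵥ x) = (E *ᵥ x) ⬝ᵥ (Xp *ᵥ (E *ᵥ x)) := by
      intro x
      rw [mulVec_dot_of_symm hEs, Matrix.mulVec_mulVec, Matrix.mulVec_mulVec]
      have : E * E * Xp = E * Xp * E := by
        calc E * E * Xp = E * (E * Xp) := mul_assoc _ _ _
          _ = E * (Xp * E) := by rw [hEX]
          _ = E * Xp * E := (mul_assoc _ _ _).symm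
      rw [this]
    exact gen w
  -- step 4
  have hEcomm : ∀ g, Commute (ρ g) E := fun g =>
    Commute.exp_right ((Lap_comm ρ g).smul_right _)
  have hpat : HasPat ρ (Z0 (S := S)) w' := by
    intro z
    have e : ρ (tauP z) *ᵥ w = w := by
      rw [hw, Matrix.mulVec_mulVec, hP1]
    simp only [sg_false, one_smul]
    rw [hw', Matrix.mulVec_mulVec, (hEcomm _).eq, ← Matrix.mulVec_mulVec, e]
  -- step 5, 6
  have s5 := mgf_bound hρ hm hc0 hc1 hpat
  rw [← hη] at s5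
  have s6 := quad_exp_ge hLs (Lap_psd hρ) hη0 w'
  -- step 7
  set s : ℝ := -((c - η) / 2) with hs
  have s7 : w' ⬝ᵥ (exp (η • L) *ᵥ w') = (exp (s • L) *ᵥ w) ⬝ᵥ (exp (s • L) *ᵥ w) := by
    rw [← quad_exp_half hLs, hw', mulVec_dot_of_symm hEs, Matrix.mulVec_mulVec, Matrix.mulVec_mulVec]
    congr 2
    have : (2 * s : ℝ) = -(c / 2) + (η + -(c / 2)) := by rw [hs]; ring
    rw [this, exp_smul_add, exp_smul_add]
    exact mul_assoc _ _ _
  -- step 8
  have hPE : P * exp (s • L) = exp (s • L) * P := (Commute.exp_right (hPc.smul_right _)).eq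
  have s8 : exp (s • L) *ᵥ w = P *ᵥ (exp (s • L) *ᵥ v) := by
    rw [hw, Matrix.mulVec_mulVec, Matrix.mulVec_mulVec, hPE]
  calc ((T0 * T1 * P) *ᵥ v) ⬝ᵥ ((T0 * T1 * P) *ᵥ v)
      ≤ w' ⬝ᵥ (Xp *ᵥ w') := by rw [← s3, ← s2]; exact s1
    _ ≤ w' ⬝ᵥ w' + η * (w' ⬝ᵥ (L *ᵥ w')) := s5
    _ ≤ w' ⬝ᵥ (exp (η • L) *ᵥ w') := s6
    _ = (exp (s • L) *ᵥ w) ⬝ᵥ (exp (s • L) *ᵥ w) := s7
    _ ≤ _ := by rw [s8]; exact hPn _

end Parity

end Crest.Agent.Lib.Thorp.Casimir
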