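/-
Theorem A for S0222, Part 4: the recursion.  For every orthogonal representation `ρ` of the
permutations of the `2 ^ (D + 1)` positions,
`‖block ρ u‖² ≤ ‖exp (-(cSeq D / 2) • Lap ρ) u‖²`, with `cSeq D ≥ 13 / 100` for `D ≥ 1`.
-/
import Crest.Agent.Lib.Thorp.CasimirStep
import Crest.Agent.Lib.Thorp.CasimirBlock

set_option autoImplicit false
set_option linter.unusedSectionVars false

namespace Crest.Agent.Lib.Thorp.Casimir

open Matrix NormedSpace

/-- The rates of the recursion; `cSeq D` is the rate for `2 ^ (D + 1)` positions. -/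
noncomputable def cSeq : ℕ → ℝ
  | 0 => 6 / 25
  | D + 1 => cSeq D - 3 / 4 * cSeq D ^ 2 / ((1 - 2 * cSeq D) * ((2 : ℝ) ^ (D + 1) - 1))

lemma cSeq_zero : cSeq 0 = 6 / 25 := rfl

lemma cSeq_succ (D : ℕ) : cSeq (D + 1)
    = cSeq D - 3 / 4 * cSeq D ^ 2 / ((1 - 2 * cSeq D) * ((2 : ℝ) ^ (D + 1) - 1)) := rfl

/-- The rates stay above `13 / 100`. -/
lemma cSeq_bounds (D : ℕ) :
    13 / 100 + (1 / 20) / (2 : ℝ) ^ (D + 1) ≤ cSeq (D + 1) ∧ cSeq (D + 1) ≤ 4 / 25 := by
  induction D with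
  | zero =>
    rw [cSeq_succ, cSeq_zero]
    constructor <;> norm_num
  | succ D ih =>
    obtain ⟨h1, h2⟩ := ih
    rw [cSeq_succ (D + 1)]
    set c := cSeq (D + 1) with hc
    set p : ℝ := (2 : ℝ) ^ (D + 1) with hp
    have hp2 : 2 ≤ p := by
      rw [hp, pow_succ]
      have : (1 : ℝ) ≤ 2 ^ D := one_le_pow₀ (by norm_num)
      linarith
    have hp' : (2 : ℝ) ^ (D + 1 + 1) = 2 * p := by rw [hp, pow_succ]; ring
    rw [hp']
    have hc0 : 13 / 100 ≤ c := by
      have : 0 ≤ (1 / 20) / p := by positivity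
      linarith
    have hden : 0 < (1 - 2 * c) * (2 * p - 1) := by
      apply mul_pos <;> linarith
    set η := 3 / 4 * c ^ 2 / ((1 - 2 * c) * (2 * p - 1)) with hη
    have hη0 : 0 ≤ η := div_nonneg (by positivity) hden.le
    have hηle : η ≤ (1 / 40) / p := by
      rw [hη, div_le_div_iff₀ hden (by linarith)]
      have h3 : c ^ 2 ≤ (4 / 25) ^ 2 := by
        apply pow_le_pow_left₀ (by linarith) h2
      have h4 : 17 / 25 ≤ 1 - 2 * c := by linarith
      have h5 : 3 / 2 * p ≤ 2 * p - 1 := by linarith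
      have h6 : (17 / 25) * (3 / 2 * p) ≤ (1 - 2 * c) * (2 * p - 1) :=
        mul_le_mul h4 h5 (by linarith) (by linarith)
      have h7 : 3 / 4 * c ^ 2 * p ≤ 3 / 4 * (4 / 25) ^ 2 * p := by
        gcongr
      nlinarith
    constructor
    · have e : (1 / 20 : ℝ) / (2 * p) = (1 / 40) / p := by
        field_simp
        norm_num
      rw [e]
      have e2 : (1 / 20 : ℝ) / p = (1 / 40) / p + (1 / 40) / p := by
        field_simp
        norm_num
      linarith
    · linarith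

lemma cSeq_lb {D : ℕ} : 13 / 100 ≤ cSeq (D + 1) := by
  have h := (cSeq_bounds D).1
  have : 0 ≤ (1 / 20 : ℝ) / (2 : ℝ) ^ (D + 1) := by positivity
  linarith

lemma cSeq_lb' (D : ℕ) : 13 / 100 ≤ cSeq D := by
  cases D with
  | zero => rw [cSeq_zero]; norm_num
  | succ D => exact cSeq_lb

lemma cSeq_ub (D : ℕ) : cSeq D < 1 / 2 := by
  cases D with
  | zero => rw [cSeq_zero]; norm_num
  | succ D =>
    have := (cSeq_bounds D).2
    linarith

section Chain

variable {X : Type*} [Fintype X] [DecidableEq X]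

lemma dot_layer_le {D : ℕ} {ρ : Equiv.Perm (Pos D) →* Matrix X X ℝ} (hρ : IsORep ρ) (b : Fin D)
    (u : X → ℝ) : (layer ρ b *ᵥ u) ⬝ᵥ (layer ρ b *ᵥ u) ≤ u ⬝ᵥ u := by
  rw [← nrm_sq, ← nrm_sq]
  exact pow_le_pow_left₀ (nrm_nonneg _) (nrm_layer_le hρ b u) 2

/-- On two positions, `Lap` kills the layer. -/
lemma Lap_mul_layer_one (ρ : Equiv.Perm (Pos 1) →* Matrix X X ℝ) :
    Lap ρ * layer ρ 0 = 0 := by
  unfold Lap
  rw [Matrix.smul_mul, Finset.sum_mul]
  have key : ∀ i j : Pos 1, (1 - ρ (Equiv.swap i j)) * layer ρ 0 = 0 := by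
    intro i j
    by_cases h : i = j
    · subst h
      rw [Equiv.swap_self, show (Equiv.refl (Pos 1)) = 1 from rfl, map_one, sub_self, zero_mul]
    · have hj : j = flipAt 0 i := by
        funext b
        have hb : b = 0 := Subsingleton.elim _ _
        subst hb
        have hne : i 0 ≠ j 0 := by
          intro e
          apply h
          funext b
          have hb : b = 0 := Subsingleton.elim _ _
          rw [hb, e]
        simp only [flipAt, Function.update_self]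
        cases hi : i 0 <;> cases hj : j 0 <;> simp_all
      rw [hj, sub_mul, one_mul, swap_mul_layer, sub_self]
  simp only [Finset.sum_mul, key, Finset.sum_const_zero, smul_zero]

/-- An exponential of `s • L` fixes what `L` kills. -/
lemma exp_mulVec_of_kill {L : Matrix X X ℝ} {w : X → ℝ} (hw : L *ᵥ w = 0) (s : ℝ) :
    exp (s • L) *ᵥ w = w := by
  have hpow : ∀ j : ℕ, (s • L) ^ (j + 1) *ᵥ w = 0 := by
    intro j
    rw [pow_succ, ← Matrix.mulVec_mulVec, Matrix.smul_mulVec, hw, smul_zero, Matrix.mulVec_zero]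
  have key : ∀ v : X → ℝ, v ⬝ᵥ (exp (s • L) *ᵥ w) = v ⬝ᵥ w := by
    intro v
    have h := hasSum_quad (s • L) w v
    have h0 : HasSum (fun j : ℕ => ((j.factorial : ℝ))⁻¹ * (v ⬝ᵥ ((s • L) ^ j *ᵥ w))) (v ⬝ᵥ w) := by
      have := hasSum_single (f := fun j : ℕ => ((j.factorial : ℝ))⁻¹ * (v ⬝ᵥ ((s • L) ^ j *ᵥ w))) 0
        (fun j hj => by
          obtain ⟨i, rfl⟩ := Nat.exists_eq_succ_of_ne_zero hj
          simp only [Nat.succ_eq_add_one, hpow i]
          simp)
      simpa using this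
    exact h.unique h0
  have hd : ∀ v : X → ℝ, v ⬝ᵥ (exp (s • L) *ᵥ w - w) = 0 := by
    intro v
    rw [dotProduct_sub, key, sub_self]
  have := hd (exp (s • L) *ᵥ w - w)
  exact sub_eq_zero.mp (dotProduct_self_eq_zero.mp this)

/-- The base case, two positions. -/
theorem block_contract_one (ρ : Equiv.Perm (Pos 1) →* Matrix X X ℝ) (hρ : IsORep ρ) (c : ℝ)
    (u : X → ℝ) :
    (block ρ *ᵥ u) ⬝ᵥ (block ρ *ᵥ u)
      ≤ (exp ((-(c / 2)) • Lap ρ) *ᵥ u) ⬝ᵥ (exp ((-(c / 2)) • Lap ρ) *ᵥ u) := by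
  have hb : block ρ = layer ρ 0 := by
    unfold block
    simp [List.finRange_succ]
  rw [hb]
  set P := layer ρ 0 with hP
  set E := exp ((-(c / 2)) • Lap ρ) with hE
  have hkill : Lap ρ *ᵥ (P *ᵥ u) = 0 := by
    rw [Matrix.mulVec_mulVec, hP, Lap_mul_layer_one, Matrix.zero_mulVec]
  have h1 : E *ᵥ (P *ᵥ u) = P *ᵥ u := exp_mulVec_of_kill hkill _
  have h2 : E * P = P * E :=
    (Commute.exp_left ((layer_comm_Lap ρ 0).smul_left _)).eq
  have h3 : P *ᵥ u = P *ᵥ (E *ᵥ u) := by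
    rw [Matrix.mulVec_mulVec, ← h2, ← Matrix.mulVec_mulVec, h1]
  rw [h3]
  exact dot_layer_le hρ 0 _

lemma card_pos_succ (D : ℕ) : 2 ≤ Fintype.card (Pos (D + 1)) := by
  have : Fintype.card (Pos (D + 1)) = 2 ^ (D + 1) := by simp
  rw [this, pow_succ]
  have : 1 ≤ 2 ^ D := Nat.one_le_two_pow
  omega

lemma card_pos_real (D : ℕ) : (Fintype.card (Pos D) : ℝ) = 2 ^ D := by simp

lemma repL_trRep {D : ℕ} (ρ : Equiv.Perm (Pos (D + 1)) →* Matrix X X ℝ) :
    repL (trRep ρ) = side ρ false := rfl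

lemma repR_trRep {D : ℕ} (ρ : Equiv.Perm (Pos (D + 1)) →* Matrix X X ℝ) :
    repR (trRep ρ) = side ρ true := rfl

/-- **The block contraction.** -/
theorem block_contract (D : ℕ) : ∀ (ρ : Equiv.Perm (Pos (D + 1)) →* Matrix X X ℝ), IsORep ρ →
    ∀ u : X → ℝ, (block ρ *ᵥ u) ⬝ᵥ (block ρ *ᵥ u)
      ≤ (exp ((-(cSeq D / 2)) • Lap ρ) *ᵥ u) ⬝ᵥ (exp ((-(cSeq D / 2)) • Lap ρ) *ᵥ u) := by
  induction D with
  | zero =>
    intro ρ hρ u
    exact block_contract_one ρ hρ _ u
  | succ D ih =>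
    intro ρ hρ u
    have hL : IsORep (side ρ false) := side_isORep hρ false
    have hR : IsORep (side ρ true) := side_isORep hρ true
    have h := step_main (ρ := trRep ρ) (trRep_isORep hρ) (card_pos_succ D)
      (c := cSeq D) (by linarith [cSeq_lb' D]) (cSeq_ub D)
      (T0 := block (side ρ false)) (T1 := block (side ρ true)) (P := layer ρ (Fin.last (D + 1)))
      (by
        intro u
        exact ih _ hL u)
      (by
        intro u
        exact ih _ hR u)
      (block_comm (fun g => (Lap_comm_of (fun g' => (side_comm ρ g' g).symm)).symm)).symm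
      (fun z => trRep_swap_mul_top ρ z)
      (by
        rw [Lap_trRep]
        exact (layer_comm_Lap ρ _).symm)
      (fun u => dot_layer_le hρ _ u)
      u
    rw [Lap_trRep, card_pos_real] at h
    rw [block_succ, cSeq_succ]
    exact h

end Chain

end Crest.Agent.Lib.Thorp.Casimir
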