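/-
Theorem A for S0222, the level lemma: on `range (levelE k)` the Laplacian `Lap lam` is at least
`k / 2`, hence `u ⬝ exp (-c L) u ≤ exp (-c k / 2) u ⬝ u` there.  (helper2's lemma, in the rep-free
form with swap invariance.)
-/
import Crest.Agent.Lib.Thorp.CasimirBlock

set_option autoImplicit false
set_option linter.unusedSectionVars false

namespace Crest.Agent.Lib.Thorp.Casimir

open Matrix NormedSpace

section General

variable {Ω X : Type*} [DecidableEq Ω] [Fintype X] [DecidableEq X]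
  (ρ : Equiv.Perm Ω →* Matrix X X ℝ)

/-- The Casimir of `W` (ordered pairs). -/
noncomputable def Cas (W : Finset Ω) : Matrix X X ℝ :=
  ∑ i ∈ W, ∑ j ∈ W, (1 - ρ (Equiv.swap i j))

/-- All swaps inside `Z` fix `v`. -/
def InvOn (Z : Finset Ω) (v : X → ℝ) : Prop :=
  ∀ a ∈ Z, ∀ b ∈ Z, ρ (Equiv.swap a b) *ᵥ v = v

variable {ρ}

lemma rep_swap_conj (g : Equiv.Perm Ω) (i j : Ω) :
    ρ g * ρ (Equiv.swap i j) = ρ (Equiv.swap (g i) (g j)) * ρ g := by
  have h : Equiv.swap (g i) (g j) * g = g * Equiv.swap i j := by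
    rw [Equiv.swap_apply_apply]
    group
  rw [← map_mul, ← map_mul, h]

/-- A permutation preserving `W` commutes with the Casimir of `W`. -/
lemma Cas_comm_of_preserve {W : Finset Ω} (g : Equiv.Perm Ω) (hg : ∀ i, i ∈ W ↔ g i ∈ W) :
    ρ g * Cas ρ W = Cas ρ W * ρ g := by
  unfold Cas
  have key : ∀ i j, ρ g * (1 - ρ (Equiv.swap i j)) = (1 - ρ (Equiv.swap (g i) (g j))) * ρ g := by
    intro i j
    rw [mul_sub, sub_mul, mul_one, one_mul, rep_swap_conj]
  rw [Finset.mul_sum, Finset.sum_mul]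
  refine Finset.sum_equiv g hg ?_
  intro i _
  rw [Finset.mul_sum, Finset.sum_mul]
  refine Finset.sum_equiv g hg ?_
  intro j _
  exact key i j

lemma swap_preserve {W : Finset Ω} {a b : Ω} (ha : a ∈ W) (hb : b ∈ W) (i : Ω) :
    i ∈ W ↔ Equiv.swap a b i ∈ W := by
  by_cases h1 : i = a
  · subst h1; simp [ha, hb]
  · by_cases h2 : i = b
    · subst h2; simp [ha, hb]
    · rw [Equiv.swap_apply_of_ne_of_ne h1 h2]

lemma Cas_comm_swap {W : Finset Ω} {a b : Ω} (ha : a ∈ W) (hb : b ∈ W) :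
    ρ (Equiv.swap a b) * Cas ρ W = Cas ρ W * ρ (Equiv.swap a b) :=
  Cas_comm_of_preserve _ (swap_preserve ha hb)

/-- The Casimir splits along a subset. -/
lemma Cas_split {W Z : Finset Ω} (hZ : Z ⊆ W) :
    Cas ρ W = Cas ρ Z + Cas ρ (W \ Z) +
      (2 : ℝ) • ∑ a ∈ W \ Z, ∑ z ∈ Z, (1 - ρ (Equiv.swap z a)) := by
  unfold Cas
  set F : Ω → Ω → Matrix X X ℝ := fun i j => 1 - ρ (Equiv.swap i j) with hF
  have hsym : ∀ i j, F i j = F j i := by
    intro i j
    simp [hF, Equiv.swap_comm]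
  have h1 : ∀ i, ∑ j ∈ W, F i j = ∑ j ∈ W \ Z, F i j + ∑ j ∈ Z, F i j := fun i =>
    (Finset.sum_sdiff hZ).symm
  have h2 : ∑ i ∈ W, ∑ j ∈ W, F i j =
      ∑ i ∈ W \ Z, ∑ j ∈ W, F i j + ∑ i ∈ Z, ∑ j ∈ W, F i j := (Finset.sum_sdiff hZ).symm
  rw [h2]
  simp_rw [h1, Finset.sum_add_distrib]
  have h3 : ∑ i ∈ Z, ∑ j ∈ W \ Z, F i j = ∑ a ∈ W \ Z, ∑ z ∈ Z, F z a := by
    rw [Finset.sum_comm]
  have h4 : ∑ i ∈ W \ Z, ∑ j ∈ Z, F i j = ∑ a ∈ W \ Z, ∑ z ∈ Z, F z a := by
    refine Finset.sum_congr rfl fun a _ => Finset.sum_congr rfl fun z _ => hsym _ _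
  rw [h3, h4, two_smul]
  abel

lemma InvOn_mono {Z Z' : Finset Ω} (h : Z ⊆ Z') {v : X → ℝ} (hv : InvOn ρ Z' v) : InvOn ρ Z v :=
  fun a ha b hb => hv a (h ha) b (h hb)

/-- The Casimir of `Z` kills vectors invariant under `Z`. -/
lemma Cas_mulVec_of_inv {Z : Finset Ω} {v : X → ℝ} (hv : InvOn ρ Z v) : Cas ρ Z *ᵥ v = 0 := by
  unfold Cas
  rw [Matrix.sum_mulVec]
  refine Finset.sum_eq_zero fun i hi => ?_
  rw [Matrix.sum_mulVec]
  refine Finset.sum_eq_zero fun j hj => ?_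
  rw [Matrix.sub_mulVec, Matrix.one_mulVec, hv i hi j hj, sub_self]

/-- The coset identity: symmetrising over `Z + a`. -/
lemma coset_inv {Z : Finset Ω} {a : Ω} (ha : a ∉ Z) {h : X → ℝ} (hZ : InvOn ρ Z h) :
    InvOn ρ (insert a Z) (h + ∑ z ∈ Z, ρ (Equiv.swap z a) *ᵥ h) := by
  set h' := h + ∑ z ∈ Z, ρ (Equiv.swap z a) *ᵥ h with hh'
  -- swaps inside `Z`
  have h1 : ∀ u ∈ Z, ∀ v ∈ Z, ρ (Equiv.swap u v) *ᵥ h' = h' := by
    intro u hu v hv
    rw [hh', Matrix.mulVec_add, hZ u hu v hv, Matrix.mulVec_sum]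
    congr 1
    refine Finset.sum_equiv (Equiv.swap u v) (swap_preserve hu hv) ?_
    intro z _
    have hau : a ≠ u := fun e => ha (e ▸ hu)
    have hav : a ≠ v := fun e => ha (e ▸ hv)
    rw [Matrix.mulVec_mulVec, rep_swap_conj, Equiv.swap_apply_of_ne_of_ne hau hav,
      ← Matrix.mulVec_mulVec, hZ u hu v hv]
  -- swaps with `a`
  have h2 : ∀ u ∈ Z, ρ (Equiv.swap u a) *ᵥ h' = h' := by
    intro u hu
    have hau : u ≠ a := fun e => ha (e ▸ hu)
    have key : ∀ z ∈ Z.erase u, ρ (Equiv.swap u a) *ᵥ (ρ (Equiv.swap z a) *ᵥ h) =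
        ρ (Equiv.swap z a) *ᵥ h := by
      intro z hz
      have hzZ : z ∈ Z := Finset.mem_of_mem_erase hz
      have hzu : z ≠ u := Finset.ne_of_mem_erase hz
      have hza : z ≠ a := fun e => ha (e ▸ hzZ)
      have e : Equiv.swap u a * Equiv.swap z a = Equiv.swap z a * Equiv.swap u z := by
        have := Equiv.swap_apply_apply (Equiv.swap z a) u z
        rw [Equiv.swap_apply_of_ne_of_ne hzu.symm hau, Equiv.swap_apply_left] at this
        rw [Equiv.swap_comm z a] at this ⊢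
        rw [Equiv.swap_comm a z] at this
        rw [this, Equiv.swap_comm a z]
        simp [mul_assoc]
      rw [Matrix.mulVec_mulVec, ← map_mul, e, map_mul, ← Matrix.mulVec_mulVec, hZ u hu z hzZ]
    rw [hh', Matrix.mulVec_add, Matrix.mulVec_sum, ← Finset.add_sum_erase Z _ hu,
      ← Finset.add_sum_erase Z (fun z => ρ (Equiv.swap z a) *ᵥ h) hu]
    rw [Finset.sum_congr rfl key, Matrix.mulVec_mulVec, ← map_mul, Equiv.swap_mul_self, map_one,
      Matrix.one_mulVec]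
    abel
  intro u hu v hv
  rcases Finset.mem_insert.mp hu with rfl | hu'
  · rcases Finset.mem_insert.mp hv with rfl | hv'
    · rw [Equiv.swap_self, show ρ (Equiv.refl Ω) = 1 from map_one ρ, Matrix.one_mulVec]
    · rw [Equiv.swap_comm]
      exact h2 v hv'
  · rcases Finset.mem_insert.mp hv with rfl | hv'
    · exact h2 u hu'
    · exact h1 u hu' v hv'

/-- The eigenspace of the Casimir inside `U`. -/
def eigenSub (U : Submodule ℝ (X → ℝ)) (W : Finset Ω) (μ : ℝ) : Submodule ℝ (X → ℝ) where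
  carrier := {v | v ∈ U ∧ Cas ρ W *ᵥ v = μ • v}
  add_mem' := by
    rintro u v ⟨hu, hu'⟩ ⟨hv, hv'⟩
    refine ⟨U.add_mem hu hv, ?_⟩
    rw [Matrix.mulVec_add, hu', hv', smul_add]
  zero_mem' := ⟨U.zero_mem, by simp⟩
  smul_mem' := by
    rintro c v ⟨hv, hv'⟩
    refine ⟨U.smul_mem c hv, ?_⟩
    rw [Matrix.mulVec_smul, hv', smul_comm]

omit [Fintype X] [DecidableEq X] in
private lemma real_step (N y y0 μ : ℝ) (hy0 : 0 ≤ y0) (h1 : y0 ≤ N) (hN : 0 ≤ N)
    (hy : y0 ≤ y)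
    (hind : (N - y0) * (N - y0 - y0) ≤ μ - 2 * (N - y0) * (y0 + 1)) : N * (N - y) ≤ μ := by
  have h2 : (N - y0) * (N + 2) ≤ μ := by nlinarith
  by_cases hyN : y ≤ N
  · have h3 : 0 ≤ N - y := by linarith
    have h4 : N - y ≤ N - y0 := by linarith
    have : N * (N - y) ≤ (N - y0) * (N + 2) := by nlinarith
    linarith
  · have h3 : N - y ≤ 0 := by linarith
    have : N * (N - y) ≤ 0 := mul_nonpos_of_nonneg_of_nonpos hN h3
    have h5 : 0 ≤ (N - y0) * (N + 2) := mul_nonneg (by linarith) (by linarith)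
    linarith

/-- **The level lemma, general form.** -/
theorem level_aux (n : ℕ) : ∀ (W : Finset Ω), W.card = n →
    ∀ (U : Submodule ℝ (X → ℝ)),
      (∀ a ∈ W, ∀ b ∈ W, ∀ v ∈ U, ρ (Equiv.swap a b) *ᵥ v ∈ U) →
    ∀ (μ : ℝ) (y : ℕ),
      (∀ Y : Finset Ω, Y ⊆ W → y < Y.card → ∀ h ∈ U, Cas ρ W *ᵥ h = μ • h → InvOn ρ Y h → h = 0) →
    ∀ h ∈ U, h ≠ 0 → Cas ρ W *ᵥ h = μ • h →
      (W.card : ℝ) * ((W.card : ℝ) - (y : ℝ)) ≤ μ := by
  induction n using Nat.strong_induction_on with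
  | _ n ih =>
  intro W hWn U hU μ y hY h hhU hh0 hhμ
  classical
  rcases W.eq_empty_or_nonempty with rfl | ⟨a0, ha0⟩
  · have h0 : μ • h = 0 := by
      rw [← hhμ]
      simp [Cas]
    have hμ : μ = 0 := by
      rcases smul_eq_zero.mp h0 with h1 | h1
      · exact h1
      · exact absurd h1 hh0
    simp [hμ]
  -- choose `Z` of maximal cardinality
  let Zs : Finset (Finset Ω) := W.powerset.filter (fun Z =>
    ∃ h ∈ U, h ≠ 0 ∧ Cas ρ W *ᵥ h = μ • h ∧ InvOn ρ Z h)
  have hne : Zs.Nonempty := by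
    refine ⟨{a0}, ?_⟩
    rw [Finset.mem_filter, Finset.mem_powerset]
    refine ⟨by simpa using ha0, h, hhU, hh0, hhμ, ?_⟩
    intro a ha b hb
    have ha' : a = a0 := by simpa using ha
    have hb' : b = a0 := by simpa using hb
    rw [ha', hb', Equiv.swap_self, show ρ (Equiv.refl Ω) = 1 from map_one ρ, Matrix.one_mulVec]
  obtain ⟨Z, hZmem, hZmax⟩ := Finset.exists_max_image Zs Finset.card hne
  obtain ⟨hZW, h1, hh1U, hh10, hh1μ, hZinv⟩ : Z ⊆ W ∧ ∃ h ∈ U, h ≠ 0 ∧ Cas ρ W *ᵥ h = μ • h ∧ InvOn ρ Z h := by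
    have := Finset.mem_filter.mp hZmem
    exact ⟨Finset.mem_powerset.mp this.1, this.2⟩
  -- `Z` is not empty
  have hZcard : 1 ≤ Z.card := by
    have : ({a0} : Finset Ω) ∈ Zs := by
      rw [Finset.mem_filter, Finset.mem_powerset]
      refine ⟨by simpa using ha0, h, hhU, hh0, hhμ, ?_⟩
      intro a ha b hb
      have ha' : a = a0 := by simpa using ha
      have hb' : b = a0 := by simpa using hb
      rw [ha', hb', Equiv.swap_self, show ρ (Equiv.refl Ω) = 1 from map_one ρ, Matrix.one_mulVec]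
    have := hZmax _ this
    simpa using this
  have hZy : Z.card ≤ y := by
    by_contra hcon
    exact hh10 (hY Z hZW (by omega) h1 hh1U hh1μ hZinv)
  -- the key identity
  have hkey : ∀ a ∈ W \ Z, ∑ z ∈ Z, ρ (Equiv.swap z a) *ᵥ h1 = -h1 := by
    intro a haW
    have ha : a ∉ Z := (Finset.mem_sdiff.mp haW).2
    have haW' : a ∈ W := (Finset.mem_sdiff.mp haW).1
    set h' := h1 + ∑ z ∈ Z, ρ (Equiv.swap z a) *ᵥ h1 with hh'
    have hinv : InvOn ρ (insert a Z) h' := coset_inv ha hZinv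
    have hU' : h' ∈ U := by
      refine U.add_mem hh1U (U.sum_mem fun z hz => ?_)
      exact hU z (hZW hz) a haW' h1 hh1U
    have hμ' : Cas ρ W *ᵥ h' = μ • h' := by
      rw [hh', Matrix.mulVec_add, Matrix.mulVec_sum, hh1μ, smul_add, Finset.smul_sum]
      congr 1
      refine Finset.sum_congr rfl fun z hz => ?_
      rw [Matrix.mulVec_mulVec, ← Cas_comm_swap (hZW hz) haW', ← Matrix.mulVec_mulVec, hh1μ,
        Matrix.mulVec_smul]
    have h0 : h' = 0 := by
      by_contra hne0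
      have hmem : insert a Z ∈ Zs := by
        rw [Finset.mem_filter, Finset.mem_powerset]
        refine ⟨Finset.insert_subset haW' hZW, h', hU', hne0, hμ', hinv⟩
      have := hZmax _ hmem
      rw [Finset.card_insert_of_notMem ha] at this
      omega
    rw [hh'] at h0
    exact eq_neg_of_add_eq_zero_right h0
  -- the residual eigenvalue
  set y0 := Z.card with hy0
  set μ'' : ℝ := μ - 2 * ((W.card : ℝ) - y0) * ((y0 : ℝ) + 1) with hμ''
  have hcard'' : (W \ Z).card = W.card - y0 := Finset.card_sdiff_of_subset hZW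
  have hcardle : y0 ≤ W.card := Finset.card_le_card hZW
  have hcast'' : ((W \ Z).card : ℝ) = (W.card : ℝ) - y0 := by
    rw [hcard'', Nat.cast_sub hcardle]
  have hμ1 : Cas ρ (W \ Z) *ᵥ h1 = μ'' • h1 := by
    have hsplit : Cas ρ W *ᵥ h1 = _ *ᵥ h1 := congrArg (fun A => A *ᵥ h1) (Cas_split (ρ := ρ) hZW)
    rw [hh1μ, Matrix.add_mulVec, Matrix.add_mulVec, Cas_mulVec_of_inv hZinv, zero_add,
      Matrix.smul_mulVec, Matrix.sum_mulVec] at hsplit
    have hsum : ∑ a ∈ W \ Z, (∑ z ∈ Z, (1 - ρ (Equiv.swap z a))) *ᵥ h1 =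
        (((W.card : ℝ) - y0) * ((y0 : ℝ) + 1)) • h1 := by
      have : ∀ a ∈ W \ Z, (∑ z ∈ Z, (1 - ρ (Equiv.swap z a))) *ᵥ h1 = ((y0 : ℝ) + 1) • h1 := by
        intro a ha
        rw [Matrix.sum_mulVec]
        simp_rw [Matrix.sub_mulVec, Matrix.one_mulVec]
        rw [Finset.sum_sub_distrib, hkey a ha, Finset.sum_const, ← hy0, sub_neg_eq_add, add_smul,
          one_smul, Nat.cast_smul_eq_nsmul]
      rw [Finset.sum_congr rfl this, Finset.sum_const, ← Nat.cast_smul_eq_nsmul ℝ, smul_smul,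
        hcast'']
    rw [hsum] at hsplit
    rw [hμ'', sub_smul, hsplit]
    have : (2 * ((W.card : ℝ) - y0) * ((y0 : ℝ) + 1)) • h1 =
        (2 : ℝ) • ((((W.card : ℝ) - y0) * ((y0 : ℝ) + 1)) • h1) := by
      rw [smul_smul]
      congr 1
      ring
    rw [this]
    abel
  -- apply the induction hypothesis
  have hlt : (W \ Z).card < n := by omega
  have hind := ih _ hlt (W \ Z) rfl (eigenSub (ρ := ρ) U W μ)
    (by
      rintro a ha b hb v ⟨hv, hv'⟩
      have ha' := (Finset.mem_sdiff.mp ha).1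
      have hb' := (Finset.mem_sdiff.mp hb).1
      refine ⟨hU a ha' b hb' v hv, ?_⟩
      rw [Matrix.mulVec_mulVec, ← Cas_comm_swap ha' hb', ← Matrix.mulVec_mulVec, hv',
        Matrix.mulVec_smul])
    μ'' y0
    (by
      rintro Y hYsub hYcard g ⟨hgU, hgμ⟩ _ hgY
      by_contra hg0
      have hmem : Y ∈ Zs := by
        rw [Finset.mem_filter, Finset.mem_powerset]
        exact ⟨hYsub.trans Finset.sdiff_subset, g, hgU, hg0, hgμ, hgY⟩
      have := hZmax _ hmem
      omega)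
    h1 ⟨hh1U, hh1μ⟩ hh10 hμ1
  rw [hcast''] at hind
  have hy0le : (y0 : ℝ) ≤ (W.card : ℝ) := by exact_mod_cast hcardle
  exact real_step _ _ _ _ (by positivity) hy0le (by positivity) (by exact_mod_cast hZy) hind

end General

/-! ### The right regular representation -/

section Right

variable {G : Type*} [Group G] [Fintype G] [DecidableEq G]

/-- The right regular representation. -/
noncomputable def rightRep : G →* Matrix G G ℝ where
  toFun g := rightMat g
  map_one' := by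
    apply mat_ext_of_mulVec
    intro f
    funext x
    rw [rightMat_mulVec, Matrix.one_mulVec, mul_one]
  map_mul' a b := by
    apply mat_ext_of_mulVec
    intro f
    funext x
    rw [← Matrix.mulVec_mulVec, rightMat_mulVec, rightMat_mulVec, rightMat_mulVec, mul_assoc]

lemma rightRep_apply (g : G) : rightRep g = rightMat g := rfl

end Right

section Levels

variable {Ω : Type*} [Fintype Ω] [DecidableEq Ω]

/-- The Laplacian of the left regular representation, via the right one. -/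
lemma Lap_lam_eq : Lap (lam : Equiv.Perm Ω →* _) =
    (2 * (Fintype.card Ω : ℝ))⁻¹ • Cas (rightRep : Equiv.Perm Ω →* _) Finset.univ := by
  unfold Lap Cas
  congr 1
  apply mat_ext_of_mulVec
  intro f
  funext x
  simp only [Matrix.sum_mulVec, Finset.sum_apply, Matrix.sub_mulVec, Matrix.one_mulVec,
    Pi.sub_apply, lam_mulVec, rightRep_apply, rightMat_mulVec]
  refine Fintype.sum_equiv x⁻¹ _ _ ?_
  intro i
  refine Fintype.sum_equiv x⁻¹ _ _ ?_
  intro j
  congr 2
  rw [Equiv.swap_inv, Equiv.swap_apply_apply x⁻¹ i j]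
  group

/-- Swap invariance on `Y` gives invariance under everything fixing the complement of `Y`. -/
lemma inv_of_fix {Y : Finset Ω} {f : Equiv.Perm Ω → ℝ}
    (hf : InvOn (rightRep : Equiv.Perm Ω →* _) Y f) (τ : Equiv.Perm Ω) (hτ : ∀ a, a ∉ Y → τ a = a)
    (x : Equiv.Perm Ω) : f (x * τ) = f x := by
  have hsw : ∀ a ∈ Y, ∀ b ∈ Y, ∀ x, f (x * Equiv.swap a b) = f x := by
    intro a ha b hb x
    have := congrFun (hf a ha b hb) x
    rwa [rightRep_apply, rightMat_mulVec] at this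
  have hp : ∀ a, a ∈ Y ↔ τ a ∈ Y := by
    intro a
    by_cases ha : a ∈ Y
    · simp only [ha, true_iff]
      by_contra hc
      have h1 := hτ _ hc
      have h2 := τ.injective h1
      exact hc (by rw [h2]; exact ha)
    · rw [hτ a ha]
  have hp' : ∀ a, τ a ∈ Y ↔ a ∈ Y := fun a => (hp a).symm
  have hrep : Equiv.Perm.ofSubtype (τ.subtypePerm hp') = τ :=
    Equiv.Perm.ofSubtype_subtypePerm (p := fun a => a ∈ Y) hp' (fun a ha => by
      by_contra hc
      exact ha (hτ a hc))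
  suffices key : ∀ (σ : Equiv.Perm {a // a ∈ Y}) (x : Equiv.Perm Ω),
      f (x * Equiv.Perm.ofSubtype σ) = f x by
    have := key (τ.subtypePerm hp') x
    rwa [hrep] at this
  intro σ
  induction σ using Equiv.Perm.swap_induction_on with
  | one => intro x; simp
  | swap_mul σ a b _ ih =>
    intro x
    rw [map_mul, Equiv.Perm.ofSubtype_swap_eq, ← mul_assoc, ih, hsw a a.2 b b.2]

lemma mem_VS_of_inv {Y : Finset Ω} {f : Equiv.Perm Ω → ℝ}
    (hf : InvOn (rightRep : Equiv.Perm Ω →* _) Y f) : f ∈ VS Yᶜ := by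
  intro x y hxy
  have h := inv_of_fix hf (x⁻¹ * y) (by
    intro a ha
    have := hxy a (Finset.mem_compl.mpr ha)
    simp [← this]) x
  rw [← h]
  simp

lemma levelE_succ (k : ℕ) : levelE (Ω := Ω) (k + 1) = projMat (levelV (k + 1)) - projMat (levelV k) :=
  rfl

/-- `levelE (k+1)` annihilates the lower level. -/
lemma levelE_succ_mulVec_of_mem (k : ℕ) {f : Equiv.Perm Ω → ℝ} (hf : f ∈ levelV (Ω := Ω) k) :
    levelE (k + 1) *ᵥ f = 0 := by
  rw [levelE_succ, Matrix.sub_mulVec, projMat_fix _ f hf, projMat_fix _ f (levelV_mono (Nat.le_succ k) hf),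
    sub_self]

lemma levelE_eq_zero_of_gt {k : ℕ} (hk : Fintype.card Ω < k) : levelE (Ω := Ω) k = 0 := by
  obtain ⟨j, rfl⟩ : ∃ j, k = j + 1 := ⟨k - 1, by omega⟩
  have h1 : levelV (Ω := Ω) j = ⊤ := by
    rw [eq_top_iff, ← levelV_top]
    exact levelV_mono (by omega)
  have h2 : levelV (Ω := Ω) (j + 1) = ⊤ := by
    rw [eq_top_iff, ← levelV_top]
    exact levelV_mono (by omega)
  rw [levelE_succ, h1, h2, sub_self]

/-- The submodule fixed by `levelE k`. -/
def levelFix (k : ℕ) : Submodule ℝ (Equiv.Perm Ω → ℝ) where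
  carrier := {v | levelE (Ω := Ω) k *ᵥ v = v}
  add_mem' := by
    intro u v hu hv
    simp only [Set.mem_ofPred_eq] at hu hv ⊢
    rw [Matrix.mulVec_add, hu, hv]
  zero_mem' := by simp
  smul_mem' := by
    intro c v hv
    simp only [Set.mem_ofPred_eq] at hv ⊢
    rw [Matrix.mulVec_smul, hv]

lemma mem_levelFix {k : ℕ} {v : Equiv.Perm Ω → ℝ} : v ∈ levelFix k ↔ levelE k *ᵥ v = v := Iff.rfl

/-- **The level lemma**: an eigenvalue of the Laplacian on `range (levelE k)` is at least `k / 2`. -/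
theorem level_ge {k : ℕ} {u : Equiv.Perm Ω → ℝ} (hu : levelE k *ᵥ u = u) (hu0 : u ≠ 0) {x : ℝ}
    (hx : Lap (lam : Equiv.Perm Ω →* _) *ᵥ u = x • u) : (k : ℝ) / 2 ≤ x := by
  set N := Fintype.card Ω with hN
  have hkN : k ≤ N := by
    by_contra hc
    rw [levelE_eq_zero_of_gt (by omega), Matrix.zero_mulVec] at hu
    exact hu0 hu.symm
  rcases Nat.eq_zero_or_pos N with hN0 | hNpos
  · have hk0 : k = 0 := by omega
    subst hk0
    have : Lap (lam : Equiv.Perm Ω →* _) = 0 := by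
      unfold Lap
      rw [← hN, hN0]
      simp
    rw [this, Matrix.zero_mulVec] at hx
    have hx0 : x = 0 := by
      rcases smul_eq_zero.mp hx.symm with h | h
      · exact h
      · exact absurd h hu0
    simp [hx0]
  have hNR : (0 : ℝ) < N := by exact_mod_cast hNpos
  have hCas : Cas (rightRep : Equiv.Perm Ω →* _) Finset.univ *ᵥ u = (2 * (N : ℝ) * x) • u := by
    rw [Lap_lam_eq, Matrix.smul_mulVec] at hx
    have h2 : (2 * (N : ℝ)) • ((2 * (N : ℝ))⁻¹ • Cas (rightRep : Equiv.Perm Ω →* _) Finset.univ *ᵥ u)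
        = (2 * (N : ℝ)) • (x • u) := by rw [hx]
    rw [smul_smul, mul_inv_cancel₀ (by positivity), one_smul, smul_smul] at h2
    exact h2
  have hlev := level_aux (ρ := (rightRep : Equiv.Perm Ω →* _)) N Finset.univ (by simp [hN])
    (levelFix k)
    (by
      intro a _ b _ v hv
      rw [mem_levelFix] at hv ⊢
      rw [rightRep_apply, Matrix.mulVec_mulVec, ← levelE_comm_rightMat, ← Matrix.mulVec_mulVec, hv])
    (2 * (N : ℝ) * x) (N - k)
    (by
      intro Y _ hYc h hh _ hinv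
      have hVS := mem_VS_of_inv hinv
      have hcompl : (Yᶜ).card < k := by
        rw [Finset.card_compl]
        have : Y.card ≤ N := Finset.card_le_univ Y
        omega
      obtain ⟨j, rfl⟩ : ∃ j, k = j + 1 := ⟨k - 1, by omega⟩
      have hmem : h ∈ levelV (Ω := Ω) j := VS_le_levelV (by omega) hVS
      have := levelE_succ_mulVec_of_mem j hmem
      rw [mem_levelFix] at hh
      rw [← hh, this])
    u hu hu0 hCas
  have hcardU : ((Finset.univ : Finset Ω).card : ℝ) = N := by simp [hN]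
  rw [hcardU, Nat.cast_sub hkN] at hlev
  have : (N : ℝ) * (k : ℝ) ≤ (N : ℝ) * (2 * x) := by nlinarith
  have := le_of_mul_le_mul_left this hNR
  linarith

/-- `Lap lam` commutes with `levelE k`. -/
lemma Lap_comm_levelE (k : ℕ) :
    Lap (lam : Equiv.Perm Ω →* _) * levelE k = levelE k * Lap (lam : Equiv.Perm Ω →* _) := by
  have hcomm : ∀ g : Equiv.Perm Ω, (lam g) * levelE k = levelE k * lam g := by
    intro g
    exact levelE_comm_regMat _ k
  unfold Lap
  rw [Matrix.smul_mul, Matrix.mul_smul]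
  congr 1
  rw [Finset.sum_mul, Finset.mul_sum]
  refine Finset.sum_congr rfl fun i _ => ?_
  rw [Finset.sum_mul, Finset.mul_sum]
  refine Finset.sum_congr rfl fun j _ => ?_
  rw [sub_mul, mul_sub, one_mul, mul_one, hcomm]

end Levels

section Exp

variable {ι : Type*} [Fintype ι] [DecidableEq ι]

/-- The exponential on an eigenvector. -/
lemma exp_mulVec_eigen {A : Matrix ι ι ℝ} {b : ι → ℝ} {t : ℝ} (h : A *ᵥ b = t • b) :
    exp A *ᵥ b = Real.exp t • b := by
  have hpow : ∀ j : ℕ, A ^ j *ᵥ b = t ^ j • b := by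
    intro j
    induction j with
    | zero => simp
    | succ j ih =>
      rw [pow_succ, ← Matrix.mulVec_mulVec, h, Matrix.mulVec_smul, ih, smul_smul, pow_succ]
      congr 1
      ring
  funext i
  have h1 := hasSum_quad A b (Pi.single i 1)
  have h2 : HasSum (fun j : ℕ => ((j.factorial : ℝ))⁻¹ * ((Pi.single i 1 : ι → ℝ) ⬝ᵥ (A ^ j *ᵥ b)))
      (Real.exp t * b i) := by
    have h3 := (NormedSpace.expSeries_div_hasSum_exp (𝔸 := ℝ) t).mul_right (b i)
    rw [← Real.exp_eq_exp_ℝ] at h3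
    have he : (fun j : ℕ => ((j.factorial : ℝ))⁻¹ * ((Pi.single i 1 : ι → ℝ) ⬝ᵥ (A ^ j *ᵥ b))) =
        fun j : ℕ => t ^ j / (j.factorial : ℝ) * b i := by
      funext j
      rw [hpow]
      simp [dotProduct_smul, div_eq_inv_mul]
      ring
    rw [he]
    exact h3
  have h4 := h1.unique h2
  simp only [single_one_dotProduct] at h4
  simpa using h4

/-- The quadratic form of `exp (-c L)` from a lower bound for the eigenvalues seen by `u`. -/
theorem quad_exp_le_of_eigen {L : Matrix ι ι ℝ} (hL : Lᵀ = L) (u : ι → ℝ) {c : ℝ} (hc : 0 ≤ c)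
    (lb : ℝ) (h : ∀ (μ : ℝ) (b : ι → ℝ), b ≠ 0 → L *ᵥ b = μ • b → b ⬝ᵥ u ≠ 0 → lb ≤ μ) :
    u ⬝ᵥ (exp ((-c) • L) *ᵥ u) ≤ Real.exp (-c * lb) * (u ⬝ᵥ u) := by
  have hH : L.IsHermitian := by
    rw [Matrix.IsHermitian, Matrix.conjTranspose_eq_transpose_of_trivial]
    exact hL
  set b := hH.eigenvectorBasis with hb
  have hne : ∀ j, WithLp.ofLp (b j) ≠ 0 := by
    intro j h0
    have h1 : b j = 0 := by
      have : (b j) = WithLp.toLp 2 (WithLp.ofLp (b j)) := rfl
      rw [this, h0]; rfl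
    exact b.orthonormal.ne_zero j h1
  have hev : ∀ j, L *ᵥ WithLp.ofLp (b j) = hH.eigenvalues j • WithLp.ofLp (b j) :=
    fun j => hH.mulVec_eigenvectorBasis j
  set u' : EuclideanSpace ℝ ι := WithLp.toLp 2 u with hu'
  have hinner : ∀ j, WithLp.ofLp (b j) ⬝ᵥ u = inner ℝ (b j) u' := by
    intro j
    rw [EuclideanSpace.inner_eq_star_dotProduct]
    simp [hu', dotProduct_comm]
  have hu_sum : u = ∑ j, (inner ℝ (b j) u') • WithLp.ofLp (b j) := by
    have := b.sum_repr' u'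
    have h2 := congrArg WithLp.ofLp this
    rw [hu'] at h2
    simp only [WithLp.ofLp_sum, WithLp.ofLp_smul] at h2
    exact h2.symm
  have hdot : u ⬝ᵥ u = ∑ j, (inner ℝ (b j) u') ^ 2 := by
    have h3 := b.sum_sq_norm_inner_right u'
    have h4 : ‖u'‖ ^ 2 = u ⬝ᵥ u := by
      rw [EuclideanSpace.norm_sq_eq]
      simp [hu', dotProduct, sq]
    rw [← h4, ← h3]
    refine Finset.sum_congr rfl fun j _ => ?_
    simp
  have hexp : ∀ j, exp ((-c) • L) *ᵥ WithLp.ofLp (b j) =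
      Real.exp (-c * hH.eigenvalues j) • WithLp.ofLp (b j) := by
    intro j
    apply exp_mulVec_eigen
    rw [Matrix.smul_mulVec, hev, smul_smul]
  have hquad : u ⬝ᵥ (exp ((-c) • L) *ᵥ u) =
      ∑ j, Real.exp (-c * hH.eigenvalues j) * (inner ℝ (b j) u') ^ 2 := by
    have h5 : exp ((-c) • L) *ᵥ u =
        ∑ j, (inner ℝ (b j) u') • (Real.exp (-c * hH.eigenvalues j) • WithLp.ofLp (b j)) := by
      conv_lhs => rw [hu_sum]
      rw [Matrix.mulVec_sum]
      refine Finset.sum_congr rfl fun j _ => ?_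
      rw [Matrix.mulVec_smul, hexp j]
    rw [h5, dotProduct_sum]
    refine Finset.sum_congr rfl fun j _ => ?_
    rw [dotProduct_smul, dotProduct_smul, dotProduct_comm, hinner j]
    simp only [smul_eq_mul]
    ring
  rw [hquad, hdot, Finset.mul_sum]
  refine Finset.sum_le_sum fun j _ => ?_
  by_cases h0 : inner ℝ (b j) u' = (0 : ℝ)
  · simp [h0]
  · have hlb : lb ≤ hH.eigenvalues j := h _ _ (hne j) (hev j) (by rw [hinner]; exact h0)
    apply mul_le_mul_of_nonneg_right _ (sq_nonneg _)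
    apply Real.exp_le_exp.mpr
    nlinarith

end Exp

section Final

variable {Ω : Type*} [Fintype Ω] [DecidableEq Ω]

/-- On `range (levelE k)` the heat kernel is at most `exp (-c k / 2)`. -/
theorem quad_exp_level {k : ℕ} {u : Equiv.Perm Ω → ℝ} (hu : levelE k *ᵥ u = u) {c : ℝ} (hc : 0 ≤ c) :
    u ⬝ᵥ (exp ((-c) • Lap (lam : Equiv.Perm Ω →* _)) *ᵥ u) ≤
      Real.exp (-c * ((k : ℝ) / 2)) * (u ⬝ᵥ u) := by
  apply quad_exp_le_of_eigen (Lap_symm lam_isORep) u hc
  intro μ b _ hbμ hbu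
  have hEb : levelE k *ᵥ (levelE k *ᵥ b) = levelE k *ᵥ b := by
    rw [Matrix.mulVec_mulVec, levelE_idem]
  have hdot : (levelE k *ᵥ b) ⬝ᵥ u = b ⬝ᵥ u := by
    rw [mulVec_dot_of_symm (levelE_symm k), hu]
  have hne : levelE k *ᵥ b ≠ 0 := by
    intro h0
    apply hbu
    rw [← hdot, h0]
    simp
  have hL : Lap (lam : Equiv.Perm Ω →* _) *ᵥ (levelE k *ᵥ b) = μ • (levelE k *ᵥ b) := by
    rw [Matrix.mulVec_mulVec, Lap_comm_levelE, ← Matrix.mulVec_mulVec, hbμ, Matrix.mulVec_smul]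
  exact level_ge hEb hne hL

/-- The level pieces are contractions. -/
lemma levelE_dot_le (k : ℕ) (v : Equiv.Perm Ω → ℝ) :
    (levelE k *ᵥ v) ⬝ᵥ (levelE k *ᵥ v) ≤ v ⬝ᵥ v := by
  have h1 : (levelE k *ᵥ v) ⬝ᵥ (levelE k *ᵥ v) = v ⬝ᵥ (levelE k *ᵥ v) := by
    rw [mulVec_dot_of_symm (levelE_symm k), Matrix.mulVec_mulVec, levelE_idem]
  have h2 : (v - levelE k *ᵥ v) ⬝ᵥ (v - levelE k *ᵥ v) = v ⬝ᵥ v - v ⬝ᵥ (levelE k *ᵥ v) := by
    simp only [sub_dotProduct, dotProduct_sub]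
    rw [h1, dotProduct_comm (levelE k *ᵥ v) v]
    ring
  have h3 := dot_self_nonneg' (v - levelE k *ᵥ v)
  rw [h1]
  linarith

end Final

end Crest.Agent.Lib.Thorp.Casimir
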