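/-
Theorem A for S0222, final form: every level is contracted,
`‖T E_{k+1} v‖² ≤ exp (-(13/200) (k+1)) ‖v‖²`, for all `D`, `k` and `v`.
-/
import Crest.Agent.Lib.Thorp.CasimirChain
import Crest.Agent.Lib.Thorp.CasimirLevel

set_option autoImplicit false
set_option linter.unusedSectionVars false

namespace Crest.Agent.Lib.Thorp.Casimir

open Matrix NormedSpace

/-- **Theorem A.**  `‖T E_{k+1} v‖² ≤ exp (-(13/200) (k+1)) ‖v‖²`. -/
theorem highOp (D k : ℕ) (v : Equiv.Perm (Pos D) → ℝ) :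
    ((blockT D * levelE (k + 1)) *ᵥ v) ⬝ᵥ ((blockT D * levelE (k + 1)) *ᵥ v)
      ≤ Real.exp (-(13 / 200) * ((k + 1 : ℕ) : ℝ)) * (v ⬝ᵥ v) := by
  set u := levelE (k + 1) *ᵥ v with hu
  have hE : levelE (k + 1) *ᵥ u = u := by
    rw [hu, Matrix.mulVec_mulVec, levelE_idem]
  have hle : u ⬝ᵥ u ≤ v ⬝ᵥ v := levelE_dot_le _ _
  rw [← Matrix.mulVec_mulVec, ← hu]
  cases D with
  | zero =>
    -- on one position the Laplacian vanishes, so `u = 0`
    have hL : Lap (lam : Equiv.Perm (Pos 0) →* _) = 0 := by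
      unfold Lap
      have hs : ∀ i j : Pos 0, Equiv.swap i j = 1 := by
        intro i j
        rw [Subsingleton.elim i j, Equiv.swap_self]
        rfl
      simp [hs]
    have h := quad_exp_level (c := 1) (k := k + 1) hE zero_le_one
    rw [hL, smul_zero, NormedSpace.exp_zero, Matrix.one_mulVec] at h
    have h1 : Real.exp (-1 * (((k + 1 : ℕ) : ℝ) / 2)) < 1 := by
      rw [Real.exp_lt_one_iff]
      have : (0 : ℝ) < ((k + 1 : ℕ) : ℝ) := by positivity
      linarith
    have h0 : u ⬝ᵥ u = 0 := by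
      have hnn := dot_self_nonneg' u
      nlinarith
    have hu0 : u = 0 := dotProduct_self_eq_zero.mp h0
    rw [hu0, Matrix.mulVec_zero, dotProduct_zero]
    exact mul_nonneg (Real.exp_pos _).le (dot_self_nonneg' _)
  | succ D =>
    have hc := block_contract D (lam : Equiv.Perm (Pos (D + 1)) →* _) lam_isORep u
    rw [block_lam, ← quad_exp_half (Lap_symm lam_isORep)] at hc
    have e2 : (2 * (-(cSeq D / 2)) : ℝ) = -cSeq D := by ring
    rw [e2] at hc
    have hc0 : 0 ≤ cSeq D := by linarith [cSeq_lb' D]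
    have h1 := quad_exp_level (c := cSeq D) (k := k + 1) hE hc0
    have hnn := dot_self_nonneg' u
    have h2 : Real.exp (-cSeq D * (((k + 1 : ℕ) : ℝ) / 2)) ≤ Real.exp (-(13 / 200) * ((k + 1 : ℕ) : ℝ)) := by
      apply Real.exp_le_exp.mpr
      have : (0 : ℝ) < ((k + 1 : ℕ) : ℝ) := by positivity
      have h3 := cSeq_lb' D
      nlinarith
    calc _ ≤ _ := hc
      _ ≤ _ := h1
      _ ≤ Real.exp (-(13 / 200) * ((k + 1 : ℕ) : ℝ)) * (u ⬝ᵥ u) :=
        mul_le_mul_of_nonneg_right h2 hnn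
      _ ≤ _ := mul_le_mul_of_nonneg_left hle (Real.exp_pos _).le

end Crest.Agent.Lib.Thorp.Casimir
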