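/-
Thorp shuffle (S0222), module M4 of finding 993: the scalar closure of the removal recursion, for the
potential `pot m k = (19/20) (100 k / m)^(k/200)` (`k ≥ 2`), `pot m 0 = 1`, `pot m 1 = 0`.
Only finite sums of reals here: no operators.
-/
import Mathlib

set_option autoImplicit false

namespace Crest.Agent.Lib.Thorp.Closure

open Finset

/-- The binomial average `E f (Bin(s,1/2))`. -/
noncomputable def binE (s : ℕ) (f : ℕ → ℝ) : ℝ :=
  ∑ B ∈ range (s + 1), ((s.choose B : ℝ) / 2 ^ s) * f B

/-- The potential. -/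
noncomputable def pot (m k : ℕ) : ℝ :=
  if k = 0 then 1 else if k = 1 then 0 else (19 / 20) * ((100 * k / m : ℝ)) ^ ((k : ℝ) / 200)

@[simp] lemma pot_zero (m : ℕ) : pot m 0 = 1 := by simp [pot]
@[simp] lemma pot_one (m : ℕ) : pot m 1 = 0 := by simp [pot]
lemma pot_of_two_le (m k : ℕ) (hk : 2 ≤ k) :
    pot m k = (19 / 20) * ((100 * k / m : ℝ)) ^ ((k : ℝ) / 200) := by
  have h0 : k ≠ 0 := by omega
  have h1 : k ≠ 1 := by omega
  simp [pot, h0, h1]

lemma pot_nonneg (m k : ℕ) : 0 ≤ pot m k := by
  unfold pot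
  split_ifs
  · norm_num
  · norm_num
  · have : (0 : ℝ) ≤ 100 * k / m := by positivity
    have := Real.rpow_nonneg this ((k : ℝ) / 200)
    positivity

/-! ### Binomial averages -/

lemma binE_zero (f : ℕ → ℝ) : binE 0 f = f 0 := by
  simp [binE]

lemma binE_mono (s : ℕ) {f g : ℕ → ℝ} (h : ∀ B, f B ≤ g B) : binE s f ≤ binE s g := by
  unfold binE
  apply Finset.sum_le_sum
  intro B _
  apply mul_le_mul_of_nonneg_left (h B)
  positivity

lemma binE_succ (s : ℕ) (f : ℕ → ℝ) :
    binE (s + 1) f = (binE s f + binE s (fun B => f (B + 1))) / 2 := by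
  unfold binE
  rw [Finset.sum_range_succ' _ (s + 1)]
  have h1 : ∀ B ∈ range (s + 1), (((s + 1).choose (B + 1) : ℝ) / 2 ^ (s + 1)) * f (B + 1)
      = ((s.choose B : ℝ) / 2 ^ s) * f (B + 1) / 2
        + ((s.choose (B + 1) : ℝ) / 2 ^ s) * f (B + 1) / 2 := by
    intro B _
    rw [Nat.choose_succ_succ]
    push_cast
    rw [pow_succ]
    field_simp
  rw [Finset.sum_congr rfl h1, Finset.sum_add_distrib]
  have h2 : ∑ x ∈ range (s + 1), ((s.choose (x + 1) : ℝ) / 2 ^ s) * f (x + 1) / 2
        + (((s + 1).choose 0 : ℝ) / 2 ^ (s + 1)) * f 0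
      = (∑ B ∈ range (s + 1), ((s.choose B : ℝ) / 2 ^ s) * f B) / 2 := by
    have e1 := Finset.sum_range_succ' (fun x => ((s.choose x : ℝ) / 2 ^ s) * f x / 2) (s + 1)
    have e2 := Finset.sum_range_succ (fun x => ((s.choose x : ℝ) / 2 ^ s) * f x / 2) (s + 1)
    have e3 : s.choose (s + 1) = 0 := Nat.choose_succ_self s
    simp only [e3, Nat.cast_zero, zero_div, zero_mul, add_zero] at e2
    have e4 : (((s + 1).choose 0 : ℝ) / 2 ^ (s + 1)) * f 0 = ((s.choose 0 : ℝ) / 2 ^ s) * f 0 / 2 := by
      simp only [Nat.choose_zero_right, Nat.cast_one]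
      rw [pow_succ]
      field_simp
    rw [e4, ← e1, e2, Finset.sum_div]
  have h3 : ∑ B ∈ range (s + 1), ((s.choose B : ℝ) / 2 ^ s) * f (B + 1) / 2
      = (∑ B ∈ range (s + 1), ((s.choose B : ℝ) / 2 ^ s) * f (B + 1)) / 2 := by
    rw [Finset.sum_div]
  beta_reduce
  rw [add_div]
  linarith [h2, h3]

/-- The exponential moment of a sum of signs. -/
lemma binE_exp_sq (s : ℕ) (t : ℝ) (ht : 0 ≤ t) (hst : 2 * (s * t) < 1) :
    binE s (fun B => Real.exp (t * (2 * (B : ℝ) - s) ^ 2))
      ≤ Real.exp (s * t / (1 - 2 * (s * t))) := by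
  induction s generalizing t with
  | zero => simp [binE_zero]
  | succ s ih =>
    push_cast at hst ⊢
    set a : ℝ := s * t with ha
    have ha0 : 0 ≤ a := by positivity
    have hs1 : 2 * a + 2 * t < 1 := by rw [ha] at *; nlinarith
    have ha1 : 2 * a < 1 := by nlinarith
    have ht1 : 2 * t < 1 := by nlinarith
    set t' : ℝ := t + 2 * t ^ 2 with ht'
    have ht'0 : 0 ≤ t' := by positivity
    have hst' : 2 * (s * t') < 1 := by
      have : (s : ℝ) * t' = a * (1 + 2 * t) := by rw [ht', ha]; ring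
      rw [this]
      nlinarith
    have IH := ih t' ht'0 hst'
    -- one step
    have key : binE (s + 1) (fun B => Real.exp (t * (2 * (B : ℝ) - ((s : ℝ) + 1)) ^ 2))
        ≤ Real.exp t * binE s (fun B => Real.exp (t' * (2 * (B : ℝ) - s) ^ 2)) := by
      rw [binE_succ]
      have : Real.exp t * binE s (fun B => Real.exp (t' * (2 * (B : ℝ) - s) ^ 2))
          = binE s (fun B => Real.exp t * Real.exp (t' * (2 * (B : ℝ) - s) ^ 2)) := by
        unfold binE
        rw [Finset.mul_sum]
        refine Finset.sum_congr rfl fun B _ => by ring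
      rw [this]
      have h2 : (binE s (fun B => Real.exp (t * (2 * (B : ℝ) - ((s : ℝ) + 1)) ^ 2))
            + binE s (fun B => Real.exp (t * (2 * ((B + 1 : ℕ) : ℝ) - ((s : ℝ) + 1)) ^ 2))) / 2
          = binE s (fun B => (Real.exp (t * (2 * (B : ℝ) - ((s : ℝ) + 1)) ^ 2)
              + Real.exp (t * (2 * ((B + 1 : ℕ) : ℝ) - ((s : ℝ) + 1)) ^ 2)) / 2) := by
        unfold binE
        rw [← Finset.sum_add_distrib, Finset.sum_div]
        refine Finset.sum_congr rfl fun B _ => by ring
      rw [h2]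
      apply binE_mono
      intro B
      set S : ℝ := 2 * (B : ℝ) - s with hS
      have e1 : t * (2 * (B : ℝ) - ((s : ℝ) + 1)) ^ 2 = t * (S ^ 2 + 1) + (-(2 * t * S)) := by
        rw [hS]; ring
      have e2 : t * (2 * ((B + 1 : ℕ) : ℝ) - ((s : ℝ) + 1)) ^ 2 = t * (S ^ 2 + 1) + 2 * t * S := by
        rw [hS]; push_cast; ring
      rw [e1, e2, Real.exp_add, Real.exp_add]
      have hc : (Real.exp (2 * t * S) + Real.exp (-(2 * t * S))) / 2 ≤ Real.exp ((2 * t * S) ^ 2 / 2) := by
        have := Real.cosh_le_exp_half_sq (2 * t * S)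
        rwa [Real.cosh_eq] at this
      have hpos : 0 ≤ Real.exp (t * (S ^ 2 + 1)) := (Real.exp_pos _).le
      calc (Real.exp (t * (S ^ 2 + 1)) * Real.exp (-(2 * t * S))
            + Real.exp (t * (S ^ 2 + 1)) * Real.exp (2 * t * S)) / 2
          = Real.exp (t * (S ^ 2 + 1)) * ((Real.exp (2 * t * S) + Real.exp (-(2 * t * S))) / 2) := by ring
        _ ≤ Real.exp (t * (S ^ 2 + 1)) * Real.exp ((2 * t * S) ^ 2 / 2) :=
            mul_le_mul_of_nonneg_left hc hpos
        _ = Real.exp t * Real.exp (t' * S ^ 2) := by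
            rw [← Real.exp_add, ← Real.exp_add]
            congr 1
            rw [ht']; ring
    refine key.trans ?_
    have hpos : 0 < Real.exp t := Real.exp_pos _
    refine (mul_le_mul_of_nonneg_left IH hpos.le).trans ?_
    rw [← Real.exp_add]
    apply Real.exp_le_exp.mpr
    -- the scalar inequality
    have hst'' : (s : ℝ) * t' = a * (1 + 2 * t) := by rw [ht', ha]; ring
    rw [hst'']
    have e3 : ((s : ℝ) + 1) * t = a + t := by rw [ha]; ring
    rw [e3]
    have hD1 : 0 < 1 - 2 * (a * (1 + 2 * t)) := by nlinarith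
    have hD2 : 0 < 1 - 2 * (a + t) := by nlinarith
    set D1 : ℝ := 1 - 2 * (a * (1 + 2 * t)) with hD1'
    set D2 : ℝ := 1 - 2 * (a + t) with hD2'
    have e5 : t + a * (1 + 2 * t) / D1 = (t * D1 + a * (1 + 2 * t)) / D1 := by
      field_simp
    rw [e5, le_div_iff₀ hD2, div_mul_eq_mul_div, div_le_iff₀ hD1]
    have id : (a + t) * D1 - a * (1 + 2 * t) * D2 = t * (1 - 2 * a) := by
      rw [hD1', hD2']; ring
    have h5 : D1 * D2 ≤ 1 - 2 * a := by
      have h6 : D1 ≤ 1 - 2 * a := by
        rw [hD1']; nlinarith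
      have h7 : D2 ≤ 1 := by rw [hD2']; nlinarith
      calc D1 * D2 ≤ D1 * 1 := mul_le_mul_of_nonneg_left h7 hD1.le
        _ ≤ 1 - 2 * a := by linarith
    have h8 := mul_le_mul_of_nonneg_left h5 ht
    nlinarith

lemma le_of_sq_le {a b : ℝ} (h : a ^ 2 ≤ b ^ 2) (hb : 0 ≤ b) : a ≤ b := by
  by_contra hc
  push Not at hc
  nlinarith

lemma exp_le_of_lt_one {x : ℝ} (hx : x < 1) : Real.exp x ≤ 1 / (1 - x) := by
  have h := Real.one_sub_le_exp_neg x
  have hpos : 0 < 1 - x := by linarith
  rw [Real.exp_neg] at h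
  rw [le_div_iff₀ hpos]
  have he := Real.exp_pos x
  have : (1 - x) * Real.exp x ≤ 1 := by
    calc (1 - x) * Real.exp x ≤ (Real.exp x)⁻¹ * Real.exp x := by
          apply mul_le_mul_of_nonneg_right h he.le
      _ = 1 := by field_simp
  linarith

/-- The sector average we use: `E exp (S²/(25 k))`, `S` a sum of `s ≤ k` signs. -/
lemma binE_sector (k s : ℕ) (hk : 0 < k) (hs : s ≤ k) :
    binE s (fun B => Real.exp ((1 / (25 * (k : ℝ))) * (2 * (B : ℝ) - s) ^ 2)) ≤ 23 / 22 := by
  have hk' : (0 : ℝ) < k := by exact_mod_cast hk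
  have hs' : (s : ℝ) ≤ k := by exact_mod_cast hs
  set t : ℝ := 1 / (25 * (k : ℝ)) with ht
  have ht0 : 0 ≤ t := by positivity
  have hst : (s : ℝ) * t ≤ 1 / 25 := by
    rw [ht]
    rw [show (s : ℝ) * (1 / (25 * (k : ℝ))) = (s / k) * (1 / 25) by field_simp]
    have : (s : ℝ) / k ≤ 1 := by rw [div_le_one hk']; exact hs'
    nlinarith
  have h1 := binE_exp_sq s t ht0 (by linarith)
  refine h1.trans ?_
  have hst0 : 0 ≤ (s : ℝ) * t := by positivity
  have h2 : (s : ℝ) * t / (1 - 2 * ((s : ℝ) * t)) ≤ 1 / 23 := by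
    rw [div_le_iff₀ (by linarith)]
    linarith
  calc Real.exp ((s : ℝ) * t / (1 - 2 * ((s : ℝ) * t))) ≤ Real.exp (1 / 23) := Real.exp_le_exp.mpr h2
    _ ≤ 1 / (1 - 1 / 23) := exp_le_of_lt_one (by norm_num)
    _ = 23 / 22 := by norm_num

/-- Weight of the two extreme sectors. -/
lemma binE_edge (k d : ℕ) (hk : 0 < k) (hd : 2 * d ≤ k) :
    binE (k - 2 * d) (fun B => if d + B = 0 ∨ d + B = k then (1 : ℝ) else 0) ≤ 2 / 2 ^ k := by
  unfold binE
  by_cases hd0 : d = 0
  · subst hd0
    simp only [Nat.mul_zero, Nat.sub_zero, Nat.zero_add]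
    have hsub : ∑ B ∈ range (k + 1), ((k.choose B : ℝ) / 2 ^ k) * (if B = 0 ∨ B = k then (1 : ℝ) else 0)
        = ∑ B ∈ ({0, k} : Finset ℕ), ((k.choose B : ℝ) / 2 ^ k) * (if B = 0 ∨ B = k then (1 : ℝ) else 0) := by
      symm
      apply Finset.sum_subset
      · intro x hx
        simp only [mem_insert, mem_singleton] at hx
        rcases hx with rfl | rfl <;> simp
      · intro x _ hx
        simp only [mem_insert, mem_singleton] at hx
        simp [hx]
    rw [hsub, Finset.sum_pair (by omega)]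
    simp only [Nat.choose_zero_right, Nat.choose_self, true_or, or_true, if_true, mul_one, Nat.cast_one]
    apply le_of_eq
    ring
  · have : ∀ B ∈ range (k - 2 * d + 1), ((k - 2 * d).choose B : ℝ) / 2 ^ (k - 2 * d)
        * (if d + B = 0 ∨ d + B = k then (1 : ℝ) else 0) = 0 := by
      intro B hB
      have hB' : B ≤ k - 2 * d := by simpa [Nat.lt_succ_iff] using hB
      have h1 : ¬ (d + B = 0 ∨ d + B = k) := by omega
      rw [if_neg h1, mul_zero]
    rw [Finset.sum_eq_zero this]
    positivity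

/-! ### Weighted Cauchy-Schwarz and tails -/

section Weighted

variable {I : Type*} [Fintype I]

lemma weighted_cs (w a b : I → ℝ) (hw : ∀ i, 0 ≤ w i) :
    (∑ i, w i * (a i * b i)) ^ 2 ≤ (∑ i, w i * a i ^ 2) * (∑ i, w i * b i ^ 2) := by
  have h := Finset.sum_mul_sq_le_sq_mul_sq (Finset.univ : Finset I)
    (fun i => Real.sqrt (w i) * a i) (fun i => Real.sqrt (w i) * b i)
  have e1 : ∀ i, Real.sqrt (w i) * a i * (Real.sqrt (w i) * b i) = w i * (a i * b i) := by
    intro i
    have := Real.mul_self_sqrt (hw i)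
    calc Real.sqrt (w i) * a i * (Real.sqrt (w i) * b i)
        = (Real.sqrt (w i) * Real.sqrt (w i)) * (a i * b i) := by ring
      _ = w i * (a i * b i) := by rw [this]
  have e2 : ∀ (c : I → ℝ) i, (Real.sqrt (w i) * c i) ^ 2 = w i * c i ^ 2 := by
    intro c i
    rw [mul_pow, Real.sq_sqrt (hw i)]
  simp only [e1, e2] at h
  exact h

lemma tail_sum (w : I → ℝ) (hw : ∀ i, 0 ≤ w i) (e : I → ℕ) (K : ℕ) (he : ∀ i, e i ≤ K) (ρ y : ℝ)
    (hρ : 0 ≤ ρ) (hy : 0 ≤ y) (hyρ : y * ρ < 1)
    (htail : ∀ R, ∑ i, w i * ((e i).choose R : ℝ) ≤ ρ ^ R) :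
    ∑ i, w i * (1 + y) ^ (e i) ≤ 1 / (1 - y * ρ) := by
  have h1 : ∀ i, (1 + y) ^ (e i) = ∑ R ∈ range (K + 1), y ^ R * ((e i).choose R : ℝ) := by
    intro i
    rw [add_comm 1 y, add_pow]
    have hsub : range (e i + 1) ⊆ range (K + 1) := by
      intro x hx
      have := he i
      simp only [mem_range] at hx ⊢
      omega
    rw [← Finset.sum_subset hsub]
    · refine Finset.sum_congr rfl fun R _ => ?_
      simp
    · intro x _ hx
      have hx' : e i < x := by simpa [Nat.lt_succ_iff] using hx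
      rw [Nat.choose_eq_zero_of_lt hx']
      simp
  have h2 : ∑ i, w i * (1 + y) ^ (e i) = ∑ R ∈ range (K + 1), y ^ R * ∑ i, w i * ((e i).choose R : ℝ) := by
    simp_rw [h1, Finset.mul_sum]
    rw [Finset.sum_comm]
    refine Finset.sum_congr rfl fun R _ => Finset.sum_congr rfl fun i _ => by ring
  rw [h2]
  have h3 : ∑ R ∈ range (K + 1), y ^ R * ∑ i, w i * ((e i).choose R : ℝ)
      ≤ ∑ R ∈ range (K + 1), (y * ρ) ^ R := by
    apply Finset.sum_le_sum
    intro R _
    rw [mul_pow]
    exact mul_le_mul_of_nonneg_left (htail R) (by positivity)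
  refine h3.trans ?_
  have h0 : 0 ≤ y * ρ := by positivity
  have hlt : 0 < 1 - y * ρ := by linarith
  rw [le_div_iff₀ hlt]
  have := geom_sum_mul_neg (y * ρ) (K + 1)
  rw [this]
  have : 0 ≤ (y * ρ) ^ (K + 1) := by positivity
  linarith

end Weighted

/-! ### The main inequality -/

/-- The elementary exponent inequality. -/
lemma exponent_ineq (j l B K : ℝ) (hK : 0 < K) (hj : 0 ≤ j) (hl : 0 ≤ l) (hjB : j ≤ B) (hlB : l + B ≤ K) :
    j / 200 * (2 * j / K - 1) + l / 200 * (2 * l / K - 1)
      ≤ (2 * B - K) ^ 2 / (100 * K) + (K - j - l) / 100 := by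
  have hmain : j * (2 * j - K) + l * (2 * l - K) ≤ 2 * (2 * B - K) ^ 2 + 2 * (K - j - l) * K := by
    set eL := B - j with heL
    set eR := K - B - l with heR
    have heL0 : 0 ≤ eL := by rw [heL]; linarith
    have heR0 : 0 ≤ eR := by rw [heR]; linarith
    have hB : B = j + eL := by rw [heL]; ring
    have hK' : K = j + l + eL + eR := by rw [heR, heL]; ring
    set S := 2 * B - K with hS
    have hS' : j - l = S - eL + eR := by rw [hS, hB, hK']; ring
    have h1 : (j - l) ^ 2 ≤ 2 * S ^ 2 + 2 * (eL - eR) ^ 2 := by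
      rw [hS']; nlinarith [sq_nonneg (S + (eL - eR))]
    have h2 : (eL - eR) ^ 2 ≤ (eL + eR) ^ 2 := by nlinarith [mul_nonneg heL0 heR0]
    have h3 : j * (2 * j - K) + l * (2 * l - K) = (j - l) ^ 2 - (j + l) * (eL + eR) := by
      rw [hK']; ring
    have h4 : K - j - l = eL + eR := by rw [hK']; ring
    rw [h3, h4]
    have h5 : (eL + eR) ^ 2 ≤ (eL + eR) * K := by
      rw [hK']; nlinarith [mul_nonneg (add_nonneg heL0 heR0) (add_nonneg hj hl)]
    have h6 : 0 ≤ (j + l) * (eL + eR) := by positivity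
    nlinarith
  have e1 : j / 200 * (2 * j / K - 1) + l / 200 * (2 * l / K - 1)
      = (j * (2 * j - K) + l * (2 * l - K)) / (200 * K) := by
    field_simp
  have e2 : (2 * B - K) ^ 2 / (100 * K) + (K - j - l) / 100
      = (2 * (2 * B - K) ^ 2 + 2 * (K - j - l) * K) / (200 * K) := by
    field_simp
    ring
  rw [e1, e2]
  exact div_le_div_of_nonneg_right hmain (by positivity)

section Main

variable {I : Type*} [Fintype I]

/-- **Scalar closure**. -/
theorem closure (w : I → ℝ) (hw : ∀ i, 0 ≤ w i) (b j l : I → ℕ) (k m : ℕ) (hk : 2 ≤ k)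
    (hm : 100 * k < 2 * m) (hj : ∀ i, j i ≤ b i) (hl : ∀ i, l i + b i ≤ k)
    (H1 : ∀ g : ℕ → ℝ, (∀ x, 0 ≤ g x) →
      ∃ d, 2 * d ≤ k ∧ ∑ i, w i * g (b i) ≤ binE (k - 2 * d) (fun B => g (d + B)))
    (ρ : ℝ) (hρ0 : 0 ≤ ρ) (hρ : ρ ≤ (5 / 4) * Real.sqrt ((k : ℝ) / m))
    (H2 : ∀ R, ∑ i, w i * ((k - j i - l i).choose R : ℝ) ≤ ρ ^ R) :
    ∑ i, w i * (pot m (j i) * pot m (l i)) ≤ pot (2 * m) k := by
  classical
  have hk0 : 0 < k := by omega
  have hm0 : 0 < m := by omega
  set K : ℝ := (k : ℝ) with hK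
  set M : ℝ := (m : ℝ) with hM
  have hKpos : 0 < K := by rw [hK]; exact_mod_cast hk0
  have hMpos : 0 < M := by rw [hM]; exact_mod_cast hm0
  have hKM : 100 * K < 2 * M := by rw [hK, hM]; exact_mod_cast hm
  set t : ℝ := M / (50 * K) with ht
  have ht1 : 1 < t := by
    rw [ht, lt_div_iff₀ (by positivity)]; linarith
  set Lt : ℝ := Real.log t with hLt
  have hLt0 : 0 < Lt := Real.log_pos ht1
  -- numerics on ρ
  set r : ℝ := Real.sqrt (K / M) with hr
  have hr0 : 0 ≤ r := Real.sqrt_nonneg _
  have hr2 : r ^ 2 = K / M := Real.sq_sqrt (by positivity)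
  have hKM' : K / M < 1 / 50 := by
    rw [div_lt_div_iff₀ hMpos (by norm_num)]; linarith
  have hρ1 : ρ ≤ 0.177 := by
    have h1 : ρ ^ 2 ≤ (25 / 16) * (K / M) := by
      have : ρ ^ 2 ≤ ((5 / 4) * r) ^ 2 := pow_le_pow_left₀ hρ0 hρ 2
      rw [mul_pow, hr2] at this
      linarith
    have h2 : ρ ^ 2 < 0.177 ^ 2 := by norm_num at h1 hKM' ⊢; nlinarith
    exact le_of_lt (lt_of_pow_lt_pow_left₀ 2 (by norm_num) h2)
  -- indices
  set e : I → ℕ := fun i => k - j i - l i with he
  have he_le : ∀ i, e i ≤ k := fun i => by simp only [he]; omega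
  have he_cast : ∀ i, (e i : ℝ) = K - j i - l i := by
    intro i
    have h1 := hj i
    have h2 := hl i
    have : e i + j i + l i = k := by simp only [he]; omega
    have h3 : ((e i + j i + l i : ℕ) : ℝ) = K := by rw [this]
    push_cast at h3
    linarith
  set S : I → ℝ := fun i => 2 * (b i : ℝ) - K with hS
  set X : I → ℝ := fun i => Real.exp ((S i) ^ 2 / (100 * K) + (Lt + 2) * (e i) / 200) with hX
  have hXpos : ∀ i, 0 < X i := fun i => Real.exp_pos _
  have hsumw : ∑ i, w i ≤ 1 := by
    have := H2 0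
    simpa using this
  -- the top value
  have hT : pot (2 * m) k = (19 / 20) * Real.exp (-(K * Lt / 200)) := by
    rw [pot_of_two_le _ _ hk]
    congr 1
    have h100 : (100 * (k : ℝ) / ((2 * m : ℕ) : ℝ)) = t⁻¹ := by
      rw [ht]; push_cast; rw [← hK, ← hM]; field_simp; norm_num
    rw [h100, Real.rpow_def_of_pos (by positivity), Real.log_inv, ← hLt, ← hK]
    congr 1
    ring
  set T : ℝ := pot (2 * m) k with hTdef
  have hTpos : 0 < T := by rw [hT]; positivity
  -- the children
  have hchild : ∀ x : ℕ, 2 ≤ x → pot m x ≤ (19 / 20) * Real.exp ((x : ℝ) / 200 * (-Lt + (2 * x / K - 1))) := by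
    intro x hx
    rw [pot_of_two_le _ _ hx]
    apply mul_le_mul_of_nonneg_left _ (by norm_num)
    have hx0 : (0 : ℝ) < x := by
      have : 0 < x := by omega
      exact_mod_cast this
    have h1 : (100 * (x : ℝ) / m) = (2 * x / K) / t := by
      rw [ht, ← hM]; field_simp; ring
    rw [h1, Real.rpow_def_of_pos (by positivity)]
    apply Real.exp_le_exp.mpr
    rw [Real.log_div (by positivity) (by positivity), ← hLt]
    have h2 := Real.log_le_sub_one_of_pos (show 0 < 2 * (x : ℝ) / K by positivity)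
    have h3 : (0 : ℝ) ≤ (x : ℝ) / 200 := by positivity
    nlinarith
  -- main pointwise bound
  set F : I → ℝ := fun i =>
    if 2 ≤ j i ∧ 2 ≤ l i then 19 / 20 else if j i = 0 ∧ l i = 0 then 20 / 19
      else if j i = 0 ∨ l i = 0 then 1 else 0 with hF
  have hF0 : ∀ i, 0 ≤ F i := by
    intro i
    simp only [hF]
    split_ifs <;> norm_num
  have hpointwise : ∀ i, pot m (j i) * pot m (l i) ≤ T * (X i * F i) := by
    intro i
    have hexp := exponent_ineq (j i) (l i) (b i) K hKpos (by positivity) (by positivity)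
      (by exact_mod_cast hj i) (by rw [hK]; exact_mod_cast hl i)
    have hei := he_cast i
    have hXdef : X i = Real.exp ((2 * (b i : ℝ) - K) ^ 2 / (100 * K) + (Lt + 2) * (K - j i - l i) / 200) := by
      simp only [hX, hS]; rw [hei]
    -- the case analysis on j, l
    rcases Nat.lt_or_ge (j i) 2 with hj2 | hj2
    · rcases Nat.eq_zero_or_pos (j i) with hj0 | hjpos
      · rw [hj0, pot_zero, one_mul]
        rcases Nat.lt_or_ge (l i) 2 with hl2 | hl2
        · rcases Nat.eq_zero_or_pos (l i) with hl0 | hlpos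
          · -- both zero
            rw [hl0, pot_zero]
            have hFv : F i = 20 / 19 := by simp [hF, hj0, hl0]
            rw [hFv, hXdef, hT, hj0, hl0]
            simp only [Nat.cast_zero]
            have h1 : Real.exp (-(K * Lt / 200)) * Real.exp ((2 * (b i : ℝ) - K) ^ 2 / (100 * K) + (Lt + 2) * (K - 0 - 0) / 200) ≥ 1 := by
              rw [← Real.exp_add]
              apply Real.one_le_exp
              have : 0 ≤ (2 * (b i : ℝ) - K) ^ 2 / (100 * K) := by positivity
              nlinarith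
            nlinarith
          · have : l i = 1 := by omega
            rw [this, pot_one]
            have : 0 ≤ T * (X i * F i) := mul_nonneg hTpos.le (mul_nonneg (hXpos i).le (hF0 i))
            linarith
        · -- l ≥ 2, j = 0
          have hlne : ¬ (l i = 0) := by omega
          have hFv : F i = 1 := by
            have : ¬ (2 ≤ j i ∧ 2 ≤ l i) := by omega
            simp [hF, hj0, hlne, this]
          rw [hFv, mul_one]
          refine (hchild (l i) hl2).trans ?_
          rw [hT, hXdef]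
          rw [hj0] at hexp hXdef ⊢
          simp only [Nat.cast_zero] at hexp ⊢
          rw [mul_assoc]
          apply mul_le_mul_of_nonneg_left _ (by norm_num)
          rw [← Real.exp_add]
          apply Real.exp_le_exp.mpr
          nlinarith
      · have hj1 : j i = 1 := by omega
        rw [hj1, pot_one, zero_mul]
        exact mul_nonneg hTpos.le (mul_nonneg (hXpos i).le (hF0 i))
    · rcases Nat.lt_or_ge (l i) 2 with hl2 | hl2
      · rcases Nat.eq_zero_or_pos (l i) with hl0 | hlpos
        · have hjne : ¬ (j i = 0) := by omega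
          have hFv : F i = 1 := by
            have : ¬ (2 ≤ j i ∧ 2 ≤ l i) := by omega
            simp [hF, hl0, hjne, this]
          rw [hFv, mul_one, hl0, pot_zero, mul_one]
          refine (hchild (j i) hj2).trans ?_
          rw [hT, hXdef]
          rw [hl0] at hexp hXdef ⊢
          simp only [Nat.cast_zero] at hexp ⊢
          rw [mul_assoc]
          apply mul_le_mul_of_nonneg_left _ (by norm_num)
          rw [← Real.exp_add]
          apply Real.exp_le_exp.mpr
          nlinarith
        · have : l i = 1 := by omega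
          rw [this, pot_one, mul_zero]
          exact mul_nonneg hTpos.le (mul_nonneg (hXpos i).le (hF0 i))
      · have hFv : F i = 19 / 20 := by simp [hF, hj2, hl2]
        rw [hFv]
        have h1 := hchild (j i) hj2
        have h2 := hchild (l i) hl2
        have hnn1 := pot_nonneg m (j i)
        have hnn2 := pot_nonneg m (l i)
        calc pot m (j i) * pot m (l i)
            ≤ ((19 / 20) * Real.exp ((j i : ℝ) / 200 * (-Lt + (2 * j i / K - 1))))
              * ((19 / 20) * Real.exp ((l i : ℝ) / 200 * (-Lt + (2 * l i / K - 1)))) :=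
              mul_le_mul h1 h2 hnn2 (by positivity)
          _ = (19 / 20) * (19 / 20) * Real.exp ((j i : ℝ) / 200 * (-Lt + (2 * j i / K - 1))
                + (l i : ℝ) / 200 * (-Lt + (2 * l i / K - 1))) := by
              rw [Real.exp_add]; ring
          _ ≤ (19 / 20) * (19 / 20) * (Real.exp (-(K * Lt / 200)) * X i) := by
              apply mul_le_mul_of_nonneg_left _ (by norm_num)
              rw [hXdef, ← Real.exp_add]
              apply Real.exp_le_exp.mpr
              nlinarith
          _ = T * (X i * (19 / 20)) := by rw [hT]; ring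
  -- Now the moments of X.
  have hE2 : (∑ i, w i * X i ^ 2) ≤ 1.0327 := by
    -- Cauchy-Schwarz
    set u : I → ℝ := fun i => Real.exp ((S i) ^ 2 / (50 * K)) with hu
    set v : I → ℝ := fun i => Real.exp ((Lt + 2) * (e i) / 100) with hv
    have hXuv : ∀ i, X i ^ 2 = u i * v i := by
      intro i
      simp only [hX, hu, hv]
      rw [← Real.exp_nat_mul, ← Real.exp_add]
      congr 1
      push_cast
      field_simp
      ring
    have hcs := weighted_cs w u v hw
    simp only [← hXuv] at hcs
    -- first factor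
    have hfirst : ∑ i, w i * u i ^ 2 ≤ 23 / 22 := by
      set g : ℕ → ℝ := fun x => Real.exp ((1 / (25 * K)) * (2 * (x : ℝ) - K) ^ 2) with hg
      obtain ⟨d, hd, hsum⟩ := H1 g (fun x => (Real.exp_pos _).le)
      have e1 : ∀ i, u i ^ 2 = g (b i) := by
        intro i
        simp only [hu, hg, hS]
        rw [← Real.exp_nat_mul]
        congr 1
        push_cast
        field_simp
        ring
      simp_rw [e1]
      refine hsum.trans ?_
      have hs : (k - 2 * d : ℕ) ≤ k := Nat.sub_le _ _
      have hsec := binE_sector k (k - 2 * d) hk0 hs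
      have hcast : ((k - 2 * d : ℕ) : ℝ) = K - 2 * d := by
        rw [Nat.cast_sub hd, hK]; push_cast; ring
      have e2 : (fun B : ℕ => g (d + B))
          = fun B : ℕ => Real.exp ((1 / (25 * (k : ℝ))) * (2 * (B : ℝ) - ((k - 2 * d : ℕ) : ℝ)) ^ 2) := by
        funext B
        simp only [hg]
        rw [hcast, ← hK]
        congr 2
        push_cast
        ring
      rw [e2]
      exact hsec
    -- second factor
    have hsecond : ∑ i, w i * v i ^ 2 ≤ 1.02 := by
      set q : ℝ := Real.exp ((Lt + 2) / 50) with hq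
      set y : ℝ := q - 1 with hy
      have hq1 : 1 ≤ q := Real.one_le_exp (by positivity)
      have hy0 : 0 ≤ y := by rw [hy]; linarith
      set u0 : ℝ := Real.exp (Lt / 2) with hu0
      have hu0pos : 0 < u0 := Real.exp_pos _
      have hu02 : u0 ^ 2 = t := by
        rw [hu0, ← Real.exp_nat_mul]
        have : ((2 : ℕ) : ℝ) * (Lt / 2) = Lt := by push_cast; ring
        rw [this, hLt, Real.exp_log (by linarith)]
      have hq25 : q ^ 25 = u0 * Real.exp 1 := by
        rw [hq, ← Real.exp_nat_mul, hu0, ← Real.exp_add]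
        congr 1
        push_cast
        ring
      have hbern : 1 + 25 * y ≤ q ^ 25 := by
        have := one_add_mul_le_pow (a := y) (by linarith) 25
        have e : 1 + y = q := by rw [hy]; ring
        rw [e] at this
        push_cast at this
        exact this
      have he1 : Real.exp 1 ≤ 2.72 := by
        have := Real.exp_one_lt_d9
        norm_num at this ⊢
        linarith
      have hy1 : y ≤ (2.72 / 25) * u0 := by
        rw [hq25] at hbern
        have : u0 * Real.exp 1 ≤ u0 * 2.72 := mul_le_mul_of_nonneg_left he1 hu0pos.le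
        norm_num at *
        linarith
      have hur : u0 * r ≤ 1 / 7 := by
        have h1 : (u0 * r) ^ 2 = 1 / 50 := by
          rw [mul_pow, hu02, hr2, ht]
          field_simp
        have h2 : (u0 * r) ^ 2 ≤ (1 / 7) ^ 2 := by rw [h1]; norm_num
        exact le_of_sq_le h2 (by norm_num)
      have hyρ : y * ρ ≤ 0.0195 := by
        calc y * ρ ≤ ((2.72 / 25) * u0) * ((5 / 4) * r) :=
              mul_le_mul hy1 hρ hρ0 (by positivity)
          _ = (2.72 / 25) * (5 / 4) * (u0 * r) := by ring
          _ ≤ (2.72 / 25) * (5 / 4) * (1 / 7) := by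
              apply mul_le_mul_of_nonneg_left hur (by norm_num)
          _ ≤ 0.0195 := by norm_num
      have h1 : ∀ i, v i ^ 2 = (1 + y) ^ (e i) := by
        intro i
        have e1 : 1 + y = q := by rw [hy]; ring
        have hvi : v i = Real.exp ((Lt + 2) * (e i) / 100) := rfl
        rw [e1, hq, hvi, ← Real.exp_nat_mul, ← Real.exp_nat_mul]
        congr 1
        push_cast
        ring
      simp_rw [h1]
      have htail := tail_sum w hw e k he_le ρ y hρ0 hy0 (by linarith) H2
      refine htail.trans ?_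
      rw [div_le_iff₀ (by linarith)]
      norm_num at hyρ ⊢
      linarith
    have hpos1 : 0 ≤ ∑ i, w i * u i ^ 2 := Finset.sum_nonneg fun i _ => mul_nonneg (hw i) (sq_nonneg _)
    have hpos2 : 0 ≤ ∑ i, w i * v i ^ 2 := Finset.sum_nonneg fun i _ => mul_nonneg (hw i) (sq_nonneg _)
    have hprod : (∑ i, w i * u i ^ 2) * (∑ i, w i * v i ^ 2) ≤ 23 / 22 * 1.02 :=
      mul_le_mul hfirst hsecond hpos2 (by norm_num)
    have hfin : (∑ i, w i * X i ^ 2) ^ 2 ≤ 1.0327 ^ 2 := by
      refine hcs.trans (hprod.trans ?_)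
      norm_num
    exact le_of_sq_le hfin (by norm_num)
  -- Indicators
  set IE : I → ℝ := fun i => if j i = 0 ∨ l i = 0 then 1 else 0 with hIE
  set IE2 : I → ℝ := fun i => if j i = 0 ∧ l i = 0 then 1 else 0 with hIE2
  have hIE0 : ∀ i, 0 ≤ IE i := fun i => by simp only [hIE]; split_ifs <;> norm_num
  have hIE20 : ∀ i, 0 ≤ IE2 i := fun i => by simp only [hIE2]; split_ifs <;> norm_num
  have hIEsq : ∀ i, IE i ^ 2 = IE i := fun i => by simp only [hIE]; split_ifs <;> norm_num
  have hIE2sq : ∀ i, IE2 i ^ 2 = IE2 i := fun i => by simp only [hIE2]; split_ifs <;> norm_num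
  have hXsum_nonneg : ∀ a : I → ℝ, (∀ i, 0 ≤ a i) → 0 ≤ ∑ i, w i * (X i * a i) := fun a ha =>
    Finset.sum_nonneg fun i _ => mul_nonneg (hw i) (mul_nonneg (hXpos i).le (ha i))
  have hE2nn : 0 ≤ ∑ i, w i * X i ^ 2 := Finset.sum_nonneg fun i _ => mul_nonneg (hw i) (sq_nonneg _)
  -- mass of the edge event
  have hPE : ∑ i, w i * IE i ≤ 2 / 2 ^ k + ρ := by
    obtain ⟨d, hd, hsum⟩ := H1 (fun x => if x = 0 ∨ x = k then (1 : ℝ) else 0)
      (fun x => by split_ifs <;> norm_num)
    have h1 : ∀ i, IE i ≤ (if b i = 0 ∨ b i = k then (1 : ℝ) else 0) + ((e i).choose 1 : ℝ) := by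
      intro i
      simp only [hIE]
      have hc : (0 : ℝ) ≤ ((e i).choose 1 : ℝ) := by positivity
      split_ifs with h2 h3 h3
      · linarith
      · -- an edge index outside the extreme sectors has a removal
        have h4 : 1 ≤ e i := by
          have h5 := hj i
          have h6 := hl i
          simp only [he]
          rcases h2 with h7 | h7 <;> omega
        rw [Nat.choose_one_right]
        have : (1 : ℝ) ≤ (e i : ℝ) := by exact_mod_cast h4
        linarith
      · have : (0:ℝ) ≤ 1 := by norm_num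
        linarith
      · linarith
    calc ∑ i, w i * IE i
        ≤ ∑ i, w i * ((if b i = 0 ∨ b i = k then (1 : ℝ) else 0) + ((e i).choose 1 : ℝ)) :=
          Finset.sum_le_sum fun i _ => mul_le_mul_of_nonneg_left (h1 i) (hw i)
      _ = (∑ i, w i * (if b i = 0 ∨ b i = k then (1 : ℝ) else 0)) + ∑ i, w i * ((e i).choose 1 : ℝ) := by
          rw [← Finset.sum_add_distrib]
          refine Finset.sum_congr rfl fun i _ => by ring
      _ ≤ 2 / 2 ^ k + ρ := by
          apply add_le_add
          · exact hsum.trans (binE_edge k d hk0 hd)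
          · simpa using H2 1
  have hPE2 : ∑ i, w i * IE2 i ≤ ρ ^ k := by
    have h1 : ∀ i, IE2 i ≤ ((e i).choose k : ℝ) := by
      intro i
      simp only [hIE2]
      split_ifs with h2
      · have : e i = k := by simp only [he]; omega
        rw [this, Nat.choose_self]
        norm_num
      · positivity
    calc ∑ i, w i * IE2 i ≤ ∑ i, w i * ((e i).choose k : ℝ) :=
          Finset.sum_le_sum fun i _ => mul_le_mul_of_nonneg_left (h1 i) (hw i)
      _ ≤ ρ ^ k := H2 k
  -- Cauchy-Schwarz for the expectations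
  have hcs : ∀ a : I → ℝ, (∑ i, w i * (X i * a i)) ^ 2 ≤ 1.0327 * ∑ i, w i * a i ^ 2 := by
    intro a
    have h := weighted_cs w X a hw
    refine h.trans ?_
    apply mul_le_mul_of_nonneg_right hE2
    exact Finset.sum_nonneg fun i _ => mul_nonneg (hw i) (sq_nonneg _)
  have hEX : ∑ i, w i * (X i * 1) ≤ 1.0163 := by
    have h := hcs (fun _ => 1)
    simp only [one_pow, mul_one] at h
    have h2 : (∑ i, w i * X i) ^ 2 ≤ 1.0163 ^ 2 := by
      refine h.trans ?_
      have : (1.0327 : ℝ) * ∑ i, w i ≤ 1.0327 * 1 := mul_le_mul_of_nonneg_left hsumw (by norm_num)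
      refine this.trans ?_
      norm_num
    simp only [mul_one]
    exact le_of_sq_le h2 (by norm_num)
  have hρ2 : ρ ^ 2 ≤ 0.177 ^ 2 := pow_le_pow_left₀ hρ0 hρ1 2
  have hsummain : ∑ i, w i * (pot m (j i) * pot m (l i)) ≤ T * ∑ i, w i * (X i * F i) := by
    rw [Finset.mul_sum]
    refine Finset.sum_le_sum fun i _ => ?_
    calc w i * (pot m (j i) * pot m (l i)) ≤ w i * (T * (X i * F i)) :=
          mul_le_mul_of_nonneg_left (hpointwise i) (hw i)
      _ = T * (w i * (X i * F i)) := by ring
  refine hsummain.trans ?_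
  have hgoal : ∑ i, w i * (X i * F i) ≤ 1 := by
    rcases Nat.lt_or_ge k 4 with hk4 | hk4
    · -- no main term
      have hFle : ∀ i, F i ≤ (20 / 19) * IE i := by
        intro i
        have hjl := hl i
        have hjb := hj i
        simp only [hF, hIE]
        split_ifs <;> first | (exfalso; omega) | norm_num
      have h1 : ∑ i, w i * (X i * F i) ≤ (20 / 19) * ∑ i, w i * (X i * IE i) := by
        rw [Finset.mul_sum]
        refine Finset.sum_le_sum fun i _ => ?_
        have := mul_le_mul_of_nonneg_left (hFle i) (mul_nonneg (hw i) (hXpos i).le)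
        nlinarith
      have h2 : (∑ i, w i * (X i * IE i)) ^ 2 ≤ 0.8362 ^ 2 := by
        have h3 := hcs IE
        simp only [hIEsq] at h3
        refine h3.trans ?_
        have h4 : (2 : ℝ) / 2 ^ k ≤ 1 / 2 := by
          have : (2 : ℝ) ^ 2 ≤ 2 ^ k := pow_le_pow_right₀ (by norm_num) hk
          rw [div_le_iff₀ (by positivity)]
          linarith
        have h5 : ∑ i, w i * IE i ≤ 1 / 2 + 0.177 := by linarith
        have h6 := mul_le_mul_of_nonneg_left h5 (show (0:ℝ) ≤ 1.0327 by norm_num)
        refine h6.trans ?_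
        norm_num
      have h3 := le_of_sq_le h2 (by norm_num)
      refine h1.trans ?_
      norm_num at h3 ⊢
      linarith
    · have hFle : ∀ i, F i ≤ 19 / 20 * 1 + (1 / 20) * IE i + (1 / 19) * IE2 i := by
        intro i
        simp only [hF, hIE, hIE2]
        split_ifs <;> first | (exfalso; omega) | norm_num
      have h1 : ∑ i, w i * (X i * F i) ≤ 19 / 20 * ∑ i, w i * (X i * 1)
          + (1 / 20) * ∑ i, w i * (X i * IE i) + (1 / 19) * ∑ i, w i * (X i * IE2 i) := by
        rw [Finset.mul_sum, Finset.mul_sum, Finset.mul_sum, ← Finset.sum_add_distrib,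
          ← Finset.sum_add_distrib]
        refine Finset.sum_le_sum fun i _ => ?_
        have := mul_le_mul_of_nonneg_left (hFle i) (mul_nonneg (hw i) (hXpos i).le)
        nlinarith
      have h2 : (∑ i, w i * (X i * IE i)) ^ 2 ≤ 0.56 ^ 2 := by
        have h3 := hcs IE
        simp only [hIEsq] at h3
        refine h3.trans ?_
        have h4 : (2 : ℝ) / 2 ^ k ≤ 1 / 8 := by
          have : (2 : ℝ) ^ 4 ≤ 2 ^ k := pow_le_pow_right₀ (by norm_num) hk4
          rw [div_le_iff₀ (by positivity)]
          linarith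
        have h5 : ∑ i, w i * IE i ≤ 1 / 8 + 0.177 := by linarith
        have h6 := mul_le_mul_of_nonneg_left h5 (show (0:ℝ) ≤ 1.0327 by norm_num)
        refine h6.trans ?_
        norm_num
      have h3 := le_of_sq_le h2 (by norm_num)
      have h4 : (∑ i, w i * (X i * IE2 i)) ^ 2 ≤ 0.032 ^ 2 := by
        have h5 := hcs IE2
        simp only [hIE2sq] at h5
        refine h5.trans ?_
        have h6 : ρ ^ k ≤ 0.177 ^ 4 := by
          have h7 : ρ ^ k ≤ ρ ^ 4 := pow_le_pow_of_le_one hρ0 (by linarith) hk4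
          exact h7.trans (pow_le_pow_left₀ hρ0 hρ1 4)
        have h7 := mul_le_mul_of_nonneg_left (hPE2.trans h6) (show (0:ℝ) ≤ 1.0327 by norm_num)
        refine h7.trans ?_
        norm_num
      have h5 := le_of_sq_le h4 (by norm_num)
      refine h1.trans ?_
      norm_num at hEX h3 h5 ⊢
      linarith
  calc T * ∑ i, w i * (X i * F i) ≤ T * 1 := mul_le_mul_of_nonneg_left hgoal hTpos.le
    _ = T := mul_one T

end Main

end Crest.Agent.Lib.Thorp.Closure
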