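/-
S0222 (Thorp shuffle): one card is perfectly mixed by one block: `OpBound D 1 0`.
(helper59)
-/
import Crest.Agent.Lib.Thorp.Bridge

set_option autoImplicit false
set_option linter.unusedSectionVars false

namespace Crest.Agent.Lib.Thorp

open Matrix

section

variable {D : ℕ} {A : Type*}

lemma flipAt_comm {i b : Fin D} (x : Pos D) (h : i ≠ b) :
    flipAt i (flipAt b x) = flipAt b (flipAt i x) := by
  funext j
  unfold flipAt
  by_cases h1 : j = i
  · subst h1
    simp [Function.update_of_ne h]
  · by_cases h2 : j = b
    · subst h2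
      simp [Function.update_of_ne (Ne.symm h)]
    · simp [Function.update_of_ne h1, Function.update_of_ne h2]

/-- Precomposing a coin with another flip. -/
def coinPre {b : Fin D} (i : Fin D) (hi : i ≠ b) : Coin b ≃ Coin b where
  toFun c := ⟨fun x => c.1 (flipAt i x), fun x => by
    show c.1 (flipAt i (flipAt b x)) = c.1 (flipAt i x)
    rw [flipAt_comm x hi]; exact c.2 _⟩
  invFun c := ⟨fun x => c.1 (flipAt i x), fun x => by
    show c.1 (flipAt i (flipAt b x)) = c.1 (flipAt i x)
    rw [flipAt_comm x hi]; exact c.2 _⟩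
  left_inv c := by ext x; simp
  right_inv c := by ext x; simp

/-- The complement of a coin. -/
def coinNot {b : Fin D} : Coin b ≃ Coin b where
  toFun c := ⟨fun x => !c.1 x, fun x => by simp only [c.2 x]⟩
  invFun c := ⟨fun x => !c.1 x, fun x => by simp only [c.2 x]⟩
  left_inv c := by ext x; simp
  right_inv c := by ext x; simp

/-- A function of a tuple is invariant under the global flip of bit `i`. -/
def FlipInv (i : Fin D) (F : (A → Pos D) → ℝ) : Prop :=
  ∀ y, F (fun a => flipAt i (y a)) = F y

lemma tupP_flipInv_self (b : Fin D) (F : (A → Pos D) → ℝ) : FlipInv b (tupP b F) := by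
  intro y
  unfold tupP
  congr 1
  refine Fintype.sum_equiv coinNot _ _ ?_
  intro c
  congr 1
  funext a
  simp only [coinPerm_apply, coinNot, Equiv.coe_fn_mk, c.2]
  by_cases h : c.1 (y a) = true
  · simp [h]
  · simp [h]

lemma tupP_flipInv_of_ne {i b : Fin D} (hi : i ≠ b) (F : (A → Pos D) → ℝ) (hF : FlipInv i F) :
    FlipInv i (tupP b F) := by
  intro y
  unfold tupP
  congr 1
  refine Fintype.sum_equiv (coinPre i hi) _ _ ?_
  intro c
  rw [← hF (fun a => coinPerm c (flipAt i (y a)))]
  congr 1
  funext a
  simp only [coinPerm_apply, coinPre, Equiv.coe_fn_mk]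
  by_cases h : c.1 (flipAt i (y a)) = true
  · simp only [h, if_true]
    rw [flipAt_comm _ hi, flipAt_flipAt]
  · rw [if_neg h, if_neg h, flipAt_flipAt]

lemma foldr_flipInv (L : List (Fin D)) (F : (A → Pos D) → ℝ) (i : Fin D) (hi : i ∈ L) :
    FlipInv i (L.foldr tupP F) := by
  induction L with
  | nil => simp at hi
  | cons b L ih =>
    rw [List.foldr_cons]
    by_cases h : i = b
    · subst h; exact tupP_flipInv_self _ _
    · exact tupP_flipInv_of_ne h _ (ih (by simpa [h] using hi))

lemma const_of_flipInv (f : Pos D → ℝ) (hf : ∀ i x, f (flipAt i x) = f x) (x x' : Pos D) :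
    f x = f x' := by
  have key : ∀ (s : Finset (Fin D)) (x x' : Pos D), (∀ i, i ∉ s → x i = x' i) → f x = f x' := by
    intro s
    induction s using Finset.induction_on with
    | empty =>
      intro x x' h
      congr 1
      funext i
      exact h i (by simp)
    | insert i s _ ih =>
      intro x x' h
      by_cases hxi : x i = x' i
      · apply ih
        intro j hj
        by_cases hji : j = i
        · subst hji; exact hxi
        · exact h j (by simp [hji, hj])
      · rw [← hf i x]
        apply ih
        intro j hj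
        by_cases hji : j = i
        · subst hji
          simp only [flipAt, Function.update_self]
          cases h1 : x j <;> cases h2 : x' j <;> simp_all
        · simp only [flipAt, Function.update_of_ne hji]
          exact h j (by simp [hji, hj])
  exact key Finset.univ x x' (fun i hi => absurd (Finset.mem_univ i) hi)

lemma sum_tupP_const [Unique A] (b : Fin D) (F : (A → Pos D) → ℝ) :
    ∑ x : Pos D, tupP b F (fun _ => x) = ∑ x : Pos D, F (fun _ => x) := by
  simp only [tupP]
  rw [← Finset.mul_sum, Finset.sum_comm]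
  have : ∀ c : Coin b, ∑ x : Pos D, F (fun _ : A => coinPerm c x) = ∑ x : Pos D, F (fun _ => x) :=
    fun c => Fintype.sum_equiv (coinPerm c) _ _ (fun _ => rfl)
  simp_rw [this]
  rw [Finset.sum_const, Finset.card_univ, nsmul_eq_mul, ← mul_assoc]
  have hne : (Fintype.card (Coin b) : ℝ) ≠ 0 := by
    have : Nonempty (Coin b) := ⟨⟨fun _ => false, fun _ => rfl⟩⟩
    exact_mod_cast Fintype.card_ne_zero
  rw [inv_mul_cancel₀ hne, one_mul]

lemma sum_foldr_const [Unique A] (L : List (Fin D)) (F : (A → Pos D) → ℝ) :
    ∑ x : Pos D, (L.foldr tupP F) (fun _ => x) = ∑ x : Pos D, F (fun _ => x) := by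
  induction L with
  | nil => rfl
  | cons b L ih => rw [List.foldr_cons, sum_tupP_const, ih]

/-- One card is perfectly mixed. -/
theorem opBound_one (D : ℕ) : OpBound D 1 0 := by
  intro A _ _ hA φ hφ
  obtain ⟨a₀, ha₀⟩ := Fintype.card_eq_one_iff.mp hA
  let _ : Unique A := ⟨⟨a₀⟩, fun a => ha₀ a⟩
  have hall : ∀ y : A → Pos D, y = fun _ => y a₀ := by
    intro y; funext a; rw [ha₀ a]
  have hsum : ∑ x : Pos D, φ (fun _ => x) = 0 := by
    have := hφ.zero a₀ (fun _ => fun _ => false)
    rw [← this]
    refine Finset.sum_congr rfl fun v _ => ?_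
    congr 1
    funext a
    rw [ha₀ a]
    simp
  set f : Pos D → ℝ := fun x => tupT D φ (fun _ => x) with hf
  have hfinv : ∀ i x, f (flipAt i x) = f x := by
    intro i x
    exact foldr_flipInv (List.finRange D) φ i (List.mem_finRange i) (fun _ => x)
  have hconst : ∀ x, f x = f (fun _ => false) := fun x => const_of_flipInv f hfinv x _
  have hsum2 : ∑ x : Pos D, f x = 0 := by
    rw [← hsum]
    exact sum_foldr_const _ φ
  have hzero : f (fun _ => false) = 0 := by
    rw [Finset.sum_congr rfl (fun x _ => hconst x), Finset.sum_const, nsmul_eq_mul] at hsum2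
    rcases mul_eq_zero.mp hsum2 with h | h
    · have : (Fintype.card (Pos D) : ℕ) ≠ 0 := Fintype.card_ne_zero
      rw [Finset.card_univ] at h
      exact absurd (by exact_mod_cast h) this
    · exact h
  have hT : ∀ y, tupT D φ y = 0 := by
    intro y
    rw [hall y]
    change f (y a₀) = 0
    rw [hconst, hzero]
  simp [hT]

end

end Crest.Agent.Lib.Thorp
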