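/-
S0222 (Thorp shuffle): the final assembly, all inputs as black boxes (helper59).

Inputs: Theorem A (`hTA`), the low-level bound (`hLow`), the band bound (`hBand`).  Noise for the level
`K`: `η = K / (2 n)` for all `K ≤ n`.  Then `b(K) = exp (g K) (n / K)^(3K)`, `g = A + 51/10`.
-/
import Crest.Agent.Lib.Thorp.BandGroup
import Crest.Agent.Lib.Thorp.OpOne

set_option autoImplicit false
set_option linter.unusedSectionVars false

namespace Crest.Agent.Lib.Thorp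

open Matrix Filter Topology

section Scalar

/-- The scalar limit. -/
lemma tendsto_final_scalar (B q : ℝ) (hq : 1 < q) :
    Tendsto (fun x : ℝ => x * ((B * x ^ (-(q / 2))) ^ 2 + Real.exp (-Real.sqrt x))) atTop (𝓝 0) := by
  have h1 : Tendsto (fun x : ℝ => B ^ 2 * x ^ (-(q - 1))) atTop (𝓝 0) := by
    have := (tendsto_rpow_neg_atTop (by linarith : 0 < q - 1)).const_mul (B ^ 2)
    simpa using this
  have h2 : Tendsto (fun x : ℝ => Real.sqrt x ^ 2 * Real.exp (-Real.sqrt x)) atTop (𝓝 0) :=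
    (Real.tendsto_pow_mul_exp_neg_atTop_nhds_zero 2).comp Real.tendsto_sqrt_atTop
  have h3 := h1.add h2
  rw [add_zero] at h3
  refine h3.congr' ?_
  filter_upwards [eventually_gt_atTop 0] with x hx
  rw [Real.sq_sqrt hx.le, mul_add]
  congr 1
  rw [mul_pow, ← Real.rpow_natCast (x ^ (-(q / 2))) 2, ← Real.rpow_mul hx.le]
  have : x * (B ^ 2 * x ^ (-(q / 2) * ((2 : ℕ) : ℝ))) = B ^ 2 * (x ^ (1 : ℝ) * x ^ (-(q / 2) * ((2 : ℕ) : ℝ))) := by
    rw [Real.rpow_one]; ring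
  rw [this, ← Real.rpow_add hx]
  congr 2
  push_cast
  ring

/-- `1 / (1 - η) ≤ exp (2 η)` on `[0, 1/2]`. -/
lemma inv_one_sub_le_exp {η : ℝ} (h0 : 0 ≤ η) (h1 : η ≤ 1 / 2) : (1 - η)⁻¹ ≤ Real.exp (2 * η) := by
  have hpos : 0 < 1 - η := by linarith
  rw [inv_le_comm₀ hpos (Real.exp_pos _), ← Real.exp_neg]
  have h2 : 1 + 2 * η ≤ Real.exp (2 * η) := by linarith [Real.add_one_le_exp (2 * η)]
  have h3 : Real.exp (-(2 * η)) = (Real.exp (2 * η))⁻¹ := Real.exp_neg _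
  rw [h3]
  have h4 : (Real.exp (2 * η))⁻¹ ≤ (1 + 2 * η)⁻¹ := inv_anti₀ (by linarith) h2
  refine h4.trans ?_
  rw [inv_le_comm₀ (by linarith) hpos]
  rw [inv_le_iff_one_le_mul₀ hpos]
  nlinarith

/-- The bound on the inverse noise weight. -/
lemma noise_inv_bound {n K : ℕ} (hK : 1 ≤ K) (hKn : K ≤ n) :
    ((((K : ℝ) / (2 * n)) ^ K * (1 - (K : ℝ) / (2 * n)) ^ (n - K))⁻¹)
      ≤ (2 * Real.exp 1 * ((n : ℝ) / K)) ^ K := by
  have hKpos : (0 : ℝ) < K := by exact_mod_cast hK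
  have hnpos : (0 : ℝ) < n := by exact_mod_cast (lt_of_lt_of_le hK hKn)
  set η : ℝ := (K : ℝ) / (2 * n) with hη
  have hη0 : 0 < η := by positivity
  have hKn' : (K : ℝ) ≤ n := by exact_mod_cast hKn
  have hη1 : η ≤ 1 / 2 := by
    rw [hη, div_le_iff₀ (by positivity)]
    linarith
  have h1 : 0 < 1 - η := by linarith
  rw [mul_inv, ← inv_pow, ← inv_pow]
  have e1 : η⁻¹ = 2 * ((n : ℝ) / K) := by
    rw [hη]; field_simp
  have h2 : ((1 - η)⁻¹) ^ (n - K) ≤ Real.exp 1 ^ K := by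
    have h3 : ((1 - η)⁻¹) ^ (n - K) ≤ (Real.exp (2 * η)) ^ (n - K) :=
      pow_le_pow_left₀ (by positivity) (inv_one_sub_le_exp hη0.le hη1) _
    refine h3.trans ?_
    rw [← Real.exp_nat_mul, ← Real.exp_nat_mul, mul_one]
    apply Real.exp_le_exp.mpr
    have h4 : ((n - K : ℕ) : ℝ) ≤ n := by
      rw [Nat.cast_sub hKn]; linarith
    have h5 : (n : ℝ) * (2 * η) = K := by
      rw [hη]; field_simp
    have h6 : ((n - K : ℕ) : ℝ) * (2 * η) ≤ n * (2 * η) :=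
      mul_le_mul_of_nonneg_right h4 (by positivity)
    linarith
  rw [e1]
  calc (2 * ((n : ℝ) / K)) ^ K * ((1 - η)⁻¹) ^ (n - K)
      ≤ (2 * ((n : ℝ) / K)) ^ K * Real.exp 1 ^ K :=
        mul_le_mul_of_nonneg_left h2 (by positivity)
    _ = _ := by rw [← mul_pow]; ring_nf

end Scalar

section Main

/-- The operator bound used at level `k + 1`. -/
noncomputable def aF (θ κ C c : ℝ) (D k : ℕ) : ℝ :=
  if k = 0 then 0 else
  if C * ((k : ℝ) + 1) < 2 ^ D then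
    min (Real.exp (-θ * ((k : ℝ) + 1))) (κ * (C * ((k : ℝ) + 1) / 2 ^ D) ^ (c * ((k : ℝ) + 1)))
  else Real.exp (-θ * ((k : ℝ) + 1))

/-- The trace bound used at level `k + 1`. -/
noncomputable def bF (g : ℝ) (D k : ℕ) : ℝ :=
  Real.exp (g * ((k : ℝ) + 1)) * ((2 : ℝ) ^ D / ((k : ℝ) + 1)) ^ (3 * (k + 1))

variable {θ κ C c g : ℝ}

lemma aF_nonneg (hκ : 0 ≤ κ) (hC : 0 ≤ C) (D k : ℕ) : 0 ≤ aF θ κ C c D k := by
  unfold aF
  split_ifs
  · exact le_rfl
  · exact le_min (Real.exp_pos _).le (mul_nonneg hκ (Real.rpow_nonneg (by positivity) _))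
  · exact (Real.exp_pos _).le

lemma aF_le_TA (D k : ℕ) : aF θ κ C c D k ≤ Real.exp (-θ * ((k : ℝ) + 1)) := by
  unfold aF
  split_ifs
  · exact (Real.exp_pos _).le
  · exact min_le_left _ _
  · exact le_rfl

lemma aF_le_low (hκ : 0 ≤ κ) (hC0 : 0 ≤ C) (D k : ℕ) (hC : C * ((k : ℝ) + 1) < 2 ^ D) :
    aF θ κ C c D k ≤ κ * (C * ((k : ℝ) + 1) / 2 ^ D) ^ (c * ((k : ℝ) + 1)) := by
  unfold aF
  rw [if_pos hC]
  split_ifs
  · exact mul_nonneg hκ (Real.rpow_nonneg (by positivity) _)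
  · exact min_le_right _ _

lemma bF_nonneg (g : ℝ) (D k : ℕ) : 0 ≤ bF g D k := by
  unfold bF
  positivity

/-- The operator bound from the inputs. -/
theorem aF_op (hκ : 0 ≤ κ) (hC : 0 ≤ C)
    (hTA : ∀ (D k : ℕ) (v : Equiv.Perm (Pos D) → ℝ),
      ((blockT D * levelE (k + 1)) *ᵥ v) ⬝ᵥ ((blockT D * levelE (k + 1)) *ᵥ v)
        ≤ Real.exp (-θ * ((k : ℝ) + 1)) * (v ⬝ᵥ v))
    (hLow : ∀ D k : ℕ, 2 ≤ k → C * (k : ℝ) < 2 ^ D →
      OpBound D k (κ * (C * (k : ℝ) / 2 ^ D) ^ (c * (k : ℝ))))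
    (D k : ℕ) (v : Equiv.Perm (Pos D) → ℝ) :
    ((blockT D * levelE (k + 1)) *ᵥ v) ⬝ᵥ ((blockT D * levelE (k + 1)) *ᵥ v)
      ≤ aF θ κ C c D k * (v ⬝ᵥ v) := by
  unfold aF
  split_ifs with h0 h1
  · subst h0
    exact levelOp_of_OpBound 0 0 le_rfl (opBound_one D) v
  · rw [min_mul_of_nonneg _ _ (dot_self_nonneg' v)]
    refine le_min (hTA D k v) ?_
    have hk2 : 2 ≤ k + 1 := by omega
    have h2 := hLow D (k + 1) hk2 (by push_cast; exact h1)
    have hnn : 0 ≤ κ * (C * ((k : ℝ) + 1) / 2 ^ D) ^ (c * ((k : ℝ) + 1)) :=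
      mul_nonneg hκ (Real.rpow_nonneg (by positivity) _)
    push_cast at h2
    exact levelOp_of_OpBound k _ hnn h2 v
  · exact hTA D k v

lemma bandSum_nonneg {Ω : Type*} [Fintype Ω] [DecidableEq Ω] {ν : Equiv.Perm Ω → ℝ}
    (hν : ∀ g, 0 ≤ ν g) {η : ℝ} (h0 : 0 ≤ η) (h1 : η ≤ 1) : 0 ≤ bandSum ν η :=
  Finset.sum_nonneg fun S _ => mul_nonneg (noiseW_nonneg h0 h1 S)
    (Finset.sum_nonneg fun τ _ => mul_nonneg (phiS_nonneg hν S τ) (Real.sqrt_nonneg _))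

/-- The trace bound from the band bound. -/
theorem bF_trace {A : ℝ}
    (hBand : ∀ (D : ℕ) (η : ℝ), 0 < η → η ≤ 1 / 2 → ∃ ν : Equiv.Perm (Pos D) → ℝ,
      (blockT D)ᵀ * blockT D = regMat ν ∧ (∀ g, 0 ≤ ν g) ∧
        bandSum ν η ≤ Real.exp (A * η * 2 ^ D))
    (D k : ℕ) :
    trace (((blockT D)ᵀ * blockT D) ^ 4 * levelE (k + 1)) ≤ bF (A + 51 / 10) D k := by
  by_cases hk : k + 1 ≤ 2 ^ D
  · set K : ℕ := k + 1 with hK
    set n : ℕ := 2 ^ D with hn
    have hKpos : (0 : ℝ) < K := by rw [hK]; positivity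
    have hnR : (n : ℝ) = 2 ^ D := by rw [hn]; push_cast; rfl
    have hKR : (K : ℝ) = (k : ℝ) + 1 := by rw [hK]; push_cast; rfl
    have hnpos : (0 : ℝ) < n := by rw [hnR]; positivity
    have hKn : (K : ℝ) ≤ n := by exact_mod_cast hk
    set η : ℝ := (K : ℝ) / (2 * n) with hη
    have hη0 : 0 < η := by positivity
    have hη1 : η ≤ 1 / 2 := by
      rw [hη, div_le_iff₀ (by positivity)]
      linarith
    obtain ⟨ν, hW, hν, hB⟩ := hBand D η hη0 hη1
    have h1 := trace_W4_levelE_le_band D K hk ν hν hW hη0 hη1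
    refine h1.trans ?_
    set c₀ : ℝ := η ^ K * (1 - η) ^ (n - K) with hc₀
    have hc₀pos : 0 < c₀ := by
      have : 0 < 1 - η := by linarith
      positivity
    have hinv : c₀⁻¹ ≤ (2 * Real.exp 1 * ((n : ℝ) / K)) ^ K :=
      noise_inv_bound (by omega) hk
    have hBn := bandSum_nonneg hν hη0.le (by linarith : η ≤ 1)
    have hB2 : (bandSum ν η) ^ 2 ≤ Real.exp (A * K) := by
      have h2 : (bandSum ν η) ^ 2 ≤ (Real.exp (A * η * 2 ^ D)) ^ 2 := pow_le_pow_left₀ hBn hB 2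
      refine h2.trans (le_of_eq ?_)
      rw [← Real.exp_nat_mul]
      congr 1
      rw [hη, ← hnR]
      push_cast
      field_simp
    have h2e : (2 : ℝ) ≤ Real.exp (7 / 10) := by
      have := Real.log_two_lt_d9
      rw [← Real.log_le_iff_le_exp (by norm_num)]
      linarith
    have hcube : (c₀⁻¹) ^ 3 ≤ Real.exp (51 / 10 * K) * (((n : ℝ) / K) ^ (3 * K)) := by
      have h3 : (c₀⁻¹) ^ 3 ≤ ((2 * Real.exp 1 * ((n : ℝ) / K)) ^ K) ^ 3 :=
        pow_le_pow_left₀ (by positivity) hinv 3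
      refine h3.trans ?_
      have h4 : ((2 * Real.exp 1 * ((n : ℝ) / K)) ^ K) ^ 3
          = ((2 * Real.exp 1) ^ 3) ^ K * (((n : ℝ) / K) ^ (3 * K)) := by
        rw [← pow_mul, mul_pow, mul_comm K 3, pow_mul (2 * Real.exp 1)]
      rw [h4]
      refine mul_le_mul_of_nonneg_right ?_ (by positivity)
      have h5 : (2 * Real.exp 1) ^ 3 ≤ Real.exp (51 / 10) := by
        have h6 : 2 * Real.exp 1 ≤ Real.exp (7 / 10) * Real.exp 1 :=
          mul_le_mul_of_nonneg_right h2e (Real.exp_pos _).le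
        rw [← Real.exp_add] at h6
        have h7 := pow_le_pow_left₀ (by positivity) h6 3
        refine h7.trans (le_of_eq ?_)
        rw [← Real.exp_nat_mul]
        norm_num
      have h8 := pow_le_pow_left₀ (by positivity) h5 K
      refine h8.trans (le_of_eq ?_)
      rw [← Real.exp_nat_mul]
      congr 1
      ring
    unfold bF
    rw [div_eq_mul_inv, ← inv_pow, ← hKR, ← hnR]
    calc (bandSum ν η) ^ 2 * (c₀⁻¹) ^ 3
        ≤ Real.exp (A * K) * (Real.exp (51 / 10 * K) * (((n : ℝ) / K) ^ (3 * K))) :=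
          mul_le_mul hB2 hcube (by positivity) (by positivity)
      _ = Real.exp ((A + 51 / 10) * K) * ((n : ℝ) / K) ^ (3 * K) := by
          rw [← mul_assoc, ← Real.exp_add]
          congr 2
          ring
  · have hcard : Fintype.card (Pos D) ≤ k := by
      simp only [Fintype.card_pi, Fintype.card_bool, Finset.prod_const, Finset.card_univ,
        Fintype.card_fin]
      omega
    rw [levelE_succ_eq_zero hcard, Matrix.mul_zero, Matrix.trace_zero]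
    exact bF_nonneg _ _ _

lemma term_TA (hκ : 0 ≤ κ) (hC : 0 ≤ C) (D k : ℕ) :
    (aF θ κ C c D k) ^ 1596 * bF g D k
      ≤ (Real.exp (-(1596 * θ) + g) * ((2 : ℝ) ^ D / ((k : ℝ) + 1)) ^ 3) ^ (k + 1) := by
  set u : ℝ := (2 : ℝ) ^ D / ((k : ℝ) + 1) with hu
  have hu0 : 0 ≤ u := by positivity
  have h1 : (aF θ κ C c D k) ^ 1596 ≤ Real.exp (-θ * ((k : ℝ) + 1)) ^ 1596 :=
    pow_le_pow_left₀ (aF_nonneg hκ hC D k) (aF_le_TA D k) _
  unfold bF
  rw [← hu]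
  have e : (Real.exp (-(1596 * θ) + g) * u ^ 3) ^ (k + 1)
      = Real.exp (-θ * ((k : ℝ) + 1)) ^ 1596 * (Real.exp (g * ((k : ℝ) + 1)) * u ^ (3 * (k + 1))) := by
    rw [mul_pow, ← pow_mul, ← Real.exp_nat_mul, ← Real.exp_nat_mul, ← mul_assoc, ← Real.exp_add]
    congr 2
    push_cast
    ring
  rw [e]
  exact mul_le_mul_of_nonneg_right h1 (by positivity)

lemma term_low (hκ : 0 ≤ κ) (hκ1 : κ ≤ 1) (hC : 0 < C) (D k : ℕ)
    (hlt : C * ((k : ℝ) + 1) < 2 ^ D) :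
    (aF θ κ C c D k) ^ 1596 * bF g D k
      ≤ (C ^ (1596 * c) * Real.exp g * ((2 : ℝ) ^ D / ((k : ℝ) + 1)) ^ (-(1596 * c - 3))) ^ (k + 1) := by
  set u : ℝ := (2 : ℝ) ^ D / ((k : ℝ) + 1) with hu
  have hK : (0 : ℝ) < (k : ℝ) + 1 := by positivity
  have hu0 : 0 < u := by positivity
  set r : ℝ := C * ((k : ℝ) + 1) / 2 ^ D with hr
  have hrpos : 0 < r := by positivity
  have hru : r = C / u := by
    rw [hr, hu]; field_simp
  have h1 : aF θ κ C c D k ≤ r ^ (c * ((k : ℝ) + 1)) := by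
    refine (aF_le_low hκ hC.le D k hlt).trans ?_
    have : 0 ≤ r ^ (c * ((k : ℝ) + 1)) := (Real.rpow_pos_of_pos hrpos _).le
    nlinarith
  have h2 : (aF θ κ C c D k) ^ 1596 ≤ (r ^ (c * ((k : ℝ) + 1))) ^ 1596 :=
    pow_le_pow_left₀ (aF_nonneg hκ hC.le D k) h1 _
  have h3 : (r ^ (c * ((k : ℝ) + 1))) ^ 1596 = (r ^ (1596 * c)) ^ (k + 1) := by
    rw [← Real.rpow_natCast, ← Real.rpow_mul hrpos.le, ← Real.rpow_natCast _ (k + 1),
      ← Real.rpow_mul hrpos.le]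
    congr 1
    push_cast
    ring
  unfold bF
  rw [← hu]
  have e : (C ^ (1596 * c) * Real.exp g * u ^ (-(1596 * c - 3))) ^ (k + 1)
      = (r ^ (1596 * c)) ^ (k + 1) * (Real.exp (g * ((k : ℝ) + 1)) * u ^ (3 * (k + 1))) := by
    have e1 : Real.exp (g * ((k : ℝ) + 1)) = Real.exp g ^ (k + 1) := by
      rw [← Real.exp_nat_mul]
      congr 1
      push_cast
      ring
    have e2 : u ^ (3 * (k + 1)) = (u ^ 3) ^ (k + 1) := by rw [pow_mul]
    rw [e1, e2, ← mul_pow, ← mul_pow]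
    congr 1
    rw [hru, Real.div_rpow hC.le hu0.le]
    have e3 : u ^ (-(1596 * c - 3)) = u ^ 3 / u ^ (1596 * c) := by
      rw [show -(1596 * c - 3) = (3 : ℝ) - 1596 * c by ring, Real.rpow_sub hu0,
        show ((3 : ℝ)) = ((3 : ℕ) : ℝ) by norm_num, Real.rpow_natCast]
    rw [e3]
    have : u ^ (1596 * c) ≠ 0 := (Real.rpow_pos_of_pos hu0 _).ne'
    field_simp
  rw [e, ← h3]
  exact mul_le_mul_of_nonneg_right h2 (by positivity)

/-- The limit of the level sum. -/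
theorem hlim_final {u₀ : ℝ} (hκ : 0 ≤ κ) (hκ1 : κ ≤ 1) (hC : 0 < C) (hCu : C ≤ u₀)
    (hE : Real.exp (-(1596 * θ) + g) * u₀ ^ 3 ≤ Real.exp (-1))
    (hBu : C ^ (1596 * c) * Real.exp g * u₀ ^ (-(1596 * c - 3)) ≤ Real.exp (-1))
    (hq : 1 < 1596 * c - 3) :
    Tendsto (fun D : ℕ => ∑ k ∈ Finset.range (Fintype.card (Pos (D + 1))),
      (aF θ κ C c (D + 1) k) ^ 1596 * bF g (D + 1) k) atTop (𝓝 0) := by
  set q : ℝ := 1596 * c - 3 with hqdef
  set B : ℝ := C ^ (1596 * c) * Real.exp g with hB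
  have hBpos : 0 < B := by positivity
  have hu₀ : 0 < u₀ := lt_of_lt_of_le hC hCu
  have hq0 : 0 < q := by linarith
  -- each term is at most `exp (-K)`
  have hexp : ∀ D k : ℕ, (aF θ κ C c D k) ^ 1596 * bF g D k ≤ Real.exp (-((k : ℝ) + 1)) := by
    intro D k
    set u : ℝ := (2 : ℝ) ^ D / ((k : ℝ) + 1) with hu
    have hK : (0 : ℝ) < (k : ℝ) + 1 := by positivity
    have hupos : 0 < u := by positivity
    have hfin : Real.exp (-1) ^ (k + 1) = Real.exp (-((k : ℝ) + 1)) := by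
      rw [← Real.exp_nat_mul]
      congr 1
      push_cast
      ring
    by_cases huu : u ≤ u₀
    · refine (term_TA hκ hC.le D k).trans ?_
      rw [← hu, ← hfin]
      refine pow_le_pow_left₀ (by positivity) ?_ _
      refine le_trans ?_ hE
      exact mul_le_mul_of_nonneg_left (pow_le_pow_left₀ hupos.le huu 3) (Real.exp_pos _).le
    · push Not at huu
      have hlt : C * ((k : ℝ) + 1) < 2 ^ D := by
        have : C < u := lt_of_le_of_lt hCu huu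
        rwa [hu, lt_div_iff₀ hK] at this
      refine (term_low hκ hκ1 hC D k hlt).trans ?_
      rw [← hu, ← hfin]
      refine pow_le_pow_left₀ (by positivity) ?_ _
      refine le_trans ?_ hBu
      refine mul_le_mul_of_nonneg_left ?_ hBpos.le
      exact Real.rpow_le_rpow_of_nonpos hu₀ huu.le (by linarith)
  have hN : Tendsto (fun D : ℕ => (2 : ℝ) ^ (D + 1)) atTop atTop :=
    (tendsto_pow_atTop_atTop_of_one_lt (by norm_num : (1 : ℝ) < 2)).comp (tendsto_add_atTop_nat 1)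
  have hlim := (tendsto_final_scalar B q hq).comp hN
  have ev1 : ∀ᶠ D : ℕ in atTop, u₀ < Real.sqrt ((2 : ℝ) ^ (D + 1)) :=
    (Real.tendsto_sqrt_atTop.comp hN).eventually (eventually_gt_atTop u₀)
  have ev2 : ∀ᶠ D : ℕ in atTop, B * ((2 : ℝ) ^ (D + 1)) ^ (-(q / 2)) ≤ 1 := by
    have h := (((tendsto_rpow_neg_atTop (by linarith : 0 < q / 2)).const_mul B).comp hN)
    rw [mul_zero] at h
    filter_upwards [h.eventually (gt_mem_nhds (by norm_num : (0 : ℝ) < 1))] with D hD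
    exact le_of_lt hD
  refine squeeze_zero' (Eventually.of_forall fun D => ?_) ?_ hlim
  · refine Finset.sum_nonneg fun k _ => mul_nonneg ?_ (bF_nonneg _ _ _)
    exact pow_nonneg (aF_nonneg hκ hC.le _ _) _
  filter_upwards [ev1, ev2] with D h1 h2
  set N : ℝ := (2 : ℝ) ^ (D + 1) with hNdef
  have hNpos : 0 < N := by positivity
  set y : ℝ := B * N ^ (-(q / 2)) with hy
  have hy0 : 0 ≤ y := by positivity
  have hsqrtpos : 0 < Real.sqrt N := Real.sqrt_pos.mpr hNpos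
  -- each term
  have hterm : ∀ k : ℕ, (aF θ κ C c (D + 1) k) ^ 1596 * bF g (D + 1) k
      ≤ y ^ 2 + Real.exp (-Real.sqrt N) := by
    intro k
    have hpos1 : 0 ≤ y ^ 2 := sq_nonneg y
    have hpos2 : 0 ≤ Real.exp (-Real.sqrt N) := (Real.exp_pos _).le
    by_cases hk0 : k = 0
    · subst hk0
      simp only [aF, if_true]
      rw [zero_pow (by norm_num), zero_mul]
      linarith
    have hK1 : (0 : ℝ) < (k : ℝ) + 1 := by positivity
    by_cases hKs : (k : ℝ) + 1 ≤ Real.sqrt N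
    · -- small levels
      set u : ℝ := N / ((k : ℝ) + 1) with hu
      have hsu : Real.sqrt N ≤ u := by
        rw [hu, le_div_iff₀ hK1]
        calc Real.sqrt N * ((k : ℝ) + 1) ≤ Real.sqrt N * Real.sqrt N :=
              mul_le_mul_of_nonneg_left hKs hsqrtpos.le
          _ = N := Real.mul_self_sqrt hNpos.le
      have hCuu : C < u := lt_of_le_of_lt hCu (lt_of_lt_of_le h1 hsu)
      have hlt : C * ((k : ℝ) + 1) < 2 ^ (D + 1) := by
        rwa [hu, lt_div_iff₀ hK1] at hCuu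
      have h3 := term_low (g := g) (θ := θ) (c := c) hκ hκ1 hC (D + 1) k hlt
      rw [← hNdef, ← hu] at h3
      have h4 : u ^ (-q) ≤ N ^ (-(q / 2)) := by
        have h5 : u ^ (-q) ≤ (Real.sqrt N) ^ (-q) :=
          Real.rpow_le_rpow_of_nonpos hsqrtpos hsu (by linarith)
        refine h5.trans (le_of_eq ?_)
        rw [Real.sqrt_eq_rpow, ← Real.rpow_mul hNpos.le]
        congr 1
        ring
      have h6 : B * u ^ (-q) ≤ y := mul_le_mul_of_nonneg_left h4 hBpos.le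
      have h7 : (B * u ^ (-q)) ^ (k + 1) ≤ y ^ (k + 1) :=
        pow_le_pow_left₀ (mul_nonneg hBpos.le (Real.rpow_pos_of_pos (by positivity) _).le) h6 _
      have h8 : y ^ (k + 1) ≤ y ^ 2 := pow_le_pow_of_le_one hy0 h2 (by omega)
      calc _ ≤ _ := h3
        _ ≤ y ^ 2 := h7.trans h8
        _ ≤ _ := by linarith
    · push Not at hKs
      refine (hexp (D + 1) k).trans ?_
      have : Real.exp (-((k : ℝ) + 1)) ≤ Real.exp (-Real.sqrt N) :=
        Real.exp_le_exp.mpr (by linarith)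
      linarith
  have hcard : ((Fintype.card (Pos (D + 1)) : ℕ) : ℝ) = N := by
    rw [hNdef]
    simp
  calc ∑ k ∈ Finset.range (Fintype.card (Pos (D + 1))),
        (aF θ κ C c (D + 1) k) ^ 1596 * bF g (D + 1) k
      ≤ ∑ _k ∈ Finset.range (Fintype.card (Pos (D + 1))), (y ^ 2 + Real.exp (-Real.sqrt N)) :=
        Finset.sum_le_sum fun k _ => hterm k
    _ = N * (y ^ 2 + Real.exp (-Real.sqrt N)) := by
        rw [Finset.sum_const, Finset.card_range, nsmul_eq_mul, hcard]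

/-- **S0222 from the three inputs.** -/
theorem S0222_of_inputs (θ κ C c A u₀ : ℝ) (hκ : 0 ≤ κ) (hκ1 : κ ≤ 1) (hC : 0 < C) (hCu : C ≤ u₀)
    (hE : Real.exp (-(1596 * θ) + (A + 51 / 10)) * u₀ ^ 3 ≤ Real.exp (-1))
    (hBu : C ^ (1596 * c) * Real.exp (A + 51 / 10) * u₀ ^ (-(1596 * c - 3)) ≤ Real.exp (-1))
    (hq : 1 < 1596 * c - 3)
    (hTA : ∀ (D k : ℕ) (v : Equiv.Perm (Pos D) → ℝ),
      ((blockT D * levelE (k + 1)) *ᵥ v) ⬝ᵥ ((blockT D * levelE (k + 1)) *ᵥ v)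
        ≤ Real.exp (-θ * ((k : ℝ) + 1)) * (v ⬝ᵥ v))
    (hLow : ∀ D k : ℕ, 2 ≤ k → C * (k : ℝ) < 2 ^ D →
      OpBound D k (κ * (C * (k : ℝ) / 2 ^ D) ^ (c * (k : ℝ))))
    (hBand : ∀ (D : ℕ) (η : ℝ), 0 < η → η ≤ 1 / 2 → ∃ ν : Equiv.Perm (Pos D) → ℝ,
      (blockT D)ᵀ * blockT D = regMat ν ∧ (∀ g, 0 ≤ ν g) ∧
        bandSum ν η ≤ Real.exp (A * η * 2 ^ D)) :
    Tendsto (fun d : ℕ => Crest.ProbabilityR.Shuffle.tvFromUniform (2 ^ d) (1600 * (d + 1)))
      atTop (𝓝 0) :=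
  S0222_of_level_op (aF θ κ C c) (bF (A + 51 / 10)) (aF_nonneg hκ hC.le)
    (aF_op hκ hC.le hTA hLow) (bF_trace hBand)
    (hlim_final hκ hκ1 hC hCu hE hBu hq)

/-- **S0222 from the three inputs**, with the numerical constraints in logarithmic form. -/
theorem S0222_of_inputs_log (θ κ C c A U : ℝ) (hκ : 0 ≤ κ) (hκ1 : κ ≤ 1) (hC : 0 < C)
    (hCU : Real.log C ≤ U)
    (hE : -(1596 * θ) + (A + 51 / 10) + 3 * U ≤ -1)
    (hBu : 1596 * c * Real.log C + (A + 51 / 10) - U * (1596 * c - 3) ≤ -1)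
    (hq : 1 < 1596 * c - 3)
    (hTA : ∀ (D k : ℕ) (v : Equiv.Perm (Pos D) → ℝ),
      ((blockT D * levelE (k + 1)) *ᵥ v) ⬝ᵥ ((blockT D * levelE (k + 1)) *ᵥ v)
        ≤ Real.exp (-θ * ((k : ℝ) + 1)) * (v ⬝ᵥ v))
    (hLow : ∀ D k : ℕ, 2 ≤ k → C * (k : ℝ) < 2 ^ D →
      OpBound D k (κ * (C * (k : ℝ) / 2 ^ D) ^ (c * (k : ℝ))))
    (hBand : ∀ (D : ℕ) (η : ℝ), 0 < η → η ≤ 1 / 2 → ∃ ν : Equiv.Perm (Pos D) → ℝ,
      (blockT D)ᵀ * blockT D = regMat ν ∧ (∀ g, 0 ≤ ν g) ∧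
        bandSum ν η ≤ Real.exp (A * η * 2 ^ D)) :
    Tendsto (fun d : ℕ => Crest.ProbabilityR.Shuffle.tvFromUniform (2 ^ d) (1600 * (d + 1)))
      atTop (𝓝 0) := by
  refine S0222_of_inputs θ κ C c A (Real.exp U) hκ hκ1 hC ?_ ?_ ?_ hq hTA hLow hBand
  · rw [← Real.log_le_iff_le_exp hC]; exact hCU
  · rw [← Real.exp_nat_mul, ← Real.exp_add]
    apply Real.exp_le_exp.mpr
    push_cast
    linarith
  · have e1 : C ^ (1596 * c) = Real.exp (1596 * c * Real.log C) := by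
      rw [Real.rpow_def_of_pos hC]; ring_nf
    have e2 : Real.exp U ^ (-(1596 * c - 3)) = Real.exp (U * (-(1596 * c - 3))) := by
      rw [← Real.exp_mul]
    rw [e1, e2, ← Real.exp_add, ← Real.exp_add]
    apply Real.exp_le_exp.mpr
    nlinarith

/-- The numerical constraints hold for the constants on the table (`θ = 13/200`, `C = 2^16`,
`c = 1/100`, `A = 7`). -/
example : Real.log (2 ^ 16) ≤ (29 : ℝ) ∧ -(1596 * (13 / 200 : ℝ)) + (7 + 51 / 10) + 3 * 29 ≤ -1 ∧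
    1596 * (1 / 100 : ℝ) * Real.log (2 ^ 16) + (7 + 51 / 10) - 29 * (1596 * (1 / 100 : ℝ) - 3) ≤ -1 ∧
    1 < 1596 * (1 / 100 : ℝ) - 3 := by
  have h : Real.log (2 ^ 16) = 16 * Real.log 2 := by
    rw [Real.log_pow]; norm_num
  have h2 := Real.log_two_lt_d9
  refine ⟨?_, by norm_num, ?_, by norm_num⟩
  · rw [h]; linarith
  · rw [h]; nlinarith

end Main

end Crest.Agent.Lib.Thorp
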