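/-
S0222 (Thorp shuffle), module M3 (sector layer), part 1.
The block on `D+1` bits, after the top projection, splits over the sectors `σ : A → Bool` (top bits) into
the child block acting on the two sides independently, and this two-sided child block is the conjugation
`U ↦ T U Tᵀ` on matrices `U x₀ x₁ = F (mix x₀ x₁)`, `x₀, x₁` arrangements of the child deck.
-/
import Crest.Agent.Lib.Thorp.Bridge

set_option autoImplicit false
set_option linter.unusedSectionVars false

namespace Crest.Agent.Lib.Thorp.Sec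

open Matrix

section Split

variable {D : ℕ} {A : Type*}

/-- Position on `D+1` bits with low part `y` and top bit `t`. -/
def snocP (y : Pos D) (t : Bool) : Pos (D + 1) := Fin.snoc (α := fun _ => Bool) y t

/-- Low part. -/
def low (x : Pos (D + 1)) : Pos D := fun i => x i.castSucc

/-- Top bit. -/
def top (x : Pos (D + 1)) : Bool := x (Fin.last D)

@[simp] lemma low_snoc (y : Pos D) (t : Bool) : low (snocP y t) = y := by
  funext i; simp [low, snocP]

@[simp] lemma top_snoc (y : Pos D) (t : Bool) : top (snocP y t) = t := by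
  simp [top, snocP]

@[simp] lemma snoc_low_top (x : Pos (D + 1)) : snocP (low x) (top x) = x := by
  funext i
  refine Fin.lastCases ?_ (fun j => ?_) i
  · simp [snocP, top]
  · simp [snocP, low]

/-- `Pos (D+1) ≃ Pos D × Bool`. -/
def posEquiv : Pos (D + 1) ≃ Pos D × Bool where
  toFun x := (low x, top x)
  invFun p := snocP p.1 p.2
  left_inv x := snoc_low_top x
  right_inv p := by simp

lemma flipAt_castSucc_snoc (b : Fin D) (y : Pos D) (t : Bool) :
    flipAt b.castSucc (snocP y t) = snocP (flipAt b y) t := by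
  funext i
  refine Fin.lastCases ?_ (fun j => ?_) i
  · have h : Fin.last D ≠ b.castSucc := (Fin.castSucc_lt_last b).ne'
    simp [flipAt, snocP, Function.update_of_ne h]
  · by_cases h : j = b
    · subst h; simp [flipAt, snocP]
    · have h' : j.castSucc ≠ b.castSucc := fun e => h (Fin.castSucc_injective _ e)
      simp [flipAt, snocP, Function.update_of_ne h', Function.update_of_ne h]

/-- The two halves of a coin across a low bit. -/
def coinHalf (b : Fin D) (c : Coin b.castSucc) (t : Bool) : Coin b :=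
  ⟨fun y => c.1 (snocP y t), fun y => by
    show c.1 (snocP (flipAt b y) t) = c.1 (snocP y t)
    rw [← flipAt_castSucc_snoc]; exact c.2 _⟩

lemma flipAt_castSucc_low (b : Fin D) (x : Pos (D + 1)) :
    low (flipAt b.castSucc x) = flipAt b (low x) := by
  conv_lhs => rw [← snoc_low_top x, flipAt_castSucc_snoc]
  simp

lemma flipAt_castSucc_top (b : Fin D) (x : Pos (D + 1)) :
    top (flipAt b.castSucc x) = top x := by
  conv_lhs => rw [← snoc_low_top x, flipAt_castSucc_snoc]
  simp

/-- Coins across a low bit are pairs of coins. -/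
def coinSplit (b : Fin D) : Coin b.castSucc ≃ Coin b × Coin b where
  toFun c := (coinHalf b c false, coinHalf b c true)
  invFun p := ⟨fun x => if top x then p.2.1 (low x) else p.1.1 (low x), fun x => by
    beta_reduce
    rw [flipAt_castSucc_top, flipAt_castSucc_low]
    by_cases h : top x
    · simp [h, p.2.2]
    · simp [h, p.1.2]⟩
  left_inv c := by
    apply Subtype.ext
    funext x
    conv_rhs => rw [← snoc_low_top x]
    by_cases h : top x
    · simp [h, coinHalf]
    · simp [h, coinHalf]
  right_inv p := by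
    apply Prod.ext
    · apply Subtype.ext; funext y; simp [coinHalf]
    · apply Subtype.ext; funext y; simp [coinHalf]

lemma coinPerm_snoc (b : Fin D) (c : Coin b.castSucc) (y : Pos D) (t : Bool) :
    coinPerm c (snocP y t) = snocP (coinPerm (coinHalf b c t) y) t := by
  simp only [coinPerm_apply, coinHalf]
  by_cases h : c.1 (snocP y t) = true
  · simp [h, flipAt_castSucc_snoc]
  · simp [h]

/-- Tuple on `D+1` bits from sides `σ` and low parts `y`. -/
def joinT (σ : A → Bool) (y : A → Pos D) : A → Pos (D + 1) := fun a => snocP (y a) (σ a)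

/-- Tuples on `D+1` bits are pairs. -/
def joinEquiv : (A → Pos (D + 1)) ≃ (A → Bool) × (A → Pos D) where
  toFun x := (fun a => top (x a), fun a => low (x a))
  invFun p := joinT p.1 p.2
  left_inv x := by funext a; simp [joinT]
  right_inv p := by
    apply Prod.ext
    · funext a; simp [joinT]
    · funext a; simp [joinT]

/-- The two-sided child projection on a sector. -/
noncomputable def secP (σ : A → Bool) (b : Fin D) (F : (A → Pos D) → ℝ) (y : A → Pos D) : ℝ :=
  (Fintype.card (Coin b) : ℝ)⁻¹ * ∑ c₁ : Coin b, ((Fintype.card (Coin b) : ℝ)⁻¹ * ∑ c₀ : Coin b,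
    F (fun a => coinPerm (if σ a then c₁ else c₀) (y a)))

lemma coinHalf_split (b : Fin D) (p : Coin b × Coin b) (t : Bool) :
    coinHalf b ((coinSplit b).symm p) t = if t then p.2 else p.1 := by
  have h := (coinSplit b).apply_symm_apply p
  cases t
  · exact congrArg Prod.fst h
  · exact congrArg Prod.snd h

lemma tupP_join (σ : A → Bool) (b : Fin D) (Φ : (A → Pos (D + 1)) → ℝ) (y : A → Pos D) :
    tupP b.castSucc Φ (joinT σ y) = secP σ b (fun z => Φ (joinT σ z)) y := by
  unfold tupP secP
  have hcard : (Fintype.card (Coin b.castSucc) : ℝ)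
      = (Fintype.card (Coin b) : ℝ) * (Fintype.card (Coin b) : ℝ) := by
    rw [Fintype.card_congr (coinSplit b), Fintype.card_prod]
    push_cast
    ring
  have hsum : ∑ c : Coin b.castSucc, Φ (fun a => coinPerm c (joinT σ y a))
      = ∑ c₁ : Coin b, ∑ c₀ : Coin b,
          Φ (joinT σ (fun a => coinPerm (if σ a then c₁ else c₀) (y a))) := by
    rw [← (coinSplit b).symm.sum_comp, Fintype.sum_prod_type_right]
    refine Finset.sum_congr rfl fun c₁ _ => Finset.sum_congr rfl fun c₀ _ => ?_
    congr 1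
    funext a
    simp only [joinT]
    rw [coinPerm_snoc, coinHalf_split]
  rw [hsum, hcard, mul_inv]
  simp only [Finset.mul_sum, mul_assoc]

/-- The two-sided child block on a sector. -/
noncomputable def secT (σ : A → Bool) (F : (A → Pos D) → ℝ) : (A → Pos D) → ℝ :=
  (List.finRange D).foldr (secP σ) F

lemma foldr_tupP_join (σ : A → Bool) (L : List (Fin D)) (Φ : (A → Pos (D + 1)) → ℝ) (y : A → Pos D) :
    (L.map Fin.castSucc).foldr tupP Φ (joinT σ y)
      = L.foldr (secP σ) (fun z => Φ (joinT σ z)) y := by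
  induction L generalizing y with
  | nil => rfl
  | cons b L ih =>
    simp only [List.map_cons, List.foldr_cons]
    rw [tupP_join]
    congr 1
    funext z
    exact ih z

/-- The block on `D+1` bits on a sector. -/
theorem tupT_succ_join (σ : A → Bool) (φ : (A → Pos (D + 1)) → ℝ) (y : A → Pos D) :
    tupT (D + 1) φ (joinT σ y)
      = secT σ (fun z => tupP (Fin.last D) φ (joinT σ z)) y := by
  unfold tupT secT
  rw [List.finRange_succ_last, List.foldr_append]
  exact foldr_tupP_join σ _ _ y

/-- The sum over tuples splits over the sectors. -/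
theorem sum_join [Fintype A] [DecidableEq A] (G : (A → Pos (D + 1)) → ℝ) :
    ∑ x, G x = ∑ σ : A → Bool, ∑ y : A → Pos D, G (joinT σ y) := by
  rw [← Fintype.sum_prod_type']
  exact Fintype.sum_equiv (joinEquiv (D := D) (A := A)) _ _ (fun x => by
    congr 1
    exact (joinEquiv (D := D) (A := A)).left_inv x |>.symm)

end Split

section Lift

variable {D : ℕ} {A : Type*}

/-- Two arrangements of the child deck, mixed according to the sides. -/
def mixT (σ : A → Bool) (ι : A → Pos D) (x₀ x₁ : Equiv.Perm (Pos D)) : A → Pos D :=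
  fun a => if σ a then x₁ (ι a) else x₀ (ι a)

/-- The matrix of a function of a sector. -/
def liftM (σ : A → Bool) (ι : A → Pos D) (F : (A → Pos D) → ℝ) :
    Matrix (Equiv.Perm (Pos D)) (Equiv.Perm (Pos D)) ℝ :=
  Matrix.of fun x₀ x₁ => F (mixT σ ι x₀ x₁)

lemma P_mulVec_apply (b : Fin D) (f : Equiv.Perm (Pos D) → ℝ) (x : Equiv.Perm (Pos D)) :
    (P b *ᵥ f) x = (Fintype.card (Coin b) : ℝ)⁻¹ * ∑ c : Coin b, f (coinPerm c * x) := by
  unfold P swapLaw
  rw [regMat_push_mulVec]
  simp_rw [coinPerm_inv]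

lemma mixT_coin (σ : A → Bool) (ι : A → Pos D) (b : Fin D) (c₀ c₁ : Coin b)
    (x₀ x₁ : Equiv.Perm (Pos D)) :
    mixT σ ι (coinPerm c₀ * x₀) (coinPerm c₁ * x₁)
      = fun a => coinPerm (if σ a then c₁ else c₀) (mixT σ ι x₀ x₁ a) := by
  funext a
  simp only [mixT]
  cases σ a <;> simp

/-- One projection acts on both sides. -/
theorem P_liftM_P (σ : A → Bool) (ι : A → Pos D) (b : Fin D) (F : (A → Pos D) → ℝ) :
    P b * liftM σ ι F * (P b)ᵀ = liftM σ ι (secP σ b F) := by
  ext x₀ x₁
  have h1 : (P b * liftM σ ι F * (P b)ᵀ) x₀ x₁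
      = (P b *ᵥ (fun y => (P b * liftM σ ι F) x₀ y)) x₁ := by
    simp only [Matrix.mul_apply, Matrix.mulVec, dotProduct, Matrix.transpose_apply, mul_comm]
  have h2 : ∀ y, (P b * liftM σ ι F) x₀ y = (P b *ᵥ (fun z => liftM σ ι F z y)) x₀ := by
    intro y
    simp only [Matrix.mul_apply, Matrix.mulVec, dotProduct]
  rw [h1, P_mulVec_apply]
  simp_rw [h2, P_mulVec_apply]
  simp only [liftM, Matrix.of_apply, secP, mixT_coin]

/-- The child block acts by conjugation. -/
theorem block_liftM_block (σ : A → Bool) (ι : A → Pos D) (F : (A → Pos D) → ℝ) :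
    blockT D * liftM σ ι F * (blockT D)ᵀ = liftM σ ι (secT σ F) := by
  have key : ∀ L : List (Fin D), (L.map (P (D := D))).prod * liftM σ ι F * ((L.map P).prod)ᵀ
      = liftM σ ι (L.foldr (secP σ) F) := by
    intro L
    induction L with
    | nil => simp
    | cons b L ih =>
      simp only [List.map_cons, List.prod_cons, List.foldr_cons, Matrix.transpose_mul]
      rw [← P_liftM_P, ← ih]
      simp only [Matrix.mul_assoc]
  exact key _

end Lift

section Norm

variable {D : ℕ} {A : Type*} [Fintype A] [DecidableEq A]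

/-- The cards on a side. -/
def side (σ : A → Bool) (t : Bool) : Finset A := Finset.univ.filter (fun a => σ a = t)

@[simp] lemma mem_side {σ : A → Bool} {t : Bool} {a : A} : a ∈ side σ t ↔ σ a = t := by simp [side]

/-- Injective on each side. -/
def SideInj (σ : A → Bool) (y : A → Pos D) : Prop := ∀ a a', σ a = σ a' → y a = y a' → a = a'

lemma joinT_injective_iff (σ : A → Bool) (y : A → Pos D) :
    Function.Injective (joinT σ y) ↔ SideInj σ y := by
  constructor
  · intro h a a' hs hy
    apply h
    simp [joinT, hs, hy]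
  · intro h a a' he
    have h1 : σ a = σ a' := by simpa [joinT] using congrArg top he
    have h2 : y a = y a' := by simpa [joinT] using congrArg low he
    exact h a a' h1 h2

lemma mixT_sideInj (σ : A → Bool) {ι : A → Pos D} (hι : Function.Injective ι)
    (x₀ x₁ : Equiv.Perm (Pos D)) : SideInj σ (mixT σ ι x₀ x₁) := by
  intro a a' hs hy
  simp only [mixT, ← hs] at hy
  cases h : σ a
  · simp only [h] at hy
    simpa using hι (x₀.injective (by simpa using hy))
  · simp only [h] at hy
    simpa using hι (x₁.injective (by simpa using hy))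

lemma mixT_eq_iff (σ : A → Bool) (ι : A → Pos D) (x₀ x₁ : Equiv.Perm (Pos D)) (y : A → Pos D) :
    mixT σ ι x₀ x₁ = y ↔
      (∀ a ∈ side σ false, x₀ (ι a) = y a) ∧ (∀ a ∈ side σ true, x₁ (ι a) = y a) := by
  constructor
  · rintro rfl
    constructor
    · intro a ha
      have : σ a = false := by simpa using ha
      simp [mixT, this]
    · intro a ha
      have : σ a = true := by simpa using ha
      simp [mixT, this]
  · rintro ⟨h0, h1⟩
    funext a
    cases h : σ a
    · simpa [mixT, h] using h0 a (by simpa using h)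
    · simpa [mixT, h] using h1 a (by simpa using h)

/-- The number of arrangements with prescribed positions of the cards `ι '' T`. -/
lemma card_fiber_image (T : Finset A) {ι : A → Pos D} (hι : Function.Injective ι) (y : A → Pos D)
    (hy : ∀ a ∈ T, ∀ a' ∈ T, y a = y a' → a = a') :
    (Finset.univ.filter (fun x : Equiv.Perm (Pos D) => ∀ a ∈ T, x (ι a) = y a)).card
      = (fixS (T.image ι)).card := by
  classical
  set S := T.image ι with hS
  have hch : ∀ s : S, ∃ a, a ∈ T ∧ ι a = s.1 := fun s => Finset.mem_image.mp s.2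
  choose g hgT hgι using hch
  let z : S → Pos D := fun s => y (g s)
  have hz : Function.Injective z := by
    intro s s' h
    have := hy _ (hgT s) _ (hgT s') h
    apply Subtype.ext
    rw [← hgι s, ← hgι s', this]
  rw [← card_fiber S z hz]
  congr 1
  ext x
  simp only [Finset.mem_filter, Finset.mem_univ, true_and]
  constructor
  · intro h
    funext s
    simp only [restr, z]
    rw [← h _ (hgT s), hgι s]
  · intro h a ha
    have hmem : ι a ∈ S := Finset.mem_image_of_mem _ ha
    have h1 := congrFun h ⟨ι a, hmem⟩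
    simp only [restr, z] at h1
    have h2 : g ⟨ι a, hmem⟩ = a := hι (hgι _)
    rw [h1, h2]

/-- The normalization of a sector. -/
noncomputable def normN (σ : A → Bool) (ι : A → Pos D) : ℝ :=
  ((fixS ((side σ false).image ι)).card : ℝ) * ((fixS ((side σ true).image ι)).card : ℝ)

lemma normN_pos (σ : A → Bool) (ι : A → Pos D) : 0 < normN σ ι := by
  unfold normN
  have h1 := fixS_card_pos ((side σ false).image ι)
  have h2 := fixS_card_pos ((side σ true).image ι)
  positivity

/-- The sum over pairs of arrangements of a function of the mix. -/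
theorem sum_mixT (σ : A → Bool) {ι : A → Pos D} (hι : Function.Injective ι) (G : (A → Pos D) → ℝ)
    (hG : ∀ y, ¬ SideInj σ y → G y = 0) :
    ∑ x₀, ∑ x₁, G (mixT σ ι x₀ x₁) = normN σ ι * ∑ y, G y := by
  classical
  rw [← Fintype.sum_prod_type' (f := fun x₀ x₁ => G (mixT σ ι x₀ x₁))]
  rw [← Finset.sum_fiberwise (s := Finset.univ) (g := fun p : Equiv.Perm (Pos D) × Equiv.Perm (Pos D)
    => mixT σ ι p.1 p.2), Finset.mul_sum]
  refine Finset.sum_congr rfl fun y _ => ?_
  have h1 : ∀ p ∈ Finset.univ.filter (fun p : Equiv.Perm (Pos D) × Equiv.Perm (Pos D) =>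
      mixT σ ι p.1 p.2 = y), G (mixT σ ι p.1 p.2) = G y := by
    intro p hp
    rw [(Finset.mem_filter.mp hp).2]
  rw [Finset.sum_congr rfl h1, Finset.sum_const, nsmul_eq_mul]
  by_cases hy : SideInj σ y
  · congr 1
    have h2 : Finset.univ.filter (fun p : Equiv.Perm (Pos D) × Equiv.Perm (Pos D) =>
        mixT σ ι p.1 p.2 = y)
        = (Finset.univ.filter (fun x : Equiv.Perm (Pos D) => ∀ a ∈ side σ false, x (ι a) = y a)) ×ˢ
          (Finset.univ.filter (fun x : Equiv.Perm (Pos D) => ∀ a ∈ side σ true, x (ι a) = y a)) := by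
      ext p
      simp only [Finset.mem_filter, Finset.mem_univ, true_and, Finset.mem_product, mixT_eq_iff]
    rw [h2, Finset.card_product, card_fiber_image _ hι, card_fiber_image _ hι]
    · simp [normN]
    · intro a ha a' ha' h
      exact hy a a' (by rw [mem_side.mp ha, mem_side.mp ha']) h
    · intro a ha a' ha' h
      exact hy a a' (by rw [mem_side.mp ha, mem_side.mp ha']) h
  · rw [hG y hy]; simp

/-- The Hilbert-Schmidt norm of the matrix of a sector function. -/
theorem hsSq_liftM (σ : A → Bool) {ι : A → Pos D} (hι : Function.Injective ι) (F : (A → Pos D) → ℝ)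
    (hF : ∀ y, ¬ SideInj σ y → F y = 0) :
    hsSq (liftM σ ι F) = normN σ ι * ∑ y, (F y) ^ 2 := by
  unfold hsSq liftM
  simp only [Matrix.of_apply]
  exact sum_mixT σ hι (fun y => (F y) ^ 2) (fun y hy => by simp [hF y hy])

lemma secP_vanish (σ : A → Bool) (b : Fin D) (F : (A → Pos D) → ℝ)
    (hF : ∀ y, ¬ SideInj σ y → F y = 0) (y : A → Pos D) (hy : ¬ SideInj σ y) : secP σ b F y = 0 := by
  unfold secP
  have : ∀ c₁ c₀ : Coin b, F (fun a => coinPerm (if σ a then c₁ else c₀) (y a)) = 0 := by
    intro c₁ c₀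
    apply hF
    intro h
    apply hy
    intro a a' hs he
    apply h a a' hs
    simp [hs, he]
  simp only [this, Finset.sum_const_zero, mul_zero]

lemma secT_vanish (σ : A → Bool) (F : (A → Pos D) → ℝ)
    (hF : ∀ y, ¬ SideInj σ y → F y = 0) (y : A → Pos D) (hy : ¬ SideInj σ y) : secT σ F y = 0 := by
  unfold secT
  have key : ∀ L : List (Fin D), ∀ y, ¬ SideInj σ y → L.foldr (secP σ) F y = 0 := by
    intro L
    induction L with
    | nil => exact hF
    | cons b L ih => exact fun y hy => secP_vanish σ b _ ih y hy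
  exact key _ y hy

end Norm

section Decomp

variable {ι κ : Type*} [Fintype ι] [DecidableEq ι] [Fintype κ] [DecidableEq κ]

/-- The Hilbert-Schmidt norm splits on both sides. -/
theorem hsSq_two_sided {E : κ → Matrix ι ι ℝ} (hE : OrthoDecomp E) (M : Matrix ι ι ℝ) :
    hsSq M = ∑ j, ∑ l, hsSq (E j * M * E l) := by
  rw [hsSq_eq_sum hE M, Finset.sum_comm]
  refine Finset.sum_congr rfl fun l _ => ?_
  rw [← hsSq_transpose, hsSq_eq_sum hE]
  refine Finset.sum_congr rfl fun j _ => ?_
  rw [← hsSq_transpose]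
  simp [Matrix.transpose_mul, hE.symm, Matrix.mul_assoc]

/-- Peeling operator norms on both sides. -/
lemma hsSq_two_peel (X Y C : Matrix ι ι ℝ) (a b : ℝ) (ha : 0 ≤ a)
    (hX : ∀ v : ι → ℝ, (X *ᵥ v) ⬝ᵥ (X *ᵥ v) ≤ a * (v ⬝ᵥ v))
    (hY : ∀ v : ι → ℝ, (Y *ᵥ v) ⬝ᵥ (Y *ᵥ v) ≤ b * (v ⬝ᵥ v)) :
    hsSq (X * C * Yᵀ) ≤ a * b * hsSq C := by
  have h1 : hsSq (X * (C * Yᵀ)) ≤ a * hsSq (C * Yᵀ) := hsSq_mul_le _ _ a hX
  have h2 : hsSq (C * Yᵀ) = hsSq (Y * Cᵀ) := by
    rw [← hsSq_transpose]; simp [Matrix.transpose_mul]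
  have h3 : hsSq (Y * Cᵀ) ≤ b * hsSq Cᵀ := hsSq_mul_le _ _ b hY
  rw [hsSq_transpose] at h3
  rw [Matrix.mul_assoc]
  calc hsSq (X * (C * Yᵀ)) ≤ a * hsSq (C * Yᵀ) := h1
    _ = a * hsSq (Y * Cᵀ) := by rw [h2]
    _ ≤ a * (b * hsSq C) := by gcongr
    _ = a * b * hsSq C := by ring

/-- Conjugation bound over an orthogonal decomposition commuting with `T`. -/
theorem hsSq_conj_le {E : κ → Matrix ι ι ℝ} (hE : OrthoDecomp E) (T M : Matrix ι ι ℝ)
    (hc : ∀ j, T * E j = E j * T) (a : κ → ℝ) (ha : ∀ j, 0 ≤ a j)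
    (hOp : ∀ j (v : ι → ℝ), ((T * E j) *ᵥ v) ⬝ᵥ ((T * E j) *ᵥ v) ≤ a j * (v ⬝ᵥ v)) :
    hsSq (T * M * Tᵀ) ≤ ∑ j, ∑ l, a j * a l * hsSq (E j * M * E l) := by
  rw [hsSq_two_sided hE]
  refine Finset.sum_le_sum fun j _ => Finset.sum_le_sum fun l _ => ?_
  have hct : Tᵀ * E l = E l * Tᵀ := by
    have := congrArg Matrix.transpose (hc l)
    simpa [Matrix.transpose_mul, hE.symm] using this.symm
  have h1 : E j * (T * M * Tᵀ) * E l = (T * E j) * (E j * M * E l) * (T * E l)ᵀ := by
    rw [Matrix.transpose_mul, hE.symm]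
    calc E j * (T * M * Tᵀ) * E l = (E j * T) * M * (Tᵀ * E l) := by noncomm_ring
      _ = (T * E j) * M * (E l * Tᵀ) := by rw [hc j, hct]
      _ = T * (E j * E j) * M * ((E l * E l) * Tᵀ) := by rw [hE.idem, hE.idem]
      _ = _ := by noncomm_ring
  rw [h1]
  exact hsSq_two_peel _ _ _ _ _ (ha j) (hOp j) (hOp l)

end Decomp

end Crest.Agent.Lib.Thorp.Sec
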