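/-
S0222 (Thorp shuffle), module M3 (sector layer), part 2: the mass of the levels on a sector and the main
inequality of the recursion.
-/
import Crest.Agent.Lib.Thorp.Sector

set_option autoImplicit false
set_option linter.unusedSectionVars false

namespace Crest.Agent.Lib.Thorp.Sec

open Matrix

section Proj

variable {ι : Type*} [Fintype ι] [DecidableEq ι]

/-- An orthogonal projection is a contraction. -/
lemma proj_dot_le (E : Matrix ι ι ℝ) (hs : Eᵀ = E) (hi : E * E = E) (v : ι → ℝ) :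
    (E *ᵥ v) ⬝ᵥ (E *ᵥ v) ≤ v ⬝ᵥ v := by
  have h1 : (E *ᵥ v) ⬝ᵥ (E *ᵥ v) = v ⬝ᵥ (E *ᵥ v) := by
    rw [Matrix.dotProduct_mulVec, ← Matrix.mulVec_transpose, hs, Matrix.mulVec_mulVec, hi,
      dotProduct_comm]
  have h2 : 0 ≤ (v - E *ᵥ v) ⬝ᵥ (v - E *ᵥ v) :=
    Finset.sum_nonneg fun i _ => mul_self_nonneg _
  simp only [sub_dotProduct, dotProduct_sub] at h2
  rw [dotProduct_comm (E *ᵥ v) v] at h2
  linarith

end Proj

section Child

variable {D : ℕ}

/-- Child bounds: `a j` bounds the squared operator norm of the child block on level `j`. -/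
structure ChildBound (D : ℕ) (a : ℕ → ℝ) : Prop where
  nonneg : ∀ j, 0 ≤ a j
  zero : 1 ≤ a 0
  op : ∀ j, OpBound D (j + 1) (a (j + 1))

lemma levelOp_child {a : ℕ → ℝ} (h : ChildBound D a) (j : ℕ) (v : Equiv.Perm (Pos D) → ℝ) :
    ((blockT D * levelE j) *ᵥ v) ⬝ᵥ ((blockT D * levelE j) *ᵥ v) ≤ a j * (v ⬝ᵥ v) := by
  cases j with
  | zero =>
    obtain ⟨ν, hν, hν1⟩ := exists_blockT_eq_regMat D
    have h1 : blockT D * levelE (Ω := Pos D) 0 = levelE 0 := by
      have := regMat_pow_mul_levelE_zero (Ω := Pos D) ν hν1 1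
      rwa [pow_one, ← hν] at this
    rw [h1]
    have h2 := proj_dot_le (levelE (Ω := Pos D) 0) (levelE_symm _) (levelE_idem _) v
    have h3 : 0 ≤ v ⬝ᵥ v := Finset.sum_nonneg fun i _ => mul_self_nonneg _
    calc _ ≤ v ⬝ᵥ v := h2
      _ = 1 * (v ⬝ᵥ v) := by ring
      _ ≤ a 0 * (v ⬝ᵥ v) := by gcongr; exact h.zero
  | succ j => exact levelOp_of_OpBound j (a (j + 1)) (h.nonneg _) (h.op j) v

lemma blockT_comm_levelE (j : ℕ) : blockT D * levelE (Ω := Pos D) j = levelE j * blockT D := by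
  obtain ⟨ν, hν, -⟩ := exists_blockT_eq_regMat D
  rw [hν]
  exact levelE_comm_regMat ν j

/-- The conjugation bound for the child block. -/
theorem hsSq_block_conj_le {a : ℕ → ℝ} (h : ChildBound D a)
    (M : Matrix (Equiv.Perm (Pos D)) (Equiv.Perm (Pos D)) ℝ) :
    hsSq (blockT D * M * (blockT D)ᵀ)
      ≤ ∑ j : Fin (Fintype.card (Pos D) + 1), ∑ l : Fin (Fintype.card (Pos D) + 1),
          a j * a l * hsSq (levelE (Ω := Pos D) j * M * levelE (Ω := Pos D) l) :=
  hsSq_conj_le (levelE_decomp (Ω := Pos D)) _ M (fun j => blockT_comm_levelE _)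
    (fun j => a j) (fun j => h.nonneg _) (fun j v => levelOp_child h _ v)

end Child

section Mass

variable {D : ℕ} {A : Type*} [Fintype A] [DecidableEq A]

/-- The top projection of a tuple function. -/
noncomputable abbrev topProj (φ : (A → Pos (D + 1)) → ℝ) : (A → Pos (D + 1)) → ℝ :=
  tupP (Fin.last D) φ

/-- The function of a sector. -/
noncomputable def secQ (ψ : (A → Pos (D + 1)) → ℝ) (σ : A → Bool) : (A → Pos D) → ℝ :=
  fun y => ψ (joinT σ y)

/-- The mass of a sector on the levels `(j, l)`. -/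
noncomputable def mass (ι : A → Pos D) (ψ : (A → Pos (D + 1)) → ℝ) (σ : A → Bool) (j l : ℕ) : ℝ :=
  (normN σ ι)⁻¹ * hsSq (levelE (Ω := Pos D) j * liftM σ ι (secQ ψ σ) * levelE (Ω := Pos D) l)

lemma mass_nonneg (ι : A → Pos D) (ψ : (A → Pos (D + 1)) → ℝ) (σ : A → Bool) (j l : ℕ) :
    0 ≤ mass ι ψ σ j l :=
  mul_nonneg (inv_nonneg.mpr (normN_pos σ ι).le) (hsSq_nonneg _)

lemma tupP_inj {D : ℕ} (b : Fin D) (φ : (A → Pos D) → ℝ)
    (h : ∀ y, ¬ Function.Injective y → φ y = 0) (y : A → Pos D) (hy : ¬ Function.Injective y) :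
    tupP b φ y = 0 := by
  unfold tupP
  have : ∀ c : Coin b, φ (fun a => coinPerm c (y a)) = 0 := by
    intro c
    apply h
    intro hi
    apply hy
    intro a a' he
    apply hi
    simp only [he]
  simp only [this, Finset.sum_const_zero, mul_zero]

lemma secQ_vanish (ψ : (A → Pos (D + 1)) → ℝ) (h : ∀ y, ¬ Function.Injective y → ψ y = 0)
    (σ : A → Bool) (y : A → Pos D) (hy : ¬ SideInj σ y) : secQ ψ σ y = 0 := by
  apply h
  rwa [joinT_injective_iff]

/-- The total mass of a sector. -/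
theorem sum_mass_sector {ι : A → Pos D} (hι : Function.Injective ι) (ψ : (A → Pos (D + 1)) → ℝ)
    (h : ∀ y, ¬ Function.Injective y → ψ y = 0) (σ : A → Bool) :
    ∑ j : Fin (Fintype.card (Pos D) + 1), ∑ l : Fin (Fintype.card (Pos D) + 1), mass ι ψ σ j l
      = ∑ y, (secQ ψ σ y) ^ 2 := by
  simp only [mass, ← Finset.mul_sum]
  rw [← hsSq_two_sided (levelE_decomp (Ω := Pos D)), hsSq_liftM σ hι _ (secQ_vanish ψ h σ),
    ← mul_assoc, inv_mul_cancel₀ (normN_pos σ ι).ne', one_mul]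

/-- The total mass. -/
theorem sum_mass {ι : A → Pos D} (hι : Function.Injective ι) (ψ : (A → Pos (D + 1)) → ℝ)
    (h : ∀ y, ¬ Function.Injective y → ψ y = 0) :
    ∑ σ : A → Bool, ∑ j : Fin (Fintype.card (Pos D) + 1), ∑ l : Fin (Fintype.card (Pos D) + 1),
      mass ι ψ σ j l = ∑ x, (ψ x) ^ 2 := by
  rw [sum_join]
  exact Finset.sum_congr rfl fun σ _ => sum_mass_sector hι ψ h σ

/-- **The main inequality of the recursion.** -/
theorem sum_tupT_succ_le {a : ℕ → ℝ} (ha : ChildBound D a) {ι : A → Pos D}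
    (hι : Function.Injective ι) (φ : (A → Pos (D + 1)) → ℝ)
    (h : ∀ y, ¬ Function.Injective y → φ y = 0) :
    ∑ x, (tupT (D + 1) φ x) ^ 2
      ≤ ∑ σ : A → Bool, ∑ j : Fin (Fintype.card (Pos D) + 1), ∑ l : Fin (Fintype.card (Pos D) + 1),
          a j * a l * mass ι (topProj φ) σ j l := by
  rw [sum_join]
  refine Finset.sum_le_sum fun σ _ => ?_
  have hψ : ∀ y, ¬ Function.Injective y → topProj φ y = 0 := tupP_inj _ φ h
  have h1 : ∑ y : A → Pos D, (tupT (D + 1) φ (joinT σ y)) ^ 2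
      = (normN σ ι)⁻¹ * hsSq (blockT D * liftM σ ι (secQ (topProj φ) σ) * (blockT D)ᵀ) := by
    rw [block_liftM_block, hsSq_liftM σ hι _ (secT_vanish σ _ (secQ_vanish _ hψ σ)), ← mul_assoc,
      inv_mul_cancel₀ (normN_pos σ ι).ne', one_mul]
    refine Finset.sum_congr rfl fun y _ => ?_
    rw [tupT_succ_join]
    rfl
  rw [h1]
  have h2 := hsSq_block_conj_le ha (liftM σ ι (secQ (topProj φ) σ))
  have hN : 0 ≤ (normN σ ι)⁻¹ := inv_nonneg.mpr (normN_pos σ ι).le
  calc _ ≤ (normN σ ι)⁻¹ * _ := mul_le_mul_of_nonneg_left h2 hN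
    _ = _ := by
      simp only [Finset.mul_sum, mass]
      refine Finset.sum_congr rfl fun j _ => Finset.sum_congr rfl fun l _ => ?_
      ring

/-- The top projection is a contraction. -/
theorem sum_tupP_le {D : ℕ} (b : Fin D) (φ : (A → Pos D) → ℝ) :
    ∑ x, (tupP b φ x) ^ 2 ≤ ∑ x, (φ x) ^ 2 := by
  have hN : (0 : ℝ) < Fintype.card (Coin b) := by
    have : Nonempty (Coin b) := ⟨⟨fun _ => false, fun _ => rfl⟩⟩
    exact_mod_cast Fintype.card_pos
  have h1 : ∀ x, (tupP b φ x) ^ 2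
      ≤ (Fintype.card (Coin b) : ℝ)⁻¹ * ∑ c : Coin b, (φ (fun a => coinPerm c (x a))) ^ 2 := by
    intro x
    unfold tupP
    have hcs := Finset.sum_mul_sq_le_sq_mul_sq (Finset.univ : Finset (Coin b)) (fun _ => (1 : ℝ))
      (fun c => φ (fun a => coinPerm c (x a)))
    simp only [one_mul, one_pow, Finset.sum_const, Finset.card_univ, nsmul_eq_mul, mul_one] at hcs
    rw [mul_pow, inv_pow, sq (Fintype.card (Coin b) : ℝ), mul_inv, mul_assoc]
    apply mul_le_mul_of_nonneg_left _ (inv_nonneg.mpr hN.le)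
    rw [inv_mul_le_iff₀ hN]
    exact hcs
  have h2 : ∀ c : Coin b, ∑ x : A → Pos D, (φ (fun a => coinPerm c (x a))) ^ 2 = ∑ x, (φ x) ^ 2 := by
    intro c
    exact Fintype.sum_equiv (Equiv.arrowCongr (Equiv.refl A) (coinPerm c)) _ _ (fun x => rfl)
  calc ∑ x, (tupP b φ x) ^ 2 ≤ ∑ x, (Fintype.card (Coin b) : ℝ)⁻¹ *
        ∑ c : Coin b, (φ (fun a => coinPerm c (x a))) ^ 2 := Finset.sum_le_sum fun x _ => h1 x
    _ = (Fintype.card (Coin b) : ℝ)⁻¹ * ∑ c : Coin b, ∑ x : A → Pos D,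
          (φ (fun a => coinPerm c (x a))) ^ 2 := by
        rw [← Finset.mul_sum, Finset.sum_comm]
    _ = ∑ x, (φ x) ^ 2 := by
        simp_rw [h2]
        rw [Finset.sum_const, Finset.card_univ, nsmul_eq_mul, ← mul_assoc,
          inv_mul_cancel₀ hN.ne', one_mul]

end Mass

end Crest.Agent.Lib.Thorp.Sec
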