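/-
S0222 (Thorp shuffle), module M3 (sector layer), part 3: the support of the mass, the invariance under the
top coins, and the law of the number of cards on a side.
-/
import Crest.Agent.Lib.Thorp.Sector2
import Crest.Agent.Lib.Thorp.Closure

set_option autoImplicit false
set_option linter.unusedSectionVars false

namespace Crest.Agent.Lib.Thorp.Sec

open Matrix

section Support

variable {Ω : Type*} [Fintype Ω] [DecidableEq Ω]

lemma levelE_mulVec_of_mem {j b : ℕ} (h : b < j) (f : Equiv.Perm Ω → ℝ)
    (hf : f ∈ levelV (Ω := Ω) b) : levelE j *ᵥ f = 0 := by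
  obtain ⟨j, rfl⟩ : ∃ j', j = j' + 1 := ⟨j - 1, by omega⟩
  have h1 : f ∈ levelV (Ω := Ω) j := levelV_mono (by omega) hf
  have h2 : f ∈ levelV (Ω := Ω) (j + 1) := levelV_mono (by omega) hf
  show (flagE levelV (j + 1)) *ᵥ f = 0
  simp only [flagE, Matrix.sub_mulVec, projMat_fix _ f h1, projMat_fix _ f h2, sub_self]

variable {D : ℕ} {A : Type*} [Fintype A] [DecidableEq A]

lemma liftM_col_mem (σ : A → Bool) (ι : A → Pos D) (F : (A → Pos D) → ℝ)
    (x₁ : Equiv.Perm (Pos D)) :
    (fun x₀ => liftM σ ι F x₀ x₁) ∈ VS ((side σ false).image ι) := by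
  intro x y hxy
  simp only [liftM, Matrix.of_apply]
  congr 1
  funext a
  simp only [mixT]
  cases h : σ a
  · simpa using hxy (ι a) (Finset.mem_image_of_mem _ (by simpa using h))
  · simp

lemma liftM_row_mem (σ : A → Bool) (ι : A → Pos D) (F : (A → Pos D) → ℝ)
    (x₀ : Equiv.Perm (Pos D)) :
    (fun x₁ => liftM σ ι F x₀ x₁) ∈ VS ((side σ true).image ι) := by
  intro x y hxy
  simp only [liftM, Matrix.of_apply]
  congr 1
  funext a
  simp only [mixT]
  cases h : σ a
  · simp
  · simpa using hxy (ι a) (Finset.mem_image_of_mem _ (by simpa using h))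

lemma levelE_mul_liftM (σ : A → Bool) (ι : A → Pos D) (F : (A → Pos D) → ℝ) (j : ℕ)
    (h : (side σ false).card < j) : levelE (Ω := Pos D) j * liftM σ ι F = 0 := by
  ext x₀ x₁
  have h1 := levelE_mulVec_of_mem (j := j) (b := (side σ false).card) h _
    (VS_le_levelV (Finset.card_image_le) (liftM_col_mem σ ι F x₁))
  have h2 := congrFun h1 x₀
  simpa [Matrix.mul_apply, Matrix.mulVec, dotProduct] using h2

lemma liftM_mul_levelE (σ : A → Bool) (ι : A → Pos D) (F : (A → Pos D) → ℝ) (l : ℕ)
    (h : (side σ true).card < l) : liftM σ ι F * levelE (Ω := Pos D) l = 0 := by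
  ext x₀ x₁
  have h1 := levelE_mulVec_of_mem (j := l) (b := (side σ true).card) h _
    (VS_le_levelV (Finset.card_image_le) (liftM_row_mem σ ι F x₀))
  have h2 := congrFun h1 x₁
  have h3 : ∀ y, levelE (Ω := Pos D) l y x₁ = levelE (Ω := Pos D) l x₁ y := by
    intro y
    have := congrFun (congrFun (levelE_symm (Ω := Pos D) l) x₁) y
    simpa [Matrix.transpose_apply] using this
  simp only [Matrix.mulVec, dotProduct, Pi.zero_apply] at h2
  simp only [Matrix.mul_apply, Matrix.zero_apply]
  rw [← h2]
  refine Finset.sum_congr rfl fun y _ => ?_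
  rw [h3, mul_comm]

lemma hsSq_zero' {n : Type*} [Fintype n] : hsSq (0 : Matrix n n ℝ) = 0 := by
  simp [hsSq]

/-- No mass above the number of cards on the side. -/
lemma mass_eq_zero_left (ι : A → Pos D) (ψ : (A → Pos (D + 1)) → ℝ) (σ : A → Bool) (j l : ℕ)
    (h : (side σ false).card < j) : mass ι ψ σ j l = 0 := by
  unfold mass
  rw [levelE_mul_liftM σ ι _ j h, Matrix.zero_mul, hsSq_zero', mul_zero]

lemma mass_eq_zero_right (ι : A → Pos D) (ψ : (A → Pos (D + 1)) → ℝ) (σ : A → Bool) (j l : ℕ)
    (h : (side σ true).card < l) : mass ι ψ σ j l = 0 := by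
  unfold mass
  rw [Matrix.mul_assoc, liftM_mul_levelE σ ι _ l h, Matrix.mul_zero, hsSq_zero', mul_zero]

end Support

section CoinGroup

variable {D : ℕ} {A : Type*}

/-- Coins form a group under xor. -/
def coinXor {b : Fin D} (c c' : Coin b) : Coin b :=
  ⟨fun x => xor (c.1 x) (c'.1 x), fun x => by simp only [c.2 x, c'.2 x]⟩

lemma coinPerm_mul_apply {b : Fin D} (c c' : Coin b) (x : Pos D) :
    coinPerm c (coinPerm c' x) = coinPerm (coinXor c c') x := by
  simp only [coinPerm_apply, coinXor]
  have hc : c.1 (if c'.1 x = true then flipAt b x else x) = c.1 x := by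
    split_ifs
    · exact c.2 x
    · rfl
  rw [hc]
  by_cases h' : c'.1 x = true <;> by_cases h : c.1 x = true <;> simp [h, h']

/-- Xor with a fixed coin. -/
def coinXorEquiv {b : Fin D} (c : Coin b) : Coin b ≃ Coin b where
  toFun c' := coinXor c' c
  invFun c' := coinXor c' c
  left_inv c' := by
    apply Subtype.ext; funext x; simp [coinXor]
  right_inv c' := by
    apply Subtype.ext; funext x; simp [coinXor]

/-- The projection is invariant under the coins. -/
theorem tupP_coin (b : Fin D) (φ : (A → Pos D) → ℝ) (c : Coin b) (y : A → Pos D) :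
    tupP b φ (fun a => coinPerm c (y a)) = tupP b φ y := by
  unfold tupP
  congr 1
  refine Fintype.sum_equiv (coinXorEquiv c) _ _ fun c' => ?_
  congr 1
  funext a
  exact coinPerm_mul_apply c' c (y a)

lemma low_flipAt_last (x : Pos (D + 1)) : low (flipAt (Fin.last D) x) = low x := by
  funext i
  have h : i.castSucc ≠ Fin.last D := (Fin.castSucc_lt_last i).ne
  simp [low, flipAt]

lemma top_flipAt_last (x : Pos (D + 1)) : top (flipAt (Fin.last D) x) = !top x := by
  simp [top, flipAt]

/-- A coin on the sites is a coin across the top bit. -/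
def topCoin (c : Pos D → Bool) : Coin (Fin.last D) :=
  ⟨fun x => c (low x), fun x => by simp only [low_flipAt_last]⟩

lemma coinPerm_topCoin (c : Pos D → Bool) (y : Pos D) (t : Bool) :
    coinPerm (topCoin c) (snocP y t) = snocP y (xor (c y) t) := by
  simp only [coinPerm_apply, topCoin, low_snoc]
  have key : ∀ x : Pos (D + 1), low x = y → top x = !t → x = snocP y (!t) := by
    intro x h1 h2
    rw [← snoc_low_top x, h1, h2]
  cases h : c y
  · simp
  · simp only [if_true, Bool.true_xor]
    apply key
    · rw [low_flipAt_last, low_snoc]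
    · rw [top_flipAt_last, top_snoc]

/-- The top projection is invariant under the coins on the sites. -/
theorem topProj_coin (φ : (A → Pos (D + 1)) → ℝ) (c : Pos D → Bool) (σ : A → Bool) (y : A → Pos D) :
    topProj φ (joinT (fun a => xor (c (y a)) (σ a)) y) = topProj φ (joinT σ y) := by
  have := tupP_coin (Fin.last D) φ (topCoin c) (joinT σ y)
  show tupP (Fin.last D) φ _ = tupP (Fin.last D) φ _
  rw [← this]
  congr 1
  funext a
  simp only [joinT]
  rw [coinPerm_topCoin]

/-- Two valid sector maps differ by a coin on the sites. -/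
lemma exists_coin_of_sideInj {σ σ' : A → Bool} {y : A → Pos D} (h : SideInj σ y) (h' : SideInj σ' y) :
    ∃ c : Pos D → Bool, ∀ a, σ' a = xor (c (y a)) (σ a) := by
  classical
  refine ⟨fun p => decide (∃ a, y a = p ∧ σ a ≠ σ' a), fun a => ?_⟩
  by_cases ha : σ a = σ' a
  · have : ¬ ∃ a', y a' = y a ∧ σ a' ≠ σ' a' := by
      rintro ⟨a', hy, hne⟩
      have h1 : a' ≠ a := fun e => hne (by rw [e]; exact ha)
      have h2 : σ a' ≠ σ a := fun e => h1 (h a' a e hy)
      have h3 : σ' a' ≠ σ' a := fun e => h1 (h' a' a e hy)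
      cases h4 : σ a <;> cases h5 : σ' a <;> cases h6 : σ a' <;> cases h7 : σ' a' <;> simp_all
    simp [this, ha]
  · have : ∃ a', y a' = y a ∧ σ a' ≠ σ' a' := ⟨a, rfl, ha⟩
    simp only [this, decide_true]
    cases h4 : σ a <;> cases h5 : σ' a <;> simp_all

/-- The top projection has the same value on all valid sectors. -/
theorem secQ_eq_of_sideInj (φ : (A → Pos (D + 1)) → ℝ) {σ σ' : A → Bool} {y : A → Pos D}
    (h : SideInj σ y) (h' : SideInj σ' y) : secQ (topProj φ) σ y = secQ (topProj φ) σ' y := by
  obtain ⟨c, hc⟩ := exists_coin_of_sideInj h h'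
  have : σ' = fun a => xor (c (y a)) (σ a) := funext hc
  simp only [secQ]
  rw [this, topProj_coin]

end CoinGroup

section Bin

/-- The expectation under the binomial law `Bin(s, 1/2)`. -/
noncomputable def binE (s : ℕ) (f : ℕ → ℝ) : ℝ :=
  ∑ B ∈ Finset.range (s + 1), (s.choose B : ℝ) * (1 / 2) ^ s * f B

lemma binE_zero (f : ℕ → ℝ) : binE 0 f = f 0 := by
  simp [binE]

lemma binE_succ (s : ℕ) (f : ℕ → ℝ) :
    binE (s + 1) f = (1 / 2) * (binE s f + binE s (fun t => f (t + 1))) := by
  unfold binE
  rw [Finset.sum_range_succ' _ (s + 1)]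
  have h1 : ∀ B, ((s + 1).choose (B + 1) : ℝ) = (s.choose B : ℝ) + (s.choose (B + 1) : ℝ) := by
    intro B
    rw [Nat.choose_succ_succ]
    push_cast
    ring
  simp_rw [h1]
  have h2 : ∑ B ∈ Finset.range (s + 1), (s.choose B : ℝ) * (1 / 2) ^ s * f B
      = ∑ B ∈ Finset.range (s + 1), (s.choose (B + 1) : ℝ) * (1 / 2) ^ s * f (B + 1)
        + (1 / 2) ^ s * f 0 := by
    have h3 := Finset.sum_range_succ' (fun B => (s.choose B : ℝ) * (1 / 2) ^ s * f B) (s + 1)
    have h4 := Finset.sum_range_succ (fun B => (s.choose B : ℝ) * (1 / 2) ^ s * f B) (s + 1)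
    rw [h4] at h3
    simp only [Nat.choose_succ_self, Nat.cast_zero, zero_mul, add_zero, Nat.choose_zero_right,
      Nat.cast_one, one_mul] at h3
    exact h3
  have h5 : ∑ x ∈ Finset.range (s + 1),
      ((s.choose x : ℝ) + (s.choose (x + 1) : ℝ)) * (1 / 2) ^ (s + 1) * f (x + 1)
      = (1 / 2) * (∑ x ∈ Finset.range (s + 1), (s.choose (x + 1) : ℝ) * (1 / 2) ^ s * f (x + 1)
        + ∑ x ∈ Finset.range (s + 1), (s.choose x : ℝ) * (1 / 2) ^ s * f (x + 1)) := by
    rw [← Finset.sum_add_distrib, Finset.mul_sum]
    refine Finset.sum_congr rfl fun x _ => ?_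
    rw [pow_succ]
    ring
  rw [h5, h2]
  simp only [Nat.choose_zero_right, Nat.cast_one, one_mul]
  rw [pow_succ]
  ring

variable {Y : Type*} [Fintype Y] [DecidableEq Y]

/-- The number of coordinates of a random coin in a set `S` hitting a target is binomial. -/
theorem sum_coin_count (S : Finset Y) (τ : Y → Bool) (f : ℕ → ℝ) :
    ∑ c : Y → Bool, f ((S.filter (fun p => c p = τ p)).card)
      = 2 ^ Fintype.card Y * binE S.card f := by
  induction S using Finset.induction_on generalizing f with
  | empty =>
    simp [binE_zero, Finset.card_univ]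
  | insert q S hq ih =>
    have hinv : Function.Involutive (fun c : Y → Bool => Function.update c q (!c q)) := by
      intro c
      funext p
      by_cases hp : p = q
      · subst hp; simp
      · simp [Function.update_of_ne hp]
    let fl : Equiv.Perm (Y → Bool) := hinv.toPerm
    have hX : ∀ c : Y → Bool, ((S.filter (fun p => fl c p = τ p)).card)
        = (S.filter (fun p => c p = τ p)).card := by
      intro c
      congr 1
      apply Finset.filter_congr
      intro p hp
      have hpq : p ≠ q := fun e => hq (e ▸ hp)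
      show Function.update c q (!c q) p = τ p ↔ _
      rw [Function.update_of_ne hpq]
    have hsplit : ∀ c : Y → Bool, ((insert q S).filter (fun p => c p = τ p)).card
        = (S.filter (fun p => c p = τ p)).card + (if c q = τ q then 1 else 0) := by
      intro c
      rw [Finset.filter_insert]
      split_ifs with h
      · rw [Finset.card_insert_of_notMem]
        intro h'
        exact hq (Finset.mem_filter.mp h').1
      · simp
    have hq' : ∀ c : Y → Bool, (fl c q = τ q) ↔ ¬ (c q = τ q) := by
      intro c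
      show Function.update c q (!c q) q = τ q ↔ _
      rw [Function.update_self]
      cases c q <;> cases τ q <;> simp
    set H : (Y → Bool) → ℝ := fun c => f ((insert q S).filter (fun p => c p = τ p)).card with hH
    have h1 : ∑ c, H (fl c) = ∑ c, H c := Equiv.sum_comp fl H
    have h2 : ∀ c : Y → Bool, H c + H (fl c)
        = f (S.filter (fun p => c p = τ p)).card + f ((S.filter (fun p => c p = τ p)).card + 1) := by
      intro c
      simp only [hH, hsplit, hX]
      by_cases h : c q = τ q
      · have h' : ¬ (fl c q = τ q) := fun e => (hq' c).mp e h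
        simp only [h, h', if_true, if_false, add_zero]
        ring
      · have h' : fl c q = τ q := (hq' c).mpr h
        simp only [h, h', if_true, if_false, add_zero]
    have h3 : 2 * ∑ c, H c = ∑ c : Y → Bool, (f (S.filter (fun p => c p = τ p)).card
        + f ((S.filter (fun p => c p = τ p)).card + 1)) := by
      rw [two_mul]
      nth_rewrite 2 [← h1]
      rw [← Finset.sum_add_distrib]
      exact Finset.sum_congr rfl fun c _ => h2 c
    rw [Finset.sum_add_distrib, ih f, ih (fun t => f (t + 1))] at h3
    rw [Finset.card_insert_of_notMem hq, binE_succ]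
    have h4 : ∑ c, H c = (1 / 2) * (2 ^ Fintype.card Y * binE S.card f
        + 2 ^ Fintype.card Y * binE S.card (fun t => f (t + 1))) := by
      rw [← h3]; ring
    rw [h4]
    ring

end Bin

section Law

variable {D : ℕ} {A : Type*} [Fintype A] [DecidableEq A]

open Classical in
/-- The law of the number of cards on the false side, among the valid sector maps of a tuple of sites. -/
theorem sum_valid_law {σ₀ : A → Bool} {y : A → Pos D} (h₀ : SideInj σ₀ y) :
    ∃ d, 2 * d ≤ Fintype.card A ∧ ∀ f : ℕ → ℝ,
      ∑ σ ∈ Finset.univ.filter (fun σ : A → Bool => SideInj σ y), f (side σ false).card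
        = ((Finset.univ.filter (fun σ : A → Bool => SideInj σ y)).card : ℝ)
          * binE (Fintype.card A - 2 * d) (fun t => f (d + t)) := by
  -- the number of cards at a site, by side
  set nC : Pos D → Bool → ℕ := fun p s => (Finset.univ.filter (fun a => y a = p ∧ σ₀ a = s)).card
    with hnC
  have hn1 : ∀ p s, nC p s ≤ 1 := by
    intro p s
    rw [hnC]
    apply Finset.card_le_one.mpr
    intro a ha a' ha'
    simp only [Finset.mem_filter, Finset.mem_univ, true_and] at ha ha'
    exact h₀ a a' (by rw [ha.2, ha'.2]) (by rw [ha.1, ha'.1])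
  set Dbl : Finset (Pos D) := Finset.univ.filter (fun p => nC p true = 1 ∧ nC p false = 1) with hDbl
  set Sing : Finset (Pos D) := Finset.univ.filter (fun p => nC p true + nC p false = 1) with hSing
  set τ : Pos D → Bool := fun p => decide (nC p true = 1) with hτ
  -- the number of cards is twice the doubles plus the singles
  have hcard : Fintype.card A = 2 * Dbl.card + Sing.card := by
    have h1 : Fintype.card A = ∑ p : Pos D, (nC p true + nC p false) := by
      have h2 := Finset.card_eq_sum_card_fiberwise (f := fun a => (y a, σ₀ a))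
        (s := (Finset.univ : Finset A)) (t := (Finset.univ : Finset (Pos D × Bool)))
        (fun _ _ => Finset.mem_coe.mpr (Finset.mem_univ _))
      rw [Finset.card_univ] at h2
      rw [h2, ← Finset.univ_product_univ, Finset.sum_product]
      refine Finset.sum_congr rfl fun p _ => ?_
      rw [Fintype.sum_bool]
      simp only [hnC, Prod.mk.injEq]
    rw [h1]
    have h3 : ∀ p, nC p true + nC p false
        = 2 * (if p ∈ Dbl then 1 else 0) + (if p ∈ Sing then 1 else 0) := by
      intro p
      simp only [hDbl, hSing, Finset.mem_filter, Finset.mem_univ, true_and]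
      have h4 := hn1 p true
      have h5 := hn1 p false
      interval_cases h6 : nC p true <;> interval_cases h7 : nC p false <;> simp
    simp_rw [h3]
    rw [Finset.sum_add_distrib, ← Finset.mul_sum, Finset.sum_ite_mem, Finset.sum_ite_mem]
    simp
  refine ⟨Dbl.card, by omega, fun f => ?_⟩
  -- the action of the coins
  set act : (Pos D → Bool) → A → Bool := fun c a => xor (c (y a)) (σ₀ a) with hact
  have hactval : ∀ c, SideInj (act c) y := by
    intro c a a' hs hy
    apply h₀ a a' _ hy
    simp only [hact, hy] at hs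
    cases h1 : c (y a') <;> cases h2 : σ₀ a <;> cases h3 : σ₀ a' <;> simp_all
  -- the count of cards on the false side
  have hb : ∀ c, (side (act c) false).card
      = Dbl.card + (Sing.filter (fun p => c p = τ p)).card := by
    intro c
    have h1 : (side (act c) false).card = ∑ p : Pos D, nC p (c p) := by
      rw [Finset.card_eq_sum_card_fiberwise (f := y) (s := side (act c) false)
        (t := (Finset.univ : Finset (Pos D))) (fun _ _ => Finset.mem_coe.mpr (Finset.mem_univ _))]
      refine Finset.sum_congr rfl fun p _ => ?_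
      simp only [hnC]
      congr 1
      ext a
      simp only [Finset.mem_filter, mem_side, Finset.mem_univ, true_and, hact]
      constructor
      · rintro ⟨h1, rfl⟩
        refine ⟨rfl, ?_⟩
        cases h2 : c (y a) <;> cases h3 : σ₀ a <;> simp_all
      · rintro ⟨rfl, h2⟩
        refine ⟨?_, rfl⟩
        cases h3 : c (y a) <;> cases h4 : σ₀ a <;> simp_all
    rw [h1]
    have h3 : ∀ p, nC p (c p)
        = (if p ∈ Dbl then 1 else 0) + (if p ∈ Sing ∧ c p = τ p then 1 else 0) := by
      intro p
      simp only [hDbl, hSing, Finset.mem_filter, Finset.mem_univ, true_and, hτ]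
      have h4 := hn1 p true
      have h5 := hn1 p false
      cases h8 : c p <;> interval_cases h6 : nC p true <;> interval_cases h7 : nC p false <;> simp
    simp_rw [h3]
    rw [Finset.sum_add_distrib, ← Finset.card_filter, ← Finset.card_filter]
    congr 2
    · ext p; simp
    · ext p; simp
  -- the sum over the coins
  have hsumc : ∑ c : Pos D → Bool, f (side (act c) false).card
      = 2 ^ Fintype.card (Pos D) * binE (Fintype.card A - 2 * Dbl.card) (fun t => f (Dbl.card + t)) := by
    simp_rw [hb]
    rw [sum_coin_count Sing τ (fun t => f (Dbl.card + t))]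
    congr 2
    omega
  -- the fibres
  set V := Finset.univ.filter (fun σ : A → Bool => SideInj σ y) with hV
  set M : ℕ := (Finset.univ.filter (fun c : Pos D → Bool => ∀ a, c (y a) = false)).card with hM
  have hfib : ∀ σ ∈ V, (Finset.univ.filter (fun c : Pos D → Bool => act c = σ)).card = M := by
    intro σ hσ
    have hσ' : SideInj σ y := (Finset.mem_filter.mp hσ).2
    obtain ⟨c₀, hc₀⟩ := exists_coin_of_sideInj h₀ hσ'
    rw [hM]
    refine Finset.card_bij' (fun c _ => fun p => xor (c p) (c₀ p))
      (fun c _ => fun p => xor (c p) (c₀ p)) ?_ ?_ ?_ ?_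
    · intro c hc
      simp only [Finset.mem_filter, Finset.mem_univ, true_and] at hc ⊢
      intro a
      have h1 := congrFun hc a
      rw [hc₀ a] at h1
      simp only [hact] at h1
      cases h2 : c (y a) <;> cases h3 : c₀ (y a) <;> cases h4 : σ₀ a <;> simp_all
    · intro c hc
      simp only [Finset.mem_filter, Finset.mem_univ, true_and] at hc ⊢
      funext a
      have h1 := hc a
      rw [hc₀ a]
      simp only [hact]
      cases h2 : c (y a) <;> cases h3 : c₀ (y a) <;> cases h4 : σ₀ a <;> simp_all
    · intro c _; funext p; simp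
    · intro c _; funext p; simp
  have hMpos : 0 < M := by
    apply Finset.card_pos.mpr
    exact ⟨fun _ => false, by simp⟩
  have hsum : ∀ G : (A → Bool) → ℝ, ∑ c : Pos D → Bool, G (act c) = (M : ℝ) * ∑ σ ∈ V, G σ := by
    intro G
    have himg : ∀ c ∈ (Finset.univ : Finset (Pos D → Bool)), act c ∈ V := by
      intro c _
      exact Finset.mem_filter.mpr ⟨Finset.mem_univ _, hactval c⟩
    rw [← Finset.sum_fiberwise_of_maps_to himg, Finset.mul_sum]
    refine Finset.sum_congr rfl fun σ hσ => ?_
    have h1 : ∀ c ∈ Finset.univ.filter (fun c : Pos D → Bool => act c = σ), G (act c) = G σ := by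
      intro c hc
      rw [(Finset.mem_filter.mp hc).2]
    rw [Finset.sum_congr rfl h1, Finset.sum_const, hfib σ hσ, nsmul_eq_mul]
  have h1 := hsum (fun σ => f (side σ false).card)
  have h2 : (2 : ℝ) ^ Fintype.card (Pos D) = (M : ℝ) * (V.card : ℝ) := by
    have h3 := hsum (fun _ => (1 : ℝ))
    simp only [Finset.sum_const, Finset.card_univ, nsmul_eq_mul, mul_one] at h3
    rw [← h3, Fintype.card_fun]
    simp
  rw [hsumc] at h1
  have hM' : (M : ℝ) ≠ 0 := by exact_mod_cast hMpos.ne'
  have h3 : (M : ℝ) * ∑ σ ∈ V, f (side σ false).card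
      = (M : ℝ) * ((V.card : ℝ) * binE (Fintype.card A - 2 * Dbl.card)
          (fun t => f (Dbl.card + t))) := by
    rw [← h1, ← mul_assoc, ← h2]
  exact mul_left_cancel₀ hM' h3

/-- The maximum of the binomial expectations. -/
lemma exists_max_binE (k : ℕ) (f : ℕ → ℝ) :
    ∃ d, 2 * d ≤ k ∧ ∀ d', 2 * d' ≤ k →
      binE (k - 2 * d') (fun t => f (d' + t)) ≤ binE (k - 2 * d) (fun t => f (d + t)) := by
  obtain ⟨d, hd, hmax⟩ := Finset.exists_max_image
    ((Finset.range (k + 1)).filter (fun d => 2 * d ≤ k))
    (fun d => binE (k - 2 * d) (fun t => f (d + t))) ⟨0, by simp⟩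
  refine ⟨d, (Finset.mem_filter.mp hd).2, fun d' hd' => hmax d' ?_⟩
  simp only [Finset.mem_filter, Finset.mem_range]
  exact ⟨by omega, hd'⟩

/-- **(C1)** The law of the number of cards on a side. -/
theorem sector_law (φ : (A → Pos (D + 1)) → ℝ) (h : ∀ y, ¬ Function.Injective y → φ y = 0)
    (f : ℕ → ℝ) :
    ∃ d, 2 * d ≤ Fintype.card A ∧
      ∑ σ : A → Bool, f (side σ false).card * ∑ y, (secQ (topProj φ) σ y) ^ 2
        ≤ binE (Fintype.card A - 2 * d) (fun t => f (d + t)) * ∑ x, (topProj φ x) ^ 2 := by
  classical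
  obtain ⟨d, hd, hmax⟩ := exists_max_binE (Fintype.card A) f
  refine ⟨d, hd, ?_⟩
  have hψ : ∀ y, ¬ Function.Injective y → topProj φ y = 0 := tupP_inj _ φ h
  rw [sum_join (fun x => (topProj φ x) ^ 2), Finset.mul_sum]
  have h1 : ∑ σ : A → Bool, f (side σ false).card * ∑ y, (secQ (topProj φ) σ y) ^ 2
      = ∑ y : A → Pos D, ∑ σ : A → Bool, f (side σ false).card * (secQ (topProj φ) σ y) ^ 2 := by
    rw [Finset.sum_comm]
    exact Finset.sum_congr rfl fun σ _ => Finset.mul_sum _ _ _
  rw [h1]
  have h2 : ∑ σ : A → Bool, binE (Fintype.card A - 2 * d) (fun t => f (d + t))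
      * ∑ y, (topProj φ (joinT σ y)) ^ 2
      = ∑ y : A → Pos D, binE (Fintype.card A - 2 * d) (fun t => f (d + t))
        * ∑ σ : A → Bool, (secQ (topProj φ) σ y) ^ 2 := by
    simp only [Finset.mul_sum]
    rw [Finset.sum_comm]
    rfl
  rw [h2]
  refine Finset.sum_le_sum fun y _ => ?_
  by_cases hv : ∃ σ₀ : A → Bool, SideInj σ₀ y
  · obtain ⟨σ₀, h₀⟩ := hv
    obtain ⟨d', hd', hlaw⟩ := sum_valid_law h₀
    set v := secQ (topProj φ) σ₀ y with hv
    have hval : ∀ σ : A → Bool, (secQ (topProj φ) σ y) ^ 2 = if SideInj σ y then v ^ 2 else 0 := by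
      intro σ
      by_cases hs : SideInj σ y
      · rw [if_pos hs, secQ_eq_of_sideInj φ hs h₀]
      · rw [if_neg hs, secQ_vanish _ hψ σ y hs]
        simp
    simp_rw [hval]
    have h3 : ∑ σ : A → Bool, f (side σ false).card * (if SideInj σ y then v ^ 2 else 0)
        = v ^ 2 * ∑ σ ∈ Finset.univ.filter (fun σ : A → Bool => SideInj σ y),
            f (side σ false).card := by
      rw [Finset.mul_sum, Finset.sum_filter]
      refine Finset.sum_congr rfl fun σ _ => ?_
      split_ifs <;> ring
    have h4 : ∑ σ : A → Bool, (if SideInj σ y then v ^ 2 else 0)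
        = v ^ 2 * ((Finset.univ.filter (fun σ : A → Bool => SideInj σ y)).card : ℝ) := by
      rw [← Finset.sum_filter, Finset.sum_const, nsmul_eq_mul, mul_comm]
    rw [h3, h4, hlaw f]
    have hmx := hmax d' hd'
    have hcard : (0 : ℝ) ≤ ((Finset.univ.filter (fun σ : A → Bool => SideInj σ y)).card : ℝ) :=
      Nat.cast_nonneg _
    have hv2 : 0 ≤ v ^ 2 := sq_nonneg _
    calc v ^ 2 * (((Finset.univ.filter (fun σ : A → Bool => SideInj σ y)).card : ℝ)
          * binE (Fintype.card A - 2 * d') (fun t => f (d' + t)))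
        ≤ v ^ 2 * (((Finset.univ.filter (fun σ : A → Bool => SideInj σ y)).card : ℝ)
          * binE (Fintype.card A - 2 * d) (fun t => f (d + t))) :=
          mul_le_mul_of_nonneg_left (mul_le_mul_of_nonneg_left hmx hcard) hv2
      _ = _ := by ring
  · push Not at hv
    have hz : ∀ σ : A → Bool, secQ (topProj φ) σ y = 0 := fun σ => secQ_vanish _ hψ σ y (hv σ)
    have h0 : ((0 : ℝ)) ^ 2 = 0 := by norm_num
    simp only [hz, h0, mul_zero, Finset.sum_const_zero, le_refl]

lemma binE_eq_closure (s : ℕ) (f : ℕ → ℝ) : binE s f = Closure.binE s f := by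
  unfold binE Closure.binE
  refine Finset.sum_congr rfl fun B _ => ?_
  have h : ((1 : ℝ) / 2) ^ s = 1 / 2 ^ s := by
    rw [div_pow, one_pow]
  rw [h]
  ring

/-- **(C1)**, in the form of the closure (`Closure.binE`, weights `∑ y, (topProj φ (joinT σ y))^2`). -/
theorem sector_law_closure (φ : (A → Pos (D + 1)) → ℝ) (h : ∀ y, ¬ Function.Injective y → φ y = 0)
    (g : ℕ → ℝ) :
    ∃ d, 2 * d ≤ Fintype.card A ∧
      ∑ σ : A → Bool, g (side σ false).card * ∑ y, (topProj φ (joinT σ y)) ^ 2
        ≤ Closure.binE (Fintype.card A - 2 * d) (fun t => g (d + t)) * ∑ x, (topProj φ x) ^ 2 := by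
  obtain ⟨d, hd, hle⟩ := sector_law φ h g
  refine ⟨d, hd, ?_⟩
  rw [← binE_eq_closure]
  exact hle

end Law

end Crest.Agent.Lib.Thorp.Sec
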