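/-
S0222 (Thorp shuffle): the low range of (Op). The induction on the number of bits: the bound
`OpBound D k (pot (2^D) k)` for `100 k < 2^D`, from the sector law and the removal moments.
Child levels: `j = 0` trivial, `j = 1` by `opBound_one`, `j ≥ 2` by the induction hypothesis for
`100 j < 2^D` and by Theorem A (`highOp`) otherwise.
-/
import Crest.Agent.Lib.Thorp.Sector3
import Crest.Agent.Lib.Thorp.Closure
import Crest.Agent.Lib.Thorp.OpOne
import Crest.Agent.Lib.Thorp.CasimirHigh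

set_option autoImplicit false
set_option linter.unusedSectionVars false

namespace Crest.Agent.Lib.Thorp.Sec

open Matrix Crest.Agent.Lib.Thorp.Closure

section ChildLevel

variable {D : ℕ}

/-- Child bounds in level form. -/
structure ChildLevel (D : ℕ) (a : ℕ → ℝ) : Prop where
  nonneg : ∀ j, 0 ≤ a j
  zero : 1 ≤ a 0
  lev : ∀ j (v : Equiv.Perm (Pos D) → ℝ),
    ((blockT D * levelE (j + 1)) *ᵥ v) ⬝ᵥ ((blockT D * levelE (j + 1)) *ᵥ v) ≤ a (j + 1) * (v ⬝ᵥ v)

lemma levelOp_childLevel {a : ℕ → ℝ} (h : ChildLevel D a) (j : ℕ) (v : Equiv.Perm (Pos D) → ℝ) :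
    ((blockT D * levelE j) *ᵥ v) ⬝ᵥ ((blockT D * levelE j) *ᵥ v) ≤ a j * (v ⬝ᵥ v) := by
  cases j with
  | zero =>
    obtain ⟨ν, hν, hν1⟩ := exists_blockT_eq_regMat D
    have h1 : blockT D * levelE (Ω := Pos D) 0 = levelE 0 := by
      have := regMat_pow_mul_levelE_zero (Ω := Pos D) ν hν1 1
      rwa [pow_one, ← hν] at this
    rw [h1]
    have h2 := proj_dot_le (levelE (Ω := Pos D) 0) (levelE_symm _) (levelE_idem _) v
    have h3 : 0 ≤ v ⬝ᵥ v := Finset.sum_nonneg fun i _ => mul_self_nonneg _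
    calc _ ≤ v ⬝ᵥ v := h2
      _ = 1 * (v ⬝ᵥ v) := by ring
      _ ≤ a 0 * (v ⬝ᵥ v) := by gcongr; exact h.zero
  | succ j => exact h.lev j v

theorem hsSq_block_conj_le_level {a : ℕ → ℝ} (h : ChildLevel D a)
    (M : Matrix (Equiv.Perm (Pos D)) (Equiv.Perm (Pos D)) ℝ) :
    hsSq (blockT D * M * (blockT D)ᵀ)
      ≤ ∑ j : Fin (Fintype.card (Pos D) + 1), ∑ l : Fin (Fintype.card (Pos D) + 1),
          a j * a l * hsSq (levelE (Ω := Pos D) j * M * levelE (Ω := Pos D) l) :=
  hsSq_conj_le (levelE_decomp (Ω := Pos D)) _ M (fun j => blockT_comm_levelE _)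
    (fun j => a j) (fun j => h.nonneg _) (fun j v => levelOp_childLevel h _ v)

variable {A : Type*} [Fintype A] [DecidableEq A]

/-- **The main inequality of the recursion**, level form. -/
theorem sum_tupT_succ_le_level {a : ℕ → ℝ} (ha : ChildLevel D a) {ι : A → Pos D}
    (hι : Function.Injective ι) (φ : (A → Pos (D + 1)) → ℝ)
    (h : ∀ y, ¬ Function.Injective y → φ y = 0) :
    ∑ x, (tupT (D + 1) φ x) ^ 2
      ≤ ∑ σ : A → Bool, ∑ j : Fin (Fintype.card (Pos D) + 1), ∑ l : Fin (Fintype.card (Pos D) + 1),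
          a j * a l * mass ι (topProj φ) σ j l := by
  rw [sum_join]
  refine Finset.sum_le_sum fun σ _ => ?_
  have hψ : ∀ y, ¬ Function.Injective y → topProj φ y = 0 := tupP_inj _ φ h
  have h1 : ∑ y : A → Pos D, (tupT (D + 1) φ (joinT σ y)) ^ 2
      = (normN σ ι)⁻¹ * hsSq (blockT D * liftM σ ι (secQ (topProj φ) σ) * (blockT D)ᵀ) := by
    rw [block_liftM_block, hsSq_liftM σ hι _ (secT_vanish σ _ (secQ_vanish _ hψ σ)), ← mul_assoc,
      inv_mul_cancel₀ (normN_pos σ ι).ne', one_mul]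
    refine Finset.sum_congr rfl fun y _ => ?_
    rw [tupT_succ_join]
    rfl
  rw [h1]
  have h2 := hsSq_block_conj_le_level ha (liftM σ ι (secQ (topProj φ) σ))
  have hN : 0 ≤ (normN σ ι)⁻¹ := inv_nonneg.mpr (normN_pos σ ι).le
  calc _ ≤ (normN σ ι)⁻¹ * _ := mul_le_mul_of_nonneg_left h2 hN
    _ = _ := by
      simp only [Finset.mul_sum, mass]
      refine Finset.sum_congr rfl fun j _ => Finset.sum_congr rfl fun l _ => ?_
      ring

end ChildLevel

section Vanish

variable {A : Type*} [Fintype A] [DecidableEq A]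

lemma card_side_add (σ : A → Bool) :
    (side σ false).card + (side σ true).card = Fintype.card A := by
  have h := Finset.card_filter_add_card_filter_not (s := (Finset.univ : Finset A))
    (fun a => σ a = false)
  have h2 : (Finset.univ.filter (fun a => ¬ σ a = false)) = side σ true := by
    ext a; simp [side]
  rw [h2] at h
  simpa [side, Finset.card_univ] using h

end Vanish

section Step

variable {D : ℕ} {A : Type*} [Fintype A] [DecidableEq A]

/-- One step of the induction: the closure applied to the masses. -/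
theorem op_step (hk : 2 ≤ Fintype.card A) (hm : 100 * Fintype.card A < 2 * 2 ^ D)
    (hlev : ChildLevel D (pot (2 ^ D)))
    {ι : A → Pos D} (hι : Function.Injective ι) (φ : (A → Pos (D + 1)) → ℝ)
    (h : ∀ y, ¬ Function.Injective y → φ y = 0)
    (ρ : ℝ) (hρ0 : 0 ≤ ρ) (hρ : ρ ≤ (5 / 4) * Real.sqrt ((Fintype.card A : ℝ) / (2 ^ D : ℕ)))
    (H2 : ∀ R : ℕ, ∑ σ : A → Bool, ∑ j : Fin (Fintype.card (Pos D) + 1),
      ∑ l : Fin (Fintype.card (Pos D) + 1),
        (((Fintype.card A - j - l).choose R : ℕ) : ℝ) * mass ι (topProj φ) σ j l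
        ≤ ρ ^ R * ∑ x, (topProj φ x) ^ 2) :
    ∑ x, (tupT (D + 1) φ x) ^ 2 ≤ pot (2 * 2 ^ D) (Fintype.card A) * ∑ x, (φ x) ^ 2 := by
  classical
  set k := Fintype.card A with hkdef
  set ψ := topProj φ with hψdef
  have hψ : ∀ y, ¬ Function.Injective y → ψ y = 0 := tupP_inj _ φ h
  set n := Fintype.card (Pos D) + 1 with hn
  set N : ℝ := ∑ x, (ψ x) ^ 2 with hN
  have hN0 : 0 ≤ N := Finset.sum_nonneg fun _ _ => sq_nonneg _
  have hNle : N ≤ ∑ x, (φ x) ^ 2 := sum_tupP_le _ φ
  have hpot : 0 ≤ pot (2 * 2 ^ D) k := pot_nonneg _ _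
  have hmain := sum_tupT_succ_le_level hlev hι φ h
  have hmassnn : ∀ σ j l, 0 ≤ mass ι ψ σ j l := fun σ j l => mass_nonneg ι ψ σ j l
  have htotal : ∑ σ : A → Bool, ∑ j : Fin n, ∑ l : Fin n, mass ι ψ σ j l = N :=
    sum_mass hι ψ hψ
  -- it suffices to bound the triple sum
  suffices hS : ∑ σ : A → Bool, ∑ j : Fin n, ∑ l : Fin n,
      pot (2 ^ D) j * pot (2 ^ D) l * mass ι ψ σ j l ≤ pot (2 * 2 ^ D) k * N by
    calc _ ≤ _ := hmain
      _ ≤ _ := hS
      _ ≤ _ := mul_le_mul_of_nonneg_left hNle hpot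
  rcases hN0.eq_or_lt with hN00 | hNpos
  · -- no mass at all
    have hz : ∀ σ (j l : Fin n), mass ι ψ σ j l = 0 := by
      intro σ j l
      have h1 : mass ι ψ σ j l ≤ ∑ l : Fin n, mass ι ψ σ j l :=
        Finset.single_le_sum (f := fun l : Fin n => mass ι ψ σ j l)
          (fun l _ => hmassnn σ j l) (Finset.mem_univ l)
      have h2 : ∑ l : Fin n, mass ι ψ σ j l ≤ ∑ j : Fin n, ∑ l : Fin n, mass ι ψ σ j l :=
        Finset.single_le_sum (f := fun j : Fin n => ∑ l : Fin n, mass ι ψ σ j l)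
          (fun j _ => Finset.sum_nonneg fun l _ => hmassnn σ j l) (Finset.mem_univ j)
      have h3 : ∑ j : Fin n, ∑ l : Fin n, mass ι ψ σ j l
          ≤ ∑ σ : A → Bool, ∑ j : Fin n, ∑ l : Fin n, mass ι ψ σ j l :=
        Finset.single_le_sum (f := fun σ : A → Bool => ∑ j : Fin n, ∑ l : Fin n, mass ι ψ σ j l)
          (fun σ _ => Finset.sum_nonneg fun j _ => Finset.sum_nonneg fun l _ => hmassnn σ j l)
          (Finset.mem_univ σ)
      have h4 := hmassnn σ j l
      linarith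
    simp only [hz, mul_zero, Finset.sum_const_zero]
    exact mul_nonneg hpot hN0
  -- the index type
  let P : (A → Bool) × Fin n × Fin n → Prop := fun i =>
    (i.2.1 : ℕ) ≤ (side i.1 false).card ∧ (i.2.2 : ℕ) ≤ (side i.1 true).card
  let I := {i : (A → Bool) × Fin n × Fin n // P i}
  have hsum : ∀ G : (A → Bool) × Fin n × Fin n → ℝ, (∀ i, ¬ P i → G i = 0) →
      ∑ i : I, G i.1 = ∑ σ : A → Bool, ∑ j : Fin n, ∑ l : Fin n, G (σ, j, l) := by
    intro G hG
    have h1 : ∑ i : I, G i.1 = ∑ i ∈ Finset.univ.filter P, G i :=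
      (Finset.sum_subtype (Finset.univ.filter P) (by simp) G).symm
    rw [h1, Finset.sum_filter_of_ne (fun i _ hne => by
      by_contra hP
      exact hne (hG i hP))]
    rw [Fintype.sum_prod_type]
    refine Finset.sum_congr rfl fun σ _ => ?_
    rw [Fintype.sum_prod_type]
  have hmass0 : ∀ i : (A → Bool) × Fin n × Fin n, ¬ P i → mass ι ψ i.1 i.2.1 i.2.2 = 0 := by
    intro i hi
    simp only [P, not_and_or, not_le] at hi
    rcases hi with hi | hi
    · exact mass_eq_zero_left ι ψ _ _ _ hi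
    · exact mass_eq_zero_right ι ψ _ _ _ hi
  have hsumM : ∀ F : (A → Bool) × Fin n × Fin n → ℝ,
      ∑ i : I, N⁻¹ * mass ι ψ i.1.1 i.1.2.1 i.1.2.2 * F i.1
        = N⁻¹ * ∑ σ : A → Bool, ∑ j : Fin n, ∑ l : Fin n, F (σ, j, l) * mass ι ψ σ j l := by
    intro F
    have := hsum (fun i => N⁻¹ * mass ι ψ i.1 i.2.1 i.2.2 * F i) (fun i hi => by
      simp only [hmass0 i hi, mul_zero, zero_mul])
    rw [this]
    simp only [Finset.mul_sum]
    refine Finset.sum_congr rfl fun σ _ => Finset.sum_congr rfl fun j _ =>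
      Finset.sum_congr rfl fun l _ => ?_
    ring
  have hNinv : 0 < N⁻¹ := inv_pos.mpr hNpos
  have hclosure := closure (I := I)
    (fun i => N⁻¹ * mass ι ψ i.1.1 i.1.2.1 i.1.2.2)
    (fun i => mul_nonneg hNinv.le (hmassnn _ _ _))
    (fun i => (side i.1.1 false).card) (fun i => (i.1.2.1 : ℕ)) (fun i => (i.1.2.2 : ℕ))
    k (2 ^ D) hk hm (fun i => i.2.1)
    (fun i => by
      have h1 := i.2.2
      have h2 := card_side_add (i.1.1)
      omega)
    (by
      intro g hg
      obtain ⟨d, hd, hle⟩ := sector_law φ h g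
      rw [binE_eq_closure] at hle
      refine ⟨d, hd, ?_⟩
      have h1 := hsumM (fun i => g (side i.1 false).card)
      simp only at h1
      rw [h1]
      have h2 : ∑ σ : A → Bool, ∑ j : Fin n, ∑ l : Fin n, g (side σ false).card * mass ι ψ σ j l
          = ∑ σ : A → Bool, g (side σ false).card * ∑ y : A → Pos D, (secQ ψ σ y) ^ 2 := by
        refine Finset.sum_congr rfl fun σ _ => ?_
        rw [← sum_mass_sector hι ψ hψ σ]
        simp only [Finset.mul_sum]
        rfl
      rw [h2]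
      calc N⁻¹ * _ ≤ N⁻¹ * (Closure.binE (k - 2 * d) (fun B => g (d + B)) * N) :=
            mul_le_mul_of_nonneg_left hle hNinv.le
        _ = _ := by field_simp)
    ρ hρ0 hρ
    (by
      intro R
      have h1 := hsumM (fun i => (((k - i.2.1 - i.2.2).choose R : ℕ) : ℝ))
      simp only at h1
      rw [h1]
      calc N⁻¹ * _ ≤ N⁻¹ * (ρ ^ R * N) := mul_le_mul_of_nonneg_left (H2 R) hNinv.le
        _ = _ := by field_simp)
  have h1 := hsumM (fun i => pot (2 ^ D) i.2.1 * pot (2 ^ D) i.2.2)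
  simp only at h1
  rw [h1] at hclosure
  have h4 := mul_le_mul_of_nonneg_left hclosure hN0
  rw [← mul_assoc, mul_inv_cancel₀ hNpos.ne', one_mul] at h4
  linarith

end Step

section Induction

/-- The hypothesis: removal moments. -/
def MomentBound : Prop :=
  ∀ (D : ℕ) (A : Type) [Fintype A] [DecidableEq A] (ι : A → Pos D), Function.Injective ι →
    ∀ φ : (A → Pos (D + 1)) → ℝ, IsPure φ → 100 * Fintype.card A < 2 * 2 ^ D → ∀ R : ℕ,
    ∑ σ : A → Bool, ∑ j : Fin (Fintype.card (Pos D) + 1),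
      ∑ l : Fin (Fintype.card (Pos D) + 1),
        (((Fintype.card A - j - l).choose R : ℕ) : ℝ) * mass ι (topProj φ) σ j l
        ≤ ((5 / 4) * Real.sqrt ((Fintype.card A : ℝ) / (2 ^ D : ℕ))) ^ R
          * ∑ x, (topProj φ x) ^ 2

lemma card_pos_eq (D : ℕ) : Fintype.card (Pos D) = 2 ^ D := by
  simp [Pos]

lemma high_le_pot (D j : ℕ) (hj : 2 ≤ j) (hjm : 2 ^ D ≤ 100 * j) :
    Real.exp (-(13 / 200) * (j : ℝ)) ≤ pot (2 ^ D) j := by
  rw [pot_of_two_le _ _ hj]
  have hj2 : (2 : ℝ) ≤ j := by exact_mod_cast hj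
  have h1 : Real.exp (-(13 / 200) * (j : ℝ)) ≤ 19 / 20 := by
    have h2 : Real.exp (-(13 / 200) * (j : ℝ)) ≤ Real.exp (-(13 / 100)) := by
      apply Real.exp_le_exp.mpr
      linarith
    have h3 : (1 : ℝ) + 13 / 100 ≤ Real.exp (13 / 100) := by
      have := Real.add_one_le_exp (13 / 100 : ℝ)
      linarith
    have h4 : Real.exp (-(13 / 100)) = (Real.exp (13 / 100))⁻¹ := Real.exp_neg _
    have h5 : (Real.exp (13 / 100))⁻¹ ≤ (1 + 13 / 100 : ℝ)⁻¹ :=
      inv_anti₀ (by norm_num) h3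
    have h6 : (1 + 13 / 100 : ℝ)⁻¹ ≤ 19 / 20 := by norm_num
    linarith
  have h2 : (1 : ℝ) ≤ ((100 * j / (2 ^ D : ℕ) : ℝ)) ^ ((j : ℝ) / 200) := by
    apply Real.one_le_rpow
    · rw [one_le_div (by positivity)]
      exact_mod_cast hjm
    · positivity
  nlinarith

/-- The child levels, from the induction hypothesis, one card, and Theorem A. -/
theorem childLevel_of (D : ℕ)
    (IH : ∀ k, 2 ≤ k → 100 * k < 2 ^ D → OpBound D k (pot (2 ^ D) k)) :
    ChildLevel D (pot (2 ^ D)) where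
  nonneg j := pot_nonneg _ _
  zero := by simp
  lev j v := by
    cases j with
    | zero => 
      simp only [zero_add, pot_one]
      exact levelOp_of_OpBound 0 0 le_rfl (opBound_one D) v
    | succ i =>
      by_cases hc : 100 * (i + 1 + 1) < 2 ^ D
      · exact levelOp_of_OpBound (i + 1) _ (pot_nonneg _ _) (IH (i + 1 + 1) (by omega) hc) v
      · have hH := Casimir.highOp D (i + 1) v
        have hp := high_le_pot D (i + 1 + 1) (by omega) (by omega)
        have hv : 0 ≤ v ⬝ᵥ v := Finset.sum_nonneg fun i _ => mul_self_nonneg _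
        exact hH.trans (mul_le_mul_of_nonneg_right hp hv)

/-- **The low range of (Op)**, given the removal moments. -/
theorem op_tiny (H2 : MomentBound) :
    ∀ D k, 2 ≤ k → 100 * k < 2 ^ D → OpBound D k (pot (2 ^ D) k) := by
  intro D
  induction D with
  | zero =>
    intro k hk hlt
    simp at hlt
    omega
  | succ D IH =>
    intro k hk hlt A _ _ hA φ hφ
    have hm : 100 * Fintype.card A < 2 * 2 ^ D := by rw [hA]; rw [pow_succ] at hlt; omega
    have hcard : Fintype.card A ≤ Fintype.card (Pos D) := by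
      rw [card_pos_eq]; omega
    obtain ⟨e⟩ := Function.Embedding.nonempty_of_card_le hcard
    have hstep := op_step (hk := by omega) hm (childLevel_of D IH) (ι := e) e.injective φ hφ.inj
      _ (by positivity) le_rfl (H2 D A e e.injective φ hφ hm)
    have e2 : (2 : ℕ) ^ (D + 1) = 2 * 2 ^ D := by rw [pow_succ]; ring
    rw [e2, ← hA]
    exact hstep

/-- The form of `hLow` in `FinalAssembly`. -/
theorem hLow_of_moments (H2 : MomentBound) (D k : ℕ) (hk : 2 ≤ k)
    (hlt : (100 : ℝ) * (k : ℝ) < 2 ^ D) :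
    OpBound D k ((19 / 20 : ℝ) * ((100 : ℝ) * (k : ℝ) / 2 ^ D) ^ ((1 / 200 : ℝ) * (k : ℝ))) := by
  have hlt' : 100 * k < 2 ^ D := by exact_mod_cast hlt
  have h := op_tiny H2 D k hk hlt'
  rw [pot_of_two_le _ _ hk] at h
  have e1 : ((100 * k / ((2 ^ D : ℕ) : ℝ) : ℝ)) = (100 : ℝ) * (k : ℝ) / 2 ^ D := by push_cast; ring
  have e2 : (k : ℝ) / 200 = (1 / 200 : ℝ) * (k : ℝ) := by ring
  rw [e1, e2] at h
  exact h

end Induction

end Crest.Agent.Lib.Thorp.Sec
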