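/-
S0222: the final statement from the removal moments (`MomentBound`) and the band bound; Theorem A is
`highOp`, the low range is `hLow_of_moments`. Constants θ = 13/200, κ = 19/20, C = 100, c = 1/200, A = 7.
-/
import Crest.Agent.Lib.Thorp.FinalAssembly
import Crest.Agent.Lib.Thorp.OpTiny

set_option autoImplicit false

namespace Crest.Agent.Lib.Thorp.Sec

open Crest.Agent.Lib.Thorp Filter Topology Matrix

lemma log_hundred_le : Real.log 100 ≤ 7 := by
  rw [Real.log_le_iff_le_exp (by norm_num)]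
  have h1 : (2 : ℝ) ≤ Real.exp 1 := by
    have := Real.add_one_le_exp (1 : ℝ)
    linarith
  have h2 : Real.exp 7 = (Real.exp 1) ^ 7 := by
    rw [← Real.exp_nat_mul]; norm_num
  rw [h2]
  calc (100 : ℝ) ≤ 2 ^ 7 := by norm_num
    _ ≤ _ := pow_le_pow_left₀ (by norm_num) h1 7

/-- **S0222 from the removal moments and the band bound.** -/
theorem S0222_of_moment_band (H2 : MomentBound)
    (hBand : ∀ (D : ℕ) (η : ℝ), 0 < η → η ≤ 1 / 2 → ∃ ν : Equiv.Perm (Pos D) → ℝ,
      (blockT D)ᵀ * blockT D = regMat ν ∧ (∀ g, 0 ≤ ν g) ∧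
        bandSum ν η ≤ Real.exp (7 * η * 2 ^ D)) :
    Tendsto (fun d : ℕ => Crest.ProbabilityR.Shuffle.tvFromUniform (2 ^ d) (1600 * (d + 1)))
      atTop (𝓝 0) := by
  have hlog := log_hundred_le
  refine S0222_of_inputs_log (13 / 200) (19 / 20) 100 (1 / 200) 7 29 (by norm_num) (by norm_num)
    (by norm_num) (by linarith) (by norm_num) (by nlinarith) (by norm_num) ?_
    (fun D k hk hlt => hLow_of_moments H2 D k hk hlt) hBand
  intro D k v
  have := Casimir.highOp D k v
  simpa using this

end Crest.Agent.Lib.Thorp.Sec
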