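/-
Thorp (row 155, S0222), module M1: exactness of the level decomposition under removal.
If `u` is a function of the cards `B` (`u ∈ VS B`) lying in the level piece `j`, then
`∑_{|E|=R, E ⊆ B} ‖avgS (B \ E) u‖² ≥ C(b-j, R) κ^R ‖u‖²` whenever `κ (m+1-b) ≤ m+1-b-j`.
Rep-free.
-/
import Crest.Agent.Lib.Thorp.Tuples

set_option autoImplicit false
set_option linter.unusedSectionVars false

namespace Crest.Agent.Lib.Thorp.LevelExact

open Matrix Finset Crest.Agent.Lib.Thorp

variable {Ω : Type*} [Fintype Ω] [DecidableEq Ω]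

/-! ### Basic facts about the averages -/

lemma avgS_idem (S : Finset Ω) (f : Equiv.Perm Ω → ℝ) : avgS S *ᵥ (avgS S *ᵥ f) = avgS S *ᵥ f :=
  avgS_fix S _ (avgS_mem_VS S f)

lemma avgS_nsq (S : Finset Ω) (f : Equiv.Perm Ω → ℝ) :
    (avgS S *ᵥ f) ⬝ᵥ (avgS S *ᵥ f) = (avgS S *ᵥ f) ⬝ᵥ f := by
  rw [avgS_dot, avgS_idem]
  exact dotProduct_comm _ _

lemma avgS_mul_of_subset {S T : Finset Ω} (h : T ⊆ S) : avgS S * avgS T = avgS T := by
  apply mat_ext_of_mulVec
  intro f
  rw [← Matrix.mulVec_mulVec]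
  exact avgS_fix S _ (VS_mono h (avgS_mem_VS T f))

lemma avgS_mul_of_subset' {S T : Finset Ω} (h : T ⊆ S) : avgS T * avgS S = avgS T := by
  have := congrArg Matrix.transpose (avgS_mul_of_subset h)
  simpa [Matrix.transpose_mul, avgS_transpose] using this

lemma nsq_nonneg {ι : Type*} [Fintype ι] (f : ι → ℝ) : 0 ≤ f ⬝ᵥ f :=
  Finset.sum_nonneg fun _ _ => mul_self_nonneg _

lemma rightMat_nsq (τ : Equiv.Perm Ω) (f : Equiv.Perm Ω → ℝ) :
    (rightMat τ *ᵥ f) ⬝ᵥ (rightMat τ *ᵥ f) = f ⬝ᵥ f := by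
  simp only [dotProduct, rightMat_mulVec]
  exact Fintype.sum_equiv (Equiv.mulRight τ) _ _ (fun x => rfl)

lemma nsq_sum_le {ι κ : Type*} [Fintype ι] (s : Finset κ) (h : κ → ι → ℝ) :
    (∑ i ∈ s, h i) ⬝ᵥ (∑ i ∈ s, h i) ≤ (s.card : ℝ) * ∑ i ∈ s, h i ⬝ᵥ h i := by
  simp only [dotProduct, Finset.sum_apply]
  rw [Finset.sum_comm, Finset.mul_sum]
  refine Finset.sum_le_sum fun x _ => ?_
  have := sq_sum_le_card_mul_sum_sq (s := s) (f := fun i => h i x)
  simpa [sq] using this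

/-! ### The one-card average in terms of transpositions -/

lemma swap_mem_aux {L : Finset Ω} {c : Ω} (hc : c ∉ L) {τ : Equiv.Perm Ω} (hτ : τ ∈ fixS L) :
    τ c ∉ L := by
  intro h
  have h1 := (mem_fixS.mp hτ) (τ c) h
  exact hc (τ.injective h1 ▸ h)

lemma card_fix_fibre {L : Finset Ω} {c e : Ω} (hc : c ∉ L) (he : e ∉ L) :
    ((fixS L).filter (fun τ => τ c = e)).card = (fixS (insert c L)).card := by
  refine Finset.card_bij' (fun τ _ => Equiv.swap c e * τ) (fun τ _ => Equiv.swap c e * τ) ?_ ?_ ?_ ?_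
  · intro τ hτ
    rw [mem_filter, mem_fixS] at hτ
    rw [mem_fixS]
    intro a ha
    rw [mem_insert] at ha
    rcases ha with rfl | ha
    · simp [hτ.2]
    · have hac : a ≠ c := fun h => hc (h ▸ ha)
      have hae : a ≠ e := fun h => he (h ▸ ha)
      simp [hτ.1 a ha, Equiv.swap_apply_of_ne_of_ne hac hae]
  · intro τ hτ
    rw [mem_fixS] at hτ
    rw [mem_filter, mem_fixS]
    constructor
    · intro a ha
      have hac : a ≠ c := fun h => hc (h ▸ ha)
      have hae : a ≠ e := fun h => he (h ▸ ha)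
      simp [hτ a (mem_insert_of_mem ha), Equiv.swap_apply_of_ne_of_ne hac hae]
    · simp [hτ c (mem_insert_self c L)]
  · intro τ _
    simp [← mul_assoc]
  · intro τ _
    simp [← mul_assoc]

/-- The average over `fixS L` of a function of `insert c L` is an average over transpositions. -/
theorem avg_one {L : Finset Ω} {c : Ω} (hc : c ∉ L) (g : Equiv.Perm Ω → ℝ)
    (hg : g ∈ VS (insert c L)) :
    ((Fintype.card Ω : ℝ) - L.card) • (avgS L *ᵥ g)
      = ∑ e ∈ univ \ L, rightMat (Equiv.swap c e) *ᵥ g := by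
  funext x
  simp only [Pi.smul_apply, smul_eq_mul, Finset.sum_apply, rightMat_mulVec]
  rw [avgS_mulVec]
  set h : Ω → ℝ := fun e => g (x * Equiv.swap c e) with hh
  have h1 : ∀ τ ∈ fixS L, g (x * τ) = h (τ c) := by
    intro τ hτ
    apply hg
    intro a ha
    rw [mem_insert] at ha
    simp only [Equiv.Perm.coe_mul, Function.comp_apply]
    rcases ha with rfl | ha
    · simp
    · have hac : a ≠ c := fun h => hc (h ▸ ha)
      have hae : a ≠ τ c := fun h => swap_mem_aux hc hτ (h ▸ ha)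
      rw [(mem_fixS.mp hτ) a ha, Equiv.swap_apply_of_ne_of_ne hac hae]
  rw [Finset.sum_congr rfl h1]
  set N := (fixS (insert c L)).card with hN
  have hmaps : ∀ τ ∈ fixS L, τ c ∈ univ \ L := fun τ hτ => by
    simp [swap_mem_aux hc hτ]
  have h2 : ∑ τ ∈ fixS L, h (τ c) = (N : ℝ) * ∑ e ∈ univ \ L, h e := by
    rw [← Finset.sum_fiberwise_of_maps_to hmaps, Finset.mul_sum]
    refine Finset.sum_congr rfl fun e he => ?_
    have he' : e ∉ L := by simpa using he
    rw [Finset.sum_congr rfl (g := fun _ => h e)]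
    · rw [Finset.sum_const, nsmul_eq_mul, card_fix_fibre hc he']
    · intro τ hτ
      rw [(mem_filter.mp hτ).2]
  have h3 : (fixS L).card = N * (univ \ L).card := by
    rw [Finset.card_eq_sum_card_fiberwise hmaps]
    rw [Finset.sum_congr rfl (g := fun _ => N)]
    · simp [mul_comm]
    · intro e he
      have he' : e ∉ L := by simpa using he
      exact card_fix_fibre hc he'
  have hNpos : (0 : ℝ) < N := by
    rw [hN]; exact_mod_cast fixS_card_pos _
  have hLc : (univ \ L).card = Fintype.card Ω - L.card := by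
    rw [Finset.card_sdiff_of_subset (subset_univ L), card_univ]
  have hLle : L.card ≤ Fintype.card Ω := Finset.card_le_univ L
  have hm : (Fintype.card Ω : ℝ) - L.card = ((univ \ L).card : ℝ) := by
    rw [hLc, Nat.cast_sub hLle]
  have hpos : (0 : ℝ) < ((univ \ L).card : ℝ) := by
    have : c ∈ univ \ L := by simp [hc]
    exact_mod_cast Finset.card_pos.mpr ⟨c, this⟩
  rw [h2, h3, hm]
  push_cast
  field_simp

/-! ### Pure functions -/

/-- `f` is a pure function of the cards `S`. -/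
structure IsPureOn (S : Finset Ω) (f : Equiv.Perm Ω → ℝ) : Prop where
  mem : f ∈ VS S
  zero : ∀ a ∈ S, avgS (S.erase a) *ᵥ f = 0

lemma avgS_image_rightMat (T : Finset Ω) (τ : Equiv.Perm Ω) (f : Equiv.Perm Ω → ℝ) :
    avgS (T.image τ) *ᵥ (rightMat τ *ᵥ f) = rightMat τ *ᵥ (avgS T *ᵥ f) := by
  funext x
  rw [avgS_mulVec, rightMat_mulVec, avgS_mulVec]
  simp only [rightMat_mulVec]
  have hcard : (fixS (T.image τ)).card = (fixS T).card := by
    refine Finset.card_bij' (fun σ _ => τ⁻¹ * σ * τ) (fun σ _ => τ * σ * τ⁻¹) ?_ ?_ ?_ ?_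
    · intro σ hσ
      rw [mem_fixS] at hσ ⊢
      intro a ha
      have := hσ (τ a) (mem_image_of_mem τ ha)
      simp [this]
    · intro σ hσ
      rw [mem_fixS] at hσ ⊢
      intro a ha
      obtain ⟨b, hb, rfl⟩ := mem_image.mp ha
      simp [hσ b hb]
    · intro σ _; group
    · intro σ _; group
  rw [hcard]
  congr 1
  refine Finset.sum_bij' (fun σ _ => τ⁻¹ * σ * τ) (fun σ _ => τ * σ * τ⁻¹) ?_ ?_ ?_ ?_ ?_
  · intro σ hσ
    rw [mem_fixS] at hσ ⊢
    intro a ha
    have := hσ (τ a) (mem_image_of_mem τ ha)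
    simp [this]
  · intro σ hσ
    rw [mem_fixS] at hσ ⊢
    intro a ha
    obtain ⟨b, hb, rfl⟩ := mem_image.mp ha
    simp [hσ b hb]
  · intro σ _; group
  · intro σ _; group
  · intro σ _
    congr 1
    group

lemma IsPureOn.rightMat {S : Finset Ω} {f : Equiv.Perm Ω → ℝ} (hf : IsPureOn S f)
    (τ : Equiv.Perm Ω) : IsPureOn (S.image τ) (rightMat τ *ᵥ f) := by
  refine ⟨rightMat_mem_VS τ S f hf.mem, ?_⟩
  intro a ha
  obtain ⟨b, hb, rfl⟩ := mem_image.mp ha
  have : (S.image τ).erase (τ b) = (S.erase b).image τ := by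
    rw [Finset.image_erase τ.injective]
  rw [this, avgS_image_rightMat, hf.zero b hb]
  simp

/-- The transpositions moving `a ∈ S` to `d ∉ S` keep the size of the set. -/
lemma image_swap_props {B S : Finset Ω} (hS : S ⊆ B) {a d : Ω} (ha : a ∈ S) (hd : d ∈ B \ S) :
    S.image (Equiv.swap a d) ⊆ B ∧ (S.image (Equiv.swap a d)).card = S.card := by
  constructor
  · intro x hx
    obtain ⟨y, hy, rfl⟩ := mem_image.mp hx
    have hd' := mem_sdiff.mp hd
    by_cases hya : y = a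
    · subst hya; simpa using hd'.1
    · have hyd : y ≠ d := fun h => hd'.2 (h ▸ hy)
      rw [Equiv.swap_apply_of_ne_of_ne hya hyd]
      exact hS hy
  · exact Finset.card_image_of_injective _ (Equiv.injective _)

section Z

variable (B : Finset Ω) (j : ℕ)

/-- The size of the free part. -/
noncomputable def n1 : ℝ := (Fintype.card Ω : ℝ) + 1 - B.card

/-- The operator `Z = n₁ ∑_a avg(B-a) - n₁ (b-j)`. -/
noncomputable def Zmat : Matrix (Equiv.Perm Ω) (Equiv.Perm Ω) ℝ :=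
  (n1 B) • (∑ a ∈ B, avgS (B.erase a)) - ((n1 B) * ((B.card - j : ℕ) : ℝ)) • 1

variable {B j}

lemma avg_erase_pure {S : Finset Ω} (hS : S ⊆ B) {f : Equiv.Perm Ω → ℝ} (hf : IsPureOn S f)
    {a : Ω} (ha : a ∈ S) :
    n1 B • (avgS (B.erase a) *ᵥ f) = - ∑ d ∈ B \ S, rightMat (Equiv.swap a d) *ᵥ f := by
  have haB : a ∈ B := hS ha
  have h1 := avg_one (L := B.erase a) (c := a) (by simp) f (by
    rw [Finset.insert_erase haB]
    exact VS_mono hS hf.mem)
  have h2 := avg_one (L := S.erase a) (c := a) (by simp) f (by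
    rw [Finset.insert_erase ha]
    exact hf.mem)
  rw [hf.zero a ha, smul_zero] at h2
  have hcard : (Fintype.card Ω : ℝ) - (B.erase a).card = n1 B := by
    unfold n1
    rw [Finset.card_erase_of_mem haB]
    have : 1 ≤ B.card := Finset.card_pos.mpr ⟨a, haB⟩
    rw [Nat.cast_sub this]
    push_cast
    ring
  rw [hcard] at h1
  rw [h1, eq_neg_iff_add_eq_zero, ← Finset.sum_union]
  · rw [h2]
    apply Finset.sum_congr _ (fun _ _ => rfl)
    ext e
    simp only [mem_union, mem_sdiff, mem_univ, true_and, mem_erase, not_and]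
    by_cases hea : e = a
    · subst hea
      simp
    · have := @hS e
      simp only [hea, ne_eq, not_false_eq_true, forall_const]
      tauto
  · rw [Finset.disjoint_left]
    intro x hx hx'
    simp only [mem_sdiff, mem_univ, true_and, mem_erase, not_and] at hx hx'
    by_cases hxa : x = a
    · subst hxa
      exact hx'.2 ha
    · exact hx hxa hx'.1

/-- The action of `Z` on a pure function. -/
lemma Zmat_pure {S : Finset Ω} (hS : S ⊆ B) (hj : S.card = j) {f : Equiv.Perm Ω → ℝ}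
    (hf : IsPureOn S f) :
    Zmat B j *ᵥ f = - ∑ p ∈ S ×ˢ (B \ S), rightMat (Equiv.swap p.1 p.2) *ᵥ f := by
  unfold Zmat
  rw [Matrix.sub_mulVec, Matrix.smul_mulVec, Matrix.smul_mulVec, Matrix.one_mulVec,
    Matrix.sum_mulVec]
  have hsplit : ∑ a ∈ B, avgS (B.erase a) *ᵥ f
      = ∑ a ∈ S, avgS (B.erase a) *ᵥ f + ∑ a ∈ B \ S, avgS (B.erase a) *ᵥ f := by
    rw [add_comm, Finset.sum_sdiff hS]
  have h2 : ∀ a ∈ B \ S, avgS (B.erase a) *ᵥ f = f := by
    intro a ha
    have ha' := mem_sdiff.mp ha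
    apply avgS_fix
    apply VS_mono _ hf.mem
    intro x hx
    rw [mem_erase]
    exact ⟨fun h => ha'.2 (h ▸ hx), hS hx⟩
  rw [hsplit, Finset.sum_congr rfl h2, Finset.sum_const, smul_add, Finset.smul_sum,
    Finset.sum_congr rfl (fun a ha => avg_erase_pure hS hf ha)]
  have hc : (B \ S).card = B.card - j := by
    rw [Finset.card_sdiff_of_subset hS, hj]
  rw [hc, Finset.sum_neg_distrib, Finset.sum_product]
  funext x
  simp only [Pi.add_apply, Pi.sub_apply, Pi.neg_apply, Pi.smul_apply, smul_eq_mul,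
    Finset.sum_apply]
  simp only [nsmul_eq_mul]
  ring

/-- The power bound on pure functions. -/
lemma Zpow_pure (p : ℕ) : ∀ {S : Finset Ω}, S ⊆ B → S.card = j → ∀ {f : Equiv.Perm Ω → ℝ},
    IsPureOn S f →
    ((Zmat B j) ^ p *ᵥ f) ⬝ᵥ ((Zmat B j) ^ p *ᵥ f)
      ≤ (((j * (B.card - j) : ℕ) : ℝ) ^ 2) ^ p * (f ⬝ᵥ f) := by
  induction p with
  | zero =>
    intro S _ _ f _
    simp
  | succ p ih =>
    intro S hS hj f hf
    set c : ℝ := ((j * (B.card - j) : ℕ) : ℝ) with hc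
    have hcard : ((S ×ˢ (B \ S)).card : ℝ) = c := by
      rw [Finset.card_product, Finset.card_sdiff_of_subset hS, hj, hc]
    have h1 : (Zmat B j) ^ (p + 1) *ᵥ f
        = - ∑ q ∈ S ×ˢ (B \ S), (Zmat B j) ^ p *ᵥ (rightMat (Equiv.swap q.1 q.2) *ᵥ f) := by
      rw [pow_succ, ← Matrix.mulVec_mulVec, Zmat_pure hS hj hf, Matrix.mulVec_neg, Matrix.mulVec_sum]
    rw [h1, neg_dotProduct, dotProduct_neg, neg_neg]
    refine (nsq_sum_le _ _).trans ?_
    rw [hcard]
    have hc0 : 0 ≤ c := by rw [hc]; positivity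
    have h2 : ∀ q ∈ S ×ˢ (B \ S),
        ((Zmat B j) ^ p *ᵥ (rightMat (Equiv.swap q.1 q.2) *ᵥ f))
          ⬝ᵥ ((Zmat B j) ^ p *ᵥ (rightMat (Equiv.swap q.1 q.2) *ᵥ f))
        ≤ (c ^ 2) ^ p * (f ⬝ᵥ f) := by
      intro q hq
      have hq' := mem_product.mp hq
      obtain ⟨h3, h4⟩ := image_swap_props hS hq'.1 hq'.2
      have := ih h3 (h4.trans hj) (hf.rightMat (Equiv.swap q.1 q.2))
      rwa [rightMat_nsq] at this
    calc c * ∑ q ∈ S ×ˢ (B \ S), ((Zmat B j) ^ p *ᵥ (rightMat (Equiv.swap q.1 q.2) *ᵥ f))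
          ⬝ᵥ ((Zmat B j) ^ p *ᵥ (rightMat (Equiv.swap q.1 q.2) *ᵥ f))
        ≤ c * ∑ _q ∈ S ×ˢ (B \ S), (c ^ 2) ^ p * (f ⬝ᵥ f) :=
          mul_le_mul_of_nonneg_left (Finset.sum_le_sum h2) hc0
      _ = (c ^ 2) ^ (p + 1) * (f ⬝ᵥ f) := by
          rw [Finset.sum_const, nsmul_eq_mul, hcard]
          ring

/-- Functions with geometrically bounded `Z`-powers. -/
def Bdd (B : Finset Ω) (j : ℕ) (u : Equiv.Perm Ω → ℝ) : Prop :=
  ∃ K : ℝ, ∀ p : ℕ, ((Zmat B j) ^ p *ᵥ u) ⬝ᵥ ((Zmat B j) ^ p *ᵥ u)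
    ≤ (((j * (B.card - j) : ℕ) : ℝ) ^ 2) ^ p * K

lemma Bdd.zero : Bdd B j 0 := ⟨0, fun p => by simp⟩

lemma Bdd.add {u v : Equiv.Perm Ω → ℝ} (hu : Bdd B j u) (hv : Bdd B j v) : Bdd B j (u + v) := by
  obtain ⟨K1, h1⟩ := hu
  obtain ⟨K2, h2⟩ := hv
  refine ⟨2 * K1 + 2 * K2, fun p => ?_⟩
  rw [Matrix.mulVec_add]
  have h3 : ∀ a b : Equiv.Perm Ω → ℝ, (a + b) ⬝ᵥ (a + b) ≤ 2 * (a ⬝ᵥ a) + 2 * (b ⬝ᵥ b) := by
    intro a b
    simp only [dotProduct, Pi.add_apply]
    rw [Finset.mul_sum, Finset.mul_sum, ← Finset.sum_add_distrib]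
    refine Finset.sum_le_sum fun x _ => ?_
    nlinarith [sq_nonneg (a x - b x)]
  refine (h3 _ _).trans ?_
  have := h1 p
  have := h2 p
  calc _ ≤ 2 * (((( j * (B.card - j) : ℕ) : ℝ) ^ 2) ^ p * K1)
        + 2 * ((((j * (B.card - j) : ℕ) : ℝ) ^ 2) ^ p * K2) := by linarith
    _ = _ := by ring

lemma IsPureOn.bdd {S : Finset Ω} (hS : S ⊆ B) (hj : S.card = j) {f : Equiv.Perm Ω → ℝ}
    (hf : IsPureOn S f) : Bdd B j f :=
  ⟨f ⬝ᵥ f, fun p => Zpow_pure p hS hj hf⟩

/-- An eigenvalue of `Z` on a `Bdd` vector is bounded by `j (b - j)`. -/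
lemma eigen_le {u : Equiv.Perm Ω → ℝ} (hu : Bdd B j u) (hne : u ≠ 0) {μ : ℝ}
    (hμ : Zmat B j *ᵥ u = μ • u) : |μ| ≤ ((j * (B.card - j) : ℕ) : ℝ) := by
  obtain ⟨K, hK⟩ := hu
  set c : ℝ := ((j * (B.card - j) : ℕ) : ℝ) with hc
  have hc0 : 0 ≤ c := by rw [hc]; positivity
  have hpow : ∀ p : ℕ, (Zmat B j) ^ p *ᵥ u = μ ^ p • u := by
    intro p
    induction p with
    | zero => simp
    | succ p ih =>
      rw [pow_succ, ← Matrix.mulVec_mulVec, hμ, Matrix.mulVec_smul, ih, smul_smul, pow_succ]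
      congr 1
      ring
  have hnorm : 0 < u ⬝ᵥ u := by
    have h5 := nsq_nonneg u
    refine lt_of_le_of_ne h5 (fun e => hne (dotProduct_self_eq_zero.mp e.symm))
  have hineq : ∀ p : ℕ, (μ ^ 2) ^ p * (u ⬝ᵥ u) ≤ (c ^ 2) ^ p * K := by
    intro p
    have := hK p
    rw [hpow p, smul_dotProduct, dotProduct_smul, smul_eq_mul, smul_eq_mul] at this
    calc (μ ^ 2) ^ p * (u ⬝ᵥ u) = μ ^ p * (μ ^ p * (u ⬝ᵥ u)) := by
          rw [← pow_mul, mul_comm 2 p, pow_mul]; ring
      _ ≤ _ := this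
  by_contra hcon
  push Not at hcon
  -- `c < |μ|`, so the ratio goes to zero
  have hμpos : 0 < μ ^ 2 := by
    have : 0 < |μ| := lt_of_le_of_lt hc0 hcon
    have h7 : μ ≠ 0 := by
      intro h; rw [h] at this; simp at this
    positivity
  have hlt : c ^ 2 < μ ^ 2 := by
    rw [← sq_abs μ]
    exact pow_lt_pow_left₀ hcon hc0 (by norm_num)
  have hratio : c ^ 2 / μ ^ 2 < 1 := by
    rwa [div_lt_one hμpos]
  have hr0 : 0 ≤ c ^ 2 / μ ^ 2 := by positivity
  have hlim := (tendsto_pow_atTop_nhds_zero_of_lt_one hr0 hratio).mul_const K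
  rw [zero_mul] at hlim
  have hev : ∀ᶠ p : ℕ in Filter.atTop, (c ^ 2 / μ ^ 2) ^ p * K < u ⬝ᵥ u :=
    hlim.eventually (gt_mem_nhds hnorm)
  obtain ⟨p, hp⟩ := hev.exists
  have h8 := hineq p
  have h9 : (c ^ 2 / μ ^ 2) ^ p * K * (μ ^ 2) ^ p = (c ^ 2) ^ p * K := by
    rw [div_pow]
    field_simp
  have h10 : (u ⬝ᵥ u) * (μ ^ 2) ^ p ≤ (c ^ 2 / μ ^ 2) ^ p * K * (μ ^ 2) ^ p := by
    rw [h9, mul_comm]; exact h8
  have h11 : (0 : ℝ) < (μ ^ 2) ^ p := by positivity
  have := le_of_mul_le_mul_right h10 h11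
  linarith

end Z

/-! ### Truncation of the level flag to the functions of `B` -/

/-- Functions of `B` of level at most `r`. -/
def trunc (B : Finset Ω) (r : ℕ) : Submodule ℝ (Equiv.Perm Ω → ℝ) :=
  ⨆ S : {S : Finset Ω // S ⊆ B ∧ S.card ≤ r}, VS S.1

lemma VS_le_trunc {B S : Finset Ω} {r : ℕ} (hS : S ⊆ B) (h : S.card ≤ r) : VS S ≤ trunc B r :=
  le_iSup_of_le (⟨S, hS, h⟩ : {S : Finset Ω // S ⊆ B ∧ S.card ≤ r}) le_rfl

lemma trunc_mono (B : Finset Ω) {r r' : ℕ} (h : r ≤ r') : trunc B r ≤ trunc B r' := by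
  apply iSup_le
  intro S
  exact VS_le_trunc S.2.1 (S.2.2.trans h)

/-- **Lemma T**: the conditional expectation of a function of `S'` given `B`. -/
lemma avg_mem_trunc (B : Finset Ω) (i : ℕ) : ∀ (S' : Finset Ω), (S' \ B).card = i →
    ∀ g ∈ VS S', avgS B *ᵥ g ∈ trunc B S'.card := by
  induction i with
  | zero =>
    intro S' hi g hg
    have hS' : S' ⊆ B := by
      rw [Finset.card_eq_zero, Finset.sdiff_eq_empty_iff_subset] at hi
      exact hi
    rw [avgS_fix B g (VS_mono hS' hg)]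
    exact VS_le_trunc hS' le_rfl hg
  | succ i ih =>
    intro S' hi g hg
    obtain ⟨c, hc⟩ : (S' \ B).Nonempty := by
      rw [← Finset.card_pos]; omega
    have hcS' := (mem_sdiff.mp hc).1
    have hcB := (mem_sdiff.mp hc).2
    set L' := S'.erase c with hL'
    set L := B ∪ L' with hL
    have hcL' : c ∉ L' := by simp [hL']
    have hcL : c ∉ L := by simp [hL, hcB, hL']
    have hinsL' : insert c L' = S' := Finset.insert_erase hcS'
    have hg' : g ∈ VS (insert c L') := by rwa [hinsL']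
    have hg2 : g ∈ VS (insert c L) := by
      apply VS_mono _ hg
      intro x hx
      by_cases hxc : x = c
      · simp [hxc]
      · simp [hL, hL', hxc, hx]
    have h1 := avg_one hcL g hg2
    have h2 := avg_one hcL' g hg'
    have hunion : univ \ L' = (univ \ L) ∪ (B \ S') := by
      ext e
      simp only [hL, hL', mem_sdiff, mem_univ, true_and, mem_union, mem_erase, not_or, not_and]
      by_cases heB : e ∈ B
      · by_cases heS : e ∈ S'
        · have : e ≠ c := fun h => hcB (h ▸ heB)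
          simp [heB, heS, this]
        · simp [heB, heS]
      · simp [heB]
    have hdisj : Disjoint (univ \ L) (B \ S') := by
      rw [Finset.disjoint_left]
      intro x hx hx'
      simp only [hL, mem_sdiff, mem_univ, true_and, mem_union, not_or] at hx
      exact hx.1 (mem_sdiff.mp hx').1
    rw [hunion, Finset.sum_union hdisj, ← h1] at h2
    -- apply `avgS B`
    have h3 := congrArg (fun w => avgS B *ᵥ w) h2
    simp only [Matrix.mulVec_smul, Matrix.mulVec_add, Matrix.mulVec_sum] at h3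
    have htower : avgS B *ᵥ (avgS L *ᵥ g) = avgS B *ᵥ g := by
      rw [Matrix.mulVec_mulVec, avgS_mul_of_subset' (Finset.subset_union_left)]
    rw [htower] at h3
    have hm : (0 : ℝ) < (Fintype.card Ω : ℝ) - L.card := by
      have : L.card < Fintype.card Ω := by
        apply Finset.card_lt_univ_of_notMem hcL
      have h5 : (L.card : ℝ) < Fintype.card Ω := by exact_mod_cast this
      linarith
    have hcardL' : L'.card + 1 = S'.card := by
      rw [hL', Finset.card_erase_of_mem hcS']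
      have := Finset.card_pos.mpr ⟨c, hcS'⟩
      omega
    have hL'B : (L' \ B).card = i := by
      have : L' \ B = (S' \ B).erase c := by
        rw [hL', Finset.erase_sdiff_comm]
      rw [this, Finset.card_erase_of_mem hc, hi]
      rfl
    have hterm1 : avgS B *ᵥ (avgS L' *ᵥ g) ∈ trunc B S'.card :=
      trunc_mono B (by omega) (ih L' hL'B _ (avgS_mem_VS L' g))
    have hterm2 : ∀ d ∈ B \ S', avgS B *ᵥ (rightMat (Equiv.swap c d) *ᵥ g) ∈ trunc B S'.card := by
      intro d hd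
      have hd' := mem_sdiff.mp hd
      have hmem := rightMat_mem_VS (Equiv.swap c d) S' g hg
      have hcardi : (S'.image (Equiv.swap c d)).card = S'.card :=
        Finset.card_image_of_injective _ (Equiv.injective _)
      have hsd : (S'.image (Equiv.swap c d)) \ B = (S' \ B).erase c := by
        ext x
        simp only [mem_sdiff, mem_image, mem_erase]
        constructor
        · rintro ⟨⟨y, hy, rfl⟩, hx⟩
          by_cases hyc : y = c
          · subst hyc
            simp only [Equiv.swap_apply_left] at hx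
            exact absurd hd'.1 hx
          · have hyd : y ≠ d := fun h => hd'.2 (h ▸ hy)
            rw [Equiv.swap_apply_of_ne_of_ne hyc hyd] at hx ⊢
            exact ⟨hyc, hy, hx⟩
        · rintro ⟨hxc, hxS, hxB⟩
          refine ⟨⟨x, hxS, ?_⟩, hxB⟩
          have hxd : x ≠ d := fun h => hxB (h ▸ hd'.1)
          exact Equiv.swap_apply_of_ne_of_ne hxc hxd
      have hc2 : ((S'.image (Equiv.swap c d)) \ B).card = i := by
        rw [hsd, Finset.card_erase_of_mem hc, hi]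
        rfl
      have := ih _ hc2 _ hmem
      rwa [hcardi] at this
    have hfinal : avgS B *ᵥ g = ((Fintype.card Ω : ℝ) - L.card)⁻¹ •
        (((Fintype.card Ω : ℝ) - L'.card) • (avgS B *ᵥ (avgS L' *ᵥ g))
          - ∑ d ∈ B \ S', avgS B *ᵥ (rightMat (Equiv.swap c d) *ᵥ g)) := by
      rw [h3, add_sub_cancel_right, smul_smul, inv_mul_cancel₀ hm.ne', one_smul]
    rw [hfinal]
    apply Submodule.smul_mem
    apply Submodule.sub_mem
    · exact Submodule.smul_mem _ _ hterm1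
    · exact Submodule.sum_mem _ hterm2

lemma avg_levelV_mem_trunc (B : Finset Ω) (j : ℕ) {v : Equiv.Perm Ω → ℝ} (hv : v ∈ levelV j) :
    avgS B *ᵥ v ∈ trunc B j := by
  have : levelV (Ω := Ω) j ≤ (trunc B j).comap (Matrix.mulVecLin (avgS B)) := by
    apply iSup₂_le
    intro S hS f hf
    exact trunc_mono B hS (avg_mem_trunc B _ S rfl f hf)
  exact this hv

lemma levelE_mem_levelV (j : ℕ) (v : Equiv.Perm Ω → ℝ) : levelE j *ᵥ v ∈ levelV (Ω := Ω) j := by
  cases j with
  | zero => exact projMat_mem _ v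
  | succ k => exact flagE_succ_mem _ levelV_mono k v

lemma levelE_mulVec_of_mem {k : ℕ} {g : Equiv.Perm Ω → ℝ} (hg : g ∈ levelV (Ω := Ω) k) :
    levelE (k + 1) *ᵥ g = 0 := by
  unfold levelE
  simp only [flagE, Matrix.sub_mulVec]
  rw [projMat_fix _ g hg, projMat_fix _ g (levelV_mono (Nat.le_succ k) hg), sub_self]

lemma levelE_avgS_comm (S : Finset Ω) (j : ℕ) (g : Equiv.Perm Ω → ℝ) :
    levelE j *ᵥ (avgS S *ᵥ g) = avgS S *ᵥ (levelE j *ᵥ g) := by
  rw [Matrix.mulVec_mulVec, Matrix.mulVec_mulVec, avgS_comm_levelE]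

/-- The level projection of a function of `S`, `|S| = j`, is pure. -/
lemma levelE_pure {S : Finset Ω} {j : ℕ} (hj : S.card = j) {g : Equiv.Perm Ω → ℝ} (hg : g ∈ VS S) :
    IsPureOn S (levelE j *ᵥ g) := by
  refine ⟨?_, ?_⟩
  · have : levelE j *ᵥ g = avgS S *ᵥ (levelE j *ᵥ g) := by
      rw [← levelE_avgS_comm, avgS_fix S g hg]
    rw [this]
    exact avgS_mem_VS S _
  · intro a ha
    obtain ⟨k, rfl⟩ : ∃ k, j = k + 1 := by
      have := Finset.card_pos.mpr ⟨a, ha⟩
      exact ⟨j - 1, by omega⟩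
    rw [← levelE_avgS_comm]
    apply levelE_mulVec_of_mem
    apply VS_le_levelV (S := S.erase a)
    · rw [Finset.card_erase_of_mem ha]; omega
    · exact avgS_mem_VS _ g

lemma bdd_of_mem_trunc {B : Finset Ω} {j : ℕ} {w : Equiv.Perm Ω → ℝ} (hw : w ∈ trunc B j) :
    Bdd B j (levelE j *ᵥ w) := by
  refine Submodule.iSup_induction _ (motive := fun w => Bdd B j (levelE j *ᵥ w)) hw ?_ ?_ ?_
  · intro S g hg
    by_cases hS : S.1.card = j
    · exact (levelE_pure hS hg).bdd S.2.1 hS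
    · obtain ⟨k, rfl⟩ : ∃ k, j = k + 1 := by
        have := S.2.2
        exact ⟨j - 1, by omega⟩
      have h0 : levelE (k + 1) *ᵥ g = 0 := by
        apply levelE_mulVec_of_mem
        exact VS_le_levelV (by have := S.2.2; omega) hg
      rw [h0]
      exact Bdd.zero
  · simp [Bdd.zero]
  · intro x y hx hy
    rw [Matrix.mulVec_add]
    exact hx.add hy

/-- The vectors of the level piece `j` in `VS B` have geometrically bounded `Z` powers. -/
lemma bdd_of_level {B : Finset Ω} {j : ℕ} {u : Equiv.Perm Ω → ℝ} (hB : u ∈ VS B)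
    (hE : levelE j *ᵥ u = u) : Bdd B j u := by
  have h1 : u ∈ levelV (Ω := Ω) j := by
    rw [← hE]; exact levelE_mem_levelV j u
  have h2 := avg_levelV_mem_trunc B j h1
  rw [avgS_fix B u hB] at h2
  have := bdd_of_mem_trunc h2
  rwa [hE] at this

lemma Zmat_transpose (B : Finset Ω) (j : ℕ) : (Zmat B j)ᵀ = Zmat B j := by
  unfold Zmat
  rw [Matrix.transpose_sub, Matrix.transpose_smul, Matrix.transpose_smul, Matrix.transpose_sum,
    Matrix.transpose_one]
  simp_rw [avgS_transpose]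

lemma Z_preserves {B : Finset Ω} {j : ℕ} {v : Equiv.Perm Ω → ℝ} (hB : v ∈ VS B)
    (hE : levelE j *ᵥ v = v) :
    levelE j *ᵥ (Zmat B j *ᵥ v) = Zmat B j *ᵥ v ∧ avgS B *ᵥ (Zmat B j *ᵥ v) = Zmat B j *ᵥ v := by
  unfold Zmat
  simp only [Matrix.sub_mulVec, Matrix.smul_mulVec, Matrix.one_mulVec, Matrix.sum_mulVec,
    Matrix.mulVec_sub, Matrix.mulVec_smul, Matrix.mulVec_sum]
  constructor
  · rw [hE]
    congr 2
    refine Finset.sum_congr rfl fun a _ => ?_
    rw [levelE_avgS_comm, hE]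
  · rw [avgS_fix B v hB]
    congr 2
    refine Finset.sum_congr rfl fun a _ => ?_
    exact avgS_fix B _ (VS_mono (Finset.erase_subset a B) (avgS_mem_VS _ v))

/-- **One removal**. -/
theorem one_removal {B : Finset Ω} {j : ℕ} {u : Equiv.Perm Ω → ℝ} (hB : u ∈ VS B)
    (hE : levelE j *ᵥ u = u) :
    ((B.card - j : ℕ) : ℝ) * (n1 B - j) * (u ⬝ᵥ u)
      ≤ n1 B * ∑ a ∈ B, (avgS (B.erase a) *ᵥ u) ⬝ᵥ (avgS (B.erase a) *ᵥ u) := by
  classical
  set E := levelE (Ω := Ω) j with hEdef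
  set A := avgS B with hA
  set P := E * A with hP
  set Z := Zmat B j with hZ
  set c : ℝ := ((j * (B.card - j) : ℕ) : ℝ) with hc
  have hc0 : 0 ≤ c := by rw [hc]; positivity
  have hEA : E * A = A * E := (avgS_comm_levelE B j)
  have hEE : E * E = E := levelE_idem j
  have hAA : A * A = A := avgS_mul_of_subset (subset_refl B)
  have hPt : Pᵀ = P := by
    rw [hP, Matrix.transpose_mul, levelE_symm, avgS_transpose]
    exact hEA.symm
  have hEP : E * P = P := by rw [hP, ← Matrix.mul_assoc, hEE]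
  have hAP : A * P = P := by rw [hP, ← Matrix.mul_assoc, ← hEA, Matrix.mul_assoc, hAA]
  set W : Matrix (Equiv.Perm Ω) (Equiv.Perm Ω) ℝ := -(P * (Z * P)) with hW
  have hWt : Wᵀ = W := by
    rw [hW, Matrix.transpose_neg, Matrix.transpose_mul, Matrix.transpose_mul, hPt,
      show Zᵀ = Z from Zmat_transpose B j, Matrix.mul_assoc]
  -- action of `W` on the level piece
  have hWact : ∀ v, v ∈ VS B → E *ᵥ v = v → W *ᵥ v = - (Z *ᵥ v) := by
    intro v hvB hvE
    have hPv : P *ᵥ v = v := by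
      rw [hP, ← Matrix.mulVec_mulVec, avgS_fix B v hvB, hvE]
    obtain ⟨h1, h2⟩ := Z_preserves hvB hvE
    have h3 : (Z * P) *ᵥ v = Z *ᵥ v := by rw [← Matrix.mulVec_mulVec, hPv]
    have h4 : P *ᵥ (Z *ᵥ v) = Z *ᵥ v := by
      rw [hP, ← Matrix.mulVec_mulVec]
      rw [hA, h2, hEdef, h1]
    rw [hW, Matrix.neg_mulVec, ← Matrix.mulVec_mulVec, h3, h4]
  have heig : ∀ (μ : ℝ) (v : Equiv.Perm Ω → ℝ), v ≠ 0 → W *ᵥ v = μ • v → μ ≤ c := by
    intro μ v hv hWv
    by_cases hμ : μ ≤ 0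
    · exact hμ.trans hc0
    push Not at hμ
    have hvP : v = P *ᵥ (μ⁻¹ • (-((Z * P) *ᵥ v))) := by
      rw [Matrix.mulVec_smul, Matrix.mulVec_neg, Matrix.mulVec_mulVec]
      have : -((P * (Z * P)) *ᵥ v) = μ • v := by
        rw [← Matrix.neg_mulVec]; exact hWv
      rw [this, smul_smul, inv_mul_cancel₀ hμ.ne', one_smul]
    have hAv : A *ᵥ v = v := by
      conv_lhs => rw [hvP]
      rw [Matrix.mulVec_mulVec, hAP, ← hvP]
    have hvB : v ∈ VS B := by
      rw [← hAv]; exact avgS_mem_VS B v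
    have hvE : E *ᵥ v = v := by
      conv_lhs => rw [hvP]
      rw [Matrix.mulVec_mulVec, hEP, ← hvP]
    have h5 := hWact v hvB hvE
    rw [hWv] at h5
    have h6 : Z *ᵥ v = (-μ) • v := by
      rw [neg_smul, h5, neg_neg]
    have h7 := eigen_le (bdd_of_level hvB hvE) hv h6
    rw [abs_neg] at h7
    exact (le_abs_self μ).trans h7
  have hq := quad_le_of_eigen W hWt c heig u
  rw [hWact u hB hE, neg_dotProduct] at hq
  -- compute `(Z u) ⋅ u`
  have hZu : (Z *ᵥ u) ⬝ᵥ u = n1 B * ∑ a ∈ B, (avgS (B.erase a) *ᵥ u) ⬝ᵥ (avgS (B.erase a) *ᵥ u)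
      - n1 B * ((B.card - j : ℕ) : ℝ) * (u ⬝ᵥ u) := by
    rw [hZ]
    unfold Zmat
    rw [Matrix.sub_mulVec, Matrix.smul_mulVec, Matrix.smul_mulVec, Matrix.one_mulVec,
      Matrix.sum_mulVec, sub_dotProduct, smul_dotProduct, smul_dotProduct, sum_dotProduct]
    simp only [smul_eq_mul]
    congr 2
    refine Finset.sum_congr rfl fun a _ => ?_
    rw [avgS_nsq]
  rw [hZu] at hq
  have hcval : c = (j : ℝ) * ((B.card - j : ℕ) : ℝ) := by
    rw [hc]; push_cast; ring
  rw [hcval] at hq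
  nlinarith

/-- Double counting of the removal sets. -/
lemma double_count (B : Finset Ω) (R : ℕ) (F : Finset Ω → ℝ) :
    ∑ a ∈ B, ∑ E ∈ powersetCard R (B.erase a), F (insert a E)
      = ((R : ℝ) + 1) * ∑ E' ∈ powersetCard (R + 1) B, F E' := by
  have h1 : ((R : ℝ) + 1) * ∑ E' ∈ powersetCard (R + 1) B, F E'
      = ∑ E' ∈ powersetCard (R + 1) B, ∑ _a ∈ E', F E' := by
    rw [Finset.mul_sum]
    refine Finset.sum_congr rfl fun E' hE' => ?_
    rw [Finset.sum_const, (mem_powersetCard.mp hE').2, nsmul_eq_mul]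
    push_cast
    rfl
  rw [h1]
  have h2 : ∑ E' ∈ powersetCard (R + 1) B, ∑ _a ∈ E', F E'
      = ∑ a ∈ B, ∑ E' ∈ (powersetCard (R + 1) B).filter (fun E' => a ∈ E'), F E' := by
    apply Finset.sum_comm'
    intro E' a
    simp only [mem_filter, mem_powersetCard]
    constructor
    · rintro ⟨⟨h3, h4⟩, h5⟩
      exact ⟨⟨⟨h3, h4⟩, h5⟩, h3 h5⟩
    · rintro ⟨⟨⟨h3, h4⟩, h5⟩, _⟩
      exact ⟨⟨h3, h4⟩, h5⟩
  rw [h2]
  refine Finset.sum_congr rfl fun a ha => ?_
  refine Finset.sum_bij' (fun E _ => insert a E) (fun E' _ => E'.erase a) ?_ ?_ ?_ ?_ ?_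
  · intro E hE
    rw [mem_powersetCard] at hE
    have haE : a ∉ E := fun h => by
      have := hE.1 h
      simp at this
    simp only [mem_filter, mem_powersetCard, mem_insert_self, and_true]
    constructor
    · intro x hx
      rw [mem_insert] at hx
      rcases hx with rfl | hx
      · exact ha
      · exact Finset.mem_of_mem_erase (hE.1 hx)
    · rw [Finset.card_insert_of_notMem haE, hE.2]
  · intro E' hE'
    rw [mem_filter, mem_powersetCard] at hE'
    rw [mem_powersetCard]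
    constructor
    · exact Finset.erase_subset_erase a hE'.1.1
    · rw [Finset.card_erase_of_mem hE'.2, hE'.1.2]
      rfl
  · intro E hE
    rw [mem_powersetCard] at hE
    apply Finset.erase_insert
    intro h
    have := hE.1 h
    simp at this
  · intro E' hE'
    exact Finset.insert_erase (mem_filter.mp hE').2
  · intro _ _; rfl

/-- **Level exactness.** -/
theorem level_exact (j R : ℕ) : ∀ (B : Finset Ω) (u : Equiv.Perm Ω → ℝ), u ∈ VS B →
    levelE j *ᵥ u = u → ∀ κ : ℝ, 0 ≤ κ → κ * n1 B ≤ n1 B - j →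
    (((B.card - j).choose R : ℕ) : ℝ) * κ ^ R * (u ⬝ᵥ u)
      ≤ ∑ E ∈ powersetCard R B, (avgS (B \ E) *ᵥ u) ⬝ᵥ (avgS (B \ E) *ᵥ u) := by
  induction R with
  | zero =>
    intro B u hB _ κ _ _
    simp [avgS_fix B u hB]
  | succ R ih =>
    intro B u hB hE κ hκ0 hκ
    have hn1 : 0 < n1 B := by
      unfold n1
      have : (B.card : ℝ) ≤ Fintype.card Ω := by exact_mod_cast Finset.card_le_univ B
      linarith
    have hj0 : (0 : ℝ) ≤ j := by positivity
    have hκ1 : κ ≤ 1 := by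
      have : κ * n1 B ≤ 1 * n1 B := by linarith
      exact le_of_mul_le_mul_right this hn1
    set C := (((B.card - 1 - j).choose R : ℕ) : ℝ) with hC
    have hC0 : 0 ≤ C := by rw [hC]; positivity
    -- the induction hypothesis for each `a ∈ B`
    have hstep : ∀ a ∈ B, C * κ ^ R *
        ((avgS (B.erase a) *ᵥ u) ⬝ᵥ (avgS (B.erase a) *ᵥ u))
        ≤ ∑ E ∈ powersetCard R (B.erase a),
            (avgS (B \ insert a E) *ᵥ u) ⬝ᵥ (avgS (B \ insert a E) *ᵥ u) := by
      intro a ha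
      have hcard : (B.erase a).card = B.card - 1 := Finset.card_erase_of_mem ha
      have hb1 : 1 ≤ B.card := Finset.card_pos.mpr ⟨a, ha⟩
      have hn1' : n1 (B.erase a) = n1 B + 1 := by
        unfold n1
        rw [hcard, Nat.cast_sub hb1]
        push_cast
        ring
      have h1 := ih (B.erase a) (avgS (B.erase a) *ᵥ u) (avgS_mem_VS _ u)
        (by rw [levelE_avgS_comm, hE]) κ hκ0 (by rw [hn1']; linarith)
      rw [hcard] at h1
      refine h1.trans (le_of_eq ?_)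
      refine Finset.sum_congr rfl fun E hE' => ?_
      have hset : B \ insert a E = (B.erase a) \ E := by
        rw [Finset.sdiff_insert, Finset.erase_sdiff_comm]
      rw [hset, Matrix.mulVec_mulVec, avgS_mul_of_subset' (Finset.sdiff_subset)]
    have hsum := Finset.sum_le_sum hstep
    rw [← Finset.mul_sum, double_count B R
      (fun E' => (avgS (B \ E') *ᵥ u) ⬝ᵥ (avgS (B \ E') *ᵥ u))] at hsum
    -- one removal
    have hone := one_removal hB hE
    have hu0 : 0 ≤ u ⬝ᵥ u := nsq_nonneg u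
    set r : ℝ := ((B.card - j : ℕ) : ℝ) with hr
    have hr0 : 0 ≤ r := by rw [hr]; positivity
    set S1 := ∑ a ∈ B, (avgS (B.erase a) *ᵥ u) ⬝ᵥ (avgS (B.erase a) *ᵥ u) with hS1
    have hone' : r * κ * (u ⬝ᵥ u) ≤ S1 := by
      have h2 : r * κ * (u ⬝ᵥ u) * n1 B ≤ S1 * n1 B := by
        have h3 : r * (κ * n1 B) * (u ⬝ᵥ u) ≤ r * (n1 B - j) * (u ⬝ᵥ u) := by
          apply mul_le_mul_of_nonneg_right _ hu0
          exact mul_le_mul_of_nonneg_left hκ hr0
        nlinarith
      exact le_of_mul_le_mul_right h2 hn1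
    -- the binomial identity
    have hbin : ((R : ℝ) + 1) * (((B.card - j).choose (R + 1) : ℕ) : ℝ) = r * C := by
      rw [hr, hC]
      rcases Nat.eq_zero_or_pos (B.card - j) with h0 | h0
      · have h3 : B.card - 1 - j = 0 := by omega
        rw [h0, h3]
        simp
      · obtain ⟨n, hn⟩ : ∃ n, B.card - j = n + 1 := ⟨B.card - j - 1, by omega⟩
        have h3 : B.card - 1 - j = n := by omega
        rw [hn, h3]
        have := Nat.add_one_mul_choose_eq n R
        have h4 : ((n + 1) * n.choose R : ℕ) = (n + 1).choose (R + 1) * (R + 1) := this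
        have h5 : (((n + 1) * n.choose R : ℕ) : ℝ) = (((n + 1).choose (R + 1) * (R + 1) : ℕ) : ℝ) := by
          rw [h4]
        push_cast at h5 ⊢
        linarith
    have hRpos : (0 : ℝ) < (R : ℝ) + 1 := by positivity
    have hgoal : ((R : ℝ) + 1) * ((((B.card - j).choose (R + 1) : ℕ) : ℝ) * κ ^ (R + 1) * (u ⬝ᵥ u))
        ≤ ((R : ℝ) + 1) * ∑ E ∈ powersetCard (R + 1) B,
            (avgS (B \ E) *ᵥ u) ⬝ᵥ (avgS (B \ E) *ᵥ u) := by
      refine le_trans ?_ hsum
      calc ((R : ℝ) + 1) * ((((B.card - j).choose (R + 1) : ℕ) : ℝ) * κ ^ (R + 1) * (u ⬝ᵥ u))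
          = (((R : ℝ) + 1) * (((B.card - j).choose (R + 1) : ℕ) : ℝ)) * κ ^ (R + 1) * (u ⬝ᵥ u) := by ring
        _ = C * κ ^ R * (r * κ * (u ⬝ᵥ u)) := by rw [hbin, pow_succ]; ring
        _ ≤ C * κ ^ R * S1 := by
            apply mul_le_mul_of_nonneg_left hone' (by positivity)
    exact le_of_mul_le_mul_left hgoal hRpos

end Crest.Agent.Lib.Thorp.LevelExact
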