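/-
Thorp (row 155, S0222), module M2: the law of the removal number.
`Xi E v x = ∑_{z ≡ x off E} (∏_{a∈E} sign z_a) v z`.
For `v` supported on injective tuples of `Bool × Y` and invariant under the site coins:
`∑_{|E|=R} ∑_x (Xi E v x)^2 ≤ (4 m (s + k))^R ∑_x (v x)^2` whenever `s^2 ≥ k m`.
-/
import Mathlib

set_option autoImplicit false
set_option linter.unusedSectionVars false

namespace Crest.Agent.Lib.Thorp.PairMoments

open Finset

section Fib

variable {A β : Type*} [Fintype A] [DecidableEq A] [Fintype β] [DecidableEq β]

/-- Tuples agreeing with `y` off `E`. -/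
def fib (E : Finset A) (y : A → β) : Finset (A → β) :=
  univ.filter (fun z => ∀ a, a ∉ E → z a = y a)

lemma mem_fib {E : Finset A} {y z : A → β} : z ∈ fib E y ↔ ∀ a, a ∉ E → z a = y a := by
  simp [fib]

lemma self_mem_fib (E : Finset A) (y : A → β) : y ∈ fib E y := by
  simp [mem_fib]

lemma mem_fib_comm {E : Finset A} {y z : A → β} : z ∈ fib E y ↔ y ∈ fib E z := by
  simp only [mem_fib]
  exact forall_congr' fun a => imp_congr_right fun _ => eq_comm

lemma fib_eq_of_mem {E : Finset A} {y z : A → β} (h : z ∈ fib E y) : fib E z = fib E y := by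
  ext w
  simp only [mem_fib] at h ⊢
  constructor
  · intro hw a ha; rw [hw a ha, h a ha]
  · intro hw a ha; rw [hw a ha, h a ha]

lemma card_fib (E : Finset A) (y : A → β) :
    (fib E y).card = Fintype.card β ^ E.card := by
  classical
  have : fib E y = Fintype.piFinset (fun a => if a ∈ E then (univ : Finset β) else {y a}) := by
    ext z
    simp only [mem_fib, Fintype.mem_piFinset]
    constructor
    · intro h a
      by_cases ha : a ∈ E
      · simp [ha]
      · simp [ha, h a ha]
    · intro h a ha
      have := h a
      simpa [ha] using this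
  rw [this, Fintype.card_piFinset]
  have h2 : ∀ a, (if a ∈ E then (univ : Finset β) else {y a}).card
      = if a ∈ E then Fintype.card β else 1 := by
    intro a
    by_cases ha : a ∈ E <;> simp [ha]
  simp_rw [h2]
  rw [Finset.prod_ite]
  simp only [Finset.prod_const, Finset.filter_mem_eq_inter, Finset.univ_inter, one_pow, mul_one]

/-- The fibre over a larger set splits along one coordinate. -/
lemma sum_fib_insert {R : Type*} [AddCommMonoid R] {E : Finset A} {a : A} (ha : a ∉ E)
    (y : A → β) (f : (A → β) → R) :
    ∑ z ∈ fib (insert a E) y, f z = ∑ p : β, ∑ z ∈ fib E (Function.update y a p), f z := by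
  classical
  rw [← Finset.sum_biUnion]
  · apply Finset.sum_congr _ (fun _ _ => rfl)
    ext z
    simp only [mem_fib, mem_biUnion, mem_univ, true_and, mem_insert, not_or]
    constructor
    · intro h
      refine ⟨z a, ?_⟩
      intro b hb
      by_cases hba : b = a
      · subst hba
        simp
      · rw [Function.update_of_ne hba]
        exact h b ⟨hba, hb⟩
    · rintro ⟨p, hp⟩ b ⟨hb1, hb2⟩
      have := hp b hb2
      rwa [Function.update_of_ne hb1] at this
  · intro p _ q _ hpq
    rw [Function.onFun, Finset.disjoint_left]
    intro z hz hz'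
    rw [mem_fib] at hz hz'
    apply hpq
    have h1 := hz a ha
    have h2 := hz' a ha
    simp only [Function.update_self] at h1 h2
    rw [← h1, h2]

end Fib

section Count

variable {A Y : Type*} [Fintype A] [DecidableEq A] [Fintype Y] [DecidableEq Y]

/-- Number of cards of `W` at the site `p`. -/
def occ (W : Finset A) (y : A → Y) (p : Y) : ℕ := (W.filter (fun b => y b = p)).card

/-- Every site carries `0` or `2` cards of `U`. -/
def Pat (U : Finset A) (y : A → Y) : Prop := ∀ p, occ U y p = 0 ∨ occ U y p = 2

instance (U : Finset A) : DecidablePred (Pat (Y := Y) U) := by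
  intro y; unfold Pat; infer_instance

/-- The sites carrying exactly one card of `W`. -/
def sing (W : Finset A) (y : A → Y) : Finset Y := univ.filter (fun p => occ W y p = 1)

/-- The counting recursion. -/
def cnt (m : ℕ) : ℕ → ℕ → ℕ
  | 0, i => if i = 0 then 1 else 0
  | 1, i => i * (if i - 1 = 0 then 1 else 0)
  | r + 2, i => i * cnt m (r + 1) (i - 1) + (r + 1) * m * cnt m r i

lemma cnt_one (m i : ℕ) : cnt m 1 i = i * cnt m 0 (i - 1) := by
  simp [cnt]

lemma cnt_add_two (m r i : ℕ) :
    cnt m (r + 2) i = i * cnt m (r + 1) (i - 1) + (r + 1) * m * cnt m r i := by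
  simp [cnt]

lemma cnt_zero_of_lt (m : ℕ) : ∀ r i, r < i → cnt m r i = 0 := by
  intro r
  induction r using Nat.strong_induction_on with
  | _ r ih =>
    intro i hri
    match r, ih, hri with
    | 0, _, hri => simp [cnt]; omega
    | 1, _, hri =>
      have : i - 1 ≠ 0 := by omega
      simp [cnt, this]
    | r + 2, ih, hri =>
      rw [cnt_add_two, ih (r + 1) (by omega) (i - 1) (by omega), ih r (by omega) i (by omega)]
      simp

lemma cnt_formula (m : ℕ) : ∀ R p i, R = 2 * p + i →
    cnt m R i * (2 ^ p * p.factorial) = R.factorial * m ^ p := by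
  intro R
  induction R using Nat.strong_induction_on with
  | _ R ih =>
    intro p i hR
    match R, ih, hR with
    | 0, _, hR =>
      have hp : p = 0 := by omega
      have hi : i = 0 := by omega
      subst hp hi
      simp [cnt]
    | 1, _, hR =>
      have hp : p = 0 := by omega
      have hi : i = 1 := by omega
      subst hp hi
      simp [cnt]
    | r + 2, ih, hR =>
      rw [cnt_add_two]
      have hfac : (r + 2).factorial = (r + 2) * ((r + 1) * r.factorial) := by
        rw [Nat.factorial_succ, Nat.factorial_succ]
      have hfac1 : (r + 1).factorial = (r + 1) * r.factorial := Nat.factorial_succ r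
      -- first term
      have h1 : i * cnt m (r + 1) (i - 1) * (2 ^ p * p.factorial)
          = i * ((r + 1) * r.factorial * m ^ p) := by
        rcases Nat.eq_zero_or_pos i with hi | hi
        · subst hi; simp
        · have := ih (r + 1) (by omega) p (i - 1) (by omega)
          rw [hfac1] at this
          rw [mul_assoc, this]
      -- second term
      have h2 : (r + 1) * m * cnt m r i * (2 ^ p * p.factorial)
          = (r + 1) * (2 * p * (r.factorial * m ^ p)) := by
        rcases Nat.eq_zero_or_pos p with hp | hp
        · subst hp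
          have hz : cnt m r i = 0 := cnt_zero_of_lt m r i (by omega)
          simp [hz]
        · obtain ⟨q, rfl⟩ : ∃ q, p = q + 1 := ⟨p - 1, by omega⟩
          have := ih r (by omega) q i (by omega)
          rw [Nat.factorial_succ, pow_succ, pow_succ]
          calc (r + 1) * m * cnt m r i * (2 ^ q * 2 * ((q + 1) * q.factorial))
              = (r + 1) * m * (2 * (q + 1)) * (cnt m r i * (2 ^ q * q.factorial)) := by ring
            _ = (r + 1) * m * (2 * (q + 1)) * (r.factorial * m ^ q) := by rw [this]
            _ = (r + 1) * (2 * (q + 1) * (r.factorial * (m ^ q * m))) := by ring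
      rw [add_mul, h1, h2, hfac]
      have hsum : r + 2 = 2 * p + i := hR
      calc i * ((r + 1) * r.factorial * m ^ p) + (r + 1) * (2 * p * (r.factorial * m ^ p))
          = (2 * p + i) * ((r + 1) * r.factorial) * m ^ p := by ring
        _ = (r + 2) * ((r + 1) * r.factorial) * m ^ p := by rw [hsum]

lemma occ_insert_update {W : Finset A} {a : A} (ha : a ∉ W) (y : A → Y) (p q : Y) :
    occ (insert a W) (Function.update y a p) q = occ W y q + if p = q then 1 else 0 := by
  unfold occ
  rw [Finset.filter_insert]
  have h1 : W.filter (fun b => Function.update y a p b = q) = W.filter (fun b => y b = q) := by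
    apply Finset.filter_congr
    intro b hb
    have : b ≠ a := fun e => ha (e ▸ hb)
    rw [Function.update_of_ne this]
  simp only [Function.update_self]
  by_cases hpq : p = q
  · rw [if_pos hpq, if_pos hpq, h1, Finset.card_insert_of_notMem]
    simp [ha]
  · rw [if_neg hpq, if_neg hpq, h1]
    simp

/-- The completions of `y` off `E` with all sites of `E ∪ W` carrying `0` or `2` cards. -/
noncomputable def comps (E W : Finset A) (y : A → Y) : Finset (A → Y) :=
  (fib E y).filter (Pat (E ∪ W))

lemma mem_comps {E W : Finset A} {y z : A → Y} :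
    z ∈ comps E W y ↔ (∀ a, a ∉ E → z a = y a) ∧ Pat (E ∪ W) z := by
  simp [comps, mem_fib]

lemma occ_congr {W : Finset A} {y z : A → Y} (h : ∀ a ∈ W, z a = y a) (p : Y) :
    occ W z p = occ W y p := by
  unfold occ
  congr 1
  apply Finset.filter_congr
  intro b hb
  rw [h b hb]

theorem card_comps_le : ∀ (n : ℕ) (E W : Finset A) (y : A → Y), E.card = n → Disjoint E W →
    (comps E W y).card ≤ cnt (Fintype.card Y) n (sing W y).card := by
  intro n
  induction n using Nat.strong_induction_on with
  | _ n ih =>
    intro E W y hE hdisj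
    rcases E.eq_empty_or_nonempty with rfl | ⟨a, haE⟩
    · -- empty case
      have hn : n = 0 := by simpa using hE.symm
      subst hn
      by_cases hi : (sing W y).card = 0
      · rw [hi]
        simp only [cnt, if_true]
        have : comps ∅ W y ⊆ {y} := by
          intro z hz
          rw [mem_comps] at hz
          simp only [notMem_empty, not_false_eq_true, forall_const] at hz
          rw [mem_singleton]
          funext a
          exact hz.1 a
        simpa using Finset.card_le_card this
      · have hempty : comps ∅ W y = ∅ := by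
          rw [Finset.eq_empty_iff_forall_notMem]
          intro z hz
          rw [mem_comps] at hz
          obtain ⟨p, hp⟩ := Finset.card_pos.mp (Nat.pos_of_ne_zero hi)
          simp only [sing, mem_filter, mem_univ, true_and] at hp
          have h1 := hz.2 p
          rw [empty_union] at h1
          have h2 : occ W z p = occ W y p := occ_congr (fun a _ => hz.1 a (by simp)) p
          rw [h2, hp] at h1
          omega
        rw [hempty]; simp
    · -- pick `a ∈ E`
      have haW : a ∉ W := fun h => (Finset.disjoint_left.mp hdisj haE) h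
      set E' := E.erase a with hE'
      set m := Fintype.card Y with hm
      set i := (sing W y).card with hi
      have hE'card : E'.card + 1 = n := by
        rw [hE', Finset.card_erase_of_mem haE, ← hE]
        have := Finset.card_pos.mpr ⟨a, haE⟩
        omega
      have hunion : E' ∪ insert a W = E ∪ W := by
        ext c
        simp only [hE', mem_union, mem_erase, mem_insert]
        by_cases hc : c = a
        · subst hc; simp [haE]
        · simp [hc]
      have hd1 : Disjoint E' (insert a W) := by
        rw [Finset.disjoint_left]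
        intro c hc hc'
        rw [hE', mem_erase] at hc
        rw [mem_insert] at hc'
        rcases hc' with h | h
        · exact hc.1 h
        · exact (Finset.disjoint_left.mp hdisj hc.2) h
      -- the two kinds of completions
      set first := (sing W y).biUnion (fun p => comps E' (insert a W) (Function.update y a p))
        with hfirst
      set second := E'.biUnion (fun b => (univ.filter (fun p => occ W y p = 0)).biUnion
        (fun p => comps (E'.erase b) (insert b (insert a W))
          (Function.update (Function.update y a p) b p))) with hsecond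
      have hsub : comps E W y ⊆ first ∪ second := by
        intro z hz
        rw [mem_comps] at hz
        obtain ⟨hzy, hzP⟩ := hz
        have hzW : ∀ c ∈ W, z c = y c := fun c hc =>
          hzy c (fun h => (Finset.disjoint_left.mp hdisj h) hc)
        set p := z a with hp
        have hmemself : a ∈ (E ∪ W).filter (fun b => z b = p) := by
          simp [haE, hp]
        have hocc : occ (E ∪ W) z p = 2 := by
          rcases hzP p with h | h
          · exfalso
            have : ((E ∪ W).filter (fun b => z b = p)).card = 0 := h
            rw [Finset.card_eq_zero] at this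
            rw [this] at hmemself
            simp at hmemself
          · exact h
        obtain ⟨b1, b2, hb12, hset⟩ := Finset.card_eq_two.mp hocc
        obtain ⟨b, hb, hba, hzb, hset2⟩ : ∃ b, b ∈ E ∪ W ∧ b ≠ a ∧ z b = p ∧
            ((E ∪ W).filter (fun c => z c = p)) = {a, b} := by
          have hb1 : b1 ∈ (E ∪ W).filter (fun c => z c = p) := by rw [hset]; simp
          have hb2 : b2 ∈ (E ∪ W).filter (fun c => z c = p) := by rw [hset]; simp
          rw [hset] at hmemself
          rw [mem_insert, mem_singleton] at hmemself
          rcases hmemself with h | h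
          · subst h
            refine ⟨b2, (mem_filter.mp hb2).1, hb12.symm, (mem_filter.mp hb2).2, hset⟩
          · subst h
            refine ⟨b1, (mem_filter.mp hb1).1, hb12, (mem_filter.mp hb1).2, ?_⟩
            rw [hset, Finset.pair_comm]
        rw [mem_union] at hb
        rw [mem_union]
        rcases hb with hbE | hbW
        · -- `b ∈ E`
          right
          have hbE' : b ∈ E' := by rw [hE', mem_erase]; exact ⟨hba, hbE⟩
          have hocc0 : occ W y p = 0 := by
            rw [← occ_congr hzW p]
            unfold occ
            rw [Finset.card_eq_zero, Finset.eq_empty_iff_forall_notMem]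
            intro c hc
            rw [mem_filter] at hc
            have : c ∈ (E ∪ W).filter (fun c => z c = p) := by
              rw [mem_filter, mem_union]
              exact ⟨Or.inr hc.1, hc.2⟩
            rw [hset2, mem_insert, mem_singleton] at this
            rcases this with h | h
            · subst h; exact haW hc.1
            · subst h; exact (Finset.disjoint_left.mp hdisj hbE) hc.1
          rw [hsecond, mem_biUnion]
          refine ⟨b, hbE', ?_⟩
          rw [mem_biUnion]
          refine ⟨p, by simp [hocc0], ?_⟩
          rw [mem_comps]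
          constructor
          · intro c hc
            by_cases hcb : c = b
            · subst hcb; simp [hzb]
            · rw [Function.update_of_ne hcb]
              by_cases hca : c = a
              · subst hca; simp [hp]
              · rw [Function.update_of_ne hca]
                apply hzy
                intro hcE
                apply hc
                rw [mem_erase, hE', mem_erase]
                exact ⟨hcb, hca, hcE⟩
          · have : E'.erase b ∪ insert b (insert a W) = E ∪ W := by
              rw [← hunion]
              ext c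
              simp only [mem_union, mem_erase, mem_insert]
              by_cases hc : c = b
              · subst hc; simp [hbE']
              · simp [hc]
            rw [this]
            exact hzP
        · -- `b ∈ W`
          left
          have hocc1 : occ W y p = 1 := by
            rw [← occ_congr hzW p]
            unfold occ
            have : W.filter (fun c => z c = p) = {b} := by
              ext c
              rw [mem_filter, mem_singleton]
              constructor
              · rintro ⟨hc1, hc2⟩
                have : c ∈ (E ∪ W).filter (fun c => z c = p) := by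
                  rw [mem_filter, mem_union]
                  exact ⟨Or.inr hc1, hc2⟩
                rw [hset2, mem_insert, mem_singleton] at this
                rcases this with h | h
                · subst h; exact absurd hc1 haW
                · exact h
              · rintro rfl
                exact ⟨hbW, hzb⟩
            rw [this]; simp
          rw [hfirst, mem_biUnion]
          refine ⟨p, by simp [sing, hocc1], ?_⟩
          rw [mem_comps]
          constructor
          · intro c hc
            by_cases hca : c = a
            · subst hca; simp [hp]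
            · rw [Function.update_of_ne hca]
              apply hzy
              intro hcE
              apply hc
              rw [hE', mem_erase]
              exact ⟨hca, hcE⟩
          · rw [hunion]
            exact hzP
      -- counting the first kind
      have hsing1 : ∀ p ∈ sing W y, (sing (insert a W) (Function.update y a p)).card = i - 1 := by
        intro p hp
        have : sing (insert a W) (Function.update y a p) = (sing W y).erase p := by
          ext q
          simp only [sing, mem_filter, mem_univ, true_and, mem_erase]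
          rw [occ_insert_update haW]
          by_cases hpq : p = q
          · subst hpq
            simp only [if_true, ne_eq, not_true_eq_false, false_and, iff_false]
            simp only [sing, mem_filter, mem_univ, true_and] at hp
            omega
          · rw [if_neg hpq]
            simp [Ne.symm hpq]
        rw [this, Finset.card_erase_of_mem hp]
      have hfirstcard : first.card ≤ i * cnt m (n - 1) (i - 1) := by
        calc first.card ≤ ∑ p ∈ sing W y, (comps E' (insert a W) (Function.update y a p)).card :=
              Finset.card_biUnion_le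
          _ ≤ ∑ p ∈ sing W y, cnt m (n - 1) (i - 1) := by
              refine Finset.sum_le_sum fun p hp => ?_
              have := ih (n - 1) (by omega) E' (insert a W) (Function.update y a p)
                (by omega) hd1
              rwa [hsing1 p hp] at this
          _ = i * cnt m (n - 1) (i - 1) := by simp [hi]
      -- counting the second kind
      have hsing2 : ∀ b ∈ E', ∀ p, occ W y p = 0 →
          (sing (insert b (insert a W)) (Function.update (Function.update y a p) b p)).card = i := by
        intro b hb p hp
        have hbW : b ∉ insert a W := by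
          intro h
          exact (Finset.disjoint_left.mp hd1 hb) h
        have : sing (insert b (insert a W)) (Function.update (Function.update y a p) b p)
            = sing W y := by
          ext q
          simp only [sing, mem_filter, mem_univ, true_and]
          rw [occ_insert_update hbW, occ_insert_update haW]
          by_cases hpq : p = q
          · subst hpq
            simp [hp]
          · simp [hpq]
        rw [this]
      have hsecondcard : second.card ≤ (n - 1) * m * cnt m (n - 2) i := by
        have hcardp : (univ.filter (fun p => occ W y p = 0)).card ≤ m := by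
          rw [hm]; exact Finset.card_le_univ _
        calc second.card ≤ ∑ b ∈ E', ((univ.filter (fun p => occ W y p = 0)).biUnion
              (fun p => comps (E'.erase b) (insert b (insert a W))
                (Function.update (Function.update y a p) b p))).card := Finset.card_biUnion_le
          _ ≤ ∑ b ∈ E', m * cnt m (n - 2) i := by
              refine Finset.sum_le_sum fun b hb => ?_
              calc _ ≤ ∑ p ∈ univ.filter (fun p => occ W y p = 0),
                    (comps (E'.erase b) (insert b (insert a W))
                      (Function.update (Function.update y a p) b p)).card := Finset.card_biUnion_le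
                _ ≤ ∑ p ∈ univ.filter (fun p => occ W y p = 0), cnt m (n - 2) i := by
                    refine Finset.sum_le_sum fun p hp => ?_
                    rw [mem_filter] at hp
                    have hcb : (E'.erase b).card + 1 = E'.card := by
                      rw [Finset.card_erase_of_mem hb]
                      have := Finset.card_pos.mpr ⟨b, hb⟩
                      omega
                    have hd2 : Disjoint (E'.erase b) (insert b (insert a W)) := by
                      rw [Finset.disjoint_left]
                      intro c hc hc'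
                      rw [mem_erase] at hc
                      rw [mem_insert] at hc'
                      rcases hc' with h | h
                      · exact hc.1 h
                      · exact (Finset.disjoint_left.mp hd1 hc.2) h
                    have := ih (n - 2) (by omega) (E'.erase b) (insert b (insert a W))
                      (Function.update (Function.update y a p) b p) (by omega) hd2
                    rwa [hsing2 b hb p hp.2] at this
                _ = _ := by simp
                _ ≤ m * cnt m (n - 2) i := Nat.mul_le_mul_right _ hcardp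
          _ = (n - 1) * m * cnt m (n - 2) i := by
              rw [Finset.sum_const, smul_eq_mul, mul_assoc]
              congr 1
              omega
      calc (comps E W y).card ≤ (first ∪ second).card := Finset.card_le_card hsub
        _ ≤ first.card + second.card := Finset.card_union_le _ _
        _ ≤ i * cnt m (n - 1) (i - 1) + (n - 1) * m * cnt m (n - 2) i :=
            Nat.add_le_add hfirstcard hsecondcard
        _ = cnt m n i := by
            obtain ⟨r, rfl⟩ : ∃ r, n = r + 1 := ⟨n - 1, by omega⟩
            rcases r with _ | r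
            · -- n = 1: `E'` is empty
              have : E' = ∅ := by
                rw [← Finset.card_eq_zero]; omega
              rw [cnt_one]
              have h0 : (0 + 1 - 1) = 0 := rfl
              simp
            · rw [show r + 1 + 1 = r + 2 from rfl, cnt_add_two]
              simp

end Count

section Numeric

/-- The numeric inequality behind the closed form. -/
lemma numeric_term (u m p i R : ℕ) (hR : R = 2 * p + i) (s : ℝ) (hs0 : 0 ≤ s)
    (hs : ((2 * u : ℕ) : ℝ) * m ≤ s ^ 2) :
    ((u.choose p : ℕ) : ℝ) * ((2 * u).choose i : ℕ) * (cnt m R i : ℕ)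
      ≤ (R.choose i : ℕ) * s ^ (R - i) * ((2 * u : ℕ) : ℝ) ^ i := by
  have hRi : R - i = 2 * p := by omega
  rw [hRi]
  have h1 : ((u.choose p : ℕ) : ℝ) * (p.factorial : ℝ) ≤ (u : ℝ) ^ p := by
    have := Nat.choose_le_pow_div (α := ℝ) p u
    have hp : (0 : ℝ) < p.factorial := by exact_mod_cast p.factorial_pos
    rwa [le_div_iff₀ hp] at this
  have h2 : (((2 * u).choose i : ℕ) : ℝ) * (i.factorial : ℝ) ≤ ((2 * u : ℕ) : ℝ) ^ i := by
    have := Nat.choose_le_pow_div (α := ℝ) i (2 * u)
    have hp : (0 : ℝ) < i.factorial := by exact_mod_cast i.factorial_pos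
    rwa [le_div_iff₀ hp] at this
  have h3 : ((cnt m R i : ℕ) : ℝ) * (2 ^ p * (p.factorial : ℝ)) = (R.factorial : ℝ) * (m : ℝ) ^ p := by
    exact_mod_cast cnt_formula m R p i hR
  have h4 : (R.factorial : ℝ) ≤ (R.choose i : ℕ) * i.factorial * (4 ^ p * (p.factorial * p.factorial)) := by
    have h5 : R.choose i * i.factorial * (2 * p).factorial = R.factorial := by
      have := Nat.choose_mul_factorial_mul_factorial (n := R) (k := i) (by omega)
      rwa [hRi] at this
    have h6 : (2 * p).choose p * p.factorial * p.factorial = (2 * p).factorial := by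
      have := Nat.choose_mul_factorial_mul_factorial (n := 2 * p) (k := p) (by omega)
      rwa [show 2 * p - p = p by omega] at this
    have h7 : (2 * p).choose p ≤ 4 ^ p := by
      calc (2 * p).choose p ≤ 2 ^ (2 * p) := Nat.choose_le_two_pow _ _
        _ = 4 ^ p := by rw [pow_mul]; norm_num
    have h8 : R.factorial ≤ R.choose i * i.factorial * (4 ^ p * (p.factorial * p.factorial)) := by
      rw [← h5, ← h6]
      apply Nat.mul_le_mul_left
      calc (2 * p).choose p * p.factorial * p.factorial
          = (2 * p).choose p * (p.factorial * p.factorial) := by ring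
        _ ≤ 4 ^ p * (p.factorial * p.factorial) := Nat.mul_le_mul_right _ h7
    exact_mod_cast h8
  have hpf : (0 : ℝ) < p.factorial := by exact_mod_cast p.factorial_pos
  have hif : (0 : ℝ) < i.factorial := by exact_mod_cast i.factorial_pos
  have h2p : (0 : ℝ) < 2 ^ p := by positivity
  set A1 : ℝ := ((u.choose p : ℕ) : ℝ) with hA1
  set A2 : ℝ := (((2 * u).choose i : ℕ) : ℝ) with hA2
  set C0 : ℝ := ((cnt m R i : ℕ) : ℝ) with hC0
  set CR : ℝ := ((R.choose i : ℕ) : ℝ) with hCR
  set pf : ℝ := (p.factorial : ℝ) with hpf'
  set if' : ℝ := (i.factorial : ℝ) with hif'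
  set U2 : ℝ := ((2 * u : ℕ) : ℝ) with hU2
  have hA1nn : 0 ≤ A1 := by positivity
  have hA2nn : 0 ≤ A2 := by positivity
  have hC0nn : 0 ≤ C0 := by positivity
  have hCRnn : 0 ≤ CR := by positivity
  have hu : (0 : ℝ) ≤ (u : ℝ) := by positivity
  have hm : (0 : ℝ) ≤ (m : ℝ) := by positivity
  have hU2nn : 0 ≤ U2 := by positivity
  have key : A1 * A2 * C0 * (pf * if' * 2 ^ p * pf)
      ≤ (CR * (U2 ^ i * (U2 * (m : ℝ)) ^ p)) * (pf * if' * 2 ^ p * pf) := by
    have e1 : A1 * A2 * C0 * (pf * if' * 2 ^ p * pf)
        = (A1 * pf) * (A2 * if') * (C0 * (2 ^ p * pf)) := by ring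
    rw [e1, h3]
    have e2 : (A1 * pf) * (A2 * if') * ((R.factorial : ℝ) * (m : ℝ) ^ p)
        ≤ (u : ℝ) ^ p * U2 ^ i * ((R.factorial : ℝ) * (m : ℝ) ^ p) := by
      apply mul_le_mul_of_nonneg_right _ (by positivity)
      exact mul_le_mul h1 h2 (by positivity) (by positivity)
    refine e2.trans ?_
    have e3 : (u : ℝ) ^ p * U2 ^ i * ((R.factorial : ℝ) * (m : ℝ) ^ p)
        ≤ (u : ℝ) ^ p * U2 ^ i * ((CR * if' * (4 ^ p * (pf * pf))) * (m : ℝ) ^ p) := by
      apply mul_le_mul_of_nonneg_left _ (by positivity)
      exact mul_le_mul_of_nonneg_right h4 (by positivity)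
    refine e3.trans (le_of_eq ?_)
    have hU : U2 = 2 * (u : ℝ) := by rw [hU2]; push_cast; ring
    rw [hU, mul_pow (2 * (u : ℝ)) (m : ℝ) p, mul_pow 2 (u : ℝ) p, show (4 : ℝ) ^ p = 2 ^ p * 2 ^ p by
      rw [← mul_pow]; norm_num]
    ring
  have hpos : 0 < pf * if' * 2 ^ p * pf := by positivity
  have key2 := le_of_mul_le_mul_right key hpos
  refine key2.trans ?_
  have : (U2 * (m : ℝ)) ^ p ≤ s ^ (2 * p) := by
    rw [pow_mul]
    exact pow_le_pow_left₀ (by positivity) hs p
  calc CR * (U2 ^ i * (U2 * (m : ℝ)) ^ p) ≤ CR * (U2 ^ i * s ^ (2 * p)) := by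
        apply mul_le_mul_of_nonneg_left _ hCRnn
        exact mul_le_mul_of_nonneg_left this (by positivity)
    _ = CR * s ^ (2 * p) * U2 ^ i := by ring

end Numeric

section SumE

variable {A Y : Type*} [Fintype A] [DecidableEq A] [Fintype Y] [DecidableEq Y]

lemma occ_eq_two_of_mem {U : Finset A} {z : A → Y} (hz : Pat U z) {p : Y} (hp : p ∈ U.image z) :
    occ U z p = 2 := by
  obtain ⟨a, ha, rfl⟩ := mem_image.mp hp
  rcases hz (z a) with h | h
  · exfalso
    unfold occ at h
    rw [card_eq_zero] at h
    have : a ∈ U.filter (fun b => z b = z a) := by simp [ha]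
    rw [h] at this
    simp at this
  · exact h

lemma card_pat_eq {U : Finset A} {z : A → Y} (hz : Pat U z) : U.card = 2 * (U.image z).card := by
  rw [Finset.card_eq_sum_card_image z U]
  have : ∀ p ∈ U.image z, (U.filter (fun a => z a = p)).card = 2 :=
    fun p hp => occ_eq_two_of_mem hz hp
  rw [Finset.sum_congr rfl this]
  simp [mul_comm]

lemma occ_split {U E : Finset A} (hE : E ⊆ U) (z : A → Y) (p : Y) :
    occ U z p = occ E z p + occ (U \ E) z p := by
  unfold occ
  rw [← Finset.card_union_of_disjoint]
  · congr 1
    rw [← Finset.filter_union, Finset.union_sdiff_of_subset hE]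
  · exact Finset.disjoint_filter_filter Finset.disjoint_sdiff

/-- The sites with both cards in `E`. -/
noncomputable def Psites (U E : Finset A) (z : A → Y) : Finset Y :=
  (U.image z).filter (fun p => occ (U \ E) z p = 0)

/-- The cards of `E` whose partner is not in `E`. -/
noncomputable def Tcards (U E : Finset A) (z : A → Y) : Finset A :=
  E.filter (fun a => z a ∈ sing (U \ E) z)

lemma sing_subset_image (U E : Finset A) (z : A → Y) : sing (U \ E) z ⊆ U.image z := by
  intro p hp
  simp only [sing, mem_filter, mem_univ, true_and] at hp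
  have : 0 < ((U \ E).filter (fun b => z b = p)).card := by
    unfold occ at hp; omega
  obtain ⟨a, ha⟩ := Finset.card_pos.mp this
  rw [mem_filter, mem_sdiff] at ha
  exact mem_image.mpr ⟨a, ha.1.1, ha.2⟩

lemma card_E_eq {U E : Finset A} {z : A → Y} (hz : Pat U z) (hE : E ⊆ U) :
    E.card = 2 * (Psites U E z).card + (sing (U \ E) z).card := by
  classical
  have h1 : E.card = ∑ p ∈ U.image z, occ E z p := by
    apply Finset.card_eq_sum_card_fiberwise
    intro a ha
    exact mem_image.mpr ⟨a, hE ha, rfl⟩
  have h2 : (Psites U E z).card = ∑ p ∈ U.image z, if occ (U \ E) z p = 0 then 1 else 0 := by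
    unfold Psites
    rw [Finset.card_filter]
  have h3 : (sing (U \ E) z).card = ∑ p ∈ U.image z, if occ (U \ E) z p = 1 then 1 else 0 := by
    have : sing (U \ E) z = (U.image z).filter (fun p => occ (U \ E) z p = 1) := by
      ext p
      simp only [mem_filter]
      constructor
      · intro hp
        refine ⟨sing_subset_image U E z hp, ?_⟩
        simpa [sing] using hp
      · rintro ⟨_, hp⟩
        simpa [sing] using hp
    rw [this, Finset.card_filter]
  rw [h1, h2, h3, Finset.mul_sum, ← Finset.sum_add_distrib]
  refine Finset.sum_congr rfl fun p hp => ?_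
  have h4 := occ_eq_two_of_mem hz hp
  have h5 := occ_split hE z p
  have h6 : occ E z p + occ (U \ E) z p = 2 := by omega
  by_cases h0 : occ (U \ E) z p = 0
  · rw [if_pos h0, if_neg (by omega)]; omega
  · rw [if_neg h0]
    by_cases h1 : occ (U \ E) z p = 1
    · rw [if_pos h1]; omega
    · rw [if_neg h1]; omega

lemma card_Tcards {U E : Finset A} {z : A → Y} (hz : Pat U z) (hE : E ⊆ U) :
    (Tcards U E z).card = (sing (U \ E) z).card := by
  classical
  have h1 : (Tcards U E z).card
      = ∑ p ∈ sing (U \ E) z, ((Tcards U E z).filter (fun a => z a = p)).card := by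
    apply Finset.card_eq_sum_card_fiberwise
    intro a ha
    exact (mem_filter.mp ha).2
  rw [h1]
  have : ∀ p ∈ sing (U \ E) z, ((Tcards U E z).filter (fun a => z a = p)).card = 1 := by
    intro p hp
    have h2 : (Tcards U E z).filter (fun a => z a = p) = E.filter (fun a => z a = p) := by
      ext a
      simp only [Tcards, mem_filter]
      constructor
      · rintro ⟨⟨h1, _⟩, h3⟩; exact ⟨h1, h3⟩
      · rintro ⟨h1, h3⟩; exact ⟨⟨h1, h3 ▸ hp⟩, h3⟩
    rw [h2]
    have h4 := occ_eq_two_of_mem hz (sing_subset_image U E z hp)
    have h5 := occ_split hE z p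
    simp only [sing, mem_filter, mem_univ, true_and] at hp
    have h6 : occ E z p = 1 := by omega
    exact h6
  rw [Finset.sum_congr rfl this]
  simp

lemma E_eq_of_code {U E E' : Finset A} {z : A → Y} (hz : Pat U z) (hE : E ⊆ U) (hE' : E' ⊆ U)
    (hP : Psites U E z = Psites U E' z) (hT : Tcards U E z = Tcards U E' z) : E = E' := by
  have key : ∀ {E : Finset A}, E ⊆ U → ∀ a, a ∈ E ↔ a ∈ Tcards U E z ∨ (a ∈ U ∧ z a ∈ Psites U E z) := by
    intro E hE a
    constructor
    · intro ha
      have h4 := occ_eq_two_of_mem hz (mem_image_of_mem z (hE ha))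
      have h5 := occ_split hE z (z a)
      have h6 : 0 < occ E z (z a) := by
        unfold occ
        exact Finset.card_pos.mpr ⟨a, by simp [ha]⟩
      by_cases h0 : occ (U \ E) z (z a) = 0
      · right
        refine ⟨hE ha, ?_⟩
        simp only [Psites, mem_filter]
        exact ⟨mem_image_of_mem z (hE ha), h0⟩
      · left
        simp only [Tcards, mem_filter, sing, mem_univ, true_and]
        refine ⟨ha, ?_⟩
        omega
    · rintro (h | ⟨h1, h2⟩)
      · exact (mem_filter.mp h).1
      · simp only [Psites, mem_filter] at h2
        by_contra hnot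
        have : a ∈ (U \ E).filter (fun b => z b = z a) := by simp [h1, hnot]
        have h3 : ((U \ E).filter (fun b => z b = z a)).card = 0 := h2.2
        rw [card_eq_zero] at h3
        rw [h3] at this
        simp at this
  ext a
  rw [key hE a, key hE' a, hP, hT]

/-- The number of removal sets with a given number of half-hit pairs. -/
lemma card_removal_le {U : Finset A} {z : A → Y} (hz : Pat U z) (R p i : ℕ) (hR : R = 2 * p + i) :
    (((powersetCard R U).filter (fun E => (sing (U \ E) z).card = i)).card : ℕ)
      ≤ (U.image z).card.choose p * U.card.choose i := by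
  rw [← Finset.card_powersetCard p (U.image z), ← Finset.card_powersetCard i U, ← Finset.card_product]
  apply Finset.card_le_card_of_injOn (fun E => (Psites U E z, Tcards U E z))
  · intro E hE
    have hE' := mem_filter.mp hE
    have hEU := (mem_powersetCard.mp hE'.1).1
    have hEc := (mem_powersetCard.mp hE'.1).2
    have h1 := card_E_eq hz hEU
    have h2 := card_Tcards hz hEU
    simp only [coe_product, Set.mem_prod, mem_coe, mem_powersetCard]
    refine ⟨⟨Finset.filter_subset _ _, ?_⟩, ⟨?_, ?_⟩⟩
    · omega
    · intro a ha
      exact hEU (mem_filter.mp ha).1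
    · omega
  · intro E hE E' hE' h
    have hEU := (mem_powersetCard.mp (mem_filter.mp hE).1).1
    have hEU' := (mem_powersetCard.mp (mem_filter.mp hE').1).1
    simp only [Prod.mk.injEq] at h
    exact E_eq_of_code hz hEU hEU' h.1 h.2

/-- The number of completions, summed over the removal sets. -/
theorem sum_comps_le {U : Finset A} {z : A → Y} (hz : Pat U z) (R : ℕ) (s : ℝ) (hs0 : 0 ≤ s)
    (hs : (U.card : ℝ) * (Fintype.card Y : ℝ) ≤ s ^ 2) :
    ∑ E ∈ powersetCard R U, (((fib E z).filter (Pat U)).card : ℝ) ≤ (s + U.card) ^ R := by
  classical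
  set m := Fintype.card Y with hm
  have hstep : ∀ E ∈ powersetCard R U, (((fib E z).filter (Pat U)).card : ℝ)
      ≤ (cnt m R (sing (U \ E) z).card : ℕ) := by
    intro E hE
    have hEU := (mem_powersetCard.mp hE).1
    have hEc := (mem_powersetCard.mp hE).2
    have h1 : (fib E z).filter (Pat U) = comps E (U \ E) z := by
      unfold comps
      rw [Finset.union_sdiff_of_subset hEU]
    rw [h1]
    exact_mod_cast card_comps_le R E (U \ E) z hEc Finset.disjoint_sdiff
  refine (Finset.sum_le_sum hstep).trans ?_
  have hmaps : ∀ E ∈ powersetCard R U, (sing (U \ E) z).card ∈ range (R + 1) := by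
    intro E hE
    have hEU := (mem_powersetCard.mp hE).1
    have hEc := (mem_powersetCard.mp hE).2
    have := card_E_eq hz hEU
    rw [mem_range]; omega
  rw [← Finset.sum_fiberwise_of_maps_to hmaps]
  have hU2 : U.card = 2 * (U.image z).card := card_pat_eq hz
  have hterm : ∀ i ∈ range (R + 1),
      ∑ E ∈ (powersetCard R U).filter (fun E => (sing (U \ E) z).card = i),
        ((cnt m R (sing (U \ E) z).card : ℕ) : ℝ)
      ≤ (R.choose i : ℕ) * s ^ (R - i) * (U.card : ℝ) ^ i := by
    intro i _
    have hrw : ∑ E ∈ (powersetCard R U).filter (fun E => (sing (U \ E) z).card = i),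
        ((cnt m R (sing (U \ E) z).card : ℕ) : ℝ)
        = (((powersetCard R U).filter (fun E => (sing (U \ E) z).card = i)).card : ℝ)
          * ((cnt m R i : ℕ) : ℝ) := by
      rw [Finset.sum_congr rfl (g := fun _ => ((cnt m R i : ℕ) : ℝ))]
      · simp
      · intro E hE
        rw [(mem_filter.mp hE).2]
    rw [hrw]
    rcases ((powersetCard R U).filter (fun E => (sing (U \ E) z).card = i)).eq_empty_or_nonempty
      with h0 | ⟨E, hE⟩
    · rw [h0]
      simp only [card_empty, Nat.cast_zero, zero_mul]
      positivity
    · have hE' := mem_filter.mp hE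
      have hEU := (mem_powersetCard.mp hE'.1).1
      have hEc := (mem_powersetCard.mp hE'.1).2
      have h1 := card_E_eq hz hEU
      set p := (Psites U E z).card with hp
      have hR : R = 2 * p + i := by omega
      have hcard := card_removal_le hz R p i hR
      have hnum := numeric_term (U.image z).card m p i R hR s hs0 (by
        rw [← hU2]; exact hs)
      rw [← hU2] at hnum
      calc _ ≤ (((U.image z).card.choose p : ℕ) * (U.card.choose i : ℕ) : ℝ) * ((cnt m R i : ℕ) : ℝ) := by
            apply mul_le_mul_of_nonneg_right _ (by positivity)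
            exact_mod_cast hcard
        _ ≤ _ := hnum
  refine (Finset.sum_le_sum hterm).trans (le_of_eq ?_)
  rw [add_comm s, add_pow]
  refine Finset.sum_congr rfl fun i _ => ?_
  ring

end SumE

section KeyLemma

variable {A Y : Type*} [Fintype A] [DecidableEq A] [Fintype Y] [DecidableEq Y]

/-- Sum over the fibre. -/
noncomputable def Sfun (E : Finset A) (G : (A → Y) → ℝ) (y : A → Y) : ℝ := ∑ z ∈ fib E y, G z

/-- **Pair-pattern lemma**. -/
theorem pair_pattern (U : Finset A) (G : (A → Y) → ℝ) (hG : ∀ y, ¬ Pat U y → G y = 0) (R : ℕ)
    (s : ℝ) (hs0 : 0 ≤ s) (hs : (U.card : ℝ) * (Fintype.card Y : ℝ) ≤ s ^ 2) :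
    ∑ E ∈ powersetCard R U, ∑ y, (Sfun E G y) ^ 2
      ≤ ((Fintype.card Y : ℝ) * (s + U.card)) ^ R * ∑ y, (G y) ^ 2 := by
  classical
  set m : ℝ := (Fintype.card Y : ℝ) with hm
  set c : Finset A → (A → Y) → ℝ := fun E y => (((fib E y).filter (Pat U)).card : ℝ) with hc
  have hc_congr : ∀ E y w, w ∈ fib E y → c E w = c E y := by
    intro E y w hw
    simp only [hc]
    rw [fib_eq_of_mem hw]
  have hone : ∀ E ∈ powersetCard R U, ∑ y, (Sfun E G y) ^ 2 ≤ m ^ R * ∑ w, c E w * (G w) ^ 2 := by
    intro E hE
    have hEc := (mem_powersetCard.mp hE).2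
    have h1 : ∀ y, (Sfun E G y) ^ 2 ≤ ∑ w ∈ fib E y, c E w * (G w) ^ 2 := by
      intro y
      have h2 : Sfun E G y = ∑ w ∈ (fib E y).filter (Pat U), G w := by
        unfold Sfun
        rw [Finset.sum_filter]
        refine Finset.sum_congr rfl fun w _ => ?_
        by_cases hw : Pat U w
        · rw [if_pos hw]
        · rw [if_neg hw, hG w hw]
      rw [h2]
      refine sq_sum_le_card_mul_sum_sq.trans ?_
      rw [Finset.mul_sum]
      calc ∑ w ∈ (fib E y).filter (Pat U), (((fib E y).filter (Pat U)).card : ℝ) * (G w) ^ 2
          ≤ ∑ w ∈ fib E y, (((fib E y).filter (Pat U)).card : ℝ) * (G w) ^ 2 := by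
            apply Finset.sum_le_sum_of_subset_of_nonneg (Finset.filter_subset _ _)
            intro w _ _
            positivity
        _ = ∑ w ∈ fib E y, c E w * (G w) ^ 2 := by
            refine Finset.sum_congr rfl fun w hw => ?_
            rw [hc_congr E y w hw]
    calc ∑ y, (Sfun E G y) ^ 2 ≤ ∑ y, ∑ w ∈ fib E y, c E w * (G w) ^ 2 :=
          Finset.sum_le_sum fun y _ => h1 y
      _ = ∑ w, ∑ y ∈ fib E w, c E w * (G w) ^ 2 := by
          apply Finset.sum_comm'
          intro y w
          simp only [mem_univ, true_and, and_true]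
          exact mem_fib_comm
      _ = ∑ w, m ^ R * (c E w * (G w) ^ 2) := by
          refine Finset.sum_congr rfl fun w _ => ?_
          rw [Finset.sum_const, card_fib, nsmul_eq_mul, hEc]
          push_cast
          rfl
      _ = m ^ R * ∑ w, c E w * (G w) ^ 2 := by rw [Finset.mul_sum]
  refine (Finset.sum_le_sum hone).trans ?_
  rw [← Finset.mul_sum, Finset.sum_comm]
  have hswap : ∀ w, ∑ E ∈ powersetCard R U, c E w * (G w) ^ 2 ≤ (s + U.card) ^ R * (G w) ^ 2 := by
    intro w
    rw [← Finset.sum_mul]
    by_cases hw : Pat U w
    · exact mul_le_mul_of_nonneg_right (sum_comps_le hw R s hs0 hs) (sq_nonneg _)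
    · rw [hG w hw]; simp
  calc m ^ R * ∑ w, ∑ E ∈ powersetCard R U, c E w * (G w) ^ 2
      ≤ m ^ R * ∑ w, (s + U.card) ^ R * (G w) ^ 2 := by
        apply mul_le_mul_of_nonneg_left (Finset.sum_le_sum fun w _ => hswap w) (by positivity)
    _ = (m * (s + U.card)) ^ R * ∑ y, (G y) ^ 2 := by
        rw [← Finset.mul_sum, mul_pow, mul_assoc]

end KeyLemma

section Walsh

variable {A Y : Type*} [Fintype A] [DecidableEq A] [Fintype Y] [DecidableEq Y]

/-- The sign of a bit. -/
def sg (t : Bool) : ℝ := if t then 1 else -1

lemma sg_mul_self (t : Bool) : sg t * sg t = 1 := by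
  cases t <;> simp [sg]

lemma sg_xor_true (t : Bool) : sg (xor true t) = - sg t := by
  cases t <;> simp [sg]

lemma sum_sg : ∑ t : Bool, sg t = 0 := by
  simp [sg]

/-- Walsh character. -/
def chi (U : Finset A) (t : A → Bool) : ℝ := ∏ a ∈ U, sg (t a)

lemma chi_union {E U : Finset A} (h : Disjoint E U) (t : A → Bool) :
    chi (E ∪ U) t = chi E t * chi U t := by
  unfold chi
  rw [Finset.prod_union h]

lemma sum_chi_mul (t t' : A → Bool) :
    ∑ U : Finset A, chi U t * chi U t' = if t = t' then (2 : ℝ) ^ Fintype.card A else 0 := by
  have h1 : ∀ U : Finset A, chi U t * chi U t' = ∏ a ∈ U, (sg (t a) * sg (t' a)) := by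
    intro U
    unfold chi
    rw [Finset.prod_mul_distrib]
  simp_rw [h1]
  have h2 := Finset.prod_one_add (s := (univ : Finset A)) (f := fun a => sg (t a) * sg (t' a))
  rw [Finset.powerset_univ] at h2
  rw [← h2]
  by_cases h : t = t'
  · subst h
    rw [if_pos rfl]
    simp_rw [sg_mul_self]
    norm_num
  · rw [if_neg h]
    obtain ⟨a, ha⟩ := Function.ne_iff.mp h
    apply Finset.prod_eq_zero (mem_univ a)
    cases hta : t a <;> cases hta' : t' a <;> simp_all [sg]

/-- Walsh coefficient of a function of the bits. -/
noncomputable def what (U : Finset A) (f : (A → Bool) → ℝ) : ℝ := ∑ t, chi U t * f t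

theorem parseval (f : (A → Bool) → ℝ) :
    ∑ U : Finset A, (what U f) ^ 2 = (2 : ℝ) ^ Fintype.card A * ∑ t, (f t) ^ 2 := by
  have h1 : ∀ U : Finset A, (what U f) ^ 2 = ∑ t, ∑ t', (chi U t * chi U t') * (f t * f t') := by
    intro U
    unfold what
    rw [sq, Finset.sum_mul_sum]
    refine Finset.sum_congr rfl fun t _ => Finset.sum_congr rfl fun t' _ => ?_
    ring
  simp_rw [h1]
  rw [Finset.sum_comm]
  have h2 : ∀ t, ∑ U : Finset A, ∑ t', (chi U t * chi U t') * (f t * f t')
      = (2 : ℝ) ^ Fintype.card A * (f t) ^ 2 := by
    intro t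
    rw [Finset.sum_comm]
    simp_rw [← Finset.sum_mul, sum_chi_mul]
    rw [Finset.sum_eq_single t]
    · simp [sq]
    · intro t' _ ht'
      rw [if_neg (Ne.symm ht')]
      simp
    · simp
  simp_rw [h2]
  rw [Finset.mul_sum]

lemma sum_fib_chi (U E : Finset A) (t' : A → Bool) :
    ∑ t ∈ fib E t', chi U t = if Disjoint U E then (2 : ℝ) ^ E.card * chi U t' else 0 := by
  by_cases h : Disjoint U E
  · rw [if_pos h]
    have : ∀ t ∈ fib E t', chi U t = chi U t' := by
      intro t ht
      unfold chi
      refine Finset.prod_congr rfl fun a ha => ?_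
      rw [(mem_fib.mp ht) a (Finset.disjoint_left.mp h ha)]
    rw [Finset.sum_congr rfl this, Finset.sum_const, card_fib, nsmul_eq_mul]
    simp
  · rw [if_neg h]
    obtain ⟨a, haU, haE⟩ := Finset.not_disjoint_iff.mp h
    apply Finset.sum_involution (fun t _ => Function.update t a (!t a))
    · intro t ht
      have : chi U (Function.update t a (!t a)) = - chi U t := by
        unfold chi
        rw [← Finset.mul_prod_erase U _ haU, ← Finset.mul_prod_erase U (fun b => sg (t b)) haU]
        have h2 : ∏ x ∈ U.erase a, sg (Function.update t a (!t a) x) = ∏ x ∈ U.erase a, sg (t x) := by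
          refine Finset.prod_congr rfl fun b hb => ?_
          rw [Function.update_of_ne (Finset.ne_of_mem_erase hb)]
        rw [h2, Function.update_self]
        cases t a <;> simp [sg]
      rw [this]; ring
    · intro t ht _ h3
      have := congrFun h3 a
      simp at this
    · intro t _
      funext b
      by_cases hba : b = a
      · subst hba; simp
      · simp [Function.update_of_ne hba]
    · intro t ht
      rw [mem_fib] at ht ⊢
      intro b hb
      have hba : b ≠ a := fun e => hb (e ▸ haE)
      rw [Function.update_of_ne hba, ht b hb]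

/-- The signed removal sum in curried form. -/
noncomputable def XiG (E : Finset A) (g : (A → Bool) → (A → Y) → ℝ) (t : A → Bool) (y : A → Y) : ℝ :=
  ∑ t' ∈ fib E t, ∑ y' ∈ fib E y, chi E t' * g t' y'

/-- Walsh coefficient of `g` at the tuple `y`. -/
noncomputable def gHat (g : (A → Bool) → (A → Y) → ℝ) (U : Finset A) (y : A → Y) : ℝ :=
  what U (fun t => g t y)

lemma what_XiG (E U : Finset A) (g : (A → Bool) → (A → Y) → ℝ) (y : A → Y) :
    what U (fun t => XiG E g t y)
      = if Disjoint U E then (2 : ℝ) ^ E.card * Sfun E (gHat g (E ∪ U)) y else 0 := by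
  unfold what XiG
  have h1 : ∑ t, chi U t * ∑ t' ∈ fib E t, ∑ y' ∈ fib E y, chi E t' * g t' y'
      = ∑ t', ∑ t ∈ fib E t', chi U t * ∑ y' ∈ fib E y, chi E t' * g t' y' := by
    have h0 : ∀ t, chi U t * ∑ t' ∈ fib E t, ∑ y' ∈ fib E y, chi E t' * g t' y'
        = ∑ t' ∈ fib E t, chi U t * ∑ y' ∈ fib E y, chi E t' * g t' y' := fun t => Finset.mul_sum _ _ _
    simp_rw [h0]
    apply Finset.sum_comm'
    intro t t'
    simp only [mem_univ, true_and, and_true]
    exact mem_fib_comm
  rw [h1]
  simp_rw [← Finset.sum_mul, sum_fib_chi]
  by_cases h : Disjoint U E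
  · simp only [if_pos h]
    unfold Sfun gHat what
    simp_rw [Finset.mul_sum]
    rw [Finset.sum_comm]
    refine Finset.sum_congr rfl fun y' _ => Finset.sum_congr rfl fun t _ => ?_
    rw [chi_union h.symm]
    ring
  · simp [if_neg h]

/-- Support of the Walsh coefficients. -/
lemma gHat_eq_zero (g : (A → Bool) → (A → Y) → ℝ)
    (hinj : ∀ t y, ¬ Function.Injective (fun a => (t a, y a)) → g t y = 0)
    (hinv : ∀ (c : Y → Bool) t y, g (fun a => xor (c (y a)) (t a)) y = g t y)
    (U : Finset A) (y : A → Y) (hU : ¬ Pat U y) : gHat g U y = 0 := by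
  classical
  by_cases hz : ∀ t, g t y = 0
  · unfold gHat what
    simp [hz]
  push Not at hz
  obtain ⟨t0, ht0⟩ := hz
  have hinj0 : Function.Injective (fun a => (t0 a, y a)) := by
    by_contra h
    exact ht0 (hinj t0 y h)
  -- every site carries at most two cards
  have hle : ∀ p, occ U y p ≤ 2 := by
    intro p
    unfold occ
    have : ((U.filter (fun b => y b = p)).image t0).card = (U.filter (fun b => y b = p)).card := by
      apply Finset.card_image_of_injOn
      intro a ha b hb hab
      have ha' := (mem_filter.mp (Finset.mem_coe.mp ha)).2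
      have hb' := (mem_filter.mp (Finset.mem_coe.mp hb)).2
      apply hinj0
      simp only [Prod.mk.injEq]
      exact ⟨hab, ha'.trans hb'.symm⟩
    rw [← this]
    calc _ ≤ (univ : Finset Bool).card := Finset.card_le_univ _
      _ = 2 := rfl
  -- a site with exactly one card of `U`
  obtain ⟨p, hp⟩ : ∃ p, occ U y p = 1 := by
    unfold Pat at hU
    push Not at hU
    obtain ⟨p, h1, h2⟩ := hU
    exact ⟨p, by have := hle p; omega⟩
  -- the coin flipping the site `p`
  set c : Y → Bool := fun q => decide (q = p) with hc
  set φ : (A → Bool) → (A → Bool) := fun t a => xor (c (y a)) (t a) with hφ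
  have hφinv : ∀ t, φ (φ t) = t := by
    intro t
    funext a
    simp [hφ]
  have hchi : ∀ t, chi U (φ t) = - chi U t := by
    intro t
    have h1 : ∀ a ∈ U, sg (φ t a) = (if y a = p then -1 else 1) * sg (t a) := by
      intro a _
      by_cases hap : y a = p
      · have h5 : φ t a = xor true (t a) := by simp [hφ, hc, hap]
        rw [h5, sg_xor_true, if_pos hap]
        ring
      · have h5 : φ t a = t a := by simp [hφ, hc, hap]
        rw [h5, if_neg hap]
        ring
    unfold chi
    rw [Finset.prod_congr rfl h1, Finset.prod_mul_distrib, Finset.prod_ite]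
    simp only [Finset.prod_const, one_pow, mul_one]
    have : (-1 : ℝ) ^ (U.filter (fun a => y a = p)).card = -1 := by
      have h3 : (U.filter (fun a => y a = p)).card = 1 := hp
      rw [h3]; norm_num
    rw [this]
    ring
  unfold gHat what
  have hsum : ∑ t, chi U (φ t) * g (φ t) y = ∑ t, chi U t * g t y :=
    Fintype.sum_equiv ⟨φ, φ, hφinv, hφinv⟩ _ _ (fun t => rfl)
  have hneg : ∑ t, chi U (φ t) * g (φ t) y = - ∑ t, chi U t * g t y := by
    rw [← Finset.sum_neg_distrib]
    refine Finset.sum_congr rfl fun t _ => ?_
    rw [hchi t, show g (φ t) y = g t y from hinv c t y]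
    ring
  linarith

/-- **Moments of the removal number**, curried form. -/
theorem moment_curried (g : (A → Bool) → (A → Y) → ℝ)
    (hinj : ∀ t y, ¬ Function.Injective (fun a => (t a, y a)) → g t y = 0)
    (hinv : ∀ (c : Y → Bool) t y, g (fun a => xor (c (y a)) (t a)) y = g t y)
    (R : ℕ) (s : ℝ) (hs0 : 0 ≤ s)
    (hs : (Fintype.card A : ℝ) * (Fintype.card Y : ℝ) ≤ s ^ 2) :
    ∑ E ∈ powersetCard R (univ : Finset A), ∑ t, ∑ y, (XiG E g t y) ^ 2
      ≤ (4 * (Fintype.card Y : ℝ) * (s + Fintype.card A)) ^ R * ∑ t, ∑ y, (g t y) ^ 2 := by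
  classical
  set k : ℝ := (Fintype.card A : ℝ) with hk
  set m : ℝ := (Fintype.card Y : ℝ) with hm
  have hk0 : 0 ≤ k := by positivity
  have hm0 : 0 ≤ m := by positivity
  have h2k : (0 : ℝ) < 2 ^ Fintype.card A := by positivity
  -- Parseval in the bits for fixed `E`, `y`
  have hE : ∀ E ∈ powersetCard R (univ : Finset A), ∀ y,
      (2 : ℝ) ^ Fintype.card A * ∑ t, (XiG E g t y) ^ 2
        = ∑ U ∈ univ.filter (fun U : Finset A => Disjoint U E),
            (4 : ℝ) ^ R * (Sfun E (gHat g (E ∪ U)) y) ^ 2 := by
    intro E hE y
    have hEc := (mem_powersetCard.mp hE).2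
    rw [← parseval (fun t => XiG E g t y), Finset.sum_filter]
    refine Finset.sum_congr rfl fun U _ => ?_
    rw [what_XiG]
    by_cases h : Disjoint U E
    · rw [if_pos h, if_pos h, mul_pow, hEc, ← pow_mul, mul_comm R 2, pow_mul]
      norm_num
    · rw [if_neg h, if_neg h]
      simp
  -- reindex `U ↦ E ∪ U`
  have hre : ∀ E : Finset A, ∀ Φ : Finset A → ℝ,
      ∑ U ∈ univ.filter (fun U : Finset A => Disjoint U E), Φ (E ∪ U)
        = ∑ W ∈ univ.filter (fun W : Finset A => E ⊆ W), Φ W := by
    intro E Φ
    refine Finset.sum_bij' (fun U _ => E ∪ U) (fun W _ => W \ E) ?_ ?_ ?_ ?_ ?_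
    · intro U _
      simp
    · intro W _
      simp [Finset.sdiff_disjoint]
    · intro U hU
      have : Disjoint U E := (mem_filter.mp hU).2
      rw [Finset.union_sdiff_cancel_left this.symm]
    · intro W hW
      have : E ⊆ W := (mem_filter.mp hW).2
      exact Finset.union_sdiff_of_subset this
    · intro _ _; rfl
  have hmain : (2 : ℝ) ^ Fintype.card A *
      ∑ E ∈ powersetCard R (univ : Finset A), ∑ t, ∑ y, (XiG E g t y) ^ 2
      = (4 : ℝ) ^ R * ∑ W : Finset A, ∑ E ∈ powersetCard R W, ∑ y, (Sfun E (gHat g W) y) ^ 2 := by
    rw [Finset.mul_sum]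
    have h1 : ∀ E ∈ powersetCard R (univ : Finset A),
        (2 : ℝ) ^ Fintype.card A * ∑ t, ∑ y, (XiG E g t y) ^ 2
        = (4 : ℝ) ^ R * ∑ W ∈ univ.filter (fun W : Finset A => E ⊆ W),
            ∑ y, (Sfun E (gHat g W) y) ^ 2 := by
      intro E hEm
      rw [Finset.sum_comm, Finset.mul_sum]
      simp_rw [hE E hEm]
      rw [Finset.sum_comm, ← hre E (fun W => ∑ y, (Sfun E (gHat g W) y) ^ 2), Finset.mul_sum]
      refine Finset.sum_congr rfl fun U _ => ?_
      rw [Finset.mul_sum]
    rw [Finset.sum_congr rfl h1, ← Finset.mul_sum]
    have h2 : ∑ E ∈ powersetCard R (univ : Finset A), ∑ W ∈ univ.filter (fun W : Finset A => E ⊆ W),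
          ∑ y, (Sfun E (gHat g W) y) ^ 2
        = ∑ W : Finset A, ∑ E ∈ powersetCard R W, ∑ y, (Sfun E (gHat g W) y) ^ 2 := by
      apply Finset.sum_comm'
      intro E W
      simp only [mem_powersetCard, subset_univ, true_and, mem_filter, mem_univ, and_true]
      tauto
    rw [h2]
  have hW : ∀ W : Finset A, ∑ E ∈ powersetCard R W, ∑ y, (Sfun E (gHat g W) y) ^ 2
      ≤ (m * (s + k)) ^ R * ∑ y, (gHat g W y) ^ 2 := by
    intro W
    have hWc : (W.card : ℝ) ≤ k := by
      rw [hk]; exact_mod_cast Finset.card_le_univ W
    have hs' : (W.card : ℝ) * m ≤ s ^ 2 := (mul_le_mul_of_nonneg_right hWc hm0).trans hs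
    have h1 := pair_pattern W (gHat g W) (fun y hy => gHat_eq_zero g hinj hinv W y hy) R s hs0 hs'
    refine h1.trans ?_
    apply mul_le_mul_of_nonneg_right _ (Finset.sum_nonneg fun _ _ => sq_nonneg _)
    apply pow_le_pow_left₀ (by positivity)
    apply mul_le_mul_of_nonneg_left _ hm0
    linarith
  have hsumW : ∑ W : Finset A, ∑ y, (gHat g W y) ^ 2
      = (2 : ℝ) ^ Fintype.card A * ∑ t, ∑ y, (g t y) ^ 2 := by
    rw [Finset.sum_comm]
    have : ∀ y, ∑ W : Finset A, (gHat g W y) ^ 2 = (2 : ℝ) ^ Fintype.card A * ∑ t, (g t y) ^ 2 :=
      fun y => parseval (fun t => g t y)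
    simp_rw [this]
    rw [← Finset.mul_sum, Finset.sum_comm]
  have hfinal : (2 : ℝ) ^ Fintype.card A *
      ∑ E ∈ powersetCard R (univ : Finset A), ∑ t, ∑ y, (XiG E g t y) ^ 2
      ≤ (2 : ℝ) ^ Fintype.card A * ((4 * m * (s + k)) ^ R * ∑ t, ∑ y, (g t y) ^ 2) := by
    rw [hmain]
    calc (4 : ℝ) ^ R * ∑ W : Finset A, ∑ E ∈ powersetCard R W, ∑ y, (Sfun E (gHat g W) y) ^ 2
        ≤ (4 : ℝ) ^ R * ∑ W : Finset A, (m * (s + k)) ^ R * ∑ y, (gHat g W y) ^ 2 := by
          apply mul_le_mul_of_nonneg_left (Finset.sum_le_sum fun W _ => hW W) (by positivity)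
      _ = (4 : ℝ) ^ R * ((m * (s + k)) ^ R * ((2 : ℝ) ^ Fintype.card A * ∑ t, ∑ y, (g t y) ^ 2)) := by
          rw [← Finset.mul_sum, hsumW]
      _ = (2 : ℝ) ^ Fintype.card A * ((4 * m * (s + k)) ^ R * ∑ t, ∑ y, (g t y) ^ 2) := by
          rw [mul_assoc 4 m, mul_pow 4 (m * (s + k)) R]
          ring
  exact le_of_mul_le_mul_left hfinal h2k

end Walsh

section Tuples

variable {A Y : Type*} [Fintype A] [DecidableEq A] [Fintype Y] [DecidableEq Y]

/-- The bit-sign character of a tuple of positions. -/
noncomputable def chiX (E : Finset A) (z : A → Bool × Y) : ℝ := ∏ a ∈ E, sg (z a).1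

/-- The signed removal sum on tuples of positions. -/
noncomputable def Xi (E : Finset A) (v : (A → Bool × Y) → ℝ) (x : A → Bool × Y) : ℝ :=
  ∑ z ∈ fib E x, chiX E z * v z

/-- The equivalence between tuples of positions and pairs of tuples. -/
def zipEquiv : (A → Bool × Y) ≃ (A → Bool) × (A → Y) where
  toFun x := (fun a => (x a).1, fun a => (x a).2)
  invFun p := fun a => (p.1 a, p.2 a)
  left_inv x := by funext a; rfl
  right_inv p := by rfl

lemma Xi_eq_XiG (E : Finset A) (v : (A → Bool × Y) → ℝ) (t : A → Bool) (y : A → Y) :
    Xi E v (fun a => (t a, y a)) = XiG E (fun t y => v (fun a => (t a, y a))) t y := by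
  classical
  unfold Xi XiG
  rw [← Finset.sum_product']
  refine Finset.sum_bij' (fun z _ => ((fun a => (z a).1), (fun a => (z a).2)))
    (fun p _ => fun a => (p.1 a, p.2 a)) ?_ ?_ ?_ ?_ ?_
  · intro z hz
    rw [mem_fib] at hz
    simp only [mem_product, mem_fib]
    constructor
    · intro a ha; simp [hz a ha]
    · intro a ha; simp [hz a ha]
  · intro p hp
    simp only [mem_product, mem_fib] at hp
    rw [mem_fib]
    intro a ha
    simp [hp.1 a ha, hp.2 a ha]
  · intro z _
    funext a
    rfl
  · intro p _
    rfl
  · intro z _
    rfl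

/-- **Moments of the removal number.** For `v` supported on injective tuples and invariant under
the site coins. -/
theorem pair_moment (v : (A → Bool × Y) → ℝ)
    (hinj : ∀ x, ¬ Function.Injective x → v x = 0)
    (hinv : ∀ (c : Y → Bool) x, v (fun a => (xor (c (x a).2) (x a).1, (x a).2)) = v x)
    (R : ℕ) (s : ℝ) (hs0 : 0 ≤ s)
    (hs : (Fintype.card A : ℝ) * (Fintype.card Y : ℝ) ≤ s ^ 2) :
    ∑ E ∈ powersetCard R (univ : Finset A), ∑ x, (Xi E v x) ^ 2
      ≤ (4 * (Fintype.card Y : ℝ) * (s + Fintype.card A)) ^ R * ∑ x, (v x) ^ 2 := by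
  have hsum : ∀ f : (A → Bool × Y) → ℝ,
      ∑ x, f x = ∑ t : A → Bool, ∑ y : A → Y, f (fun a => (t a, y a)) := by
    intro f
    rw [← Finset.sum_product']
    exact Fintype.sum_equiv zipEquiv _ _ (fun x => rfl)
  have h1 := moment_curried (fun t y => v (fun a => (t a, y a))) (fun t y h => hinj _ h)
    (fun c t y => hinv c (fun a => (t a, y a))) R s hs0 hs
  rw [hsum (fun x => (v x) ^ 2)]
  refine le_trans (le_of_eq ?_) h1
  refine Finset.sum_congr rfl fun E _ => ?_
  rw [hsum]
  refine Finset.sum_congr rfl fun t _ => Finset.sum_congr rfl fun y _ => ?_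
  rw [Xi_eq_XiG]

/-- The zero line sums pass to the signed removal sums. -/
lemma Xi_line_sum (E : Finset A) (v : (A → Bool × Y) → ℝ)
    (hzero : ∀ (a : A) (x : A → Bool × Y), ∑ p, v (Function.update x a p) = 0)
    (a : A) (ha : a ∉ E) (x : A → Bool × Y) :
    ∑ p, Xi E v (Function.update x a p) = 0 := by
  classical
  unfold Xi
  have h1 : ∀ p, ∑ z ∈ fib E (Function.update x a p), chiX E z * v z
      = ∑ w ∈ fib E x, chiX E w * v (Function.update w a p) := by
    intro p
    refine Finset.sum_bij' (fun z _ => Function.update z a (x a))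
      (fun w _ => Function.update w a p) ?_ ?_ ?_ ?_ ?_
    · intro z hz
      rw [mem_fib] at hz ⊢
      intro b hb
      by_cases hba : b = a
      · subst hba; simp
      · rw [Function.update_of_ne hba, hz b hb, Function.update_of_ne hba]
    · intro w hw
      rw [mem_fib] at hw ⊢
      intro b hb
      by_cases hba : b = a
      · subst hba; simp
      · rw [Function.update_of_ne hba, hw b hb, Function.update_of_ne hba]
    · intro z hz
      rw [mem_fib] at hz
      funext b
      by_cases hba : b = a
      · subst hba
        have := hz b ha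
        simp [this]
      · simp [Function.update_of_ne hba]
    · intro w hw
      rw [mem_fib] at hw
      funext b
      by_cases hba : b = a
      · subst hba
        have := hw b ha
        simp [this]
      · simp [Function.update_of_ne hba]
    · intro z hz
      rw [mem_fib] at hz
      have hza : z a = p := by rw [hz a ha]; simp
      have h2 : Function.update (Function.update z a (x a)) a p = z := by
        funext b
        by_cases hba : b = a
        · subst hba; simp [hza]
        · simp [Function.update_of_ne hba]
      rw [h2]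
      congr 1
      unfold chiX
      refine Finset.prod_congr rfl fun b hb => ?_
      have hba : b ≠ a := fun e => ha (e ▸ hb)
      rw [Function.update_of_ne hba]
  simp_rw [h1]
  rw [Finset.sum_comm]
  simp_rw [← Finset.mul_sum, hzero]
  simp

/-- Adding a card to the removal set. -/
lemma Xi_insert (E : Finset A) (v : (A → Bool × Y) → ℝ) (a : A) (ha : a ∉ E) (x : A → Bool × Y) :
    Xi (insert a E) v x = ∑ p, sg p.1 * Xi E v (Function.update x a p) := by
  classical
  unfold Xi
  rw [sum_fib_insert ha]
  refine Finset.sum_congr rfl fun p _ => ?_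
  rw [Finset.mul_sum]
  refine Finset.sum_congr rfl fun z hz => ?_
  rw [mem_fib] at hz
  have hza : z a = p := by rw [hz a ha]; simp
  unfold chiX
  rw [Finset.prod_insert ha, hza]
  ring

/-- **Purity in one line**: the sum over positions with prescribed sides is the signed sum. -/
theorem side_sum (v : (A → Bool × Y) → ℝ)
    (hzero : ∀ (a : A) (x : A → Bool × Y), ∑ p, v (Function.update x a p) = 0)
    (σ : A → Bool) (E : Finset A) (x : A → Bool × Y) :
    ∑ z ∈ (fib E x).filter (fun z => ∀ a ∈ E, (z a).1 = σ a), v z
      = (1 / 2 : ℝ) ^ E.card * chi E σ * Xi E v x := by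
  classical
  induction E using Finset.induction_on generalizing x with
  | empty =>
    have : fib (∅ : Finset A) x = {x} := by
      ext z
      simp only [mem_fib, notMem_empty, not_false_eq_true, forall_const, mem_singleton]
      exact funext_iff.symm
    simp [this, Xi, chi, chiX]
  | insert a E ha ih =>
    have h1 : ∑ z ∈ (fib (insert a E) x).filter (fun z => ∀ b ∈ insert a E, (z b).1 = σ b), v z
        = ∑ p, if p.1 = σ a then
            ∑ z ∈ (fib E (Function.update x a p)).filter (fun z => ∀ b ∈ E, (z b).1 = σ b), v z
          else 0 := by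
      rw [Finset.sum_filter, sum_fib_insert ha]
      refine Finset.sum_congr rfl fun p _ => ?_
      by_cases hp : p.1 = σ a
      · rw [if_pos hp, Finset.sum_filter]
        refine Finset.sum_congr rfl fun z hz => ?_
        rw [mem_fib] at hz
        have hza : z a = p := by rw [hz a ha]; simp
        have : (∀ b ∈ insert a E, (z b).1 = σ b) ↔ ∀ b ∈ E, (z b).1 = σ b := by
          simp [hza, hp]
        simp only [this]
      · rw [if_neg hp]
        apply Finset.sum_eq_zero
        intro z hz
        rw [mem_fib] at hz
        have hza : z a = p := by rw [hz a ha]; simp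
        rw [if_neg]
        intro h
        exact hp (by rw [← hza]; exact h a (Finset.mem_insert_self a E))
    rw [h1]
    simp_rw [ih]
    have hline := Xi_line_sum E v hzero a ha x
    have hind : ∀ p : Bool × Y, (if p.1 = σ a then (1 : ℝ) else 0) = (1 + sg (σ a) * sg p.1) / 2 := by
      rintro ⟨t, q⟩
      cases t <;> cases σ a <;> simp [sg]
    have h2 : ∑ p : Bool × Y, (if p.1 = σ a then
          (1 / 2 : ℝ) ^ E.card * chi E σ * Xi E v (Function.update x a p) else 0)
        = (1 / 2 : ℝ) ^ E.card * chi E σ * ∑ p : Bool × Y,
            ((1 + sg (σ a) * sg p.1) / 2 * Xi E v (Function.update x a p)) := by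
      rw [Finset.mul_sum]
      refine Finset.sum_congr rfl fun p _ => ?_
      rw [← hind p]
      split_ifs <;> ring
    rw [h2]
    have h3 : ∑ p : Bool × Y, ((1 + sg (σ a) * sg p.1) / 2 * Xi E v (Function.update x a p))
        = (1 / 2) * ∑ p, Xi E v (Function.update x a p)
          + (1 / 2) * sg (σ a) * ∑ p : Bool × Y, sg p.1 * Xi E v (Function.update x a p) := by
      rw [Finset.mul_sum, Finset.mul_sum, ← Finset.sum_add_distrib]
      refine Finset.sum_congr rfl fun p _ => ?_
      ring
    rw [h3, hline, ← Xi_insert E v a ha x, Finset.card_insert_of_notMem ha]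
    unfold chi
    rw [Finset.prod_insert ha, pow_succ]
    ring

end Tuples

end Crest.Agent.Lib.Thorp.PairMoments
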