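/-
Thorp (row 155, S0222): the moment bound `H2` for the law of the removal number on the sectors,
composition of `LevelExact` (M1), `PairMoments` (M2) and the sector layer (M3).
-/
import Crest.Agent.Lib.Thorp.OpTiny
import Crest.Agent.Lib.Thorp.LevelExact
import Crest.Agent.Lib.Thorp.PairMoments

set_option autoImplicit false
set_option linter.unusedSectionVars false

namespace Crest.Agent.Lib.Thorp.H2

open Matrix Finset Crest.Agent.Lib.Thorp Crest.Agent.Lib.Thorp.LevelExact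

/-- Moving a sum out of a double sum. -/
lemma swap3 {α β γ : Type*} (s : Finset α) (t : Finset β) (u : Finset γ) (H : α → β → γ → ℝ) :
    ∑ j ∈ s, ∑ l ∈ t, ∑ p ∈ u, H j l p = ∑ p ∈ u, ∑ j ∈ s, ∑ l ∈ t, H j l p := by
  calc ∑ j ∈ s, ∑ l ∈ t, ∑ p ∈ u, H j l p = ∑ j ∈ s, ∑ p ∈ u, ∑ l ∈ t, H j l p :=
        Finset.sum_congr rfl fun j _ => Finset.sum_comm
    _ = _ := Finset.sum_comm

section TwoSided

variable {Ω : Type*} [Fintype Ω] [DecidableEq Ω]

local notation "Mat" => Matrix (Equiv.Perm Ω) (Equiv.Perm Ω) ℝ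

lemma hsSq_eq_sum_col (W : Mat) :
    hsSq W = ∑ x₁, (fun x₀ => W x₀ x₁) ⬝ᵥ (fun x₀ => W x₀ x₁) := by
  simp only [hsSq, dotProduct, sq]
  rw [Finset.sum_comm]

lemma mul_col (X W : Mat) (x₁ : Equiv.Perm Ω) :
    (fun x₀ => (X * W) x₀ x₁) = X *ᵥ (fun x₀ => W x₀ x₁) := by
  funext x₀
  simp [Matrix.mul_apply, Matrix.mulVec, dotProduct]

lemma mul_row (W X : Mat) (x₀ : Equiv.Perm Ω) :
    (fun x₁ => (W * X) x₀ x₁) = Xᵀ *ᵥ (fun x₁ => W x₀ x₁) := by
  funext x₁
  simp [Matrix.mul_apply, Matrix.mulVec, dotProduct, mul_comm]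

lemma col_exact (j R : ℕ) (B : Finset Ω) (W : Mat) (hW : ∀ x₁, (fun x₀ => W x₀ x₁) ∈ VS B)
    (hE : levelE j * W = W) (κ : ℝ) (h0 : 0 ≤ κ) (hκ : κ * n1 B ≤ n1 B - j) :
    (((B.card - j).choose R : ℕ) : ℝ) * κ ^ R * hsSq W
      ≤ ∑ E ∈ powersetCard R B, hsSq (avgS (B \ E) * W) := by
  rw [hsSq_eq_sum_col]
  simp_rw [hsSq_eq_sum_col (avgS _ * W), mul_col]
  rw [Finset.mul_sum, Finset.sum_comm]
  refine Finset.sum_le_sum fun x₁ _ => ?_
  apply level_exact j R B _ (hW x₁) ?_ κ h0 hκ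
  rw [← mul_col, hE]

lemma row_exact (l R : ℕ) (B : Finset Ω) (W : Mat) (hW : ∀ x₀, (fun x₁ => W x₀ x₁) ∈ VS B)
    (hE : W * levelE l = W) (κ : ℝ) (h0 : 0 ≤ κ) (hκ : κ * n1 B ≤ n1 B - l) :
    (((B.card - l).choose R : ℕ) : ℝ) * κ ^ R * hsSq W
      ≤ ∑ E ∈ powersetCard R B, hsSq (W * avgS (B \ E)) := by
  have h1 := col_exact l R B Wᵀ (fun x₁ => hW x₁) (by
    have := congrArg Matrix.transpose hE
    rwa [Matrix.transpose_mul, levelE_symm] at this) κ h0 hκ
  rw [hsSq_transpose] at h1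
  refine h1.trans (le_of_eq ?_)
  refine Finset.sum_congr rfl fun E _ => ?_
  rw [← hsSq_transpose, Matrix.transpose_mul, avgS_transpose, Matrix.transpose_transpose]

lemma levelE_mem_VS (j : ℕ) {B : Finset Ω} {u : Equiv.Perm Ω → ℝ} (hu : u ∈ VS B) :
    levelE j *ᵥ u ∈ VS B := by
  have h1 : levelE j *ᵥ u = avgS B *ᵥ (levelE j *ᵥ u) := by
    conv_lhs => rw [← avgS_fix B u hu]
    rw [Matrix.mulVec_mulVec, Matrix.mulVec_mulVec, avgS_comm_levelE]
  rw [h1]
  exact avgS_mem_VS B _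

/-- The piece of level `j` vanishes on functions of fewer than `j` cards. -/
lemma levelE_mulVec_eq_zero {j : ℕ} {B : Finset Ω} (hj : B.card < j) {u : Equiv.Perm Ω → ℝ}
    (hu : u ∈ VS B) : levelE j *ᵥ u = 0 := by
  obtain ⟨k, rfl⟩ : ∃ k, j = k + 1 := ⟨j - 1, by omega⟩
  have h1 : u ∈ levelV (Ω := Ω) k := VS_le_levelV (by omega) hu
  have h2 : u ∈ levelV (Ω := Ω) (k + 1) := levelV_mono (Nat.le_succ k) h1
  simp only [levelE, flagE, Matrix.sub_mulVec]
  rw [projMat_fix _ u h1, projMat_fix _ u h2, sub_self]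

lemma col_mul_mem {B : Finset Ω} {M : Mat} (hM : ∀ x₁, (fun x₀ => M x₀ x₁) ∈ VS B) (X : Mat)
    (x₁ : Equiv.Perm Ω) : (fun x₀ => (M * X) x₀ x₁) ∈ VS B := by
  intro x y hxy
  simp only [Matrix.mul_apply]
  refine Finset.sum_congr rfl fun z _ => ?_
  have := hM z x y hxy
  simp only at this
  rw [this]

lemma row_mul_mem {B : Finset Ω} {M : Mat} (hM : ∀ x₀, (fun x₁ => M x₀ x₁) ∈ VS B) (X : Mat)
    (x₀ : Equiv.Perm Ω) : (fun x₁ => (X * M) x₀ x₁) ∈ VS B := by
  intro x y hxy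
  simp only [Matrix.mul_apply]
  refine Finset.sum_congr rfl fun z _ => ?_
  have := hM z x y hxy
  simp only at this
  rw [this]

lemma col_level_mem {B : Finset Ω} {M : Mat} (hM : ∀ x₁, (fun x₀ => M x₀ x₁) ∈ VS B) (j : ℕ)
    (x₁ : Equiv.Perm Ω) : (fun x₀ => (levelE (Ω := Ω) j * M) x₀ x₁) ∈ VS B := by
  rw [mul_col]
  exact levelE_mem_VS j (hM x₁)

lemma row_level_mem {B : Finset Ω} {M : Mat} (hM : ∀ x₀, (fun x₁ => M x₀ x₁) ∈ VS B) (l : ℕ)
    (x₀ : Equiv.Perm Ω) : (fun x₁ => (M * levelE (Ω := Ω) l) x₀ x₁) ∈ VS B := by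
  rw [mul_row, levelE_symm]
  exact levelE_mem_VS l (hM x₀)

lemma col_avg_mem {B : Finset Ω} {M : Mat} (hM : ∀ x₀, (fun x₁ => M x₀ x₁) ∈ VS B) (S : Finset Ω)
    (x₀ : Equiv.Perm Ω) : (fun x₁ => (avgS S * M) x₀ x₁) ∈ VS B :=
  row_mul_mem hM _ x₀

/-- Two-sided level exactness. -/
theorem two_sided_exact (j l R₀ R₁ : ℕ) (B₀ B₁ : Finset Ω) (M : Mat)
    (hcol : ∀ x₁, (fun x₀ => M x₀ x₁) ∈ VS B₀) (hrow : ∀ x₀, (fun x₁ => M x₀ x₁) ∈ VS B₁)
    (κ : ℝ) (h0 : 0 ≤ κ) (hκ₀ : κ * n1 B₀ ≤ n1 B₀ - j) (hκ₁ : κ * n1 B₁ ≤ n1 B₁ - l) :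
    (((B₀.card - j).choose R₀ : ℕ) : ℝ) * (((B₁.card - l).choose R₁ : ℕ) : ℝ) * κ ^ (R₀ + R₁)
        * hsSq (levelE j * M * levelE l)
      ≤ ∑ E₀ ∈ powersetCard R₀ B₀, ∑ E₁ ∈ powersetCard R₁ B₁,
          hsSq (levelE j * (avgS (B₀ \ E₀) * M * avgS (B₁ \ E₁)) * levelE l) := by
  set W := levelE j * M * levelE l with hW
  have hcolW : ∀ x₁, (fun x₀ => W x₀ x₁) ∈ VS B₀ := fun x₁ =>
    col_mul_mem (col_level_mem hcol j) _ x₁
  have hEW : levelE j * W = W := by
    rw [hW, ← Matrix.mul_assoc, ← Matrix.mul_assoc, levelE_idem]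
  have h1 := col_exact j R₀ B₀ W hcolW hEW κ h0 hκ₀
  have hc1 : (0 : ℝ) ≤ (((B₁.card - l).choose R₁ : ℕ) : ℝ) * κ ^ R₁ := by positivity
  have h2 : ∀ E₀ ∈ powersetCard R₀ B₀,
      (((B₁.card - l).choose R₁ : ℕ) : ℝ) * κ ^ R₁ * hsSq (avgS (B₀ \ E₀) * W)
        ≤ ∑ E₁ ∈ powersetCard R₁ B₁,
          hsSq (levelE j * (avgS (B₀ \ E₀) * M * avgS (B₁ \ E₁)) * levelE l) := by
    intro E₀ _
    have hrowW : ∀ x₀, (fun x₁ => (avgS (B₀ \ E₀) * W) x₀ x₁) ∈ VS B₁ := by
      intro x₀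
      have hr : ∀ x₀, (fun x₁ => W x₀ x₁) ∈ VS B₁ := by
        intro x₀
        rw [hW]
        exact row_level_mem (fun x₀ => row_mul_mem hrow _ x₀) l x₀
      exact col_avg_mem hr _ x₀
    have hEW' : avgS (B₀ \ E₀) * W * levelE l = avgS (B₀ \ E₀) * W := by
      rw [hW, Matrix.mul_assoc, Matrix.mul_assoc (levelE j * M), levelE_idem]
    have h3 := row_exact l R₁ B₁ _ hrowW hEW' κ h0 hκ₁
    refine h3.trans (le_of_eq ?_)
    refine Finset.sum_congr rfl fun E₁ _ => ?_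
    congr 1
    have hc0 : avgS (B₀ \ E₀) * levelE (Ω := Ω) j = levelE j * avgS (B₀ \ E₀) :=
      (avgS_comm_levelE _ _).symm
    have hc1 : levelE (Ω := Ω) l * avgS (B₁ \ E₁) = avgS (B₁ \ E₁) * levelE l :=
      avgS_comm_levelE _ _
    rw [hW]
    calc avgS (B₀ \ E₀) * (levelE j * M * levelE l) * avgS (B₁ \ E₁)
        = (avgS (B₀ \ E₀) * levelE j) * M * (levelE l * avgS (B₁ \ E₁)) := by
          simp only [Matrix.mul_assoc]
      _ = levelE j * (avgS (B₀ \ E₀) * M * avgS (B₁ \ E₁)) * levelE l := by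
          rw [hc0, hc1]
          simp only [Matrix.mul_assoc]
  calc (((B₀.card - j).choose R₀ : ℕ) : ℝ) * (((B₁.card - l).choose R₁ : ℕ) : ℝ) * κ ^ (R₀ + R₁)
        * hsSq W
      = (((B₁.card - l).choose R₁ : ℕ) : ℝ) * κ ^ R₁
          * ((((B₀.card - j).choose R₀ : ℕ) : ℝ) * κ ^ R₀ * hsSq W) := by
        rw [pow_add]; ring
    _ ≤ (((B₁.card - l).choose R₁ : ℕ) : ℝ) * κ ^ R₁
          * ∑ E ∈ powersetCard R₀ B₀, hsSq (avgS (B₀ \ E) * W) :=
        mul_le_mul_of_nonneg_left h1 hc1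
    _ = ∑ E₀ ∈ powersetCard R₀ B₀, (((B₁.card - l).choose R₁ : ℕ) : ℝ) * κ ^ R₁
          * hsSq (avgS (B₀ \ E₀) * W) := by rw [Finset.mul_sum]
    _ ≤ _ := Finset.sum_le_sum h2

/-- The sum over the two levels of the removal count. -/
theorem sector_exact (R : ℕ) (B₀ B₁ : Finset Ω) (M : Mat)
    (hcol : ∀ x₁, (fun x₀ => M x₀ x₁) ∈ VS B₀) (hrow : ∀ x₀, (fun x₁ => M x₀ x₁) ∈ VS B₁)
    (κ : ℝ) (h0 : 0 ≤ κ) (hκ₀ : κ * n1 B₀ ≤ n1 B₀ - B₀.card) (hκ₁ : κ * n1 B₁ ≤ n1 B₁ - B₁.card) :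
    ∑ j : Fin (Fintype.card Ω + 1), ∑ l : Fin (Fintype.card Ω + 1),
        (((B₀.card + B₁.card - j - l).choose R : ℕ) : ℝ) * κ ^ R
          * hsSq (levelE (Ω := Ω) j * M * levelE (Ω := Ω) l)
      ≤ ∑ p ∈ Finset.HasAntidiagonal.antidiagonal R, ∑ E₀ ∈ powersetCard p.1 B₀, ∑ E₁ ∈ powersetCard p.2 B₁,
          hsSq (avgS (B₀ \ E₀) * M * avgS (B₁ \ E₁)) := by
  have hstep : ∀ j l : ℕ,
      (((B₀.card + B₁.card - j - l).choose R : ℕ) : ℝ) * κ ^ R
          * hsSq (levelE (Ω := Ω) j * M * levelE (Ω := Ω) l)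
      ≤ ∑ p ∈ Finset.HasAntidiagonal.antidiagonal R, ∑ E₀ ∈ powersetCard p.1 B₀, ∑ E₁ ∈ powersetCard p.2 B₁,
          hsSq (levelE (Ω := Ω) j * (avgS (B₀ \ E₀) * M * avgS (B₁ \ E₁)) * levelE (Ω := Ω) l) := by
    intro j l
    have hnn : 0 ≤ ∑ p ∈ Finset.HasAntidiagonal.antidiagonal R, ∑ E₀ ∈ powersetCard p.1 B₀,
        ∑ E₁ ∈ powersetCard p.2 B₁,
          hsSq (levelE (Ω := Ω) j * (avgS (B₀ \ E₀) * M * avgS (B₁ \ E₁)) * levelE (Ω := Ω) l) :=
      Finset.sum_nonneg fun _ _ => Finset.sum_nonneg fun _ _ => Finset.sum_nonneg fun _ _ =>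
        hsSq_nonneg _
    by_cases hj : B₀.card < j
    · have hz : levelE (Ω := Ω) j * M = 0 := by
        ext x₀ x₁
        have := congrFun (levelE_mulVec_eq_zero hj (hcol x₁)) x₀
        rw [← mul_col] at this
        simpa using this
      rw [hz, Matrix.zero_mul]
      simpa [hsSq] using hnn
    by_cases hl : B₁.card < l
    · have hz : M * levelE (Ω := Ω) l = 0 := by
        ext x₀ x₁
        have := congrFun (levelE_mulVec_eq_zero hl (hrow x₀)) x₁
        have h2 := mul_row M (levelE (Ω := Ω) l) x₀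
        rw [levelE_symm] at h2
        rw [← h2] at this
        simpa using this
      rw [Matrix.mul_assoc, hz, Matrix.mul_zero]
      simpa [hsSq] using hnn
    push Not at hj hl
    -- the two `κ` conditions
    have hκj : κ * n1 B₀ ≤ n1 B₀ - j := by
      have : (j : ℝ) ≤ B₀.card := by exact_mod_cast hj
      linarith
    have hκl : κ * n1 B₁ ≤ n1 B₁ - l := by
      have : (l : ℝ) ≤ B₁.card := by exact_mod_cast hl
      linarith
    have hV : ((B₀.card + B₁.card - j - l).choose R : ℕ)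
        = ∑ p ∈ Finset.HasAntidiagonal.antidiagonal R, (B₀.card - j).choose p.1 * (B₁.card - l).choose p.2 := by
      have : B₀.card + B₁.card - j - l = (B₀.card - j) + (B₁.card - l) := by omega
      rw [this, Nat.add_choose_eq]
    rw [hV]
    push_cast
    rw [Finset.sum_mul, Finset.sum_mul]
    refine Finset.sum_le_sum fun p hp => ?_
    have hpR : p.1 + p.2 = R := Finset.HasAntidiagonal.mem_antidiagonal.mp hp
    have := two_sided_exact j l p.1 p.2 B₀ B₁ M hcol hrow κ h0 hκj hκl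
    rw [hpR] at this
    exact_mod_cast this
  calc _ ≤ ∑ j : Fin (Fintype.card Ω + 1), ∑ l : Fin (Fintype.card Ω + 1),
        ∑ p ∈ Finset.HasAntidiagonal.antidiagonal R, ∑ E₀ ∈ powersetCard p.1 B₀, ∑ E₁ ∈ powersetCard p.2 B₁,
          hsSq (levelE (Ω := Ω) j * (avgS (B₀ \ E₀) * M * avgS (B₁ \ E₁)) * levelE (Ω := Ω) l) :=
        Finset.sum_le_sum fun j _ => Finset.sum_le_sum fun l _ => hstep j l
    _ = _ := by
        have h1 : ∀ p ∈ Finset.HasAntidiagonal.antidiagonal R, ∀ E₀ ∈ powersetCard p.1 B₀, ∀ E₁ ∈ powersetCard p.2 B₁,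
            hsSq (avgS (B₀ \ E₀) * M * avgS (B₁ \ E₁))
              = ∑ j : Fin (Fintype.card Ω + 1), ∑ l : Fin (Fintype.card Ω + 1),
              hsSq (levelE (Ω := Ω) j * (avgS (B₀ \ E₀) * M * avgS (B₁ \ E₁)) * levelE (Ω := Ω) l) :=
          fun _ _ _ _ _ _ => Sec.hsSq_two_sided (levelE_decomp (Ω := Ω)) _
        rw [Finset.sum_congr rfl fun p hp => Finset.sum_congr rfl fun E₀ hE₀ =>
          Finset.sum_congr rfl fun E₁ hE₁ => h1 p hp E₀ hE₀ E₁ hE₁]
        rw [swap3]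
        refine Finset.sum_congr rfl fun p _ => ?_
        rw [swap3]
        refine Finset.sum_congr rfl fun E₀ _ => ?_
        rw [swap3]

end TwoSided

section Fix

variable {Ω : Type*} [Fintype Ω] [DecidableEq Ω]

/-- Sum over a coset of `fixS S`. -/
lemma sum_fixS_mul (S : Finset Ω) (x : Equiv.Perm Ω) (g : Equiv.Perm Ω → ℝ) :
    ∑ τ ∈ fixS S, g (x * τ) = ∑ x', if (∀ a ∈ S, x' a = x a) then g x' else 0 := by
  rw [← Finset.sum_filter]
  refine Finset.sum_bij' (fun τ _ => x * τ) (fun x' _ => x⁻¹ * x') ?_ ?_ ?_ ?_ ?_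
  · intro τ hτ
    simp only [Finset.mem_filter, Finset.mem_univ, true_and, Equiv.Perm.coe_mul,
      Function.comp_apply]
    intro a ha
    rw [mem_fixS.mp hτ a ha]
  · intro x' hx'
    rw [mem_fixS]
    intro a ha
    have := (Finset.mem_filter.mp hx').2 a ha
    simp [this]
  · intro τ _
    simp
  · intro x' _
    simp
  · intro τ _
    rfl

lemma card_fixS_step {L : Finset Ω} {c : Ω} (hc : c ∉ L) :
    (fixS L).card = (Fintype.card Ω - L.card) * (fixS (insert c L)).card := by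
  have hmaps : ∀ τ ∈ fixS L, τ c ∈ univ \ L := fun τ hτ => by
    simp [swap_mem_aux hc hτ]
  rw [Finset.card_eq_sum_card_fiberwise hmaps]
  rw [Finset.sum_congr rfl (g := fun _ => (fixS (insert c L)).card)]
  · rw [Finset.sum_const, smul_eq_mul, Finset.card_sdiff_of_subset (subset_univ L), card_univ]
  · intro e he
    have he' : e ∉ L := by simpa using he
    exact card_fix_fibre hc he'

/-- The ratio of the stabilizers of nested sets. -/
lemma fix_ratio (q : ℝ) (hq0 : 0 ≤ q) (B : Finset Ω) (hq : q ≤ (Fintype.card Ω : ℝ) + 1 - B.card)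
    (S : Finset Ω) (E : Finset Ω) (hE : E ⊆ B) (hS : S ⊆ B) (hd : Disjoint E S) :
    q ^ E.card * ((fixS (S ∪ E)).card : ℝ) ≤ ((fixS S).card : ℝ) := by
  induction E using Finset.induction_on with
  | empty => simp
  | insert c E hcE ih =>
    rw [Finset.insert_subset_iff] at hE
    rw [Finset.disjoint_insert_left] at hd
    have ih' := ih hE.2 hd.2
    have hcL : c ∉ S ∪ E := by simp [hcE, hd.1]
    have hstep := card_fixS_step hcL
    have hsub : insert c (S ∪ E) ⊆ B := by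
      rw [Finset.insert_subset_iff]
      exact ⟨hE.1, Finset.union_subset hS hE.2⟩
    have hcard : ((S ∪ E).card : ℝ) + 1 ≤ B.card := by
      have := Finset.card_le_card hsub
      rw [Finset.card_insert_of_notMem hcL] at this
      exact_mod_cast this
    have hle : (S ∪ E).card ≤ Fintype.card Ω := Finset.card_le_univ _
    have hq' : q ≤ ((Fintype.card Ω - (S ∪ E).card : ℕ) : ℝ) := by
      rw [Nat.cast_sub hle]
      linarith
    have hunion : S ∪ insert c E = insert c (S ∪ E) := by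
      rw [Finset.union_insert]
    rw [hunion, Finset.card_insert_of_notMem hcE, pow_succ]
    have hstep' : ((fixS (S ∪ E)).card : ℝ)
        = ((Fintype.card Ω - (S ∪ E).card : ℕ) : ℝ) * ((fixS (insert c (S ∪ E))).card : ℝ) := by
      exact_mod_cast hstep
    have hnn : (0 : ℝ) ≤ ((fixS (insert c (S ∪ E))).card : ℝ) := by positivity
    have hqE : 0 ≤ q ^ E.card := by positivity
    calc q ^ E.card * q * ((fixS (insert c (S ∪ E))).card : ℝ)
        = q ^ E.card * (q * ((fixS (insert c (S ∪ E))).card : ℝ)) := by ring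
      _ ≤ q ^ E.card * ((Fintype.card Ω - (S ∪ E).card : ℕ) : ℝ)
            * ((fixS (insert c (S ∪ E))).card : ℝ) := by
          rw [mul_assoc]
          apply mul_le_mul_of_nonneg_left _ hqE
          exact mul_le_mul_of_nonneg_right hq' hnn
      _ = q ^ E.card * ((fixS (S ∪ E)).card : ℝ) := by rw [hstep']; ring
      _ ≤ _ := ih'

end Fix

section Split

variable {A : Type*} [DecidableEq A]

/-- Sum over the subsets of the image. -/
lemma sum_powersetCard_image {Ω : Type*} [DecidableEq Ω] {ι : A → Ω} (hι : Function.Injective ι)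
    (n : ℕ) (T : Finset A) (g : Finset Ω → ℝ) :
    ∑ E' ∈ powersetCard n (T.image ι), g (T.image ι \ E')
      = ∑ E ∈ powersetCard n T, g ((T \ E).image ι) := by
  set f : A ↪ Ω := ⟨ι, hι⟩ with hf
  have h1 : ∀ U : Finset A, U.image ι = U.map f := fun U => by
    rw [Finset.map_eq_image]; rfl
  rw [h1, Finset.powersetCard_map, Finset.sum_map]
  refine Finset.sum_congr rfl fun E _ => ?_
  rw [h1, Finset.map_sdiff]
  rfl

/-- Subsets of a disjoint union. -/
lemma sum_powersetCard_union (R : ℕ) {A₀ A₁ : Finset A} (hd : Disjoint A₀ A₁)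
    (f : Finset A → Finset A → ℝ) :
    ∑ p ∈ Finset.HasAntidiagonal.antidiagonal R, ∑ E₀ ∈ powersetCard p.1 A₀,
        ∑ E₁ ∈ powersetCard p.2 A₁, f E₀ E₁
      = ∑ E ∈ powersetCard R (A₀ ∪ A₁), f (E ∩ A₀) (E ∩ A₁) := by
  have hmaps : ∀ E ∈ powersetCard R (A₀ ∪ A₁),
      ((E ∩ A₀).card, (E ∩ A₁).card) ∈ Finset.HasAntidiagonal.antidiagonal R := by
    intro E hE
    rw [Finset.mem_powersetCard] at hE
    rw [Finset.HasAntidiagonal.mem_antidiagonal]
    simp only
    rw [← Finset.card_union_of_disjoint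
      (Finset.disjoint_of_subset_left Finset.inter_subset_right
        (Finset.disjoint_of_subset_right Finset.inter_subset_right hd)),
      ← Finset.inter_union_distrib_left, Finset.inter_eq_left.mpr hE.1, hE.2]
  rw [← Finset.sum_fiberwise_of_maps_to hmaps]
  refine Finset.sum_congr rfl fun p hp => ?_
  rw [← Finset.sum_product']
  refine Finset.sum_bij' (fun q _ => q.1 ∪ q.2) (fun E _ => (E ∩ A₀, E ∩ A₁)) ?_ ?_ ?_ ?_ ?_
  · rintro ⟨E₀, E₁⟩ hq
    simp only [Finset.mem_product, Finset.mem_powersetCard] at hq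
    obtain ⟨⟨h0, h0'⟩, ⟨h1, h1'⟩⟩ := hq
    have hd' : Disjoint E₀ E₁ := Finset.disjoint_of_subset_left h0 (Finset.disjoint_of_subset_right h1 hd)
    have hp' := Finset.HasAntidiagonal.mem_antidiagonal.mp hp
    have h2 : (E₀ ∪ E₁) ∩ A₀ = E₀ := by
      rw [Finset.union_inter_distrib_right, Finset.inter_eq_left.mpr h0,
        Finset.disjoint_iff_inter_eq_empty.mp (Finset.disjoint_of_subset_left h1 hd.symm),
        Finset.union_empty]
    have h3 : (E₀ ∪ E₁) ∩ A₁ = E₁ := by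
      rw [Finset.union_inter_distrib_right, Finset.inter_eq_left.mpr h1,
        Finset.disjoint_iff_inter_eq_empty.mp (Finset.disjoint_of_subset_left h0 hd),
        Finset.empty_union]
    simp only [Finset.mem_filter, Finset.mem_powersetCard]
    refine ⟨⟨Finset.union_subset_union h0 h1, ?_⟩, ?_⟩
    · rw [Finset.card_union_of_disjoint hd', h0', h1', hp']
    · rw [h2, h3, h0', h1']
  · intro E hE
    simp only [Finset.mem_filter, Finset.mem_powersetCard] at hE
    obtain ⟨⟨h0, h0'⟩, h1⟩ := hE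
    simp only [Finset.mem_product, Finset.mem_powersetCard]
    refine ⟨⟨Finset.inter_subset_right, ?_⟩, ⟨Finset.inter_subset_right, ?_⟩⟩
    · rw [← h1]
    · rw [← h1]
  · rintro ⟨E₀, E₁⟩ hq
    simp only [Finset.mem_product, Finset.mem_powersetCard] at hq
    obtain ⟨⟨h0, h0'⟩, ⟨h1, h1'⟩⟩ := hq
    have h2 : (E₀ ∪ E₁) ∩ A₀ = E₀ := by
      rw [Finset.union_inter_distrib_right, Finset.inter_eq_left.mpr h0,
        Finset.disjoint_iff_inter_eq_empty.mp (Finset.disjoint_of_subset_left h1 hd.symm),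
        Finset.union_empty]
    have h3 : (E₀ ∪ E₁) ∩ A₁ = E₁ := by
      rw [Finset.union_inter_distrib_right, Finset.inter_eq_left.mpr h1,
        Finset.disjoint_iff_inter_eq_empty.mp (Finset.disjoint_of_subset_left h0 hd),
        Finset.empty_union]
    simp only [h2, h3]
  · intro E hE
    simp only [Finset.mem_filter, Finset.mem_powersetCard] at hE
    obtain ⟨⟨h0, h0'⟩, h1⟩ := hE
    simp only
    rw [← Finset.inter_union_distrib_left, Finset.inter_eq_left.mpr h0]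
  · rintro ⟨E₀, E₁⟩ hq
    simp only [Finset.mem_product, Finset.mem_powersetCard] at hq
    obtain ⟨⟨h0, h0'⟩, ⟨h1, h1'⟩⟩ := hq
    have h2 : (E₀ ∪ E₁) ∩ A₀ = E₀ := by
      rw [Finset.union_inter_distrib_right, Finset.inter_eq_left.mpr h0,
        Finset.disjoint_iff_inter_eq_empty.mp (Finset.disjoint_of_subset_left h1 hd.symm),
        Finset.union_empty]
    have h3 : (E₀ ∪ E₁) ∩ A₁ = E₁ := by
      rw [Finset.union_inter_distrib_right, Finset.inter_eq_left.mpr h1,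
        Finset.disjoint_iff_inter_eq_empty.mp (Finset.disjoint_of_subset_left h0 hd),
        Finset.empty_union]
    simp only [h2, h3]

end Split

section Sector

open Sec PairMoments

variable {D : ℕ} {A : Type*} [Fintype A] [DecidableEq A]

lemma liftM_col_mem (σ : A → Bool) (ι : A → Pos D) (F : (A → Pos D) → ℝ)
    (x₁ : Equiv.Perm (Pos D)) :
    (fun x₀ => liftM σ ι F x₀ x₁) ∈ VS ((side σ false).image ι) := by
  intro x y hxy
  change F (mixT σ ι x x₁) = F (mixT σ ι y x₁)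
  congr 1
  funext a
  simp only [mixT]
  cases h : σ a
  · simp only [Bool.false_eq_true, if_false]
    exact hxy _ (Finset.mem_image_of_mem _ (by simpa using h))
  · simp

lemma liftM_row_mem (σ : A → Bool) (ι : A → Pos D) (F : (A → Pos D) → ℝ)
    (x₀ : Equiv.Perm (Pos D)) :
    (fun x₁ => liftM σ ι F x₀ x₁) ∈ VS ((side σ true).image ι) := by
  intro x y hxy
  change F (mixT σ ι x₀ x) = F (mixT σ ι x₀ y)
  congr 1
  funext a
  simp only [mixT]
  cases h : σ a
  · simp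
  · simp only [if_true]
    exact hxy _ (Finset.mem_image_of_mem _ (by simpa using h))

/-- The two-sided average of a sector matrix. -/
lemma avg_lift_eq_sum (σ : A → Bool) (ι : A → Pos D) (F : (A → Pos D) → ℝ) (S₀ S₁ : Finset (Pos D))
    (x₀ x₁ : Equiv.Perm (Pos D)) :
    (avgS S₀ * liftM σ ι F * avgS S₁) x₀ x₁
      = ((fixS S₁).card : ℝ)⁻¹ * ((fixS S₀).card : ℝ)⁻¹ * ∑ x₁', ∑ x₀',
          if (∀ a ∈ S₀, x₀' a = x₀ a) ∧ (∀ a ∈ S₁, x₁' a = x₁ a)
            then F (mixT σ ι x₀' x₁') else 0 := by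
  have h1 : (avgS S₀ * liftM σ ι F * avgS S₁) x₀ x₁
      = ((avgS S₁)ᵀ *ᵥ (fun x₁ => (avgS S₀ * liftM σ ι F) x₀ x₁)) x₁ :=
    congrFun (mul_row (avgS S₀ * liftM σ ι F) (avgS S₁) x₀) x₁
  rw [h1, avgS_transpose, avgS_mulVec]
  have h2 : ∀ x₁' : Equiv.Perm (Pos D), (avgS S₀ * liftM σ ι F) x₀ x₁'
      = ((fixS S₀).card : ℝ)⁻¹ * ∑ τ ∈ fixS S₀, F (mixT σ ι (x₀ * τ) x₁') := by
    intro x₁'
    have h3 : (avgS S₀ * liftM σ ι F) x₀ x₁'
        = (avgS S₀ *ᵥ (fun x₀ => liftM σ ι F x₀ x₁')) x₀ :=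
      congrFun (mul_col (avgS S₀) (liftM σ ι F) x₁') x₀
    rw [h3, avgS_mulVec]
    rfl
  simp_rw [h2]
  rw [← Finset.mul_sum, mul_assoc]
  congr 2
  rw [sum_fixS_mul S₁ x₁ (fun x₁' => ∑ τ ∈ fixS S₀, F (mixT σ ι (x₀ * τ) x₁'))]
  refine Finset.sum_congr rfl fun x₁' _ => ?_
  rw [sum_fixS_mul S₀ x₀ (fun x₀' => F (mixT σ ι x₀' x₁'))]
  by_cases hc : ∀ a ∈ S₁, x₁' a = x₁ a
  · rw [if_pos hc]
    refine Finset.sum_congr rfl fun x₀' _ => ?_
    simp only [and_iff_left hc]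
  · rw [if_neg hc]
    symm
    apply Finset.sum_eq_zero
    intro x₀' _
    rw [if_neg]
    exact fun h => hc h.2

lemma mixT_mem_fib (σ : A → Bool) (ι : A → Pos D) (E : Finset A)
    (x₀ x₁ x₀' x₁' : Equiv.Perm (Pos D)) :
    mixT σ ι x₀' x₁' ∈ fib E (mixT σ ι x₀ x₁) ↔
      (∀ a ∈ (side σ false \ E).image ι, x₀' a = x₀ a)
        ∧ (∀ a ∈ (side σ true \ E).image ι, x₁' a = x₁ a) := by
  rw [mem_fib]
  constructor
  · intro h
    constructor
    · intro b hb
      obtain ⟨a, ha, rfl⟩ := Finset.mem_image.mp hb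
      rw [Finset.mem_sdiff, mem_side] at ha
      have := h a ha.2
      simpa [mixT, ha.1] using this
    · intro b hb
      obtain ⟨a, ha, rfl⟩ := Finset.mem_image.mp hb
      rw [Finset.mem_sdiff, mem_side] at ha
      have := h a ha.2
      simpa [mixT, ha.1] using this
  · rintro ⟨h0, h1⟩ a ha
    cases hs : σ a
    · have := h0 (ι a) (Finset.mem_image_of_mem _ (by simp [hs, ha]))
      simpa [mixT, hs] using this
    · have := h1 (ι a) (Finset.mem_image_of_mem _ (by simp [hs, ha]))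
      simpa [mixT, hs] using this

/-- The value of the two-sided average of a sector matrix. -/
theorem avg_lift_apply (σ : A → Bool) {ι : A → Pos D} (hι : Function.Injective ι)
    (F : (A → Pos D) → ℝ) (hF : ∀ y, ¬ SideInj σ y → F y = 0) (E : Finset A)
    (x₀ x₁ : Equiv.Perm (Pos D)) :
    (avgS ((side σ false \ E).image ι) * liftM σ ι F * avgS ((side σ true \ E).image ι)) x₀ x₁
      = ((fixS ((side σ true \ E).image ι)).card : ℝ)⁻¹
          * ((fixS ((side σ false \ E).image ι)).card : ℝ)⁻¹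
          * (normN σ ι * ∑ y ∈ fib E (mixT σ ι x₀ x₁), F y) := by
  rw [avg_lift_eq_sum]
  congr 1
  set w := mixT σ ι x₀ x₁ with hw
  have h1 := sum_mixT σ hι (fun y => if y ∈ fib E w then F y else 0)
    (fun y hy => by simp [hF y hy])
  rw [Finset.sum_ite_mem, Finset.univ_inter] at h1
  rw [← h1, Finset.sum_comm]
  refine Finset.sum_congr rfl fun x₀' _ => Finset.sum_congr rfl fun x₁' _ => ?_
  simp only [mixT_mem_fib σ ι E x₀ x₁ x₀' x₁', hw]

/-- The bound of the normalization factor. -/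
lemma norm_ratio_le (σ : A → Bool) {ι : A → Pos D} (hι : Function.Injective ι) (E : Finset A)
    (q : ℝ) (hq0 : 0 < q)
    (hq : q ≤ (Fintype.card (Pos D) : ℝ) + 1 - Fintype.card A) :
    ((fixS ((side σ true \ E).image ι)).card : ℝ)⁻¹
          * ((fixS ((side σ false \ E).image ι)).card : ℝ)⁻¹ * normN σ ι ≤ (q ^ E.card)⁻¹ := by
  have key : ∀ t : Bool, q ^ (E ∩ side σ t).card * ((fixS ((side σ t).image ι)).card : ℝ)
      ≤ ((fixS ((side σ t \ E).image ι)).card : ℝ) := by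
    intro t
    have hcB : (((side σ t).image ι).card : ℝ) ≤ Fintype.card A := by
      rw [Finset.card_image_of_injective _ hι]
      exact_mod_cast Finset.card_le_univ _
    have h1 := fix_ratio q hq0.le ((side σ t).image ι) (by linarith)
      ((side σ t \ E).image ι) ((E ∩ side σ t).image ι)
      (Finset.image_subset_image Finset.inter_subset_right)
      (Finset.image_subset_image Finset.sdiff_subset)
      (by
        rw [Finset.disjoint_left]
        intro b hb hb'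
        obtain ⟨a, ha, rfl⟩ := Finset.mem_image.mp hb
        obtain ⟨a', ha', he⟩ := Finset.mem_image.mp hb'
        have := hι he
        subst this
        rw [Finset.mem_inter] at ha
        rw [Finset.mem_sdiff] at ha'
        exact ha'.2 ha.1)
    rw [Finset.card_image_of_injective _ hι] at h1
    have h2 : (side σ t \ E).image ι ∪ (E ∩ side σ t).image ι = (side σ t).image ι := by
      rw [← Finset.image_union]
      congr 1
      ext a
      simp only [Finset.mem_union, Finset.mem_sdiff, Finset.mem_inter]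
      tauto
    rwa [h2] at h1
  have hE : E.card = (E ∩ side σ false).card + (E ∩ side σ true).card := by
    rw [← Finset.card_union_of_disjoint]
    · congr 1
      ext a
      simp only [Finset.mem_union, Finset.mem_inter, mem_side]
      cases σ a <;> simp
    · rw [Finset.disjoint_left]
      intro a ha ha'
      have h1 := (Finset.mem_inter.mp ha).2
      have h2 := (Finset.mem_inter.mp ha').2
      rw [mem_side] at h1 h2
      rw [h1] at h2
      exact absurd h2 (by simp)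
  have h0 := key false
  have h1 := key true
  have hp0 : (0 : ℝ) < ((fixS ((side σ false \ E).image ι)).card : ℝ) := by
    exact_mod_cast fixS_card_pos _
  have hp1 : (0 : ℝ) < ((fixS ((side σ true \ E).image ι)).card : ℝ) := by
    exact_mod_cast fixS_card_pos _
  have hqE : 0 < q ^ E.card := by positivity
  have hN : q ^ E.card * normN σ ι
      ≤ ((fixS ((side σ true \ E).image ι)).card : ℝ)
          * ((fixS ((side σ false \ E).image ι)).card : ℝ) := by
    unfold normN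
    rw [hE, pow_add]
    calc _ = (q ^ (E ∩ side σ true).card * ((fixS ((side σ true).image ι)).card : ℝ))
          * (q ^ (E ∩ side σ false).card * ((fixS ((side σ false).image ι)).card : ℝ)) := by ring
      _ ≤ _ := mul_le_mul h1 h0 (by positivity) (by positivity)
  rw [← mul_inv, inv_mul_le_iff₀ (by positivity), ← div_eq_mul_inv, le_div_iff₀ hqE]
  linarith

/-- The Hilbert-Schmidt norm of the two-sided average. -/
theorem hsSq_avg_le (σ : A → Bool) {ι : A → Pos D} (hι : Function.Injective ι)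
    (F : (A → Pos D) → ℝ) (hF : ∀ y, ¬ SideInj σ y → F y = 0) (E : Finset A)
    (q : ℝ) (hq0 : 0 < q)
    (hq : q ≤ (Fintype.card (Pos D) : ℝ) + 1 - Fintype.card A) :
    (normN σ ι)⁻¹ * hsSq (avgS ((side σ false \ E).image ι) * liftM σ ι F
        * avgS ((side σ true \ E).image ι))
      ≤ ((q ^ E.card)⁻¹) ^ 2 * ∑ w, (∑ y ∈ fib E w, F y) ^ 2 := by
  classical
  set c := ((fixS ((side σ true \ E).image ι)).card : ℝ)⁻¹
          * ((fixS ((side σ false \ E).image ι)).card : ℝ)⁻¹ * normN σ ι with hc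
  have hc0 : 0 ≤ c := by
    have := normN_pos σ ι
    rw [hc]; positivity
  have hc1 := norm_ratio_le σ hι E q hq0 hq
  have h1 : hsSq (avgS ((side σ false \ E).image ι) * liftM σ ι F
        * avgS ((side σ true \ E).image ι))
      = c ^ 2 * ∑ x₀, ∑ x₁, (∑ y ∈ fib E (mixT σ ι x₀ x₁), F y) ^ 2 := by
    unfold hsSq
    rw [Finset.mul_sum]
    refine Finset.sum_congr rfl fun x₀ _ => ?_
    rw [Finset.mul_sum]
    refine Finset.sum_congr rfl fun x₁ _ => ?_
    rw [avg_lift_apply σ hι F hF, hc]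
    ring
  have h2 : ∑ x₀, ∑ x₁, (∑ y ∈ fib E (mixT σ ι x₀ x₁), F y) ^ 2
      ≤ normN σ ι * ∑ w, (∑ y ∈ fib E w, F y) ^ 2 := by
    have h3 := sum_mixT σ hι (fun w => if SideInj σ w then (∑ y ∈ fib E w, F y) ^ 2 else 0)
      (fun y hy => by simp [hy])
    have h4 : ∑ x₀, ∑ x₁, (∑ y ∈ fib E (mixT σ ι x₀ x₁), F y) ^ 2
        = ∑ x₀, ∑ x₁, (fun w => if SideInj σ w then (∑ y ∈ fib E w, F y) ^ 2 else 0)
            (mixT σ ι x₀ x₁) := by
      refine Finset.sum_congr rfl fun x₀ _ => Finset.sum_congr rfl fun x₁ _ => ?_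
      simp [mixT_sideInj σ hι x₀ x₁]
    rw [h4, h3]
    apply mul_le_mul_of_nonneg_left _ (normN_pos σ ι).le
    refine Finset.sum_le_sum fun w _ => ?_
    split_ifs
    · exact le_rfl
    · positivity
  have hN := normN_pos σ ι
  have hS : 0 ≤ ∑ w, (∑ y ∈ fib E w, F y) ^ 2 := Finset.sum_nonneg fun _ _ => sq_nonneg _
  rw [h1]
  calc (normN σ ι)⁻¹ * (c ^ 2 * ∑ x₀, ∑ x₁, (∑ y ∈ fib E (mixT σ ι x₀ x₁), F y) ^ 2)
      ≤ (normN σ ι)⁻¹ * (c ^ 2 * (normN σ ι * ∑ w, (∑ y ∈ fib E w, F y) ^ 2)) := by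
        apply mul_le_mul_of_nonneg_left _ (inv_nonneg.mpr hN.le)
        exact mul_le_mul_of_nonneg_left h2 (sq_nonneg _)
    _ = c ^ 2 * ∑ w, (∑ y ∈ fib E w, F y) ^ 2 := by
        field_simp
    _ ≤ _ := by
        apply mul_le_mul_of_nonneg_right _ hS
        exact pow_le_pow_left₀ hc0 hc1 2

/-- The sector inequality. -/
theorem sector_main (σ : A → Bool) {ι : A → Pos D} (hι : Function.Injective ι)
    (ψ : (A → Pos (D + 1)) → ℝ) (hψ : ∀ y, ¬ Function.Injective y → ψ y = 0) (R : ℕ)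
    (κ q : ℝ) (hκ0 : 0 ≤ κ) (hq0 : 0 < q)
    (hq : q ≤ (Fintype.card (Pos D) : ℝ) + 1 - Fintype.card A)
    (hκ : ∀ B : Finset (Pos D), B.card ≤ Fintype.card A → κ * n1 B ≤ n1 B - B.card) :
    ∑ j : Fin (Fintype.card (Pos D) + 1), ∑ l : Fin (Fintype.card (Pos D) + 1),
        (((Fintype.card A - j - l).choose R : ℕ) : ℝ) * κ ^ R * mass ι ψ σ j l
      ≤ ∑ E ∈ powersetCard R (univ : Finset A), ((q ^ R)⁻¹) ^ 2
          * ∑ w, (∑ y ∈ fib E w, secQ ψ σ y) ^ 2 := by
  set U := liftM σ ι (secQ ψ σ) with hU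
  set B₀ := (side σ false).image ι with hB₀
  set B₁ := (side σ true).image ι with hB₁
  have hcard : B₀.card + B₁.card = Fintype.card A := by
    rw [hB₀, hB₁, Finset.card_image_of_injective _ hι, Finset.card_image_of_injective _ hι,
      ← Finset.card_union_of_disjoint, ← Finset.card_univ]
    · congr 1
      ext a
      simp only [Finset.mem_union, mem_side, Finset.mem_univ, iff_true]
      cases σ a <;> simp
    · rw [Finset.disjoint_left]
      intro a ha ha'
      rw [mem_side] at ha ha'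
      rw [ha] at ha'
      exact absurd ha' (by simp)
  have h0 := sector_exact R B₀ B₁ U (fun x₁ => liftM_col_mem σ ι _ x₁)
    (fun x₀ => liftM_row_mem σ ι _ x₀) κ hκ0 (hκ B₀ (by omega)) (hκ B₁ (by omega))
  rw [hcard] at h0
  have hN := normN_pos σ ι
  have hdis : Disjoint (side σ false) (side σ true) := by
    rw [Finset.disjoint_left]
    intro a ha ha'
    rw [mem_side] at ha ha'
    rw [ha] at ha'
    exact absurd ha' (by simp)
  have hun : side σ false ∪ side σ true = (univ : Finset A) := by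
    ext a
    simp only [Finset.mem_union, mem_side, Finset.mem_univ, iff_true]
    cases σ a <;> simp
  -- re-index the right side
  have hre : ∑ p ∈ Finset.HasAntidiagonal.antidiagonal R, ∑ E₀ ∈ powersetCard p.1 B₀,
        ∑ E₁ ∈ powersetCard p.2 B₁, hsSq (avgS (B₀ \ E₀) * U * avgS (B₁ \ E₁))
      = ∑ E ∈ powersetCard R (univ : Finset A),
          hsSq (avgS ((side σ false \ E).image ι) * U * avgS ((side σ true \ E).image ι)) := by
    have h1 : ∀ p : ℕ × ℕ, ∑ E₀ ∈ powersetCard p.1 B₀, ∑ E₁ ∈ powersetCard p.2 B₁,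
        hsSq (avgS (B₀ \ E₀) * U * avgS (B₁ \ E₁))
        = ∑ E₀ ∈ powersetCard p.1 (side σ false), ∑ E₁ ∈ powersetCard p.2 (side σ true),
          hsSq (avgS ((side σ false \ E₀).image ι) * U * avgS ((side σ true \ E₁).image ι)) := by
      intro p
      rw [hB₀, sum_powersetCard_image hι p.1 (side σ false)
        (fun S => ∑ E₁ ∈ powersetCard p.2 B₁, hsSq (avgS S * U * avgS (B₁ \ E₁)))]
      refine Finset.sum_congr rfl fun E₀ _ => ?_
      rw [hB₁, sum_powersetCard_image hι p.2 (side σ true)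
        (fun S => hsSq (avgS ((side σ false \ E₀).image ι) * U * avgS S))]
    simp_rw [h1]
    rw [sum_powersetCard_union R hdis
      (fun E₀ E₁ => hsSq (avgS ((side σ false \ E₀).image ι) * U
        * avgS ((side σ true \ E₁).image ι))), hun]
    refine Finset.sum_congr rfl fun E _ => ?_
    rw [Finset.sdiff_inter_self_right, Finset.sdiff_inter_self_right]
  rw [hre] at h0
  have hinv : 0 ≤ (normN σ ι)⁻¹ := inv_nonneg.mpr hN.le
  have h2 := mul_le_mul_of_nonneg_left h0 hinv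
  have h3 : (normN σ ι)⁻¹ * ∑ j : Fin (Fintype.card (Pos D) + 1),
      ∑ l : Fin (Fintype.card (Pos D) + 1),
        (((Fintype.card A - j - l).choose R : ℕ) : ℝ) * κ ^ R
          * hsSq (levelE (Ω := Pos D) j * U * levelE (Ω := Pos D) l)
      = ∑ j : Fin (Fintype.card (Pos D) + 1), ∑ l : Fin (Fintype.card (Pos D) + 1),
        (((Fintype.card A - j - l).choose R : ℕ) : ℝ) * κ ^ R * mass ι ψ σ j l := by
    simp only [Finset.mul_sum, mass]
    refine Finset.sum_congr rfl fun j _ => Finset.sum_congr rfl fun l _ => ?_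
    ring
  rw [h3] at h2
  refine h2.trans ?_
  rw [Finset.mul_sum]
  refine Finset.sum_le_sum fun E hE => ?_
  have h4 := hsSq_avg_le σ hι (secQ ψ σ) (secQ_vanish ψ hψ σ) E q hq0 hq
  rw [(Finset.mem_powersetCard.mp hE).2] at h4
  exact h4

end Sector

section Main

open Sec PairMoments

variable {D : ℕ} {A : Type*} [Fintype A] [DecidableEq A]

/-- Positions on `D+1` bits as pairs. -/
def eP : Bool × Pos D ≃ Pos (D + 1) where
  toFun p := snocP p.2 p.1
  invFun x := (top x, low x)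
  left_inv p := by simp
  right_inv x := by simp

/-- The function on tuples of pairs. -/
def vOf (ψ : (A → Pos (D + 1)) → ℝ) : (A → Bool × Pos D) → ℝ :=
  fun z => ψ (fun a => eP (z a))

lemma sum_vOf (ψ : (A → Pos (D + 1)) → ℝ) : ∑ x, (vOf ψ x) ^ 2 = ∑ x, (ψ x) ^ 2 :=
  Fintype.sum_equiv (Equiv.arrowCongr (Equiv.refl A) eP) _ _ (fun x => rfl)

lemma vOf_inj (ψ : (A → Pos (D + 1)) → ℝ) (hψ : ∀ y, ¬ Function.Injective y → ψ y = 0)
    (x : A → Bool × Pos D) (hx : ¬ Function.Injective x) : vOf ψ x = 0 := by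
  apply hψ
  intro h
  apply hx
  intro a a' he
  apply h
  simp [he]

lemma vOf_zero (ψ : (A → Pos (D + 1)) → ℝ)
    (hz : ∀ (a : A) (y : A → Pos (D + 1)), ∑ v : Pos (D + 1), ψ (Function.update y a v) = 0)
    (a : A) (x : A → Bool × Pos D) : ∑ p, vOf ψ (Function.update x a p) = 0 := by
  rw [← hz a (fun b => eP (x b))]
  refine Fintype.sum_equiv eP _ _ (fun p => ?_)
  unfold vOf
  congr 1
  funext b
  by_cases hb : b = a
  · subst hb; simp
  · simp [Function.update_of_ne hb]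

/-- The removal sum on a sector is a signed removal sum. -/
lemma sector_sum_eq (ψ : (A → Pos (D + 1)) → ℝ)
    (hz : ∀ (a : A) (y : A → Pos (D + 1)), ∑ v : Pos (D + 1), ψ (Function.update y a v) = 0)
    (σ : A → Bool) (E : Finset A) (w : A → Pos D) :
    ∑ y ∈ fib E w, secQ ψ σ y
      = (1 / 2 : ℝ) ^ E.card * chi E σ * Xi E (vOf ψ) (fun a => (σ a, w a)) := by
  rw [← side_sum (vOf ψ) (vOf_zero ψ hz) σ E (fun a => (σ a, w a))]
  refine Finset.sum_bij' (fun y _ a => (σ a, y a)) (fun z _ a => (z a).2) ?_ ?_ ?_ ?_ ?_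
  · intro y hy
    rw [mem_fib] at hy
    rw [Finset.mem_filter, mem_fib]
    constructor
    · intro a ha
      simp [hy a ha]
    · intro a _
      rfl
  · intro z hz'
    rw [Finset.mem_filter, mem_fib] at hz'
    rw [mem_fib]
    intro a ha
    simp [hz'.1 a ha]
  · intro y _
    rfl
  · intro z hz'
    rw [Finset.mem_filter, mem_fib] at hz'
    funext a
    show (σ a, (z a).2) = z a
    by_cases ha : a ∈ E
    · rw [← hz'.2 a ha]
    · rw [hz'.1 a ha]
  · intro y _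
    rfl

lemma chi_sq (E : Finset A) (σ : A → Bool) : (chi E σ) ^ 2 = 1 := by
  unfold chi
  rw [← Finset.prod_pow]
  apply Finset.prod_eq_one
  intro a _
  rw [sq, sg_mul_self]

/-- Sum over pairs of sides and positions. -/
lemma sum_zip (f : (A → Bool × Pos D) → ℝ) :
    ∑ σ : A → Bool, ∑ w : A → Pos D, f (fun a => (σ a, w a)) = ∑ x, f x := by
  rw [← Finset.sum_product']
  exact (Fintype.sum_equiv zipEquiv _ _ (fun x => rfl)).symm

/-- The moment bound, in raw form. -/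
theorem H2_raw {ι : A → Pos D} (hι : Function.Injective ι)
    (ψ : (A → Pos (D + 1)) → ℝ) (hψ : ∀ y, ¬ Function.Injective y → ψ y = 0)
    (hz : ∀ (a : A) (y : A → Pos (D + 1)), ∑ v : Pos (D + 1), ψ (Function.update y a v) = 0)
    (hinv : ∀ (c : Pos D → Bool) (x : A → Bool × Pos D),
      vOf ψ (fun a => (xor (c (x a).2) (x a).1, (x a).2)) = vOf ψ x)
    (R : ℕ) (κ q s : ℝ) (hκ0 : 0 ≤ κ) (hq0 : 0 < q)
    (hq : q ≤ (Fintype.card (Pos D) : ℝ) + 1 - Fintype.card A)
    (hκ : ∀ B : Finset (Pos D), B.card ≤ Fintype.card A → κ * n1 B ≤ n1 B - B.card)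
    (hs0 : 0 ≤ s) (hs : (Fintype.card A : ℝ) * (Fintype.card (Pos D) : ℝ) ≤ s ^ 2) :
    κ ^ R * ∑ σ : A → Bool, ∑ j : Fin (Fintype.card (Pos D) + 1),
        ∑ l : Fin (Fintype.card (Pos D) + 1),
        (((Fintype.card A - j - l).choose R : ℕ) : ℝ) * mass ι ψ σ j l
      ≤ ((q ^ R)⁻¹) ^ 2 * (1 / 4 : ℝ) ^ R
          * ((4 * (Fintype.card (Pos D) : ℝ) * (s + Fintype.card A)) ^ R * ∑ x, (ψ x) ^ 2) := by
  have h1 : ∀ σ : A → Bool, κ ^ R * ∑ j : Fin (Fintype.card (Pos D) + 1),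
        ∑ l : Fin (Fintype.card (Pos D) + 1),
        (((Fintype.card A - j - l).choose R : ℕ) : ℝ) * mass ι ψ σ j l
      ≤ ((q ^ R)⁻¹) ^ 2 * (1 / 4 : ℝ) ^ R * ∑ E ∈ powersetCard R (univ : Finset A),
          ∑ w : A → Pos D, (Xi E (vOf ψ) (fun a => (σ a, w a))) ^ 2 := by
    intro σ
    have h2 := sector_main σ hι ψ hψ R κ q hκ0 hq0 hq hκ
    have h3 : κ ^ R * ∑ j : Fin (Fintype.card (Pos D) + 1),
        ∑ l : Fin (Fintype.card (Pos D) + 1),
        (((Fintype.card A - j - l).choose R : ℕ) : ℝ) * mass ι ψ σ j l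
        = ∑ j : Fin (Fintype.card (Pos D) + 1), ∑ l : Fin (Fintype.card (Pos D) + 1),
        (((Fintype.card A - j - l).choose R : ℕ) : ℝ) * κ ^ R * mass ι ψ σ j l := by
      simp only [Finset.mul_sum]
      refine Finset.sum_congr rfl fun j _ => Finset.sum_congr rfl fun l _ => ?_
      ring
    rw [h3]
    refine h2.trans (le_of_eq ?_)
    rw [Finset.mul_sum]
    refine Finset.sum_congr rfl fun E hE => ?_
    have hEc := (Finset.mem_powersetCard.mp hE).2
    have hw : ∀ w : A → Pos D, (∑ y ∈ fib E w, secQ ψ σ y) ^ 2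
        = (1 / 4 : ℝ) ^ R * (Xi E (vOf ψ) (fun a => (σ a, w a))) ^ 2 := by
      intro w
      rw [sector_sum_eq ψ hz σ E w, mul_pow, mul_pow, chi_sq, hEc]
      have : ((1 / 2 : ℝ) ^ R) ^ 2 = (1 / 4 : ℝ) ^ R := by
        rw [← pow_mul, mul_comm, pow_mul]
        norm_num
      rw [this, mul_one]
    simp_rw [hw]
    rw [← Finset.mul_sum]
    ring
  have h4 : ∑ σ : A → Bool, ∑ E ∈ powersetCard R (univ : Finset A),
      ∑ w : A → Pos D, (Xi E (vOf ψ) (fun a => (σ a, w a))) ^ 2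
      = ∑ E ∈ powersetCard R (univ : Finset A), ∑ x, (Xi E (vOf ψ) x) ^ 2 := by
    rw [Finset.sum_comm]
    refine Finset.sum_congr rfl fun E _ => ?_
    exact sum_zip (fun x => (Xi E (vOf ψ) x) ^ 2)
  have h5 := pair_moment (vOf ψ) (vOf_inj ψ hψ) hinv R s hs0 hs
  rw [sum_vOf] at h5
  rw [Finset.mul_sum]
  calc _ ≤ ∑ σ : A → Bool, ((q ^ R)⁻¹) ^ 2 * (1 / 4 : ℝ) ^ R
        * ∑ E ∈ powersetCard R (univ : Finset A),
          ∑ w : A → Pos D, (Xi E (vOf ψ) (fun a => (σ a, w a))) ^ 2 :=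
        Finset.sum_le_sum fun σ _ => h1 σ
    _ = ((q ^ R)⁻¹) ^ 2 * (1 / 4 : ℝ) ^ R * ∑ E ∈ powersetCard R (univ : Finset A),
          ∑ x, (Xi E (vOf ψ) x) ^ 2 := by rw [← Finset.mul_sum, h4]
    _ ≤ _ := by
        apply mul_le_mul_of_nonneg_left h5
        positivity

end Main

section Final

open Sec PairMoments

variable {D : ℕ} {A : Type*} [Fintype A] [DecidableEq A]

lemma coinPerm_update {D : ℕ} {b : Fin D} (c : Coin b) (y : A → Pos D) (a : A) (v : Pos D) :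
    (fun a' => coinPerm c (Function.update y a v a'))
      = Function.update (fun a' => coinPerm c (y a')) a (coinPerm c v) := by
  funext a'
  by_cases h : a' = a
  · subst h; simp
  · simp [Function.update_of_ne h]

lemma tupP_line_sum {D : ℕ} (b : Fin D) (φ : (A → Pos D) → ℝ)
    (h : ∀ (a : A) (y : A → Pos D), ∑ v : Pos D, φ (Function.update y a v) = 0)
    (a : A) (y : A → Pos D) : ∑ v : Pos D, tupP b φ (Function.update y a v) = 0 := by
  unfold tupP
  rw [← Finset.mul_sum, Finset.sum_comm]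
  have : ∀ c : Coin b, ∑ v : Pos D, φ (fun a' => coinPerm c (Function.update y a v a')) = 0 := by
    intro c
    simp_rw [coinPerm_update]
    rw [← h a (fun a' => coinPerm c (y a'))]
    exact Fintype.sum_equiv (coinPerm c) _ _ (fun v => rfl)
  rw [Finset.sum_congr rfl (fun c _ => this c)]
  simp

/-- The numerical inequality of the ratio. -/
lemma ratio_le (m k t : ℝ) (hm : 0 < m) (hk : k = t ^ 2 * m) (ht0 : 0 ≤ t) (ht : t ≤ 1 / 7) :
    (((49 / 50 : ℝ) * m)⁻¹) ^ 2 * (1 / 4 : ℝ) * (4 * m * (t * m + k))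
      ≤ (48 / 49 : ℝ) * ((5 / 4) * t) := by
  subst hk
  have h1 : (((49 / 50 : ℝ) * m)⁻¹) ^ 2 * (1 / 4 : ℝ) * (4 * m * (t * m + t ^ 2 * m))
      = (2500 / 2401 : ℝ) * (t + t ^ 2) := by
    field_simp
    ring
  rw [h1]
  nlinarith

/-- **The moment bound `H2`.** -/
theorem moment_bound : Sec.MomentBound := by
  intro D A _ _ ι hι φ hφ hm R
  have hcardP : Fintype.card (Pos D) = 2 ^ D := by simp [Pos]
  set ψ := topProj φ with hψdef
  have hψ : ∀ y, ¬ Function.Injective y → ψ y = 0 := tupP_inj _ φ hφ.inj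
  have hz : ∀ (a : A) (y : A → Pos (D + 1)), ∑ v : Pos (D + 1), ψ (Function.update y a v) = 0 :=
    tupP_line_sum _ φ hφ.zero
  have hinv : ∀ (c : Pos D → Bool) (x : A → Bool × Pos D),
      vOf ψ (fun a => (xor (c (x a).2) (x a).1, (x a).2)) = vOf ψ x := by
    intro c x
    exact topProj_coin φ c (fun a => (x a).1) (fun a => (x a).2)
  set m : ℝ := ((2 ^ D : ℕ) : ℝ) with hmdef
  have hm0 : 0 < m := by rw [hmdef]; positivity
  set k : ℝ := (Fintype.card A : ℝ) with hkdef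
  have hk0 : 0 ≤ k := by rw [hkdef]; positivity
  have hk50 : 50 * k < m := by
    have : (100 : ℝ) * (Fintype.card A : ℝ) < 2 * ((2 ^ D : ℕ) : ℝ) := by exact_mod_cast hm
    rw [hkdef, hmdef]
    linarith
  have hcP : (Fintype.card (Pos D) : ℝ) = m := by rw [hcardP]
  set t : ℝ := Real.sqrt (k / m) with htdef
  have ht0 : 0 ≤ t := Real.sqrt_nonneg _
  have ht2 : t ^ 2 = k / m := Real.sq_sqrt (by positivity)
  have hkt : k = t ^ 2 * m := by rw [ht2]; field_simp
  have ht7 : t ≤ 1 / 7 := by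
    have h1 : t ^ 2 ≤ (1 / 7) ^ 2 := by
      rw [ht2, div_le_iff₀ hm0]
      norm_num
      linarith
    exact abs_le_of_sq_le_sq' h1 (by norm_num) |>.2
  have hκ : ∀ B : Finset (Pos D), B.card ≤ Fintype.card A →
      (48 / 49 : ℝ) * LevelExact.n1 B ≤ LevelExact.n1 B - B.card := by
    intro B hB
    have hB' : (B.card : ℝ) ≤ k := by rw [hkdef]; exact_mod_cast hB
    unfold LevelExact.n1
    rw [hcP]
    linarith
  have hq0 : 0 < (49 / 50 : ℝ) * m := by positivity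
  have hq : (49 / 50 : ℝ) * m ≤ (Fintype.card (Pos D) : ℝ) + 1 - Fintype.card A := by
    rw [hcP]
    linarith
  have hs0 : 0 ≤ t * m := by positivity
  have hs : (Fintype.card A : ℝ) * (Fintype.card (Pos D) : ℝ) ≤ (t * m) ^ 2 := by
    rw [hcP, mul_pow, ht2]
    apply le_of_eq
    show k * m = _
    field_simp
  have hraw := H2_raw hι ψ hψ hz hinv R (48 / 49) ((49 / 50) * m) (t * m) (by norm_num) hq0 hq hκ
    hs0 hs
  rw [hcP] at hraw
  have hΨ : 0 ≤ ∑ x, (ψ x) ^ 2 := Finset.sum_nonneg fun _ _ => sq_nonneg _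
  have hbase := ratio_le m k t hm0 hkt ht0 ht7
  have hbase0 : 0 ≤ (((49 / 50 : ℝ) * m)⁻¹) ^ 2 * (1 / 4 : ℝ) * (4 * m * (t * m + k)) := by
    positivity
  have hpow := pow_le_pow_left₀ hbase0 hbase R
  have hexp : (((49 / 50 : ℝ) * m) ^ R)⁻¹ ^ 2 * (1 / 4 : ℝ) ^ R * (4 * m * (t * m + k)) ^ R
      = ((((49 / 50 : ℝ) * m)⁻¹) ^ 2 * (1 / 4 : ℝ) * (4 * m * (t * m + k))) ^ R := by
    have h1 : (((49 / 50 : ℝ) * m) ^ R)⁻¹ ^ 2 = ((((49 / 50 : ℝ) * m)⁻¹) ^ 2) ^ R := by
      rw [← inv_pow, ← pow_mul, ← pow_mul, Nat.mul_comm]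
    rw [h1, ← mul_pow, ← mul_pow]
  have hκpos : (0 : ℝ) < (48 / 49 : ℝ) ^ R := by positivity
  have hfinal : (48 / 49 : ℝ) ^ R * ∑ σ : A → Bool, ∑ j : Fin (Fintype.card (Pos D) + 1),
        ∑ l : Fin (Fintype.card (Pos D) + 1),
        (((Fintype.card A - j - l).choose R : ℕ) : ℝ) * mass ι ψ σ j l
      ≤ (48 / 49 : ℝ) ^ R * (((5 / 4) * t) ^ R * ∑ x, (ψ x) ^ 2) := by
    calc _ ≤ (((49 / 50 : ℝ) * m) ^ R)⁻¹ ^ 2 * (1 / 4 : ℝ) ^ R
          * ((4 * m * (t * m + k)) ^ R * ∑ x, (ψ x) ^ 2) := hraw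
      _ = (((((49 / 50 : ℝ) * m)⁻¹) ^ 2 * (1 / 4 : ℝ) * (4 * m * (t * m + k))) ^ R)
          * ∑ x, (ψ x) ^ 2 := by rw [← mul_assoc, hexp]
      _ ≤ (((48 / 49 : ℝ) * ((5 / 4) * t)) ^ R) * ∑ x, (ψ x) ^ 2 :=
          mul_le_mul_of_nonneg_right hpow hΨ
      _ = _ := by rw [mul_pow]; ring
  exact le_of_mul_le_mul_left hfinal hκpos

end Final

end Crest.Agent.Lib.Thorp.H2
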